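import Mathlib

/-! Row 153, part A: uniform averages over a finite set and over lists of iid elements. -/

set_option autoImplicit false

namespace Crest.Agent.R153.PA

open Finset

variable {C : Type*}

/-- Uniform average over the finite set `D`. -/
noncomputable def av (D : Finset C) (f : C → ℝ) : ℝ := (∑ c ∈ D, f c) / D.card

lemma av_add (D : Finset C) (f g : C → ℝ) :
    av D (fun c => f c + g c) = av D f + av D g := by
  simp [av, sum_add_distrib, add_div]

lemma av_mul_left (D : Finset C) (a : ℝ) (f : C → ℝ) :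
    av D (fun c => a * f c) = a * av D f := by
  simp [av, ← mul_sum, mul_div_assoc]

lemma av_mul_right (D : Finset C) (a : ℝ) (f : C → ℝ) :
    av D (fun c => f c * a) = av D f * a := by
  simp only [mul_comm _ a, av_mul_left]

lemma av_sub (D : Finset C) (f g : C → ℝ) :
    av D (fun c => f c - g c) = av D f - av D g := by
  simp [av, sum_sub_distrib, sub_div]

lemma av_mono {D : Finset C} {f g : C → ℝ} (h : ∀ c ∈ D, f c ≤ g c) : av D f ≤ av D g :=
  div_le_div_of_nonneg_right (sum_le_sum h) (Nat.cast_nonneg _)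

lemma av_congr {D : Finset C} {f g : C → ℝ} (h : ∀ c ∈ D, f c = g c) : av D f = av D g := by
  unfold av; rw [sum_congr rfl h]

lemma av_const {D : Finset C} (hD : D.Nonempty) (a : ℝ) : av D (fun _ => a) = a := by
  have : (D.card : ℝ) ≠ 0 := by exact_mod_cast hD.card_pos.ne'
  simp [av]; field_simp

lemma av_zero (D : Finset C) : av D (fun _ => 0) = 0 := by simp [av]

lemma av_nonneg {D : Finset C} {f : C → ℝ} (h : ∀ c ∈ D, 0 ≤ f c) : 0 ≤ av D f :=
  div_nonneg (sum_nonneg h) (Nat.cast_nonneg _)

lemma av_le {D : Finset C} (hD : D.Nonempty) {f : C → ℝ} {a : ℝ} (h : ∀ c ∈ D, f c ≤ a) :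
    av D f ≤ a := by
  calc av D f ≤ av D (fun _ => a) := av_mono h
    _ = a := av_const hD a

lemma le_av {D : Finset C} (hD : D.Nonempty) {f : C → ℝ} {a : ℝ} (h : ∀ c ∈ D, a ≤ f c) :
    a ≤ av D f := by
  calc a = av D (fun _ => a) := (av_const hD a).symm
    _ ≤ av D f := av_mono h

lemma av_pos {D : Finset C} (hD : D.Nonempty) {f : C → ℝ} (h : ∀ c ∈ D, 0 < f c) :
    0 < av D f :=
  div_pos (sum_pos h hD) (by exact_mod_cast hD.card_pos)

lemma av_sum {ι : Type*} (D : Finset C) (s : Finset ι) (f : ι → C → ℝ) :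
    av D (fun c => ∑ i ∈ s, f i c) = ∑ i ∈ s, av D (f i) := by
  simp only [av]
  rw [sum_comm, sum_div]

lemma av_comm {C' : Type*} (D : Finset C) (D' : Finset C') (f : C → C' → ℝ) :
    av D (fun c => av D' (fun d => f c d)) = av D' (fun d => av D (fun c => f c d)) := by
  simp only [av, ← sum_div]
  rw [sum_comm]; ring

/-- Average over lists of `M` independent uniform elements of `D`. -/
noncomputable def EL (D : Finset C) : ℕ → (List C → ℝ) → ℝ
  | 0, F => F []
  | M + 1, F => av D (fun c => EL D M (fun ω => F (c :: ω)))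

@[simp] lemma EL_zero (D : Finset C) (F : List C → ℝ) : EL D 0 F = F [] := rfl

lemma EL_succ (D : Finset C) (M : ℕ) (F : List C → ℝ) :
    EL D (M + 1) F = av D (fun c => EL D M (fun ω => F (c :: ω))) := rfl

lemma EL_add (D : Finset C) (M : ℕ) (F G : List C → ℝ) :
    EL D M (fun ω => F ω + G ω) = EL D M F + EL D M G := by
  induction M generalizing F G with
  | zero => rfl
  | succ M ih => simp only [EL_succ, ih, av_add]

lemma EL_mul_left (D : Finset C) (M : ℕ) (a : ℝ) (F : List C → ℝ) :
    EL D M (fun ω => a * F ω) = a * EL D M F := by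
  induction M generalizing F with
  | zero => rfl
  | succ M ih => simp only [EL_succ, ih, av_mul_left]

lemma EL_mul_right (D : Finset C) (M : ℕ) (a : ℝ) (F : List C → ℝ) :
    EL D M (fun ω => F ω * a) = EL D M F * a := by
  simp only [mul_comm _ a, EL_mul_left]

lemma EL_sub (D : Finset C) (M : ℕ) (F G : List C → ℝ) :
    EL D M (fun ω => F ω - G ω) = EL D M F - EL D M G := by
  induction M generalizing F G with
  | zero => rfl
  | succ M ih => simp only [EL_succ, ih, av_sub]

lemma EL_mono {D : Finset C} {M : ℕ} {F G : List C → ℝ}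
    (h : ∀ ω, ω.length = M → (∀ c ∈ ω, c ∈ D) → F ω ≤ G ω) : EL D M F ≤ EL D M G := by
  induction M generalizing F G with
  | zero => exact h [] rfl (by simp)
  | succ M ih =>
    refine av_mono fun c hc => ih fun ω hω hm => h _ (by simp [hω]) ?_
    intro d hd
    rcases List.mem_cons.1 hd with rfl | hd
    · exact hc
    · exact hm d hd

lemma EL_mono' {D : Finset C} {M : ℕ} {F G : List C → ℝ}
    (h : ∀ ω, F ω ≤ G ω) : EL D M F ≤ EL D M G := EL_mono fun ω _ _ => h ω

lemma EL_congr {D : Finset C} {M : ℕ} {F G : List C → ℝ}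
    (h : ∀ ω, ω.length = M → (∀ c ∈ ω, c ∈ D) → F ω = G ω) : EL D M F = EL D M G :=
  le_antisymm (EL_mono fun ω a b => (h ω a b).le) (EL_mono fun ω a b => (h ω a b).ge)

lemma EL_const {D : Finset C} (hD : D.Nonempty) (M : ℕ) (a : ℝ) : EL D M (fun _ => a) = a := by
  induction M with
  | zero => rfl
  | succ M ih => simp only [EL_succ, ih, av_const hD]

lemma EL_zero_fun (D : Finset C) (M : ℕ) : EL D M (fun _ => 0) = 0 := by
  induction M with
  | zero => rfl
  | succ M ih => simp only [EL_succ, ih, av_zero]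

lemma EL_nonneg {D : Finset C} {M : ℕ} {F : List C → ℝ} (h : ∀ ω, 0 ≤ F ω) : 0 ≤ EL D M F := by
  rw [← EL_zero_fun D M]; exact EL_mono' h

lemma EL_pos {D : Finset C} (hD : D.Nonempty) {M : ℕ} {F : List C → ℝ} (h : ∀ ω, 0 < F ω) :
    0 < EL D M F := by
  induction M generalizing F with
  | zero => exact h []
  | succ M ih => exact av_pos hD fun c _ => ih fun ω => h _

lemma EL_sum {ι : Type*} (D : Finset C) (M : ℕ) (s : Finset ι) (F : ι → List C → ℝ) :
    EL D M (fun ω => ∑ i ∈ s, F i ω) = ∑ i ∈ s, EL D M (F i) := by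
  induction M generalizing F with
  | zero => rfl
  | succ M ih => simp only [EL_succ, ih, av_sum]

lemma EL_av {C' : Type*} (D : Finset C) (M : ℕ) (D' : Finset C') (F : C' → List C → ℝ) :
    EL D M (fun ω => av D' (fun d => F d ω)) = av D' (fun d => EL D M (F d)) := by
  induction M generalizing F with
  | zero => rfl
  | succ M ih =>
    simp only [EL_succ, ih]
    rw [av_comm]

lemma EL_hasDerivAt (D : Finset C) (M : ℕ) (F F' : ℝ → List C → ℝ) (x : ℝ)
    (h : ∀ ω, HasDerivAt (fun t => F t ω) (F' x ω) x) :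
    HasDerivAt (fun t => EL D M (F t)) (EL D M (F' x)) x := by
  induction M generalizing F F' with
  | zero => exact h []
  | succ M ih =>
    simp only [EL_succ, av]
    refine HasDerivAt.div_const ?_ _
    exact HasDerivAt.fun_sum fun c _ =>
      ih (fun t ω => F t (c :: ω)) (fun t ω => F' t (c :: ω)) fun ω => h _

/-- If `D` contains a copy of `D'` of relative weight `p`, list averages compare. -/
lemma EL_ge_sub {D D' : Finset C} {p : ℝ} (hp : 0 ≤ p)
    (h : ∀ f : C → ℝ, (∀ c, 0 ≤ f c) → p * av D' f ≤ av D f) (M : ℕ) (F : List C → ℝ)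
    (hF : ∀ ω, 0 ≤ F ω) : p ^ M * EL D' M F ≤ EL D M F := by
  induction M generalizing F with
  | zero => simp
  | succ M ih =>
    rw [EL_succ, EL_succ]
    calc p ^ (M + 1) * av D' (fun c => EL D' M fun ω => F (c :: ω))
        = p * av D' (fun c => p ^ M * EL D' M fun ω => F (c :: ω)) := by
          rw [av_mul_left]; ring
      _ ≤ av D (fun c => p ^ M * EL D' M fun ω => F (c :: ω)) :=
          h _ fun c => mul_nonneg (pow_nonneg hp _) (EL_nonneg fun ω => hF _)
      _ ≤ _ := av_mono fun c _ => ih _ fun ω => hF _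

/-- Splitting a random list into the elements without and with the property `P`. -/
lemma EL_mix {D D₁ D₂ : Finset C} (P : C → Bool) (r : C → C) (p : ℝ)
    (h : ∀ f g : C → ℝ, av D (fun c => if P c then g (r c) else f c)
      = (1 - p) * av D₁ f + p * av D₂ g)
    (M : ℕ) (G : List C → List C → ℝ) :
    EL D M (fun ω => G (ω.filter (fun c => !P c)) ((ω.filter P).map r))
      = ∑ ij ∈ antidiagonal M, (M.choose ij.1 : ℝ) * ((1 - p) ^ ij.1 * p ^ ij.2 *
          EL D₂ ij.2 (fun cs => EL D₁ ij.1 (fun ω => G ω cs))) := by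
  induction M generalizing G with
  | zero => simp
  | succ M ih =>
    rw [EL_succ, Finset.sum_antidiagonal_choose_succ_mul
      (fun i j => (1 - p) ^ i * p ^ j * EL D₂ j (fun cs => EL D₁ i (fun ω => G ω cs)))]
    have key := h
      (fun c => EL D M (fun ω => G (c :: ω.filter (fun c => !P c)) ((ω.filter P).map r)))
      (fun d => EL D M (fun ω => G (ω.filter (fun c => !P c)) (d :: (ω.filter P).map r)))
    have e : av D (fun c => EL D M fun ω =>
        G ((c :: ω).filter (fun c => !P c)) (((c :: ω).filter P).map r)) =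
        av D (fun c => if P c then
          EL D M (fun ω => G (ω.filter (fun c => !P c)) (r c :: (ω.filter P).map r))
          else EL D M (fun ω => G (c :: ω.filter (fun c => !P c)) ((ω.filter P).map r))) := by
      refine av_congr fun c _ => ?_
      by_cases hc : P c = true
      · simp [hc]
      · simp [hc]
    rw [e, key]
    have e1 : ∀ c, EL D M (fun ω => G (c :: ω.filter (fun c => !P c)) ((ω.filter P).map r)) = _ :=
      fun c => ih (fun a b => G (c :: a) b)
    have e2 : ∀ d, EL D M (fun ω => G (ω.filter (fun c => !P c)) (d :: (ω.filter P).map r)) = _ :=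
      fun d => ih (fun a b => G a (d :: b))
    simp only [e1, e2, av_sum, av_mul_left, mul_sum]
    rw [add_comm]
    congr 1
    · refine sum_congr rfl fun ij _ => ?_
      rw [EL_succ]; ring
    · refine sum_congr rfl fun ij hij => ?_
      have hc : M.choose ij.2 = M.choose ij.1 := by
        have := mem_antidiagonal.1 hij
        exact Nat.choose_symm_of_eq_add (by omega)
      rw [hc]
      have : EL D₂ ij.2 (fun cs => EL D₁ (ij.1 + 1) fun ω => G ω cs) =
          av D₁ (fun c => EL D₂ ij.2 fun cs => EL D₁ ij.1 fun ω => G (c :: ω) cs) := by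
        rw [← EL_av]; rfl
      rw [this]; ring

end Crest.Agent.R153.PA
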