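import Mathlib

/-! Row 153, part A: the weight `w q h h' = Σ_{h' ≤ r < h} (h - r) q^r`. -/

set_option autoImplicit false

namespace Crest.Agent.R153.PA

open Finset

noncomputable def w (q : ℝ) (h h' : ℕ) : ℝ := ∑ r ∈ Ico h' h, ((h : ℝ) - r) * q ^ r

noncomputable def vv (q : ℝ) (h h' : ℕ) : ℝ := ∑ r ∈ Ico h' h, q ^ r

variable {q : ℝ}

lemma w_nonneg (hq : 0 ≤ q) (h h' : ℕ) : 0 ≤ w q h h' :=
  sum_nonneg fun r hr => mul_nonneg
    (sub_nonneg.2 (by exact_mod_cast (mem_Ico.1 hr).2.le)) (pow_nonneg hq _)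

lemma vv_nonneg (hq : 0 ≤ q) (h h' : ℕ) : 0 ≤ vv q h h' :=
  sum_nonneg fun _ _ => pow_nonneg hq _

lemma w_of_le {h h' : ℕ} (hh : h ≤ h') : w q h h' = 0 := by
  simp [w, Ico_eq_empty_of_le hh]

lemma w_peel {h h' : ℕ} (hh : h' < h) :
    w q h h' = ((h : ℝ) - h') * q ^ h' + w q h (h' + 1) := by
  unfold w
  rw [sum_eq_sum_Ico_succ_bot hh]

lemma w_succ_succ (h h' : ℕ) : w q (h + 1) (h' + 1) = q * w q h h' := by
  unfold w
  rw [← sum_Ico_add' (fun r : ℕ => (((h + 1 : ℕ) : ℝ) - r) * q ^ r) h' h 1, mul_sum]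
  refine sum_congr rfl fun r _ => ?_
  push_cast; ring

lemma w_succ_zero (h : ℕ) : w q (h + 1) 0 = (h + 1 : ℝ) + q * w q h 0 := by
  rw [w_peel (Nat.succ_pos h), w_succ_succ]; simp

lemma vv_succ {h h' : ℕ} (hh : h' ≤ h) : vv q (h + 1) h' = vv q h h' + q ^ h := by
  unfold vv
  rw [sum_Ico_succ_top hh]

lemma w_succ_left {h h' : ℕ} (hh : h' ≤ h) : w q (h + 1) h' = w q h h' + vv q (h + 1) h' := by
  unfold w vv
  rw [sum_Ico_succ_top hh, sum_Ico_succ_top hh, ← add_assoc, ← sum_add_distrib]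
  congr 1
  · refine sum_congr rfl fun r _ => ?_
    push_cast; ring
  · push_cast; ring

lemma w_le_succ_left (hq : 0 ≤ q) (h h' : ℕ) : w q h h' ≤ w q (h + 1) h' := by
  rcases le_or_gt h' h with hh | hh
  · rw [w_succ_left hh]; linarith [vv_nonneg hq (h + 1) h']
  · rw [w_of_le hh.le]; exact w_nonneg hq _ _

lemma w_mono_left (hq : 0 ≤ q) {h h₂ : ℕ} (hh : h ≤ h₂) (h' : ℕ) : w q h h' ≤ w q h₂ h' := by
  induction hh with
  | refl => exact le_rfl
  | step _ ih => exact ih.trans (w_le_succ_left hq _ _)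

lemma w_anti_right (hq : 0 ≤ q) (h : ℕ) {h' h₂ : ℕ} (hh : h' ≤ h₂) : w q h h₂ ≤ w q h h' := by
  unfold w
  refine sum_le_sum_of_subset_of_nonneg (Ico_subset_Ico_left hh) fun r hr _ => ?_
  exact mul_nonneg (sub_nonneg.2 (by exact_mod_cast (mem_Ico.1 hr).2.le)) (pow_nonneg hq _)

lemma vv_le_w (hq : 0 ≤ q) (h h' : ℕ) : vv q h h' ≤ w q h h' := by
  refine sum_le_sum fun r hr => ?_
  have : (r : ℝ) + 1 ≤ h := by exact_mod_cast (mem_Ico.1 hr).2
  nlinarith [pow_nonneg hq r]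

lemma w_succ_le (hq : 0 ≤ q) (hq3 : q ≤ 3) {h h' : ℕ} (hh : h' < h) :
    w q (h + 1) h' ≤ 5 * w q h h' := by
  obtain ⟨h, rfl⟩ : ∃ g, h = g + 1 := ⟨h - 1, by omega⟩
  have h1 : h' ≤ h := by omega
  rw [w_succ_left hh.le, vv_succ hh.le]
  have a := vv_le_w hq (h + 1) h'
  have b : q ^ h ≤ vv q (h + 1) h' := by
    rw [vv_succ h1]; linarith [vv_nonneg hq h h']
  have c : q ^ (h + 1) ≤ 3 * q ^ h := by
    rw [pow_succ]; nlinarith [pow_nonneg hq h]
  linarith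

lemma w_shift (hq : 0 ≤ q) (hq3 : q ≤ 3) {h h' : ℕ} (hh : h' < h) (J : ℕ) :
    w q (h + J) h' ≤ 5 ^ J * w q h h' := by
  induction J with
  | zero => simp
  | succ J ih =>
    calc w q (h + J + 1) h' ≤ 5 * w q (h + J) h' := w_succ_le hq hq3 (by omega)
      _ ≤ 5 * (5 ^ J * w q h h') := by linarith
      _ = _ := by ring

lemma sq_le_w (hq : 1 ≤ q) {h h' : ℕ} (hh : h' ≤ h) :
    ((h : ℝ) - h') ^ 2 * q ^ h' ≤ 2 * w q h h' := by
  have hq0 : 0 ≤ q := by linarith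
  induction hh with
  | refl => simp [w]
  | @step h hh ih =>
    rw [w_succ_left hh]
    have : ((h : ℝ) + 1 - h') * q ^ h' ≤ vv q (h + 1) h' := by
      unfold vv
      have e : ((h : ℝ) + 1 - h') * q ^ h' = ∑ _r ∈ Ico h' (h + 1), q ^ h' := by
        rw [sum_const, Nat.card_Ico, nsmul_eq_mul, Nat.cast_sub (Nat.le_succ_of_le hh)]
        push_cast; ring
      rw [e]
      exact sum_le_sum fun r hr => pow_le_pow_right₀ hq (mem_Ico.1 hr).1
    have hp := pow_nonneg hq0 h'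
    push_cast
    nlinarith

lemma vv_sq_le (hq : 1 ≤ q) {h h' : ℕ} (hh : h' ≤ h) :
    vv q h h' ^ 2 ≤ 2 * q ^ h * w q h h' := by
  have hq0 : 0 ≤ q := by linarith
  induction hh with
  | refl => simp [w, vv]
  | @step h hh ih =>
    rw [w_succ_left hh, vv_succ hh]
    have a := vv_nonneg hq0 h h'
    have b := w_nonneg hq0 h h'
    have c : q ^ h ≤ q ^ (h + 1) := pow_le_pow_right₀ hq (Nat.le_succ h)
    have d := pow_nonneg hq0 h
    have e : 2 * q ^ h * (w q h h' + (vv q h h' + q ^ h)) ≤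
        2 * q ^ (h + 1) * (w q h h' + (vv q h h' + q ^ h)) := by
      have : 0 ≤ w q h h' + (vv q h h' + q ^ h) := by positivity
      nlinarith
    show _ ≤ 2 * q ^ (h + 1) * _
    nlinarith [sq_nonneg (q ^ h)]

lemma w_split {h0 h1 h2 : ℕ} (h21 : h2 ≤ h1) (h10 : h1 ≤ h0) :
    w q h0 h2 = w q h0 h1 + w q h1 h2 + ((h0 : ℝ) - h1) * vv q h1 h2 := by
  unfold w vv
  rw [← sum_Ico_consecutive _ h21 h10, mul_sum, add_assoc, ← sum_add_distrib, add_comm]
  congr 1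
  exact sum_congr rfl fun r _ => by ring

lemma w_tri (hq : 1 ≤ q) {h0 h1 h2 : ℕ} (h21 : h2 ≤ h1) (h10 : h1 ≤ h0) :
    w q h0 h2 ≤ 2 * w q h0 h1 + 2 * w q h1 h2 := by
  have hq0 : 0 ≤ q := by linarith
  rw [w_split h21 h10]
  have a := sq_le_w hq h10
  have b := vv_sq_le hq h21
  have c := w_nonneg hq0 h0 h1
  have d := w_nonneg hq0 h1 h2
  have hp : 0 < q ^ h1 := by positivity
  have e : (((h0 : ℝ) - h1) * vv q h1 h2) ^ 2 ≤ (w q h0 h1 + w q h1 h2) ^ 2 := by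
    have e1 : (((h0 : ℝ) - h1) * vv q h1 h2) ^ 2 ≤
        ((h0 : ℝ) - h1) ^ 2 * (2 * q ^ h1 * w q h1 h2) := by
      rw [mul_pow]; exact mul_le_mul_of_nonneg_left b (sq_nonneg _)
    have e2 : ((h0 : ℝ) - h1) ^ 2 * (2 * q ^ h1 * w q h1 h2) ≤ 4 * w q h0 h1 * w q h1 h2 := by
      nlinarith
    nlinarith [sq_nonneg (w q h0 h1 - w q h1 h2)]
  have := abs_le_of_sq_le_sq' e (by linarith)
  linarith [this.2]

lemma w_le (hq : 1 ≤ q) (h h' : ℕ) : w q h h' ≤ (h : ℝ) ^ 2 * q ^ h := by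
  have hq0 : 0 ≤ q := by linarith
  calc w q h h' ≤ w q h 0 := w_anti_right hq0 h (Nat.zero_le _)
    _ ≤ ∑ _r ∈ Ico 0 h, (h : ℝ) * q ^ h := by
        refine sum_le_sum fun r hr => ?_
        refine mul_le_mul (by linarith [Nat.cast_nonneg (α := ℝ) r])
          (pow_le_pow_right₀ hq (mem_Ico.1 hr).2.le) (pow_nonneg hq0 _) (Nat.cast_nonneg _)
    _ = _ := by simp; ring

lemma ent_le_w {l : ℝ} (hl : 0 ≤ l) {h h' : ℕ} (hh : h' ≤ h) :
    Real.exp l ^ h - Real.exp l ^ h' - l * ((h : ℝ) - h') * Real.exp l ^ h' ≤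
      l ^ 2 * Real.exp l * w (Real.exp l) h h' := by
  set q := Real.exp l with hq
  have hq0 : 0 < q := Real.exp_pos l
  have h1 : q - 1 ≤ l * q := by
    have := Real.add_one_le_exp (-l)
    have e : Real.exp (-l) * q = 1 := by rw [hq, ← Real.exp_add]; simp
    nlinarith
  induction hd : h - h' generalizing h' with
  | zero =>
    have : h' = h := by omega
    subst this; simp [w]
  | succ d ih =>
    have hlt : h' < h := by omega
    have := ih (h' := h' + 1) hlt (by omega)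
    rw [w_peel hlt]
    have hp : 0 < q ^ h' := by positivity
    have hd1 : (0 : ℝ) ≤ (h : ℝ) - h' := sub_nonneg.2 (by exact_mod_cast hh)
    push_cast at this
    rw [pow_succ] at this
    have e1 : l * ((h : ℝ) - h') * (q - 1) * q ^ h' ≤ l * ((h : ℝ) - h') * (l * q) * q ^ h' :=
      mul_le_mul_of_nonneg_right (mul_le_mul_of_nonneg_left h1 (mul_nonneg hl hd1)) hp.le
    have e2 : (q - 1 - l * q) * q ^ h' ≤ 0 := mul_nonpos_of_nonpos_of_nonneg (by linarith) hp.le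
    nlinarith

end Crest.Agent.R153.PA
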