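import Mathlib
import Crest.Agent.R153.A_Av
import Crest.Agent.R153.A_W

/-! Row 153, part A: hitting time of a list of constraints, error functional, tensorisation. -/

set_option autoImplicit false

namespace Crest.Agent.R153.PA

open Finset Classical

variable {Ω C : Type*} (K : C → Set Ω)

/-- Number of prefixes of `ω` (including the empty one) that are satisfiable inside `A`. -/
noncomputable def H : Set Ω → List C → ℕ
  | A, [] => if A.Nonempty then 1 else 0
  | A, c :: ω => if A.Nonempty then H (A ∩ K c) ω + 1 else 0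

/-- Indicator of emptiness. -/
noncomputable def emp (B : Set Ω) : ℝ := if B.Nonempty then 0 else 1

lemma emp_nonneg (B : Set Ω) : 0 ≤ emp B := by unfold emp; split_ifs <;> norm_num

lemma emp_le_one (B : Set Ω) : emp B ≤ 1 := by unfold emp; split_ifs <;> norm_num

lemma emp_anti {A B : Set Ω} (h : A ⊆ B) : emp B ≤ emp A := by
  unfold emp
  by_cases hA : A.Nonempty
  · simp [hA, hA.mono h]
  · simp only [hA, if_false]; split_ifs <;> norm_num

variable {K}

lemma H_of_empty {A : Set Ω} (hA : ¬ A.Nonempty) (ω : List C) : H K A ω = 0 := by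
  cases ω <;> simp [H, hA]

lemma H_nil {A : Set Ω} (hA : A.Nonempty) : H K A [] = 1 := by simp [H, hA]

lemma H_cons {A : Set Ω} (hA : A.Nonempty) (c : C) (ω : List C) :
    H K A (c :: ω) = H K (A ∩ K c) ω + 1 := by simp [H, hA]

lemma not_nonempty_inter {A : Set Ω} (hA : ¬ A.Nonempty) (B : Set Ω) : ¬ (A ∩ B).Nonempty :=
  fun h => hA (h.mono Set.inter_subset_left)

lemma H_mono {A B : Set Ω} (h : A ⊆ B) (ω : List C) : H K A ω ≤ H K B ω := by
  induction ω generalizing A B with
  | nil =>
    by_cases hA : A.Nonempty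
    · rw [H_nil hA, H_nil (hA.mono h)]
    · rw [H_of_empty hA]; exact Nat.zero_le _
  | cons c ω ih =>
    by_cases hA : A.Nonempty
    · rw [H_cons hA, H_cons (hA.mono h)]
      exact Nat.succ_le_succ (ih (Set.inter_subset_inter_left _ h))
    · rw [H_of_empty hA]; exact Nat.zero_le _

lemma H_le (A : Set Ω) (ω : List C) : H K A ω ≤ ω.length + 1 := by
  induction ω generalizing A with
  | nil => by_cases hA : A.Nonempty <;> simp [H, hA]
  | cons c ω ih =>
    by_cases hA : A.Nonempty
    · rw [H_cons hA]; simpa using ih _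
    · rw [H_of_empty hA]; exact Nat.zero_le _

lemma H_pos {A : Set Ω} (hA : A.Nonempty) (ω : List C) : 0 < H K A ω := by
  cases ω with
  | nil => rw [H_nil hA]; exact Nat.one_pos
  | cons c ω => rw [H_cons hA]; exact Nat.succ_pos _

variable (K)

/-- `L q g A ω = Σ_r g (A ∩ ω_{≤ r}) (H - r) q^r`. -/
noncomputable def L (q : ℝ) (g : Set Ω → ℝ) : Set Ω → List C → ℝ
  | A, [] => g A * H K A []
  | A, c :: ω => g A * H K A (c :: ω) + q * L q g (A ∩ K c) ω

variable {K}
variable {q : ℝ}

lemma L_mono (hq : 0 ≤ q) {g g' : Set Ω → ℝ} (h : ∀ B, g B ≤ g' B) (A : Set Ω) (ω : List C) :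
    L K q g A ω ≤ L K q g' A ω := by
  induction ω generalizing A with
  | nil => exact mul_le_mul_of_nonneg_right (h A) (Nat.cast_nonneg _)
  | cons c ω ih =>
    exact add_le_add (mul_le_mul_of_nonneg_right (h A) (Nat.cast_nonneg _))
      (mul_le_mul_of_nonneg_left (ih _) hq)

lemma L_add (g g' : Set Ω → ℝ) (A : Set Ω) (ω : List C) :
    L K q (fun B => g B + g' B) A ω = L K q g A ω + L K q g' A ω := by
  induction ω generalizing A with
  | nil => simp only [L]; ring
  | cons c ω ih => simp only [L, ih]; ring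

lemma L_mul (a : ℝ) (g : Set Ω → ℝ) (A : Set Ω) (ω : List C) :
    L K q (fun B => a * g B) A ω = a * L K q g A ω := by
  induction ω generalizing A with
  | nil => simp only [L]; ring
  | cons c ω ih => simp only [L, ih]; ring

lemma L_sum {ι : Type*} (s : Finset ι) (g : ι → Set Ω → ℝ) (A : Set Ω) (ω : List C) :
    L K q (fun B => ∑ i ∈ s, g i B) A ω = ∑ i ∈ s, L K q (g i) A ω := by
  induction ω generalizing A with
  | nil => simp only [L, sum_mul]
  | cons c ω ih => simp only [L, ih, sum_mul, mul_sum, sum_add_distrib]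

lemma L_av {ι : Type*} (s : Finset ι) (g : ι → Set Ω → ℝ) (A : Set Ω) (ω : List C) :
    L K q (fun B => av s (fun i => g i B)) A ω = av s (fun i => L K q (g i) A ω) := by
  induction ω generalizing A with
  | nil => simp only [L, av_mul_right]
  | cons c ω ih => simp only [L, ih, av_add, av_mul_left, av_mul_right]

lemma L_of_empty (g : Set Ω → ℝ) {A : Set Ω} (hA : ¬ A.Nonempty) (ω : List C) :
    L K q g A ω = 0 := by
  induction ω generalizing A with
  | nil => simp [L, H_of_empty hA]
  | cons c ω ih => simp [L, H_of_empty hA, ih (not_nonempty_inter hA _)]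

lemma L_emp (X A : Set Ω) (ω : List C) :
    L K q (fun B => emp (B ∩ X)) A ω = w q (H K A ω) (H K (A ∩ X) ω) := by
  induction ω generalizing A with
  | nil =>
    by_cases hA : A.Nonempty
    · by_cases hX : (A ∩ X).Nonempty
      · simp [L, emp, hX, H_nil hA, H_nil hX, w]
      · simp [L, emp, hX, H_nil hA, H_of_empty hX, w]
    · simp [L, H_of_empty hA, w]
  | cons c ω ih =>
    by_cases hA : A.Nonempty
    · have e : A ∩ K c ∩ X = A ∩ X ∩ K c := Set.inter_right_comm _ _ _
      by_cases hX : (A ∩ X).Nonempty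
      · simp only [L, emp, hX, if_true, zero_mul, zero_add]
        rw [H_cons hA, H_cons hX, w_succ_succ, ← e, ← ih]; rfl
      · simp only [L]
        rw [ih, H_cons hA, H_of_empty hX, w_succ_zero, e, H_of_empty (not_nonempty_inter hX _)]
        simp [emp, hX]
    · rw [L_of_empty _ hA, H_of_empty hA, w_of_le (Nat.zero_le _)]

lemma L_one (A : Set Ω) (ω : List C) : L K q (fun _ => 1) A ω = w q (H K A ω) 0 := by
  have := L_emp (K := K) (q := q) ∅ A ω
  simpa [emp, H_of_empty] using this

variable (K)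

/-- Exponential moment. -/
noncomputable def Psi (D : Finset C) (q : ℝ) (M : ℕ) (A : Set Ω) : ℝ :=
  EL D M (fun ω => q ^ H K A ω)

/-- Error functional: mean weight of the effect of one more random constraint. -/
noncomputable def eps (D : Finset C) (q : ℝ) (M : ℕ) (A : Set Ω) : ℝ :=
  EL D M (L K q (fun B => av D (fun c => emp (B ∩ K c))) A)

variable {K} {D : Finset C}

lemma eps_eq (M : ℕ) (A : Set Ω) : eps K D q M A =
    av D (fun c => EL D M (fun ω => w q (H K A ω) (H K (A ∩ K c) ω))) := by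
  unfold eps
  rw [← EL_av]
  congr 1
  funext ω
  rw [L_av]
  simp only [L_emp]

lemma eps_nonneg (hq : 0 ≤ q) (M : ℕ) (A : Set Ω) : 0 ≤ eps K D q M A := by
  rw [eps_eq]; exact av_nonneg fun c _ => EL_nonneg fun ω => w_nonneg hq _ _

lemma eps_succ (M : ℕ) (A : Set Ω) :
    q * av D (fun c => eps K D q M (A ∩ K c)) ≤ eps K D q (M + 1) A := by
  unfold eps
  rw [EL_succ, ← av_mul_left]
  refine av_mono fun c _ => ?_
  rw [← EL_mul_left]
  refine EL_mono' fun ω => ?_
  simp only [L]
  have : 0 ≤ av D (fun c => emp (A ∩ K c)) * (H K A (c :: ω) : ℝ) :=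
    mul_nonneg (av_nonneg fun _ _ => emp_nonneg _) (Nat.cast_nonneg _)
  linarith

lemma Psi_of_empty (hD : D.Nonempty) {A : Set Ω} (hA : ¬ A.Nonempty) (M : ℕ) :
    Psi K D q M A = 1 := by
  simp [Psi, H_of_empty hA, EL_const hD]

lemma Psi_succ {A : Set Ω} (hA : A.Nonempty) (M : ℕ) :
    Psi K D q (M + 1) A = q * av D (fun c => Psi K D q M (A ∩ K c)) := by
  unfold Psi
  rw [EL_succ, ← av_mul_left]
  refine av_congr fun c _ => ?_
  rw [← EL_mul_left]
  congr 1; funext ω; rw [H_cons hA, pow_succ, mul_comm]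

lemma one_le_Psi (hD : D.Nonempty) (hq : 1 ≤ q) (M : ℕ) (A : Set Ω) : 1 ≤ Psi K D q M A := by
  rw [← EL_const hD M 1]
  exact EL_mono' fun ω => one_le_pow₀ hq

lemma Psi_nonneg (hq : 0 ≤ q) (M : ℕ) (A : Set Ω) : 0 ≤ Psi K D q M A :=
  EL_nonneg fun _ => pow_nonneg hq _

lemma Psi_mono (hq : 1 ≤ q) (M : ℕ) {A B : Set Ω} (h : A ⊆ B) : Psi K D q M A ≤ Psi K D q M B :=
  EL_mono' fun ω => pow_le_pow_right₀ hq (H_mono h ω)

lemma Psi_le_succ (hD : D.Nonempty) (hq : 1 ≤ q) (M : ℕ) (A : Set Ω) :
    Psi K D q M A ≤ Psi K D q (M + 1) A := by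
  induction M generalizing A with
  | zero =>
    by_cases hA : A.Nonempty
    · rw [Psi_succ hA]
      have : 1 ≤ av D (fun c => Psi K D q 0 (A ∩ K c)) := le_av hD fun c _ => one_le_Psi hD hq _ _
      simp only [Psi, EL_zero, H_nil hA, pow_one] at this ⊢
      nlinarith
    · rw [Psi_of_empty hD hA, Psi_of_empty hD hA]
  | succ M ih =>
    by_cases hA : A.Nonempty
    · rw [Psi_succ hA, Psi_succ hA]
      exact mul_le_mul_of_nonneg_left (av_mono fun c _ => ih _) (by linarith)
    · rw [Psi_of_empty hD hA, Psi_of_empty hD hA]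

lemma Psi_mono_len (hD : D.Nonempty) (hq : 1 ≤ q) {M M' : ℕ} (h : M ≤ M') (A : Set Ω) :
    Psi K D q M A ≤ Psi K D q M' A := by
  induction h with
  | refl => exact le_rfl
  | step _ ih => exact ih.trans (Psi_le_succ hD hq _ _)

/-- Backbone lemma, first half. -/
lemma mean_H_big (hD : D.Nonempty) (Big : Set Ω → Prop)
    (hB : ∀ B c, Big B → Big (B ∩ K c)) {q₀ : ℝ} (h0 : 0 < q₀) (h1 : q₀ ≤ 1)
    (hq₀ : ∀ B, Big B → q₀ ≤ av D (fun c => emp (B ∩ K c))) (M : ℕ) (A : Set Ω) (hA : Big A) :
    EL D M (fun ω => (H K A ω : ℝ)) ≤ (1 - emp A) / q₀ := by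
  induction M generalizing A with
  | zero =>
    by_cases hn : A.Nonempty
    · simp only [EL_zero, H_nil hn, emp, hn, if_true]
      rw [le_div_iff₀ h0]; simpa using h1
    · simp [H_of_empty hn, emp, hn]
  | succ M ih =>
    by_cases hn : A.Nonempty
    · rw [EL_succ]
      have : av D (fun c => EL D M fun ω => (H K A (c :: ω) : ℝ)) ≤
          av D (fun c => (1 / q₀ + 1) - (1 / q₀) * emp (A ∩ K c)) := by
        refine av_mono fun c _ => ?_
        simp only [H_cons hn, Nat.cast_add, Nat.cast_one]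
        rw [EL_add, EL_const hD]
        have := ih (A ∩ K c) (hB _ _ hA)
        have e : (1 - emp (A ∩ K c)) / q₀ = 1 / q₀ - 1 / q₀ * emp (A ∩ K c) := by ring
        linarith
      rw [av_sub, av_const hD, av_mul_left] at this
      have h2 := hq₀ A hA
      have h3 : 1 / q₀ * q₀ ≤ 1 / q₀ * av D (fun c => emp (A ∩ K c)) :=
        mul_le_mul_of_nonneg_left h2 (by positivity)
      have h4 : 1 / q₀ * q₀ = 1 := by field_simp
      simp only [emp, hn, if_true, sub_zero] at *
      linarith
    · simp [H_of_empty hn, emp, hn, EL_zero_fun]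

/-- Backbone lemma. -/
lemma backbone (hD : D.Nonempty) (hq : 1 ≤ q) (Big : Set Ω → Prop)
    (hB : ∀ B c, Big B → Big (B ∩ K c)) {q₀ : ℝ} (h0 : 0 < q₀) (h1 : q₀ ≤ 1)
    (hq₀ : ∀ B, Big B → q₀ ≤ av D (fun c => emp (B ∩ K c))) (M : ℕ) (A : Set Ω) :
    EL D M (L K q (fun B => if Big B then 1 else 0) A) ≤
      (1 / q₀ ^ 2) * (Psi K D q M A - emp A) := by
  have hC : 1 ≤ 1 / q₀ ^ 2 := by
    rw [le_div_iff₀ (by positivity)]; nlinarith
  induction M generalizing A with
  | zero =>
    by_cases hn : A.Nonempty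
    · simp only [EL_zero, L, H_nil hn, emp, hn, if_true, Psi]
      simp only [Nat.cast_one, pow_one, mul_one, sub_zero]
      split_ifs <;> nlinarith
    · simp [L_of_empty _ hn, Psi_of_empty hD hn, emp, hn]
  | succ M ih =>
    by_cases hn : A.Nonempty
    · have e : EL D (M + 1) (L K q (fun B => if Big B then 1 else 0) A) =
          (if Big A then 1 else 0) * EL D (M + 1) (fun ω => (H K A ω : ℝ)) +
          q * av D (fun c => EL D M (L K q (fun B => if Big B then 1 else 0) (A ∩ K c))) := by
        rw [EL_succ, EL_succ, ← av_mul_left, ← av_mul_left, ← av_add]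
        refine av_congr fun c _ => ?_
        rw [← EL_mul_left, ← EL_mul_left, ← EL_add]; rfl
      have e2 : av D (fun c => EL D M (L K q (fun B => if Big B then 1 else 0) (A ∩ K c))) ≤
          (1 / q₀ ^ 2) * (av D (fun c => Psi K D q M (A ∩ K c)) -
            av D (fun c => emp (A ∩ K c))) := by
        rw [← av_sub, ← av_mul_left]
        exact av_mono fun c _ => ih _
      have e3 := mul_le_mul_of_nonneg_left e2 (show 0 ≤ q by linarith)
      have e4 : 0 ≤ av D (fun c => emp (A ∩ K c)) := av_nonneg fun _ _ => emp_nonneg _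
      have e0 : emp A = 0 := by simp [emp, hn]
      rw [e, Psi_succ hn, e0]
      by_cases hA : Big A
      · have a := mean_H_big hD Big hB h0 h1 hq₀ (M + 1) A hA
        have b := hq₀ A hA
        rw [e0] at a
        simp only [hA, if_true, one_mul]
        have c : (1 - 0) / q₀ ≤ q * (1 / q₀ ^ 2 * av D (fun c => emp (A ∩ K c))) := by
          have c1 : (1 - 0) / q₀ = 1 / q₀ ^ 2 * q₀ := by field_simp; ring
          have c2 : 1 / q₀ ^ 2 * q₀ ≤ 1 / q₀ ^ 2 * av D (fun c => emp (A ∩ K c)) :=
            mul_le_mul_of_nonneg_left b (by positivity)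
          have c3 : 0 ≤ 1 / q₀ ^ 2 * av D (fun c => emp (A ∩ K c)) := by positivity
          nlinarith
        nlinarith
      · simp only [hA, if_false, zero_mul, zero_add]
        have c3 : 0 ≤ q * (1 / q₀ ^ 2 * av D (fun c => emp (A ∩ K c))) := by positivity
        nlinarith
    · have : L K q (fun B => if Big B then 1 else 0) A = fun _ => 0 :=
        funext fun ω => L_of_empty _ hn ω
      rw [this, EL_zero_fun, Psi_of_empty hD hn]; simp [emp, hn]

end Crest.Agent.R153.PA
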