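import Mathlib
import Crest.Agent.R153.A_H

/-! Row 153, part A: unordered clauses on a finite set of variables, counting lemmas. -/

set_option autoImplicit false
set_option linter.unusedSectionVars false

namespace Crest.Agent.R153.PA

open Finset Classical

variable {V : Type} [Fintype V] [DecidableEq V]

/-- A clause: a set of variables and (global) required values. -/
abbrev Cl (V : Type) := Finset V × (V → Bool)

def KK (c : Cl V) : Set (V → Bool) := {τ | ∃ v ∈ c.1, τ v = c.2 v}

def DD (U : Finset V) (j : ℕ) : Finset (Cl V) := powersetCard j U ×ˢ univ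

def lit (v : V) (b : Bool) : Set (V → Bool) := {τ | τ v = b}

noncomputable def Fr (U : Finset V) (B : Set (V → Bool)) : Finset V :=
  U.filter (fun v => ∃ b, ¬ (B ∩ lit v b).Nonempty)

lemma DD_nonempty {U : Finset V} {j : ℕ} (h : j ≤ U.card) : (DD U j).Nonempty :=
  (powersetCard_nonempty.2 h).product univ_nonempty

lemma mem_DD {U : Finset V} {j : ℕ} {c : Cl V} : c ∈ DD U j ↔ c.1 ⊆ U ∧ c.1.card = j := by
  simp [DD, mem_powersetCard]

lemma av_product {α β : Type*} (s : Finset α) (t : Finset β) (f : α × β → ℝ) :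
    av (s ×ˢ t) f = av s (fun a => av t (fun b => f (a, b))) := by
  simp only [av, sum_product, card_product, ← sum_div]
  push_cast
  rw [div_div, mul_comm]

lemma av_pc_insert {x : V} {U : Finset V} (hx : x ∉ U) {j : ℕ} (hj : j + 1 ≤ U.card)
    (F G : Finset V → ℝ) :
    av (powersetCard (j + 1) (insert x U)) (fun T => if x ∈ T then G (T.erase x) else F T) =
      (1 - (j + 1 : ℝ) / (U.card + 1)) * av (powersetCard (j + 1) U) F +
        (j + 1 : ℝ) / (U.card + 1) * av (powersetCard j U) G := by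
  have hdisj : Disjoint (powersetCard (j + 1) U) ((powersetCard j U).image (insert x)) := by
    rw [disjoint_left]
    intro T hT hT'
    obtain ⟨T', _, rfl⟩ := mem_image.1 hT'
    exact hx ((mem_powersetCard.1 hT).1 (mem_insert_self _ _))
  have hinj : Set.InjOn (insert x) (powersetCard j U : Set (Finset V)) := by
    intro T hT T' hT' h
    have a : x ∉ T := fun h => hx ((mem_powersetCard.1 hT).1 h)
    have b : x ∉ T' := fun h => hx ((mem_powersetCard.1 hT').1 h)
    rw [← erase_insert a, ← erase_insert b, h]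
  unfold av
  rw [card_powersetCard, card_powersetCard, card_powersetCard, card_insert_of_notMem hx,
    powersetCard_succ_insert hx, sum_union hdisj, sum_image hinj]
  have e1 : ∑ T ∈ powersetCard (j + 1) U, (if x ∈ T then G (T.erase x) else F T) =
      ∑ T ∈ powersetCard (j + 1) U, F T := sum_congr rfl fun T hT => by
    rw [if_neg fun h => hx ((mem_powersetCard.1 hT).1 h)]
  have e2 : ∑ T ∈ powersetCard j U,
      (if x ∈ insert x T then G ((insert x T).erase x) else F (insert x T)) =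
      ∑ T ∈ powersetCard j U, G T := sum_congr rfl fun T hT => by
    rw [if_pos (mem_insert_self _ _), erase_insert fun h => hx ((mem_powersetCard.1 hT).1 h)]
  rw [e1, e2]
  set n := U.card
  have c1 : (n.choose (j + 1) : ℝ) * (n + 1) = (n + 1).choose (j + 1) * ((n : ℝ) - j) := by
    have := Nat.choose_mul_succ_eq n (j + 1)
    have h2 : n + 1 - (j + 1) = n - j := by omega
    rw [h2] at this
    have h3 : ((n - j : ℕ) : ℝ) = (n : ℝ) - j := Nat.cast_sub (by omega)
    rw [← h3]; exact_mod_cast this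
  have c2 : ((n : ℝ) + 1) * n.choose j = (n + 1).choose (j + 1) * ((j : ℝ) + 1) := by
    exact_mod_cast Nat.add_one_mul_choose_eq n j
  have p1 : (0 : ℝ) < n.choose (j + 1) := by exact_mod_cast Nat.choose_pos hj
  have p2 : (0 : ℝ) < n.choose j := by exact_mod_cast Nat.choose_pos (by omega)
  have p3 : (0 : ℝ) < (n + 1).choose (j + 1) := by exact_mod_cast Nat.choose_pos (by omega)
  have p4 : (0 : ℝ) < (n : ℝ) + 1 := by positivity
  have d1 : (1 - (j + 1 : ℝ) / (n + 1)) / n.choose (j + 1) = 1 / (n + 1).choose (j + 1) := by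
    field_simp; linarith
  have d2 : ((j + 1 : ℝ) / (n + 1)) / n.choose j = 1 / (n + 1).choose (j + 1) := by
    field_simp; linarith
  calc _ = (1 / ((n + 1).choose (j + 1) : ℝ)) * ∑ T ∈ powersetCard (j + 1) U, F T +
      (1 / ((n + 1).choose (j + 1) : ℝ)) * ∑ T ∈ powersetCard j U, G T := by ring
    _ = _ := by
      conv_lhs => rw [← d1]; enter [2]; rw [d1, ← d2]
      ring

/-- Remove the variable `x` from a clause. -/
def red (x : V) (c : Cl V) : Cl V := (c.1.erase x, c.2)

lemma av_DD_insert {x : V} {U : Finset V} (hx : x ∉ U) {j : ℕ} (hj : j + 1 ≤ U.card)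
    (f g : Cl V → ℝ) :
    av (DD (insert x U) (j + 1)) (fun c => if decide (x ∈ c.1) then g (red x c) else f c) =
      (1 - (j + 1 : ℝ) / (U.card + 1)) * av (DD U (j + 1)) f +
        (j + 1 : ℝ) / (U.card + 1) * av (DD U j) g := by
  simp only [DD, av_product]
  rw [← av_pc_insert hx hj]
  refine av_congr fun T _ => ?_
  by_cases h : x ∈ T <;> simp [h, red]

lemma av_subset {U F : Finset V} (hF : F ⊆ U) (j : ℕ) :
    av (powersetCard j U) (fun T => if T ⊆ F then 1 else 0) =
      (F.card.choose j : ℝ) / U.card.choose j := by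
  unfold av
  rw [card_powersetCard, sum_boole, ← card_powersetCard j F]
  congr 3
  ext T
  simp only [mem_filter, mem_powersetCard]
  exact ⟨fun h => ⟨h.2, h.1.2⟩, fun h => ⟨⟨h.1.trans hF, h.2⟩, h.1⟩⟩

lemma descFactorial_cmp {f n : ℕ} (h : f ≤ n) (j : ℕ) :
    f.descFactorial j * n ^ j ≤ n.descFactorial j * f ^ j := by
  induction j with
  | zero => simp
  | succ j ih =>
    rw [Nat.descFactorial_succ, Nat.descFactorial_succ, pow_succ, pow_succ]
    have : (f - j) * n ≤ (n - j) * f := by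
      rw [Nat.sub_mul, Nat.sub_mul, mul_comm f n]
      exact Nat.sub_le_sub_left (Nat.mul_le_mul_left _ h) _
    calc (f - j) * f.descFactorial j * (n ^ j * n)
        = ((f - j) * n) * (f.descFactorial j * n ^ j) := by ring
      _ ≤ ((n - j) * f) * (n.descFactorial j * f ^ j) := Nat.mul_le_mul this ih
      _ = _ := by ring

lemma choose_ratio_le {f n j : ℕ} (h : f ≤ n) (hj : j ≤ n) (h2 : 2 ≤ j) :
    (f.choose j : ℝ) / n.choose j ≤ ((f : ℝ) / n) ^ 2 := by
  have hn : (0 : ℝ) < n := by exact_mod_cast (by omega : 0 < n)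
  have p : (0 : ℝ) < n.choose j := by exact_mod_cast Nat.choose_pos hj
  have a := descFactorial_cmp h j
  rw [Nat.descFactorial_eq_factorial_mul_choose, Nat.descFactorial_eq_factorial_mul_choose,
    mul_assoc, mul_assoc] at a
  have b : (f.choose j : ℝ) * n ^ j ≤ n.choose j * f ^ j := by
    exact_mod_cast Nat.le_of_mul_le_mul_left a (Nat.factorial_pos j)
  calc (f.choose j : ℝ) / n.choose j ≤ ((f : ℝ) / n) ^ j := by
        rw [div_pow, div_le_div_iff₀ p (by positivity)]; linarith
    _ ≤ _ := pow_le_pow_of_le_one (by positivity)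
        ((div_le_one hn).2 (by exact_mod_cast h)) h2

lemma choose_ratio_ge {f n j : ℕ} (hj : j ≤ n) (hn : 0 < n) {c : ℝ} (hc : 0 ≤ c)
    (h1 : c * n ≤ f) (h2 : 2 * j ≤ c * n) :
    (c / 2) ^ j ≤ (f.choose j : ℝ) / n.choose j := by
  have hn' : (0 : ℝ) < n := by exact_mod_cast hn
  have p : (0 : ℝ) < n.choose j := by exact_mod_cast Nat.choose_pos hj
  have a : ((f + 1 - j : ℕ) ^ j : ℝ) / j.factorial ≤ f.choose j := Nat.pow_le_choose j f
  have b : (n.choose j : ℝ) ≤ (n ^ j : ℝ) / j.factorial := Nat.choose_le_pow_div j n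
  have hjf : j ≤ f := by
    have : (j : ℝ) ≤ f := by linarith [Nat.cast_nonneg (α := ℝ) j]
    exact_mod_cast this
  have e : ((f + 1 - j : ℕ) : ℝ) = f + 1 - j := by
    rw [Nat.cast_sub (by omega)]; push_cast; ring
  have d : c / 2 * n ≤ ((f + 1 - j : ℕ) : ℝ) := by rw [e]; linarith
  have g : (c / 2 * n) ^ j ≤ ((f + 1 - j : ℕ) : ℝ) ^ j := pow_le_pow_left₀ (by positivity) d j
  rw [le_div_iff₀ p]
  have hf : (0 : ℝ) < j.factorial := by exact_mod_cast Nat.factorial_pos j
  calc (c / 2) ^ j * (n.choose j : ℝ) ≤ (c / 2) ^ j * ((n ^ j : ℝ) / j.factorial) :=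
        mul_le_mul_of_nonneg_left b (by positivity)
    _ = (c / 2 * n) ^ j / j.factorial := by rw [mul_pow]; ring
    _ ≤ _ := (div_le_div_of_nonneg_right g hf.le).trans a

lemma av_agree (T : Finset V) (β : V → Bool) :
    av univ (fun σ : V → Bool => if ∀ v ∈ T, σ v = β v then (1 : ℝ) else 0) = (1 / 2) ^ T.card := by
  have e : ∀ σ : V → Bool, (if ∀ v ∈ T, σ v = β v then (1 : ℝ) else 0) =
      ∏ v, (if v ∈ T then (if σ v = β v then (1 : ℝ) else 0) else 1) := by
    intro σ
    split_ifs with h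
    · symm; refine prod_eq_one fun v _ => ?_
      by_cases hv : v ∈ T
      · simp [hv, h v hv]
      · simp [hv]
    · push Not at h
      obtain ⟨v, hv, hne⟩ := h
      symm; exact prod_eq_zero (mem_univ v) (by simp [hv, hne])
  unfold av
  simp only [e]
  have := Finset.prod_univ_sum (fun _ : V => (univ : Finset Bool))
    (fun v b => if v ∈ T then (if b = β v then (1 : ℝ) else 0) else 1)
  rw [Fintype.piFinset_univ] at this
  rw [← this]
  have c : ((univ : Finset (V → Bool)).card : ℝ) = ∏ _v : V, (2 : ℝ) := by simp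
  rw [c, ← prod_div_distrib]
  have : ∀ v : V, (∑ b : Bool, if v ∈ T then (if b = β v then (1 : ℝ) else 0) else 1) / 2 =
      if v ∈ T then 1 / 2 else 1 := by
    intro v
    by_cases hv : v ∈ T
    · simp [hv]
    · simp [hv]
  simp only [this]
  rw [prod_ite_mem, univ_inter, prod_const]

lemma Fr_subset (U : Finset V) (B : Set (V → Bool)) : Fr U B ⊆ U := filter_subset _ _

lemma Fr_anti (U : Finset V) {A B : Set (V → Bool)} (h : A ⊆ B) : Fr U B ⊆ Fr U A := by
  intro v hv
  simp only [Fr, mem_filter] at hv ⊢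
  obtain ⟨a, b, hb⟩ := hv
  exact ⟨a, b, fun h' => hb (h'.mono (Set.inter_subset_inter_left _ h))⟩

lemma av_emp_le {U : Finset V} {j : ℕ} (hj : j ≤ U.card) (h2 : 2 ≤ j) (B : Set (V → Bool)) :
    av (DD U j) (fun d => emp (B ∩ KK d)) ≤ (((Fr U B).card : ℝ) / U.card) ^ 2 := by
  refine le_trans ?_ (choose_ratio_le (card_le_card (Fr_subset U B)) hj h2)
  rw [← av_subset (Fr_subset U B), DD, av_product]
  refine av_mono fun T hT => av_le univ_nonempty fun σ _ => ?_
  split_ifs with h
  · exact emp_le_one _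
  · obtain ⟨v, hv, hvF⟩ := not_subset.1 h
    have hvU := (mem_powersetCard.1 hT).1 hv
    simp only [Fr, mem_filter, hvU, true_and, not_exists, not_not] at hvF
    obtain ⟨τ, h1, h2⟩ := hvF (σ v)
    have : (B ∩ KK (T, σ)).Nonempty := ⟨τ, h1, v, hv, h2⟩
    simp [emp, this]

lemma av_emp_ge {U : Finset V} {j : ℕ} (hj : j ≤ U.card) (hU : 0 < U.card) {c : ℝ} (hc : 0 ≤ c)
    (h2 : 2 * j ≤ c * U.card) (B : Set (V → Bool)) (hB : c * U.card ≤ (Fr U B).card) :
    (c / 4) ^ j ≤ av (DD U j) (fun d => emp (B ∩ KK d)) := by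
  have a := choose_ratio_ge hj hU hc hB h2
  rw [← av_subset (Fr_subset U B)] at a
  have e : (c / 4) ^ j = (c / 2) ^ j * (1 / 2) ^ j := by rw [← mul_pow]; congr 1; ring
  rw [e]
  refine (mul_le_mul_of_nonneg_right a (by positivity)).trans ?_
  rw [← av_mul_right, DD, av_product]
  refine av_mono fun T hT => ?_
  have hβ : ∀ v, ∃ b, v ∈ Fr U B → ¬ (B ∩ lit v b).Nonempty := by
    intro v
    by_cases hv : v ∈ Fr U B
    · obtain ⟨b, hb⟩ := (mem_filter.1 hv).2
      exact ⟨b, fun _ => hb⟩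
    · exact ⟨true, fun h => absurd h hv⟩
  choose β hβ using hβ
  split_ifs with h
  · rw [one_mul, ← (mem_powersetCard.1 hT).2, ← av_agree T β]
    refine av_mono fun σ _ => ?_
    split_ifs with hσ
    · have : ¬ (B ∩ KK (T, σ)).Nonempty := by
        rintro ⟨τ, h1, v, hv, h3⟩
        exact hβ v (h hv) ⟨τ, h1, h3.trans (hσ v hv)⟩
      simp [emp, this]
    · exact emp_nonneg _
  · rw [zero_mul]; exact av_nonneg fun _ _ => emp_nonneg _

lemma av_emp_split {U : Finset V} {j : ℕ} (hj : j ≤ U.card) (h2 : 2 ≤ j) (S : Finset V) {s : ℕ}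
    (hs : S.card ≤ s) {c : ℝ} (hc : 0 ≤ c) (B : Set (V → Bool)) :
    av (DD U j) (fun d => emp (B ∩ KK d)) ≤
      2 * ((s : ℝ) / U.card) ^ 2 * 1 +
        2 * c / U.card * (∑ vb ∈ (U \ S) ×ˢ univ, emp (B ∩ lit vb.1 vb.2)) +
        (if c * U.card ≤ (Fr U B).card then 1 else 0) := by
  have hn : (0 : ℝ) < U.card := by exact_mod_cast (by omega : 0 < U.card)
  have hsum : 0 ≤ ∑ vb ∈ (U \ S) ×ˢ univ, emp (B ∩ lit vb.1 vb.2) :=
    sum_nonneg fun _ _ => emp_nonneg _
  split_ifs with hB
  · have : av (DD U j) (fun d => emp (B ∩ KK d)) ≤ 1 := av_le (DD_nonempty hj) fun _ _ => emp_le_one _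
    have : 0 ≤ 2 * c / U.card * (∑ vb ∈ (U \ S) ×ˢ univ, emp (B ∩ lit vb.1 vb.2)) := by positivity
    have : 0 ≤ 2 * ((s : ℝ) / U.card) ^ 2 * 1 := by positivity
    linarith
  · refine (av_emp_le hj h2 B).trans ?_
    have a : ((Fr U B \ S).card : ℝ) ≤ ∑ vb ∈ (U \ S) ×ˢ univ, emp (B ∩ lit vb.1 vb.2) := by
      rw [sum_product, card_eq_sum_ones]
      push_cast
      refine (sum_le_sum fun v hv => ?_).trans (sum_le_sum_of_subset_of_nonneg
        (sdiff_subset_sdiff (Fr_subset U B) le_rfl) fun v _ _ => sum_nonneg fun _ _ => emp_nonneg _)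
      obtain ⟨b, hb⟩ := (mem_filter.1 (mem_sdiff.1 hv).1).2
      have : emp (B ∩ lit v b) = 1 := by simp [emp, hb]
      rw [← this]
      exact single_le_sum (f := fun b => emp (B ∩ lit v b)) (fun _ _ => emp_nonneg _) (mem_univ b)
    have b : ((Fr U B).card : ℝ) ≤ s + (Fr U B \ S).card := by
      have := le_card_sdiff S (Fr U B)
      have h3 : (Fr U B).card ≤ s + (Fr U B \ S).card := by omega
      exact_mod_cast h3
    have d : ((Fr U B \ S).card : ℝ) ≤ c * U.card := by
      have : ((Fr U B \ S).card : ℝ) ≤ (Fr U B).card := by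
        exact_mod_cast card_le_card sdiff_subset
      linarith [not_le.1 hB]
    set f := ((Fr U B).card : ℝ)
    set f' := ((Fr U B \ S).card : ℝ)
    set Z := ∑ vb ∈ (U \ S) ×ˢ univ, emp (B ∩ lit vb.1 vb.2)
    have f0 : 0 ≤ f := Nat.cast_nonneg _
    have f1 : 0 ≤ f' := Nat.cast_nonneg _
    have s0 : (0 : ℝ) ≤ s := Nat.cast_nonneg _
    have g : f ^ 2 ≤ 2 * s ^ 2 + 2 * (c * U.card) * Z := by
      have g1 : f ^ 2 ≤ (s + f') ^ 2 := pow_le_pow_left₀ f0 b 2
      have g2 : f' * f' ≤ (c * U.card) * Z := mul_le_mul d a f1 (by positivity)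
      nlinarith [sq_nonneg (s - f')]
    have : 2 * ((s : ℝ) / U.card) ^ 2 * 1 + 2 * c / U.card * Z + 0 =
        (2 * s ^ 2 + 2 * (c * U.card) * Z) / U.card ^ 2 := by field_simp; ring
    rw [this, div_pow]
    exact div_le_div_of_nonneg_right g (by positivity)

end Crest.Agent.R153.PA
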