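import Mathlib
import Crest.Agent.R153.A_Cl

/-! Row 153, part A: the cavity induction bounding the effect of one forced literal. -/

set_option autoImplicit false
set_option linter.unusedSectionVars false

namespace Crest.Agent.R153.PA

open Finset Classical

variable {V : Type} [Fintype V] [DecidableEq V]

/-- Invariance under changing the variable `x`. -/
def Inv1 (A : Set (V → Bool)) (x : V) : Prop := ∀ τ ∈ A, ∀ b, Function.update τ x b ∈ A

def Inv (A : Set (V → Bool)) (U S : Finset V) : Prop := ∀ v ∈ U, v ∉ S → Inv1 A v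

lemma Inv1.inter {A B : Set (V → Bool)} {x : V} (hA : Inv1 A x) (hB : Inv1 B x) :
    Inv1 (A ∩ B) x := fun τ h b => ⟨hA τ h.1 b, hB τ h.2 b⟩

lemma inv1_KK {c : Cl V} {x : V} (h : x ∉ c.1) : Inv1 (KK c) x := by
  rintro τ ⟨v, hv, e⟩ b
  refine ⟨v, hv, ?_⟩
  rw [Function.update_of_ne (fun (h' : v = x) => h (h' ▸ hv))]
  exact e

lemma Inv1.nonempty_lit {Z A : Set (V → Bool)} {x : V} (hZ : Inv1 Z x) (hZA : Z ⊆ A)
    (h : Z.Nonempty) (b : Bool) : (A ∩ lit x b).Nonempty := by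
  obtain ⟨τ, hτ⟩ := h
  exact ⟨Function.update τ x b, hZA (hZ τ hτ b), by simp [lit]⟩

lemma KK_red (x : V) (c : Cl V) : KK (red x c) ⊆ KK c := by
  rintro τ ⟨v, hv, e⟩
  exact ⟨v, mem_of_mem_erase hv, e⟩

/-- Clauses without `x`. -/
def fr (x : V) (ω : List (Cl V)) : List (Cl V) := ω.filter (fun c => !decide (x ∈ c.1))

/-- Clauses with `x`, reduced. -/
def rd (x : V) (ω : List (Cl V)) : List (Cl V) := (ω.filter (fun c => decide (x ∈ c.1))).map (red x)

lemma fr_cons_mem {x : V} {c : Cl V} (h : x ∈ c.1) (ω : List (Cl V)) : fr x (c :: ω) = fr x ω := by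
  simp [fr, h]

lemma fr_cons_not {x : V} {c : Cl V} (h : x ∉ c.1) (ω : List (Cl V)) :
    fr x (c :: ω) = c :: fr x ω := by simp [fr, h]

lemma rd_cons_mem {x : V} {c : Cl V} (h : x ∈ c.1) (ω : List (Cl V)) :
    rd x (c :: ω) = red x c :: rd x ω := by simp [rd, h]

lemma rd_cons_not {x : V} {c : Cl V} (h : x ∉ c.1) (ω : List (Cl V)) :
    rd x (c :: ω) = rd x ω := by simp [rd, h]

def capL (A : Set (V → Bool)) (cs : List (Cl V)) : Set (V → Bool) :=
  {τ | τ ∈ A ∧ ∀ d ∈ cs, τ ∈ KK d}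

lemma capL_nil (A : Set (V → Bool)) : capL A [] = A := by ext; simp [capL]

lemma capL_cons (A : Set (V → Bool)) (d : Cl V) (cs : List (Cl V)) :
    capL A (d :: cs) = capL (A ∩ KK d) cs := by ext; simp [capL, and_assoc]

lemma capL_subset (A : Set (V → Bool)) (cs : List (Cl V)) : capL A cs ⊆ A := fun _ h => h.1

lemma cav1 (x : V) (ω : List (Cl V)) (A : Set (V → Bool)) :
    H KK A ω ≤ H KK A (fr x ω) + (rd x ω).length := by
  induction ω generalizing A with
  | nil => simp [fr, rd]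
  | cons c ω ih =>
    by_cases hA : A.Nonempty
    · by_cases h : x ∈ c.1
      · rw [fr_cons_mem h, rd_cons_mem h, H_cons hA, List.length_cons]
        have := ih (A ∩ KK c)
        have := H_mono (K := KK) (Set.inter_subset_left (s := A) (t := KK c)) (fr x ω)
        omega
      · rw [fr_cons_not h, rd_cons_not h, H_cons hA, H_cons hA]
        have := ih (A ∩ KK c)
        omega
    · rw [H_of_empty hA]; exact Nat.zero_le _

lemma cav2 (x : V) (b : Bool) (ω : List (Cl V)) (A Z : Set (V → Bool)) (hZ : Inv1 Z x)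
    (hZA : Z ⊆ A) (hω : ∀ c ∈ ω, x ∈ c.1 → Z ⊆ KK c) :
    H KK Z (fr x ω) ≤ H KK (A ∩ lit x b) ω := by
  induction ω generalizing A Z with
  | nil =>
    by_cases h : Z.Nonempty
    · simp [fr, H_nil h, H_nil (hZ.nonempty_lit hZA h b)]
    · rw [H_of_empty h]; exact Nat.zero_le _
  | cons c ω ih =>
    by_cases h : Z.Nonempty
    · rw [H_cons (hZ.nonempty_lit hZA h b), Set.inter_right_comm]
      by_cases hc : x ∈ c.1
      · rw [fr_cons_mem hc]
        exact (ih (A ∩ KK c) Z hZ (Set.subset_inter hZA (hω c List.mem_cons_self hc))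
          fun d hd => hω d (List.mem_cons_of_mem _ hd)).trans (Nat.le_succ _)
      · rw [fr_cons_not hc, H_cons h]
        exact Nat.succ_le_succ (ih (A ∩ KK c) (Z ∩ KK c) (hZ.inter (inv1_KK hc))
          (Set.inter_subset_inter_left _ hZA)
          fun d hd hx => Set.inter_subset_left.trans (hω d (List.mem_cons_of_mem _ hd) hx))
    · rw [H_of_empty h]; exact Nat.zero_le _

lemma cav3 (x : V) (b : Bool) (ω : List (Cl V)) (A₀ A Z : Set (V → Bool)) (hZ : Inv1 Z x)
    (hZA : Z ⊆ A) (hA0 : A ⊆ A₀) (hω : ∀ c ∈ ω, x ∈ c.1 → Z ⊆ KK c)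
    (hle : H KK A₀ (fr x ω) ≤ H KK Z (fr x ω)) :
    H KK A ω ≤ H KK (A ∩ lit x b) ω := by
  induction ω generalizing A₀ A Z with
  | nil =>
    by_cases h : A.Nonempty
    · have hZn : Z.Nonempty := by
        by_contra hn
        have := H_pos (K := KK) (h.mono hA0) (fr x [])
        rw [H_of_empty hn] at hle; omega
      rw [H_nil h, H_nil (hZ.nonempty_lit hZA hZn b)]
    · rw [H_of_empty h]; exact Nat.zero_le _
  | cons c ω ih =>
    by_cases h : A.Nonempty
    · have hZn : Z.Nonempty := by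
        by_contra hn
        have := H_pos (K := KK) (h.mono hA0) (fr x (c :: ω))
        rw [H_of_empty hn] at hle; omega
      rw [H_cons h, H_cons (hZ.nonempty_lit hZA hZn b), Set.inter_right_comm]
      refine Nat.succ_le_succ ?_
      by_cases hc : x ∈ c.1
      · rw [fr_cons_mem hc] at hle
        exact ih A₀ (A ∩ KK c) Z hZ (Set.subset_inter hZA (hω c List.mem_cons_self hc))
          (Set.inter_subset_left.trans hA0) (fun d hd => hω d (List.mem_cons_of_mem _ hd)) hle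
      · rw [fr_cons_not hc, H_cons (h.mono hA0), H_cons hZn] at hle
        exact ih (A₀ ∩ KK c) (A ∩ KK c) (Z ∩ KK c) (hZ.inter (inv1_KK hc))
          (Set.inter_subset_inter_left _ hZA) (Set.inter_subset_inter_left _ hA0)
          (fun d hd hx => Set.inter_subset_left.trans (hω d (List.mem_cons_of_mem _ hd) hx))
          (by omega)
    · rw [H_of_empty h]; exact Nat.zero_le _

lemma cav {q : ℝ} (hq : 1 ≤ q) (hq3 : q ≤ 3) (x : V) (b : Bool) (ω : List (Cl V))
    (A : Set (V → Bool)) (hA : Inv1 A x) :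
    w q (H KK A ω) (H KK (A ∩ lit x b) ω) ≤
      5 ^ (rd x ω).length * w q (H KK A (fr x ω)) (H KK (capL A (rd x ω)) (fr x ω)) := by
  have hq0 : 0 ≤ q := by linarith
  have hZ : Inv1 (capL A (rd x ω)) x := by
    rintro τ ⟨h1, h2⟩ b
    refine ⟨hA τ h1 b, fun d hd => inv1_KK ?_ τ (h2 d hd) b⟩
    obtain ⟨c, _, rfl⟩ := List.mem_map.1 hd
    exact notMem_erase _ _
  have hω : ∀ c ∈ ω, x ∈ c.1 → capL A (rd x ω) ⊆ KK c := fun c hc hx τ hτ =>
    KK_red x c (hτ.2 _ (List.mem_map.2 ⟨c, by simp [hc, hx], rfl⟩))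
  rcases le_or_gt (H KK A (fr x ω)) (H KK (capL A (rd x ω)) (fr x ω)) with h | h
  · rw [w_of_le (cav3 x b ω A A _ hZ (capL_subset _ _) le_rfl hω h)]
    exact mul_nonneg (by positivity) (w_nonneg hq0 _ _)
  · exact (w_mono_left hq0 (cav1 x ω A) _).trans
      ((w_anti_right hq0 _ (cav2 x b ω A _ hZ (capL_subset _ _) hω)).trans (w_shift hq0 hq3 h _))

lemma Inv.inter_KK {A : Set (V → Bool)} {U S : Finset V} (h : Inv A U S) (d : Cl V) :
    Inv (A ∩ KK d) U (S ∪ d.1) := fun v hv hS =>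
  (h v hv fun h' => hS (mem_union_left _ h')).inter (inv1_KK fun h' => hS (mem_union_right _ h'))

lemma chain {q : ℝ} (hq : 1 ≤ q) (U : Finset V) (k j i : ℕ) (hj : j ≤ U.card) (s₀ : ℕ) {B : ℝ}
    (hB0 : 0 ≤ B)
    (hB : ∀ (A : Set (V → Bool)) (S : Finset V) (s : ℕ), Inv A U S → S.card ≤ s → s₀ ≤ s →
      av (DD U j) (fun d => EL (DD U k) i (fun ω => w q (H KK A ω) (H KK (A ∩ KK d) ω))) ≤
        B * (1 + s) ^ 2 * Psi KK (DD U k) q i A)
    (J : ℕ) (A : Set (V → Bool)) (S : Finset V) (s : ℕ) (hA : Inv A U S) (hS : S.card ≤ s)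
    (hs : s₀ ≤ s) :
    EL (DD U j) J (fun cs => EL (DD U k) i (fun ω => w q (H KK A ω) (H KK (capL A cs) ω))) ≤
      (4 * (1 + j) ^ 2) ^ J * (B * (1 + s) ^ 2 * Psi KK (DD U k) q i A) := by
  have hq0 : 0 ≤ q := by linarith
  induction J generalizing A S s with
  | zero =>
    simp only [EL_zero, capL_nil, w_of_le le_rfl, EL_zero_fun]
    have := Psi_nonneg (K := KK) (D := DD U k) hq0 i A
    positivity
  | succ J ih =>
    rw [EL_succ]
    set θ : ℝ := 4 * (1 + j) ^ 2 with hθ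
    have hP := Psi_nonneg (K := KK) (D := DD U k) hq0 i A
    have hθ1 : 1 ≤ θ ^ J * (1 + j) ^ 2 := by
      have : (1 : ℝ) ≤ (1 + j) ^ 2 := one_le_pow₀ (by linarith [Nat.cast_nonneg (α := ℝ) j])
      exact one_le_mul_of_one_le_of_one_le (one_le_pow₀ (by linarith)) this
    have step : ∀ d ∈ DD U j, EL (DD U j) J (fun cs => EL (DD U k) i
        (fun ω => w q (H KK A ω) (H KK (capL A (d :: cs)) ω))) ≤
        2 * EL (DD U k) i (fun ω => w q (H KK A ω) (H KK (A ∩ KK d) ω)) +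
          2 * (θ ^ J * (1 + j) ^ 2 * (B * (1 + s) ^ 2 * Psi KK (DD U k) q i A)) := by
      intro d hd
      have a := ih (A ∩ KK d) (S ∪ d.1) (s + j) (hA.inter_KK d)
        ((card_union_le _ _).trans (by rw [(mem_DD.1 hd).2]; omega)) (by omega)
      have b : B * (1 + ((s + j : ℕ) : ℝ)) ^ 2 * Psi KK (DD U k) q i (A ∩ KK d) ≤
          (1 + j) ^ 2 * (B * (1 + s) ^ 2 * Psi KK (DD U k) q i A) := by
        have b1 : (1 + ((s + j : ℕ) : ℝ)) ^ 2 ≤ ((1 + j) * (1 + s)) ^ 2 := by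
          refine pow_le_pow_left₀ (by positivity) ?_ 2
          push_cast
          nlinarith [Nat.cast_nonneg (α := ℝ) j, Nat.cast_nonneg (α := ℝ) s]
        have b2 := Psi_mono (K := KK) (D := DD U k) hq i
          (Set.inter_subset_left (s := A) (t := KK d))
        calc _ ≤ B * ((1 + j) * (1 + s)) ^ 2 * Psi KK (DD U k) q i A :=
              mul_le_mul (mul_le_mul_of_nonneg_left b1 hB0) b2 (Psi_nonneg hq0 _ _) (by positivity)
          _ = _ := by ring
      have c : EL (DD U j) J (fun cs => EL (DD U k) i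
          (fun ω => w q (H KK A ω) (H KK (capL A (d :: cs)) ω))) ≤
          EL (DD U j) J (fun cs => 2 * EL (DD U k) i
            (fun ω => w q (H KK A ω) (H KK (A ∩ KK d) ω)) + 2 * EL (DD U k) i
            (fun ω => w q (H KK (A ∩ KK d) ω) (H KK (capL (A ∩ KK d) cs) ω))) := by
        refine EL_mono' fun cs => ?_
        rw [← EL_mul_left, ← EL_mul_left, ← EL_add, capL_cons]
        exact EL_mono' fun ω => w_tri hq (H_mono (capL_subset _ _) ω)
          (H_mono Set.inter_subset_left ω)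
      rw [EL_add, EL_const (DD_nonempty hj), EL_mul_left] at c
      have e := mul_le_mul_of_nonneg_left b (show 0 ≤ θ ^ J by positivity)
      nlinarith
    refine (av_mono step).trans ?_
    rw [av_add, av_mul_left, av_const (DD_nonempty hj)]
    have f := hB A S s hA hS hs
    have g : 0 ≤ B * (1 + s) ^ 2 * Psi KK (DD U k) q i A := by positivity
    have : θ ^ (J + 1) = 4 * (θ ^ J * (1 + j) ^ 2) := by rw [pow_succ, hθ]; ring
    rw [this]
    nlinarith

lemma EL_w_triv {q : ℝ} (hq : 1 ≤ q) (D : Finset (Cl V)) (i : ℕ) (A : Set (V → Bool))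
    (g : List (Cl V) → ℕ) :
    EL D i (fun ω => w q (H KK A ω) (g ω)) ≤ ((i : ℝ) + 1) ^ 2 * Psi KK D q i A := by
  rw [Psi, ← EL_mul_left]
  refine EL_mono fun ω hω _ => (w_le hq _ _).trans ?_
  have h : (H KK A ω : ℝ) ≤ i + 1 := by
    have := H_le (K := KK) A ω
    rw [hω] at this; exact_mod_cast this
  exact mul_le_mul_of_nonneg_right (pow_le_pow_left₀ (Nat.cast_nonneg _) h 2) (by positivity)

lemma one_step {q : ℝ} (hq : 1 ≤ q) (U : Finset V) (k j i : ℕ) (hj : j ≤ U.card) (h2 : 2 ≤ j)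
    (hk : k ≤ U.card) {c Kc C₂ : ℝ} (hc : 0 < c) (hc1 : c ≤ 1) (hK : 0 ≤ Kc)
    (hck : 2 * k ≤ c * U.card) (hi : (i : ℝ) + 1 ≤ C₂ * U.card)
    (A : Set (V → Bool)) (S : Finset V) (s : ℕ) (hS : S.card ≤ s)
    (hlit : ∀ v ∈ U, v ∉ S → ∀ b, EL (DD U k) i (fun ω => w q (H KK A ω) (H KK (A ∩ lit v b) ω)) ≤
      Kc * (1 + s) ^ 2 * Psi KK (DD U k) q i A) :
    av (DD U j) (fun d => EL (DD U k) i (fun ω => w q (H KK A ω) (H KK (A ∩ KK d) ω))) ≤
      (2 * C₂ ^ 2 + 1 / ((c / 4) ^ k) ^ 2 + 4 * c * Kc) * (1 + s) ^ 2 *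
        Psi KK (DD U k) q i A := by
  have hq0 : 0 ≤ q := by linarith
  have hU : 0 < U.card := by omega
  have hn : (0 : ℝ) < U.card := by exact_mod_cast hU
  have hP := Psi_nonneg (K := KK) (D := DD U k) hq0 i A
  rw [← EL_av]
  have a : EL (DD U k) i (fun ω => av (DD U j) fun d => w q (H KK A ω) (H KK (A ∩ KK d) ω)) ≤
      EL (DD U k) i (fun ω => 2 * ((s : ℝ) / U.card) ^ 2 * w q (H KK A ω) 0 +
        2 * c / U.card * (∑ vb ∈ (U \ S) ×ˢ univ, w q (H KK A ω) (H KK (A ∩ lit vb.1 vb.2) ω)) +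
        L KK q (fun B => if c * U.card ≤ (Fr U B).card then 1 else 0) A ω) := by
    refine EL_mono' fun ω => ?_
    simp only [← L_emp, ← L_one]
    rw [← L_av, ← L_sum, ← L_mul, ← L_mul, ← L_add, ← L_add]
    exact L_mono hq0 (fun B => av_emp_split hj h2 S hS hc.le B) A ω
  rw [EL_add, EL_add, EL_mul_left, EL_mul_left, EL_sum] at a
  have b1 := EL_w_triv hq (DD U k) i A (fun _ => 0)
  have b2 : ∑ vb ∈ (U \ S) ×ˢ univ, EL (DD U k) i
      (fun ω => w q (H KK A ω) (H KK (A ∩ lit vb.1 vb.2) ω)) ≤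
      (2 * U.card) * (Kc * (1 + s) ^ 2 * Psi KK (DD U k) q i A) := by
    refine (sum_le_card_nsmul _ _ _ fun vb hvb => hlit vb.1 (mem_sdiff.1 (mem_product.1 hvb).1).1
      (mem_sdiff.1 (mem_product.1 hvb).1).2 vb.2).trans ?_
    rw [nsmul_eq_mul]
    refine mul_le_mul_of_nonneg_right ?_ (by positivity)
    rw [card_product, card_univ, Fintype.card_bool]
    have : ((U \ S).card : ℝ) ≤ U.card := by exact_mod_cast card_le_card sdiff_subset
    push_cast; linarith
  have b3 := backbone (K := KK) (DD_nonempty hk) hq (fun B => c * U.card ≤ (Fr U B).card)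
    (fun B d hB => hB.trans (by exact_mod_cast card_le_card (Fr_anti U Set.inter_subset_left)))
    (q₀ := (c / 4) ^ k) (by positivity) (pow_le_one₀ (by positivity) (by linarith))
    (fun B hB => av_emp_ge hk hU hc.le hck B hB) i A
  have b3' : EL (DD U k) i (L KK q (fun B => if c * U.card ≤ (Fr U B).card then 1 else 0) A) ≤
      1 / ((c / 4) ^ k) ^ 2 * (1 + s) ^ 2 * Psi KK (DD U k) q i A := by
    refine le_trans (by convert b3) ?_
    have h1 : (1 : ℝ) ≤ (1 + s) ^ 2 := one_le_pow₀ (by linarith [Nat.cast_nonneg (α := ℝ) s])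
    rw [mul_assoc]
    refine mul_le_mul_of_nonneg_left ?_ (by positivity)
    nlinarith [emp_nonneg A]
  have c1 : 2 * ((s : ℝ) / U.card) ^ 2 * EL (DD U k) i (fun ω => w q (H KK A ω) 0) ≤
      2 * C₂ ^ 2 * (1 + s) ^ 2 * Psi KK (DD U k) q i A := by
    refine (mul_le_mul_of_nonneg_left b1 (by positivity)).trans ?_
    rw [← mul_assoc]
    refine mul_le_mul_of_nonneg_right ?_ hP
    have : (s : ℝ) / U.card * (i + 1) ≤ C₂ * (1 + s) := by
      have hC : 0 ≤ C₂ := by
        by_contra hneg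
        have : C₂ * U.card < 0 := mul_neg_of_neg_of_pos (not_le.1 hneg) hn
        linarith [Nat.cast_nonneg (α := ℝ) i]
      calc (s : ℝ) / U.card * (i + 1) ≤ (s : ℝ) / U.card * (C₂ * U.card) :=
            mul_le_mul_of_nonneg_left hi (by positivity)
        _ = C₂ * s := by field_simp
        _ ≤ _ := by nlinarith
    have := pow_le_pow_left₀ (by positivity) this 2
    nlinarith
  have c2 : 2 * c / U.card * ∑ vb ∈ (U \ S) ×ˢ univ, EL (DD U k) i
      (fun ω => w q (H KK A ω) (H KK (A ∩ lit vb.1 vb.2) ω)) ≤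
      4 * c * Kc * (1 + s) ^ 2 * Psi KK (DD U k) q i A := by
    refine (mul_le_mul_of_nonneg_left b2 (by positivity)).trans (le_of_eq ?_)
    field_simp; ring
  nlinarith

end Crest.Agent.R153.PA
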