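import Mathlib
import Crest.Agent.R153.A_Key

/-! Row 153, part A: the key estimate. -/

set_option autoImplicit false
set_option linter.unusedSectionVars false

namespace Crest.Agent.R153.PA

open Finset Classical

lemma mix_bound (p θ Y : ℝ) (hp0 : 0 ≤ p) (hp1 : p ≤ 1) (M : ℕ) (X : ℕ → ℕ → ℝ)
    (hX : ∀ i j, i + j = M → X i j ≤ θ ^ j * Y) :
    ∑ ij ∈ antidiagonal M, (M.choose ij.1 : ℝ) * ((1 - p) ^ ij.1 * p ^ ij.2 * X ij.1 ij.2) ≤
      (1 - p + p * θ) ^ M * Y := by
  rw [(Commute.all _ _).add_pow', sum_mul]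
  refine sum_le_sum fun ij hij => ?_
  have h := hX _ _ (mem_antidiagonal.1 hij)
  have h1 : 0 ≤ 1 - p := by linarith
  rw [nsmul_eq_mul, mul_assoc (M.choose ij.1 : ℝ)]
  refine mul_le_mul_of_nonneg_left ?_ (Nat.cast_nonneg _)
  calc (1 - p) ^ ij.1 * p ^ ij.2 * X ij.1 ij.2 ≤ (1 - p) ^ ij.1 * p ^ ij.2 * (θ ^ ij.2 * Y) :=
        mul_le_mul_of_nonneg_left h (by positivity)
    _ = _ := by rw [mul_pow]; ring

theorem key (k : ℕ) (hk : 3 ≤ k) (C₀ : ℕ) :
    ∃ Kc : ℝ, 0 ≤ Kc ∧ ∀ (V : Type) [Fintype V] [DecidableEq V] (q : ℝ), 1 ≤ q → q ≤ 3 →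
      ∀ (n : ℕ) (U : Finset V), U.card = n → k ≤ n →
      ∀ (M : ℕ) (A : Set (V → Bool)) (S : Finset V) (s : ℕ) (x : V) (b : Bool),
        Inv A U S → S.card ≤ s → x ∈ U → x ∉ S → M ≤ C₀ * (n + s) →
        EL (DD U k) M (fun ω => w q (H KK A ω) (H KK (A ∩ lit x b) ω)) ≤
          Kc * (1 + s) ^ 2 * Psi KK (DD U k) q M A := by
  obtain ⟨j, rfl⟩ : ∃ j, k = j + 1 := ⟨k - 1, by omega⟩
  set θ : ℝ := 5 * (4 * (1 + j) ^ 2) with hθ
  have hθ0 : 0 ≤ θ := by positivity
  set Γ : ℝ := 4 * Real.exp (θ * (2 * C₀ * (j + 1))) * Real.exp (2 * (2 * C₀ * (j + 1))) with hΓ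
  have hΓ1 : 1 ≤ Γ := by
    have a := Real.one_le_exp (show 0 ≤ θ * (2 * C₀ * (j + 1)) by positivity)
    have b := Real.one_le_exp (show (0 : ℝ) ≤ 2 * (2 * C₀ * (j + 1)) by positivity)
    nlinarith
  set c : ℝ := 1 / (8 * Γ) with hc
  have hc0 : 0 < c := by positivity
  have hc1 : c ≤ 1 := by rw [hc, div_le_one (by positivity)]; linarith
  obtain ⟨n₀, hn₀⟩ := exists_nat_ge (2 * (j + 1 : ℝ) / c)
  have hn₀' : 2 * (j + 1 : ℝ) ≤ c * n₀ := by rwa [div_le_iff₀ hc0, mul_comm (n₀ : ℝ)] at hn₀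
  have hn₀2 : 2 * (j + 1) ≤ n₀ := by
    have : 2 * (j + 1 : ℝ) ≤ n₀ := hn₀'.trans (by nlinarith [Nat.cast_nonneg (α := ℝ) n₀])
    exact_mod_cast this
  set α : ℝ := 2 * (4 * C₀ + 1 : ℝ) ^ 2 + 1 / ((c / 4) ^ (j + 1)) ^ 2 with hα
  have hα0 : 0 ≤ α := by positivity
  set R : ℝ := C₀ * n₀ + C₀ + 1 with hR
  set Kc : ℝ := R ^ 2 + 2 * Γ * α with hKc
  have hK0 : 0 ≤ Kc := by positivity
  refine ⟨Kc, hK0, ?_⟩
  intro V _ _ q hq hq3 n
  have hq0 : 0 ≤ q := by linarith
  induction n with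
  | zero => intro U _ h; omega
  | succ n ih =>
    intro U hU hkn M A S s x b hA hS hxU hxS hM
    have hP := Psi_nonneg (K := KK) (D := DD U (j + 1)) hq0 M A
    by_cases htriv : n + 1 ≤ n₀ ∨ n + 1 ≤ s
    · refine (EL_w_triv hq _ M A _).trans (mul_le_mul_of_nonneg_right ?_ hP)
      have h1 : M + 1 ≤ (C₀ * n₀ + C₀ + 1) * (1 + s) := by
        rcases htriv with h | h
        · have : C₀ * (n + 1 + s) ≤ C₀ * (n₀ + s) := Nat.mul_le_mul_left _ (by omega)
          nlinarith [Nat.zero_le (C₀ * n₀ * s)]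
        · have : C₀ * (n + 1 + s) ≤ C₀ * (s + s) := Nat.mul_le_mul_left _ (by omega)
          have : C₀ * s * 1 ≤ C₀ * s * n₀ := Nat.mul_le_mul_left _ (by omega)
          nlinarith [Nat.zero_le (C₀ * n₀)]
      have h2 : (M : ℝ) + 1 ≤ R * (1 + s) := by rw [hR]; exact_mod_cast h1
      have h3 := pow_le_pow_left₀ (by positivity) h2 2
      have h4 : 0 ≤ 2 * Γ * α * (1 + s) ^ 2 := by positivity
      rw [hKc]; nlinarith
    · push Not at htriv
      obtain ⟨hn, hs⟩ := htriv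
      set U' := U.erase x with hU'
      have hxU' : x ∉ U' := notMem_erase _ _
      have hUe : U = insert x U' := (insert_erase hxU).symm
      have hcard : U'.card = n := by rw [hU', card_erase_of_mem hxU, hU]; rfl
      have hkn' : j + 1 ≤ U'.card := by omega
      have hM2 : M ≤ 2 * C₀ * (n + 1) := hM.trans (by nlinarith)
      set p : ℝ := (j + 1 : ℝ) / (U'.card + 1) with hp
      have hp0 : 0 ≤ p := by rw [hp, hcard]; positivity
      have hp2 : p ≤ 1 / 2 := by
        rw [hp, hcard, div_le_iff₀ (by positivity)]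
        have h' : 2 * (j + 1) ≤ n := by omega
        have h'' : ((2 * (j + 1) : ℕ) : ℝ) ≤ n := Nat.cast_le.2 h'
        rw [Nat.cast_mul, Nat.cast_add, Nat.cast_one, Nat.cast_ofNat] at h''
        linarith
      have hpM : p * M ≤ 2 * C₀ * (j + 1) := by
        have : (M : ℝ) ≤ ((2 * C₀ * (n + 1) : ℕ) : ℝ) := Nat.cast_le.2 hM2
        rw [Nat.cast_mul, Nat.cast_mul, Nat.cast_add, Nat.cast_one, Nat.cast_ofNat] at this
        calc p * M ≤ p * (2 * C₀ * (n + 1)) := mul_le_mul_of_nonneg_left this hp0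
          _ = _ := by rw [hp, hcard]; field_simp
      have hmix := av_DD_insert hxU' hkn'
      rw [← hUe, ← hp] at hmix
      have hA' : Inv A U' S := fun v hv => hA v (mem_of_mem_erase hv)
      set B : ℝ := α + 4 * c * Kc with hB
      have hB0 : 0 ≤ B := by positivity
      set P' := Psi KK (DD U' (j + 1)) q M A with hP'
      have hP'0 : 0 ≤ P' := Psi_nonneg hq0 M A
      have s1 : EL (DD U (j + 1)) M (fun ω => w q (H KK A ω) (H KK (A ∩ lit x b) ω)) ≤
          EL (DD U (j + 1)) M (fun ω => 5 ^ (rd x ω).length *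
            w q (H KK A (fr x ω)) (H KK (capL A (rd x ω)) (fr x ω))) :=
        EL_mono' fun ω => cav hq hq3 x b ω A (hA x hxU hxS)
      have s2 := EL_mix (fun c : Cl V => decide (x ∈ c.1)) (red x) p hmix M
        (fun ω cs => 5 ^ cs.length * w q (H KK A ω) (H KK (capL A cs) ω))
      have s3 := mix_bound p θ (B * (1 + ((s + 1 : ℕ) : ℝ)) ^ 2 * P') hp0 (by linarith) M
        (fun i J => EL (DD U' j) J (fun cs => EL (DD U' (j + 1)) i
          (fun ω => 5 ^ cs.length * w q (H KK A ω) (H KK (capL A cs) ω)))) (by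
        intro i J hiJ
        have e : EL (DD U' j) J (fun cs => EL (DD U' (j + 1)) i
            (fun ω => 5 ^ cs.length * w q (H KK A ω) (H KK (capL A cs) ω))) =
            5 ^ J * EL (DD U' j) J (fun cs => EL (DD U' (j + 1)) i
              (fun ω => w q (H KK A ω) (H KK (capL A cs) ω))) := by
          rw [← EL_mul_left]
          exact EL_congr fun cs hcs _ => by rw [EL_mul_left, hcs]
        rw [e]
        have hi : (i : ℝ) + 1 ≤ (4 * C₀ + 1) * U'.card := by
          have : i + 1 ≤ (4 * C₀ + 1) * n := by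
            have : i ≤ 2 * C₀ * (n + 1) := by omega
            have h1 : 1 ≤ n := by omega
            nlinarith
          rw [hcard]; exact_mod_cast this
        have hck : 2 * ((j + 1 : ℕ) : ℝ) ≤ c * U'.card := by
          have : (n₀ : ℝ) ≤ U'.card := by rw [hcard]; exact_mod_cast (by omega : n₀ ≤ n)
          push_cast; nlinarith
        have t := chain hq U' (j + 1) j i (by omega) (s + 1) hB0
          (fun A₁ S₁ s₁ hA₁ hS₁ hs₁ => one_step hq U' (j + 1) j i (by omega) (by omega) hkn' hc0 hc1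
            hK0 hck hi A₁ S₁ s₁ hS₁ fun v hv hvS b' => ih U' hcard (by omega) i A₁ S₁ s₁ v b' hA₁
              hS₁ hv hvS (le_trans (by omega : i ≤ M) (hM.trans (Nat.mul_le_mul_left _ (by omega)))))
          J A S (s + 1) hA' (by omega) le_rfl
        have u : Psi KK (DD U' (j + 1)) q i A ≤ P' :=
          Psi_mono_len (DD_nonempty hkn') hq (by omega) A
        calc _ ≤ 5 ^ J * ((4 * (1 + j) ^ 2) ^ J * (B * (1 + ((s + 1 : ℕ) : ℝ)) ^ 2 * P')) := by
              refine mul_le_mul_of_nonneg_left (t.trans ?_) (by positivity)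
              gcongr
          _ = _ := by rw [hθ, mul_pow (5 : ℝ)]; ring)
      have s4 : (1 - p + p * θ) ^ M ≤ Real.exp (θ * (2 * C₀ * (j + 1))) := by
        have a : 1 - p + p * θ ≤ Real.exp (p * θ) := by
          linarith [Real.add_one_le_exp (p * θ)]
        calc (1 - p + p * θ) ^ M ≤ Real.exp (p * θ) ^ M :=
              pow_le_pow_left₀ (by nlinarith [mul_nonneg hp0 hθ0]) a M
          _ = Real.exp (θ * (p * M)) := by rw [← Real.exp_nat_mul]; congr 1; ring
          _ ≤ _ := Real.exp_le_exp.2 (mul_le_mul_of_nonneg_left hpM hθ0)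
      have s5 : (1 - p) ^ M * P' ≤ Psi KK (DD U (j + 1)) q M A := by
        refine EL_ge_sub (by linarith) (fun f hf => ?_) M _ fun ω => by positivity
        have a := hmix f (fun _ => 0)
        rw [av_zero, mul_zero, add_zero] at a
        rw [← a]
        refine av_mono fun c _ => ?_
        split_ifs
        · exact hf c
        · exact le_rfl
      have s6 : P' ≤ Real.exp (2 * (2 * C₀ * (j + 1))) * Psi KK (DD U (j + 1)) q M A := by
        have a : 1 ≤ (1 - p) * Real.exp (2 * p) := by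
          have := Real.add_one_le_exp (2 * p)
          nlinarith
        have b : 1 ≤ (1 - p) ^ M * Real.exp (2 * (2 * C₀ * (j + 1))) := by
          calc (1 : ℝ) ≤ ((1 - p) * Real.exp (2 * p)) ^ M := one_le_pow₀ a
            _ = (1 - p) ^ M * Real.exp (2 * (p * M)) := by
                rw [mul_pow, ← Real.exp_nat_mul]; congr 2; ring
            _ ≤ _ := mul_le_mul_of_nonneg_left (Real.exp_le_exp.2 (by linarith))
                (pow_nonneg (by linarith) _)
        have := mul_le_mul_of_nonneg_left s5 (Real.exp_pos (2 * (2 * C₀ * (j + 1)))).le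
        nlinarith
      have s7 : (1 + ((s + 1 : ℕ) : ℝ)) ^ 2 ≤ 4 * (1 + s) ^ 2 := by
        push_cast; nlinarith [Nat.cast_nonneg (α := ℝ) s]
      have s8 : Γ * B ≤ Kc := by
        have : Γ * (4 * c * Kc) = Kc / 2 := by rw [hc]; field_simp; ring
        rw [hB, mul_add, this]
        have : 0 ≤ R ^ 2 := sq_nonneg _
        linarith
      calc _ ≤ (1 - p + p * θ) ^ M * (B * (1 + ((s + 1 : ℕ) : ℝ)) ^ 2 * P') :=
            s1.trans (le_trans (le_of_eq s2) s3)
        _ ≤ Real.exp (θ * (2 * C₀ * (j + 1))) * (B * (4 * (1 + s) ^ 2) *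
            (Real.exp (2 * (2 * C₀ * (j + 1))) * Psi KK (DD U (j + 1)) q M A)) := by
            gcongr
        _ = Γ * B * (1 + s) ^ 2 * Psi KK (DD U (j + 1)) q M A := by rw [hΓ]; ring
        _ ≤ _ := by gcongr

/-- The error functional for the unconstrained process. -/
theorem eps_le (k : ℕ) (hk : 3 ≤ k) (C₀ : ℕ) :
    ∃ Kc : ℝ, 0 ≤ Kc ∧ ∀ (q : ℝ), 1 ≤ q → q ≤ 3 → ∀ n M : ℕ, k ≤ n → M ≤ C₀ * n →
      eps KK (DD (univ : Finset (Fin n)) k) q M Set.univ ≤
        Kc * Psi KK (DD (univ : Finset (Fin n)) k) q M Set.univ := by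
  obtain ⟨Kc, hK0, hK⟩ := key k hk C₀
  refine ⟨Kc, hK0, fun q hq hq3 n M hkn hM => ?_⟩
  rw [eps_eq]
  refine av_le (DD_nonempty (by simpa using hkn)) fun c hc => ?_
  have hne : c.1.Nonempty := card_pos.1 (by rw [(mem_DD.1 hc).2]; omega)
  obtain ⟨x, hx⟩ := hne
  have := hK (Fin n) q hq hq3 n univ (by simp) hkn M Set.univ ∅ 0 x (c.2 x)
    (fun _ _ _ _ _ _ => Set.mem_univ _) (by simp) (mem_univ _) (by simp) (by simpa using hM)
  simp only [Nat.cast_zero, add_zero, one_pow, mul_one] at this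
  refine le_trans (EL_mono' fun ω => w_anti_right (by linarith) _ (H_mono ?_ ω)) this
  exact Set.inter_subset_inter_right _ fun τ hτ => ⟨x, hx, hτ⟩

end Crest.Agent.R153.PA
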