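import Mathlib
import Crest.Agent.R153.A_H

/-! Row 153, part A: tensorisation of variance and entropy, Herbst argument, tail formulas. -/

set_option autoImplicit false

namespace Crest.Agent.R153.PA

open Finset Classical

variable {Ω C : Type*} (K : C → Set Ω) (D : Finset C)

noncomputable def mH (M : ℕ) (A : Set Ω) : ℝ := EL D M (fun ω => (H K A ω : ℝ))

noncomputable def vH (M : ℕ) (A : Set Ω) : ℝ :=
  EL D M (fun ω => (H K A ω : ℝ) ^ 2) - mH K D M A ^ 2

noncomputable def ent (l : ℝ) (M : ℕ) (A : Set Ω) : ℝ :=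
  EL D M (fun ω => l * H K A ω * Real.exp l ^ H K A ω) -
    Psi K D (Real.exp l) M A * Real.log (Psi K D (Real.exp l) M A)

noncomputable def pS (m : ℕ) (A : Set Ω) : ℝ :=
  EL D m (fun ω => if m < H K A ω then 1 else 0)

variable {K D}

lemma EL_sq_dev (hD : D.Nonempty) (M : ℕ) (F : List C → ℝ) (a : ℝ) :
    EL D M (fun ω => (F ω - a) ^ 2) = EL D M (fun ω => F ω ^ 2) - 2 * a * EL D M F + a ^ 2 := by
  have : (fun ω => (F ω - a) ^ 2) = fun ω => (F ω ^ 2 - 2 * a * F ω) + a ^ 2 := by
    funext ω; ring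
  rw [this, EL_add, EL_sub, EL_mul_left, EL_const hD]

lemma EL_jensen (hD : D.Nonempty) (M : ℕ) (F : List C → ℝ) :
    EL D M F ^ 2 ≤ EL D M (fun ω => F ω ^ 2) := by
  have h : 0 ≤ EL D M (fun ω => (F ω - EL D M F) ^ 2) := EL_nonneg fun _ => sq_nonneg _
  rw [EL_sq_dev hD] at h
  nlinarith

lemma vH_step (hD : D.Nonempty) (M : ℕ) (A : Set Ω) :
    vH K D (M + 1) A ≤ av D (fun c => vH K D M (A ∩ K c)) + 2 * eps K D 1 M A := by
  by_cases hA : A.Nonempty
  · have e1 : mH K D (M + 1) A = av D (fun c => mH K D M (A ∩ K c)) + 1 := by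
      unfold mH
      rw [EL_succ, ← av_const hD 1, ← av_add]
      refine av_congr fun c _ => ?_
      simp only [H_cons hA, Nat.cast_add, Nat.cast_one]
      rw [EL_add, EL_const hD]
    have e2 : EL D (M + 1) (fun ω => (H K A ω : ℝ) ^ 2) =
        av D (fun c => EL D M (fun ω => (H K (A ∩ K c) ω : ℝ) ^ 2)) +
          2 * av D (fun c => mH K D M (A ∩ K c)) + 1 := by
      rw [EL_succ, ← av_const hD 1, ← av_mul_left, ← av_add, ← av_add]
      refine av_congr fun c _ => ?_
      unfold mH
      rw [← EL_const hD M 1, ← EL_mul_left, ← EL_add, ← EL_add]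
      congr 1; funext ω
      rw [H_cons hA]; push_cast; ring
    have e3 : av D (fun c => (mH K D M (A ∩ K c) - mH K D M A) ^ 2) ≤ 2 * eps K D 1 M A := by
      rw [eps_eq, ← av_mul_left]
      refine av_mono fun c _ => ?_
      unfold mH
      rw [← EL_sub, ← EL_mul_left]
      refine (EL_jensen hD _ _).trans (EL_mono' fun ω => ?_)
      have := sq_le_w (q := 1) le_rfl (H_mono (K := K) (Set.inter_subset_left (s := A) (t := K c)) ω)
      rw [one_pow] at this
      nlinarith
    have e4 : av D (fun c => (mH K D M (A ∩ K c) - mH K D M A) ^ 2) =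
        av D (fun c => mH K D M (A ∩ K c) ^ 2) -
          2 * mH K D M A * av D (fun c => mH K D M (A ∩ K c)) + mH K D M A ^ 2 := by
      rw [← av_const hD (mH K D M A ^ 2), ← av_mul_left, ← av_sub, ← av_add]
      exact av_congr fun c _ => by ring
    unfold vH
    rw [e1, e2, av_sub]
    nlinarith [sq_nonneg (av D (fun c => mH K D M (A ∩ K c)) - mH K D M A)]
  · have h0 : ∀ B, ¬ B.Nonempty → ∀ M, vH K D M B = 0 := fun B hB M => by
      simp [vH, mH, H_of_empty hB, EL_zero_fun]
    rw [h0 A hA]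
    simp only [fun c => h0 _ (not_nonempty_inter hA (K c)) M, av_zero]
    linarith [eps_nonneg (K := K) (D := D) (q := 1) zero_le_one M A]

lemma vH_le (hD : D.Nonempty) (M : ℕ) (A : Set Ω) :
    vH K D (M + 1) A ≤ 2 * (M + 1) * eps K D 1 M A := by
  induction M generalizing A with
  | zero =>
    have := vH_step (K := K) hD 0 A
    have h0 : ∀ B, vH K D 0 B = 0 := fun B => by simp [vH, mH]
    simp only [h0, av_zero] at this
    simpa using this
  | succ M ih =>
    have h1 := vH_step (K := K) hD (M + 1) A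
    have h2 : av D (fun c => vH K D (M + 1) (A ∩ K c)) ≤
        2 * (M + 1) * av D (fun c => eps K D 1 M (A ∩ K c)) := by
      rw [← av_mul_left]; exact av_mono fun c _ => ih _
    have h3 := eps_succ (K := K) (D := D) (q := 1) M A
    rw [one_mul] at h3
    have h4 : 2 * ((M : ℝ) + 1) * av D (fun c => eps K D 1 M (A ∩ K c)) ≤
        2 * (M + 1) * eps K D 1 (M + 1) A := mul_le_mul_of_nonneg_left h3 (by positivity)
    push_cast
    nlinarith

lemma ent_step (hD : D.Nonempty) {l : ℝ} (hl : 0 ≤ l) (M : ℕ) (A : Set Ω) :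
    ent K D l (M + 1) A ≤ Real.exp l * av D (fun c => ent K D l M (A ∩ K c)) +
      Real.exp l ^ 2 * l ^ 2 * eps K D (Real.exp l) M A := by
  set q := Real.exp l with hq
  have hq0 : 0 < q := Real.exp_pos l
  have hq1 : 1 ≤ q := Real.one_le_exp hl
  have hP : ∀ M B, 0 < Psi K D q M B := fun M B => lt_of_lt_of_le one_pos (one_le_Psi hD hq1 M B)
  by_cases hA : A.Nonempty
  · set P : C → ℝ := fun c => Psi K D q M (A ∩ K c) with hPdef
    set N : C → ℝ := fun c => EL D M (fun ω => l * H K (A ∩ K c) ω * q ^ H K (A ∩ K c) ω) with hN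
    set U := Psi K D q M A with hU
    have hU0 : 0 < U := hP _ _
    have hPb : 0 < av D P := av_pos hD fun c _ => hP _ _
    have e1 : EL D (M + 1) (fun ω => l * H K A ω * q ^ H K A ω) = q * (av D N + l * av D P) := by
      rw [EL_succ, ← av_mul_left, ← av_add, ← av_mul_left]
      refine av_congr fun c _ => ?_
      simp only [hN, hPdef, Psi]
      rw [← EL_mul_left, ← EL_add, ← EL_mul_left]
      congr 1; funext ω
      rw [H_cons hA]; push_cast; ring
    have e2 : Psi K D q (M + 1) A = q * av D P := Psi_succ hA M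
    have e3 : Real.log (q * av D P) = l + Real.log (av D P) := by
      rw [Real.log_mul hq0.ne' hPb.ne', hq, Real.log_exp]
    have e4 : av D (fun c => ent K D l M (A ∩ K c)) =
        av D N - av D (fun c => P c * Real.log (P c)) := by
      rw [← av_sub]; rfl
    have e5 : av D P * Real.log U + av D P - U ≤ av D P * Real.log (av D P) := by
      have h1 := Real.add_one_le_exp (Real.log U - Real.log (av D P))
      rw [Real.exp_sub, Real.exp_log hU0, Real.exp_log hPb, le_div_iff₀ hPb] at h1
      nlinarith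
    have e6 : ∀ c, P c * Real.log (P c) - Real.log U * P c - P c + U ≤
        q * l ^ 2 * EL D M (fun ω => w q (H K A ω) (H K (A ∩ K c) ω)) := by
      intro c
      have hPc : 0 < P c := hP _ _
      set g := Real.log (P c) - Real.log U with hg
      have hexp : Real.exp g = P c / U := by
        rw [hg, Real.exp_sub, Real.exp_log hU0, Real.exp_log hPc]
      have a : EL D M (fun ω => g * q ^ H K (A ∩ K c) ω + q ^ H K A ω
            - Real.exp g * q ^ H K A ω) ≤
          EL D M (fun ω => q * l ^ 2 * w q (H K A ω) (H K (A ∩ K c) ω) ) := by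
        refine EL_mono' fun ω => ?_
        have b := ent_le_w hl (H_mono (K := K) (Set.inter_subset_left (s := A) (t := K c)) ω)
        rw [← hq] at b
        set h := H K A ω
        set h' := H K (A ∩ K c) ω
        have c1 := Real.add_one_le_exp (g + l * ((h : ℝ) - h'))
        have c2 : Real.exp (g + l * ((h : ℝ) - h')) * q ^ h' = Real.exp g * q ^ h := by
          rw [hq, ← Real.exp_nat_mul, ← Real.exp_nat_mul, ← Real.exp_add, ← Real.exp_add]
          congr 1; ring
        have c3 : 0 < q ^ h' := by positivity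
        have c4 := mul_le_mul_of_nonneg_right c1 c3.le
        nlinarith
      rw [EL_sub, EL_add, EL_mul_left, EL_mul_left, EL_mul_left] at a
      change g * P c + U - Real.exp g * U ≤ _ at a
      rw [hexp, div_mul_cancel₀ _ hU0.ne', hg] at a
      linarith
    have e7 : av D (fun c => P c * Real.log (P c)) - Real.log U * av D P - av D P + U ≤
        q * l ^ 2 * eps K D q M A := by
      rw [eps_eq, ← av_mul_left, ← av_mul_left, ← av_sub, ← av_sub, ← av_const hD U, ← av_add,
        av_const hD U]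
      exact av_mono fun c _ => e6 c
    unfold ent
    rw [← hq, e1, e2, e3]
    change _ ≤ q * av D (fun c => ent K D l M (A ∩ K c)) + _
    rw [e4]
    have e8 : av D (fun c => P c * Real.log (P c)) - av D P * Real.log (av D P) ≤
        q * l ^ 2 * eps K D q M A := by linarith
    nlinarith [mul_le_mul_of_nonneg_left e8 hq0.le]
  · have h0 : ∀ B, ¬ B.Nonempty → ∀ M, ent K D l M B = 0 := fun B hB M => by
      simp [ent, H_of_empty hB, EL_zero_fun, Psi_of_empty hD hB]
    rw [h0 A hA]
    simp only [fun c => h0 _ (not_nonempty_inter hA (K c)) M, av_zero]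
    have := eps_nonneg (K := K) (D := D) hq0.le M A
    positivity

lemma ent_zero (l : ℝ) (A : Set Ω) : ent K D l 0 A = 0 := by
  simp only [ent, Psi, EL_zero, Real.log_pow, Real.log_exp]; ring

lemma ent_le (hD : D.Nonempty) {l : ℝ} (hl : 0 ≤ l) (M : ℕ) (A : Set Ω) :
    ent K D l (M + 1) A ≤ (M + 1) * (Real.exp l ^ 2 * l ^ 2) * eps K D (Real.exp l) M A := by
  have hq0 : 0 < Real.exp l := Real.exp_pos l
  induction M generalizing A with
  | zero =>
    have := ent_step (K := K) hD hl 0 A
    simp only [ent_zero, av_zero] at this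
    simpa using this
  | succ M ih =>
    have h1 := ent_step (K := K) hD hl (M + 1) A
    have h2 : av D (fun c => ent K D l (M + 1) (A ∩ K c)) ≤
        (M + 1) * (Real.exp l ^ 2 * l ^ 2) *
          av D (fun c => eps K D (Real.exp l) M (A ∩ K c)) := by
      rw [← av_mul_left]; exact av_mono fun c _ => ih _
    have h3 := eps_succ (K := K) (D := D) (q := Real.exp l) M A
    have h4 := mul_le_mul_of_nonneg_left h3
      (show 0 ≤ ((M : ℝ) + 1) * (Real.exp l ^ 2 * l ^ 2) by positivity)
    have h5 := mul_le_mul_of_nonneg_left h2 hq0.le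
    push_cast
    nlinarith

/-- Herbst's argument. -/
lemma herbst (f f' : ℝ → ℝ) (hf : ∀ l, HasDerivAt f (f' l) l) (hpos : ∀ l, 0 < f l)
    (h0 : f 0 = 1) (B : ℝ) (hB0 : 0 ≤ B)
    (hB : ∀ l, 0 < l → l ≤ 1 → l * f' l - f l * Real.log (f l) ≤ B * l ^ 2 * f l)
    (l : ℝ) (hl : 0 < l) (hl1 : l ≤ 1) : Real.log (f l) ≤ l * f' 0 + B * l ^ 2 := by
  have hlog : ∀ t, HasDerivAt (fun t => Real.log (f t)) (f' t / f t) t :=
    fun t => (hf t).log (hpos t).ne'
  have hG : ∀ t, 0 < t → HasDerivAt (fun t => Real.log (f t) / t - B * t)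
      ((f' t / f t * t - Real.log (f t) * 1) / t ^ 2 - B * 1) t := fun t ht =>
    ((hlog t).div (hasDerivAt_id t) ht.ne').sub ((hasDerivAt_id t).const_mul B)
  have hanti : AntitoneOn (fun t => Real.log (f t) / t - B * t) (Set.Ioc 0 1) := by
    refine antitoneOn_of_deriv_nonpos (convex_Ioc 0 1) ?_ ?_ ?_
    · exact fun t ht => (hG t ht.1).continuousAt.continuousWithinAt
    · intro t ht
      rw [interior_Ioc] at ht
      exact (hG t ht.1).differentiableAt.differentiableWithinAt
    · intro t ht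
      rw [interior_Ioc] at ht
      rw [(hG t ht.1).deriv]
      have a := hB t ht.1 ht.2.le
      have b := hpos t
      have c : f' t / f t * t - Real.log (f t) * 1 ≤ B * t ^ 2 := by
        have : f' t / f t * t - Real.log (f t) * 1 =
            (t * f' t - f t * Real.log (f t)) / f t := by field_simp
        rw [this, div_le_iff₀ b]; exact a
      have d : (f' t / f t * t - Real.log (f t) * 1) / t ^ 2 ≤ B := by
        rw [div_le_iff₀ (pow_pos ht.1 2)]; exact c
      linarith
  have hs := hasDerivAt_iff_tendsto_slope.1 (hlog 0)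
  rw [h0, div_one] at hs
  have hs' : Filter.Tendsto (slope (fun t => Real.log (f t)) 0) (nhdsWithin 0 (Set.Ioi 0))
      (nhds (f' 0)) :=
    hs.mono_left (nhdsWithin_mono _ fun x hx => ne_of_gt hx)
  have : Real.log (f l) / l - B * l ≤ f' 0 := by
    refine ge_of_tendsto hs' ?_
    filter_upwards [Ioo_mem_nhdsGT hl] with t ht
    have a := hanti ⟨ht.1, ht.2.le.trans hl1⟩ ⟨hl, hl1⟩ ht.2.le
    simp only at a
    rw [slope_def_field, h0, Real.log_one, sub_zero, sub_zero]
    have : 0 ≤ B * t := mul_nonneg hB0 ht.1.le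
    linarith
  have e : Real.log (f l) = l * (Real.log (f l) / l) := by field_simp
  rw [e]; nlinarith

lemma log_Psi_le (hD : D.Nonempty) (M : ℕ) (A : Set Ω) (B : ℝ) (hB0 : 0 ≤ B)
    (hB : ∀ l, 0 < l → l ≤ 1 → ent K D l M A ≤ B * l ^ 2 * Psi K D (Real.exp l) M A)
    (l : ℝ) (hl : 0 < l) (hl1 : l ≤ 1) :
    Real.log (Psi K D (Real.exp l) M A) ≤ l * mH K D M A + B * l ^ 2 := by
  have := herbst (fun l => Psi K D (Real.exp l) M A)
    (fun l => EL D M (fun ω => H K A ω * Real.exp l ^ H K A ω)) ?_ ?_ ?_ B hB0 ?_ l hl hl1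
  · simpa [mH] using this
  · intro t
    refine EL_hasDerivAt D M (fun l ω => Real.exp l ^ H K A ω)
      (fun l ω => H K A ω * Real.exp l ^ H K A ω) t fun ω => ?_
    simp only [← Real.exp_nat_mul]
    have := ((hasDerivAt_id t).const_mul (H K A ω : ℝ)).exp
    simpa [mul_comm] using this
  · intro t; exact EL_pos hD fun ω => pow_pos (Real.exp_pos t) _
  · simp [Psi, EL_const hD]
  · intro t ht ht1
    have := hB t ht ht1
    unfold ent at this
    rw [← EL_mul_left]
    simpa [mul_assoc] using this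

lemma pS_succ (m : ℕ) (A : Set Ω) : pS K D (m + 1) A = av D (fun c => pS K D m (A ∩ K c)) := by
  unfold pS
  rw [EL_succ]
  refine av_congr fun c _ => ?_
  congr 1; funext ω
  by_cases hA : A.Nonempty
  · simp [H_cons hA]
  · simp [H_of_empty hA, H_of_empty (not_nonempty_inter hA _)]

lemma pS_zero (A : Set Ω) : pS K D 0 A = if A.Nonempty then 1 else 0 := by
  by_cases hA : A.Nonempty <;> simp [pS, H, hA]

lemma EL_tail (hD : D.Nonempty) {j M : ℕ} (hj : j ≤ M) (A : Set Ω) :
    EL D M (fun ω => if j < H K A ω then 1 else 0) = pS K D j A := by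
  induction j generalizing M A with
  | zero =>
    rw [pS_zero]
    by_cases hA : A.Nonempty
    · simp [H_pos hA, hA, EL_const hD]
    · simp [H_of_empty hA, hA, EL_zero_fun]
  | succ j ih =>
    obtain ⟨M, rfl⟩ : ∃ M', M = M' + 1 := ⟨M - 1, by omega⟩
    rw [pS_succ, EL_succ]
    refine av_congr fun c _ => ?_
    rw [← ih (M := M) (by omega)]
    congr 1; funext ω
    by_cases hA : A.Nonempty
    · simp [H_cons hA]
    · simp [H_of_empty hA, H_of_empty (not_nonempty_inter hA _)]

lemma EL_phi (hD : D.Nonempty) (φ : ℕ → ℝ) (M : ℕ) (A : Set Ω) :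
    EL D M (fun ω => φ (H K A ω)) = φ 0 + ∑ j ∈ range (M + 1), (φ (j + 1) - φ j) * pS K D j A := by
  have e : ∀ j ∈ range (M + 1), (φ (j + 1) - φ j) * pS K D j A =
      EL D M (fun ω => (φ (j + 1) - φ j) * if j < H K A ω then 1 else 0) := fun j hj => by
    rw [EL_mul_left, EL_tail hD (Nat.lt_succ_iff.1 (mem_range.1 hj))]
  rw [sum_congr rfl e, ← EL_sum, ← EL_const hD M (φ 0), ← EL_add]
  refine EL_congr fun ω hω _ => ?_
  have h := H_le (K := K) A ω
  rw [hω] at h
  simp only [mul_ite, mul_one, mul_zero]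
  rw [← sum_filter]
  have : (range (M + 1)).filter (fun j => j < H K A ω) = range (H K A ω) := by
    ext j; simp; omega
  rw [this, sum_range_sub]; ring

lemma mH_eq (hD : D.Nonempty) (M : ℕ) (A : Set Ω) :
    mH K D M A = ∑ j ∈ range (M + 1), pS K D j A := by
  have := EL_phi (K := K) hD (fun j => (j : ℝ)) M A
  simpa [mH] using this

lemma sqH_eq (hD : D.Nonempty) (M : ℕ) (A : Set Ω) :
    EL D M (fun ω => (H K A ω : ℝ) ^ 2) = ∑ j ∈ range (M + 1), (2 * (j : ℝ) + 1) * pS K D j A := by
  have := EL_phi (K := K) hD (fun j => (j : ℝ) ^ 2) M A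
  rw [this]
  simp only [Nat.cast_zero, ne_eq, OfNat.ofNat_ne_zero, not_false_eq_true, zero_pow, zero_add]
  refine sum_congr rfl fun j _ => ?_
  push_cast; ring

lemma pS_nonneg (m : ℕ) (A : Set Ω) : 0 ≤ pS K D m A :=
  EL_nonneg fun ω => by split_ifs <;> norm_num

lemma pS_anti (hD : D.Nonempty) {m m' : ℕ} (h : m ≤ m') (A : Set Ω) :
    pS K D m' A ≤ pS K D m A := by
  rw [← EL_tail hD h, ← EL_tail hD le_rfl]
  refine EL_mono' fun ω => ?_
  split_ifs <;> first | omega | norm_num

lemma pS_le_one (hD : D.Nonempty) (m : ℕ) (A : Set Ω) : pS K D m A ≤ 1 := by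
  rw [← EL_const hD m 1]
  exact EL_mono' fun ω => by split_ifs <;> norm_num

/-- Chebyshev, upper side. -/
lemma cheb_up (hD : D.Nonempty) (M : ℕ) (A : Set Ω) (h : mH K D M A ≤ M + 1) :
    pS K D M A * ((M : ℝ) + 1 - mH K D M A) ^ 2 ≤ vH K D M A := by
  have e : vH K D M A = EL D M (fun ω => ((H K A ω : ℝ) - mH K D M A) ^ 2) := by
    rw [EL_sq_dev hD]; unfold vH mH; ring
  rw [e, pS, ← EL_mul_right]
  refine EL_mono' fun ω => ?_
  split_ifs with hh
  · have : (M : ℝ) + 1 ≤ H K A ω := by exact_mod_cast hh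
    nlinarith
  · simpa using sq_nonneg _

/-- Chebyshev, lower side. -/
lemma cheb_down (hD : D.Nonempty) {j M : ℕ} (hj : j ≤ M) (A : Set Ω) (h : (j : ℝ) ≤ mH K D M A) :
    (1 - pS K D j A) * (mH K D M A - j) ^ 2 ≤ vH K D M A := by
  have e : vH K D M A = EL D M (fun ω => ((H K A ω : ℝ) - mH K D M A) ^ 2) := by
    rw [EL_sq_dev hD]; unfold vH mH; ring
  rw [e, ← EL_tail hD hj, ← EL_const hD M 1, ← EL_sub, ← EL_mul_right, EL_const hD M 1]
  refine EL_mono' fun ω => ?_
  split_ifs with hh
  · simpa using sq_nonneg _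
  · have : (H K A ω : ℝ) ≤ j := by exact_mod_cast not_lt.1 hh
    nlinarith

/-- Chernoff. -/
lemma chernoff {q : ℝ} (hq : 1 ≤ q) (M : ℕ) (A : Set Ω) :
    pS K D M A * q ^ (M + 1) ≤ Psi K D q M A := by
  rw [pS, ← EL_mul_right]
  refine EL_mono' fun ω => ?_
  split_ifs with hh
  · rw [one_mul]; exact pow_le_pow_right₀ hq hh
  · rw [zero_mul]; positivity

end Crest.Agent.R153.PA
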