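import Mathlib
import Crest.Prelude.Def_RandomSAT
import Crest.Agent.R153.A_Main
import Crest.Agent.R153.A_Ten

/-! Row 153, part A: link with `satProb`, first moment bound, truncated estimates. -/

set_option autoImplicit false

namespace Crest.Agent.R153.PA

open Finset Classical Crest.ProbabilityR.RandomSAT

lemma av_fiber {α β : Type*} [DecidableEq β] {s : Finset α} {t : Finset β} (f : α → β) (hf : ∀ a ∈ s, f a ∈ t)
    {N : ℕ} (hN0 : 0 < N) (hN : ∀ b ∈ t, (s.filter (fun a => f a = b)).card = N) (G : β → ℝ) :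
    av s (fun a => G (f a)) = av t G := by
  unfold av
  have e1 : ∑ a ∈ s, G (f a) = N * ∑ b ∈ t, G b := by
    rw [← sum_fiberwise_of_maps_to hf, mul_sum]
    refine sum_congr rfl fun b hb => ?_
    rw [sum_congr rfl (g := fun _ => G b) fun a ha => by rw [(mem_filter.1 ha).2], sum_const,
      hN b hb, nsmul_eq_mul]
  have e2 : s.card = N * t.card := by
    rw [card_eq_sum_card_fiberwise hf, sum_congr rfl hN, sum_const, smul_eq_mul, mul_comm]
  rw [e1, e2]
  have : (N : ℝ) ≠ 0 := by exact_mod_cast hN0.ne'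
  push_cast
  rw [mul_div_mul_left _ _ this]

lemma av_comp_inj {k n : ℕ} (v : Fin k → Fin n) (hv : Function.Injective v)
    (G : (Fin k → Bool) → ℝ) :
    av univ (fun σ : Fin n → Bool => G (fun i => σ (v i))) = av univ G := by
  have e : ∀ σ : Fin n → Bool, G (fun i => σ (v i)) = ∑ s : Fin k → Bool,
      (if ∀ x ∈ univ.image v, σ x = Function.extend v s (fun _ => true) x then (1 : ℝ) else 0)
        * G s := by
    intro σ
    rw [sum_eq_single (fun i => σ (v i))]
    · rw [if_pos, one_mul]
      intro x hx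
      obtain ⟨i, _, rfl⟩ := mem_image.1 hx
      rw [hv.extend_apply]
    · intro s _ hs
      rw [if_neg, zero_mul]
      intro h
      refine hs (funext fun i => ?_)
      rw [h (v i) (mem_image_of_mem _ (mem_univ _)), hv.extend_apply]
    · simp
  simp only [e]
  rw [av_sum]
  have e2 : ∀ s : Fin k → Bool, av univ (fun σ : Fin n → Bool =>
      if ∀ x ∈ univ.image v, σ x = Function.extend v s (fun _ => true) x then (1 : ℝ) else 0) =
      (1 / 2) ^ k := fun s => by
    have := av_agree (univ.image v) (Function.extend v s (fun _ => true))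
    rw [card_image_of_injective _ hv, card_univ, Fintype.card_fin] at this
    convert this
  simp only [av_mul_right, e2]
  unfold av
  rw [← mul_sum]
  simp
  ring

lemma av_image {k n : ℕ} (Φ : Finset (Fin n) → ℝ) :
    av univ (fun v : {v : Fin k → Fin n // Function.Injective v} => Φ (univ.image v.1)) =
      av (powersetCard k univ) Φ := by
  refine av_fiber (fun v : {v : Fin k → Fin n // Function.Injective v} => univ.image v.1)
    (fun v _ => ?_) (Nat.factorial_pos k) (fun T hT => ?_) Φ
  · simp [mem_powersetCard, card_image_of_injective _ v.2]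
  · have hT' := (mem_powersetCard.1 hT).2
    have : Fintype.card (Fin k ↪ T) = k.factorial := by
      rw [Fintype.card_embedding_eq, Fintype.card_fin, Fintype.card_coe, hT', Nat.descFactorial_self]
    rw [← this]
    refine card_eq_of_equiv_fintype
      { toFun := fun v => ⟨fun i => ⟨v.1.1 i, ?_⟩, fun i j h => v.1.2 (congrArg Subtype.val h)⟩
        invFun := fun e => ⟨⟨fun i => (e i).1, fun i j h => e.injective (Subtype.ext h)⟩, ?_⟩
        left_inv := fun v => rfl
        right_inv := fun e => rfl }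
    · have := (mem_filter.1 v.2).2
      exact this.subset (mem_image_of_mem _ (mem_univ _))
    · refine mem_filter.2 ⟨mem_univ _, eq_of_subset_of_card_le ?_ ?_⟩
      · intro x hx
        obtain ⟨i, _, rfl⟩ := mem_image.1 hx
        exact (e i).2
      · rw [card_image_of_injective _ fun i j h => e.injective (Subtype.ext h), hT']; simp

def KC {k n : ℕ} (c : Clause k n) : Set (Fin n → Bool) := {σ | ClauseSat σ c}

lemma av_clause {k n : ℕ} (F : Set (Fin n → Bool) → ℝ) :
    av (univ : Finset (Clause k n)) (fun c => F (KC c)) = av (DD univ k) (fun c => F (KK c)) := by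
  rw [← univ_product_univ, av_product, DD, av_product, ← av_image]
  refine av_congr fun v _ => ?_
  rw [← av_comp_inj v.1 v.2]
  refine av_congr fun σ _ => ?_
  congr 1
  ext τ
  simp [KC, KK, ClauseSat]

lemma pS_clause {k n : ℕ} (m : ℕ) (A : Set (Fin n → Bool)) :
    pS KC (univ : Finset (Clause k n)) m A = pS KK (DD univ k) m A := by
  induction m generalizing A with
  | zero => rw [pS_zero, pS_zero]
  | succ m ih =>
    rw [pS_succ, pS_succ]
    simp only [ih]
    exact av_clause (fun B => pS KK (DD univ k) m (A ∩ B))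

lemma av_equiv {α β : Type*} [Fintype α] [Fintype β] (e : α ≃ β) (G : β → ℝ) :
    av univ (fun a => G (e a)) = av univ G := by
  unfold av
  rw [Equiv.sum_comp e G, card_univ, card_univ, Fintype.card_congr e]

lemma pS_pi {Ω C : Type*} [Fintype C] (K : C → Set Ω) (m : ℕ) (A : Set Ω) :
    pS K univ m A =
      av univ (fun F : Fin m → C => if ∃ σ ∈ A, ∀ j, σ ∈ K (F j) then (1 : ℝ) else 0) := by
  induction m generalizing A with
  | zero => rw [pS_zero]; simp [av, Set.Nonempty]
  | succ m ih =>
    rw [pS_succ, ← av_equiv (Fin.consEquiv fun _ => C), ← univ_product_univ, av_product]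
    refine av_congr fun c _ => ?_
    rw [ih]
    refine av_congr fun F _ => ?_
    simp [Fin.consEquiv, Fin.forall_fin_succ, and_assoc]

theorem satProb_eq (k n m : ℕ) :
    satProb k n m = pS KK (DD (univ : Finset (Fin n)) k) m Set.univ := by
  rw [← pS_clause, pS_pi]
  unfold satProb Crest.FinProb.uniformProb av
  beta_reduce
  rw [card_filter, card_univ]
  push_cast
  congr 1
  refine sum_congr rfl fun F _ => ?_
  simp [Satisfiable, KC]

lemma av_mem_KK {n k : ℕ} (hk : k ≤ n) (τ : Fin n → Bool) :
    av (DD (univ : Finset (Fin n)) k) (fun c => if τ ∈ KK c then (1 : ℝ) else 0) =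
      1 - (1 / 2) ^ k := by
  have hne : (powersetCard k (univ : Finset (Fin n))).Nonempty :=
    powersetCard_nonempty.2 (by simpa using hk)
  rw [DD, av_product, ← av_const hne (1 - (1 / 2) ^ k)]
  refine av_congr fun T hT => ?_
  rw [← (mem_powersetCard.1 hT).2, ← av_agree T (fun v => !τ v),
    ← av_const (univ_nonempty (α := Fin n → Bool)) 1, ← av_sub, av_const univ_nonempty 1]
  refine av_congr fun σ _ => ?_
  by_cases h : τ ∈ KK (T, σ)
  · rw [if_pos h, if_neg, sub_zero]
    obtain ⟨v, hv, e⟩ := h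
    intro h'
    have := h' v hv
    simp only at e
    rw [← e] at this
    simp at this
  · rw [if_neg h, if_pos, sub_self]
    intro v hv
    by_contra hne
    refine h ⟨v, hv, ?_⟩
    show τ v = σ v
    revert hne; cases σ v <;> cases τ v <;> simp

lemma first_moment {n k : ℕ} (hk : k ≤ n) (m : ℕ) (A : Set (Fin n → Bool)) :
    pS KK (DD (univ : Finset (Fin n)) k) m A ≤
      (1 - (1 / 2) ^ k) ^ m * ∑ τ : Fin n → Bool, if τ ∈ A then (1 : ℝ) else 0 := by
  have hρ : (0 : ℝ) ≤ 1 - (1 / 2) ^ k := sub_nonneg.2 (pow_le_one₀ (by norm_num) (by norm_num))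
  induction m generalizing A with
  | zero =>
    rw [pS_zero, pow_zero, one_mul]
    split_ifs with h
    · obtain ⟨τ, hτ⟩ := h
      refine le_trans (by simp [hτ]) (single_le_sum
        (f := fun τ => if τ ∈ A then (1 : ℝ) else 0) (fun _ _ => ?_) (mem_univ τ))
      split_ifs <;> norm_num
    · exact sum_nonneg fun _ _ => by split_ifs <;> norm_num
  | succ m ih =>
    rw [pS_succ]
    refine (av_mono fun c _ => ih _).trans (le_of_eq ?_)
    rw [av_mul_left, av_sum, pow_succ, mul_assoc]
    congr 1
    rw [mul_sum]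
    refine sum_congr rfl fun τ _ => ?_
    by_cases h : τ ∈ A
    · simp only [Set.mem_inter_iff, h, true_and, if_true, mul_one]
      convert av_mem_KK hk τ
    · simp [h, av_zero]

lemma satProb_le {n k : ℕ} (hk : k ≤ n) (m : ℕ) :
    satProb k n m ≤ (1 - (1 / 2) ^ k) ^ m * 2 ^ n := by
  rw [satProb_eq]
  simpa using first_moment hk m Set.univ

theorem var_trunc (k : ℕ) (hk : 3 ≤ k) (C₀ : ℕ) :
    ∃ C : ℝ, 0 ≤ C ∧ ∀ n M : ℕ, k ≤ n → M ≤ C₀ * n →
      vH KK (DD (univ : Finset (Fin n)) k) M Set.univ ≤ C * n := by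
  obtain ⟨Kc, hK0, hK⟩ := eps_le k hk C₀
  refine ⟨2 * C₀ * Kc, by positivity, fun n M hn hM => ?_⟩
  have hD : (DD (univ : Finset (Fin n)) k).Nonempty := DD_nonempty (by simpa using hn)
  rcases M with _ | M
  · simp only [vH, mH, EL_zero, sub_self]; positivity
  · have a := vH_le (K := KK) hD M Set.univ
    have b := hK 1 le_rfl (by norm_num) n M hn (by omega)
    simp only [Psi, one_pow, EL_const hD, mul_one] at b
    have c : (M : ℝ) + 1 ≤ C₀ * n := by exact_mod_cast hM
    calc _ ≤ _ := a
      _ ≤ 2 * (C₀ * n) * Kc :=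
          mul_le_mul (by linarith) b (eps_nonneg zero_le_one _ _) (by positivity)
      _ = _ := by ring

theorem mgf_trunc (k : ℕ) (hk : 3 ≤ k) (C₀ : ℕ) :
    ∃ C : ℝ, 0 ≤ C ∧ ∀ n M : ℕ, k ≤ n → M ≤ C₀ * n → ∀ l : ℝ, 0 < l → l ≤ 1 →
      Real.log (Psi KK (DD (univ : Finset (Fin n)) k) (Real.exp l) M Set.univ) ≤
        l * mH KK (DD (univ : Finset (Fin n)) k) M Set.univ + C * n * l ^ 2 := by
  obtain ⟨Kc, hK0, hK⟩ := eps_le k hk C₀
  refine ⟨9 * C₀ * Kc, by positivity, fun n M hn hM => ?_⟩
  have hD : (DD (univ : Finset (Fin n)) k).Nonempty := DD_nonempty (by simpa using hn)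
  refine log_Psi_le hD M _ _ (by positivity) fun l hl hl1 => ?_
  have hq1 : 1 ≤ Real.exp l := Real.one_le_exp hl.le
  have hq3 : Real.exp l ≤ 3 :=
    (Real.exp_le_exp.2 hl1).trans (Real.exp_one_lt_d9.le.trans (by norm_num))
  have hP := Psi_nonneg (K := KK) (D := DD (univ : Finset (Fin n)) k) (Real.exp_pos l).le
  rcases M with _ | M
  · rw [ent_zero]; have := hP 0 Set.univ; positivity
  · have a := ent_le (K := KK) hD hl.le M Set.univ
    have b := (hK _ hq1 hq3 n M hn (by omega)).trans
      (mul_le_mul_of_nonneg_left (Psi_le_succ hD hq1 M Set.univ) hK0)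
    have c : (M : ℝ) + 1 ≤ C₀ * n := by exact_mod_cast hM
    have d : Real.exp l ^ 2 ≤ 9 := by nlinarith
    calc _ ≤ _ := a
      _ ≤ (C₀ * n) * (9 * l ^ 2) *
          (Kc * Psi KK (DD (univ : Finset (Fin n)) k) (Real.exp l) (M + 1) Set.univ) := by
          refine mul_le_mul ?_ b (eps_nonneg (by linarith) _ _) (by positivity)
          gcongr
      _ = _ := by ring

end Crest.Agent.R153.PA
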