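import Mathlib
import Crest.Prelude.Def_RandomSAT
import Crest.Agent.R153.A_Link

/-!
Row 153, part A (interface file): variance bound, boosting, exponential upper tail for the
hitting time of random k-SAT.  Owner of task A: put the work in `Crest/Agent/R153/A_*.lean`
and replace the three proofs below (keep the statements).

PROOF PLAN (all finite probability, dynamic programming on lists of clauses).

Setting.  `V` a Fintype of variables (`n = card V`), clauses = `k` literals on distinct variables,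
`A : Set (V → Bool)` the allowed set, `ω` a list of clauses, `K_c` the assignments satisfying `c`.
`H(A,[]) = 1{A ≠ ∅}`, `H(A, c::ω) = 1{A ≠ ∅} (1 + H(A ∩ K_c, ω))`.  `E^M` = average over lists of
`M` iid uniform clauses (recursive averaging).  For `A = univ`, `P(H > m) = satProb k n m` for
`m ≤ M`.  `H(A ∪ B, ω) = max`, so the effect `H(A,ω) - H(A ∩ K_c, ω)` of a clause `c` imposed from
the start is the min of the effects `X(l) = H(A,ω) - H(A ∩ {l true}, ω)` of its literals.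
Weight: for `0 ≤ λ ≤ 1`, `h' ≤ h`: `w(h,h') = Σ_{t=1}^{h-h'} t e^{λ(h-t)}`, `Ψ_M(A) = E^M e^{λ H}`.

(1) Tensorisation by DP.  With `c` an independent uniform clause, `h = H(A,ω)`, `h' = H(A∩K_c,ω)`:
  `Var_{M+1}(A) ≤ (M+1) E (h-h')^2`, (note `(h-h')^2 ≤ 2 w_{λ=0}`), and for `f = e^{λH}`
  `Ent_{M+1}(A) := E f log f - E f log E f ≤ (M+1) e^λ E[e^{λh'} (e^{λd} - 1 - λ d)]`, `d = h-h'`,
  and `e^{λh'}(e^{λ d}-1-λ d) ≤ λ² e^λ w(h,h')`.
  Induction on `M`: split off the first clause (law of total variance / chain rule of entropy);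
  first-clause term: Jensen (variance), or `f g ≤ f log (f/u) - f + u e^g` with
  `g = log (F/U)`, `u = e^{λ(1+H(A,ω))}` (entropy); the rest: the error functional `e_M(A)` satisfies
  `E_c e_{M-1}(A ∩ K_c) ≤ e_M(A)` (pathwise, up to the factor `e^λ` built into the definitions).
(2) KEY: `E w(H(A,ω), H(A∩{l},ω)) ≤ K (1+s)² Ψ_M(A)` whenever `A` is invariant under flipping every
  variable outside a set `S`, `|S| ≤ s`, the variable `x` of `l` is outside `S`, `M ≤ C₀ (n+s)`;
  `K = K(k, C₀)`, uniform in `λ ∈ [0,1]`.  Induction on `n` (general `V`, pass to `{v // v ≠ x}`).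
  Trivial bound `w ≤ (M+1)² e^{λh}` settles `s > η n` and `n ≤ n₀`.  Otherwise cavity: split `ω` into
  the x-free clauses `ω'` (uniform clauses on `V∖x`) and the `J ~ Bin(M, k/n)` clauses containing `x`,
  reduced to uniform (k-1)-clauses `c_1..c_J` on `V∖x`.  `A'` = projection of `A`.  With
  `h = H(A',ω')`, `h' = H(A'∩c_1∩…∩c_J, ω')`, `H1 = H(A,ω)`, `H2 = H(A∩l,ω)`: pathwise `H1 ≤ h+J`,
  `H2 ≥ h'`, `h ≤ h' → H1 ≤ H2`, hence `w(H1,H2) ≤ e^{λJ}(1+J)² w(h,h')`.  `√w` is subadditive along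
  chains (`w(h0,h2) = w(h0,h1) + w(h1,h2) + d₁ v` with `d₁ = h0-h1`, `v = Σ_{t≤h1-h2} e^{λ(h1-t)}`,
  `d₁² e^{λ h1} ≤ 2 w(h0,h1)`, `v² ≤ 2 e^{λ h1} w(h1,h2)`), so `w(h_0,h_J) ≤ J Σ_j w(h_{j-1},h_j)`,
  `h_j = H(A_j,ω')`, `A_j = A'∩c_1..c_j` depends on `≤ s_j = s+1+(k-1)j` variables (the `+1` keeps
  `M ≤ C₀(n-1+s_j)`).  For a uniform (k-1)-clause (k-1 ≥ 2, look at two of its literals), `n' = n-1`,
  `f_t` = fraction of literals on variables outside `S_j` with effect `≥ t`: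
  `P(effect ≥ t) ≤ (s_j/(n'-1))² + 2·(2 f_t) s_j/(n'-1) + C f_t²` (any such constants) and
  `f² ≤ c₀ f + 1{f ≥ c₀}`.  First term × trivial bound gives `O(s_j²) Ψ`; the `f` terms give
  `(O(η) + O(c₀)) K (1+s_j)² Ψ` by induction (if `s_j > 2ηn` use the trivial bound directly);
  the indicator gives the big-backbone term `T = Σ_{r<h} 1{Big(A ∩ ω_{≤r})} (h-r) e^{λ r}` where
  `Big B` = at least `c₀·2n'` literals are false on all of `B`.  If `Big B` the next clause empties
  `B` with probability `≥ q₀ ~ (c₀/2)^k`, so `E[H(B,·)] ≤ 1/q₀ + 1` and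
  `E Σ_{r<h} 1{Big} e^{λ r} ≤ (1/q₀+1) Ψ`; hence `E T ≤ C₁ Ψ`.  Finally `Ψ'_{M-J}(A_j) ≤ Ψ'_M(A')` and
  `Ψ_M(A) ≥ (1-k/n)^M Ψ'_M(A')` (event `J = 0`), `(1-k/n)^M ≥ c(k,C₀)`; binomial moments
  `E[e^{J} (1+J)^5] ≤ C(k,C₀)`.  Choose `η, c₀` small, then `K` large.
(3) `A = univ`, `s = 0`: the effect of a clause is at most the effect of its first literal, so
  `Var_M ≤ 2KM`, `Ent_M ≤ C λ² M Ψ`.  Herbst: `ψ = log Ψ`, `λψ' - ψ ≤ CMλ²` so `ψ(λ)/λ - CMλ` is
  antitone on `(0,1]`, `ψ(λ) ≤ λ E H + C M λ²`.  Untruncated variance: take `M = C₀ n` and the first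
  moment bound `satProb k n m ≤ 2^n (1-2^{-k})^m`.  `boost` is Chebyshev twice (median and the
  `γ`-quantile are both within `O(√n)` of the mean).  `exp_tail`: `E H ≤ (α+δ) n` eventually by the
  sharp threshold, monotonicity of `satProb` in `m` and `H ≤ M+1`; then Chernoff.
-/

set_option autoImplicit false

namespace Crest.Agent.R153

open Crest.ProbabilityR.RandomSAT Filter PA Finset

/-- This is S0217. -/
theorem variance_bound (k : ℕ) (hk : 3 ≤ k) :
    ∃ C : ℝ, ∀ n : ℕ, k ≤ n →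
      Summable (fun m : ℕ => satProb k n m) ∧
      Summable (fun m : ℕ => (2 * (m : ℝ) + 1) * satProb k n m) ∧
      (∑' m : ℕ, (2 * (m : ℝ) + 1) * satProb k n m)
          - (∑' m : ℕ, satProb k n m) ^ 2 ≤ C * n := by
  set ρ : ℝ := 1 - (1 / 2) ^ k with hρ
  have hρ0 : 0 ≤ ρ := sub_nonneg.2 (pow_le_one₀ (by norm_num) (by norm_num))
  have hρ1 : ρ < 1 := by rw [hρ]; linarith [pow_pos (show (0 : ℝ) < 1 / 2 by norm_num) k]
  set r := Real.sqrt ρ with hr
  have hr0 : 0 ≤ r := Real.sqrt_nonneg _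
  have hr1 : r < 1 := by rw [hr, Real.sqrt_lt' one_pos]; simpa using hρ1
  have hrr : ρ = r * r := (Real.mul_self_sqrt hρ0).symm
  obtain ⟨C₀, hC₀⟩ := exists_pow_lt_of_lt_one (show (0 : ℝ) < 1 / 2 by norm_num) hr1
  obtain ⟨C, hC0, hC⟩ := var_trunc k hk C₀
  have hsum : ∀ t : ℝ, 0 ≤ t → t < 1 → Summable (fun m : ℕ => (2 * (m : ℝ) + 1) * t ^ m) := by
    intro t ht ht1
    have a := summable_pow_mul_geometric_of_norm_lt_one 1
      (show ‖t‖ < 1 by rwa [Real.norm_of_nonneg ht])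
    have b := summable_geometric_of_lt_one ht ht1
    refine ((a.mul_left 2).add b).congr fun m => ?_
    ring
  set T := ∑' m : ℕ, (2 * (m : ℝ) + 1) * r ^ m with hT
  have hT0 : 0 ≤ T := tsum_nonneg fun m => by positivity
  refine ⟨C + T, fun n hn => ?_⟩
  have hD : (DD (univ : Finset (Fin n)) k).Nonempty := DD_nonempty (by simpa using hn)
  have hp0 : ∀ m, 0 ≤ satProb k n m := fun m => by rw [satProb_eq]; exact pS_nonneg _ _
  have s1 : Summable (fun m : ℕ => satProb k n m) :=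
    Summable.of_nonneg_of_le hp0 (satProb_le hn)
      ((summable_geometric_of_lt_one hρ0 hρ1).mul_right _)
  have s2 : Summable (fun m : ℕ => (2 * (m : ℝ) + 1) * satProb k n m) := by
    refine Summable.of_nonneg_of_le (fun m => mul_nonneg (by positivity) (hp0 m)) (fun m => ?_)
      ((hsum ρ hρ0 hρ1).mul_right (2 ^ n))
    rw [mul_assoc]
    exact mul_le_mul_of_nonneg_left (satProb_le hn m) (by positivity)
  refine ⟨s1, s2, ?_⟩
  have v := hC n (C₀ * n) hn le_rfl
  unfold vH at v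
  rw [sqH_eq hD, mH_eq hD] at v
  simp only [← satProb_eq] at v
  set M := C₀ * n + 1 with hM
  have a1 : ∑ j ∈ range M, satProb k n j ≤ ∑' m : ℕ, satProb k n m :=
    s1.sum_le_tsum _ fun m _ => hp0 m
  have a0 : 0 ≤ ∑ j ∈ range M, satProb k n j := sum_nonneg fun m _ => hp0 m
  have a2 := pow_le_pow_left₀ a0 a1 2
  have a3 := s2.sum_add_tsum_nat_add M
  have a4 := (hsum r hr0 hr1).sum_add_tsum_nat_add M
  have a5 : 0 ≤ ∑ j ∈ range M, (2 * (j : ℝ) + 1) * r ^ j := sum_nonneg fun m _ => by positivity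
  have a6 : ∑' i : ℕ, (2 * ((i + M : ℕ) : ℝ) + 1) * satProb k n (i + M) ≤
      ∑' i : ℕ, (2 * ((i + M : ℕ) : ℝ) + 1) * r ^ (i + M) := by
    refine Summable.tsum_le_tsum (fun i => ?_) ((summable_nat_add_iff M).2 s2)
      ((summable_nat_add_iff M).2 (hsum r hr0 hr1))
    refine mul_le_mul_of_nonneg_left ((satProb_le hn _).trans ?_) (by positivity)
    rw [← hρ, hrr, mul_pow, mul_assoc]
    refine mul_le_of_le_one_right (by positivity) ?_
    calc r ^ (i + M) * 2 ^ n ≤ r ^ (C₀ * n) * 2 ^ n :=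
          mul_le_mul_of_nonneg_right (pow_le_pow_of_le_one hr0 hr1.le (by omega)) (by positivity)
      _ = (r ^ C₀ * 2) ^ n := by rw [mul_pow, pow_mul]
      _ ≤ 1 := pow_le_one₀ (by positivity) (by linarith)
  have a7 : T ≤ T * n := le_mul_of_one_le_right hT0 (by exact_mod_cast (by omega : 1 ≤ n))
  linarith

/-- Window of width `O(√n)`: from probability `γ` to probability `1/2`. -/
theorem boost (k : ℕ) (hk : 3 ≤ k) (γ : ℝ) (hγ : 0 < γ) :
    ∃ C : ℝ, 0 ≤ C ∧ ∀ n m m' : ℕ, k ≤ n → γ ≤ satProb k n m →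
      (m' : ℝ) + C * Real.sqrt n ≤ m → 1 / 2 ≤ satProb k n m' := by
  set ρ : ℝ := 1 - (1 / 2) ^ k with hρ
  have hρ0 : 0 ≤ ρ := sub_nonneg.2 (pow_le_one₀ (by norm_num) (by norm_num))
  have hρ1 : ρ < 1 := by rw [hρ]; linarith [pow_pos (show (0 : ℝ) < 1 / 2 by norm_num) k]
  have hg0 : 0 < min γ 1 := lt_min hγ one_pos
  obtain ⟨C₀, hC₀⟩ := exists_pow_lt_of_lt_one (show (0 : ℝ) < min γ 1 / 4 by positivity) hρ1
  obtain ⟨C, hC0, hC⟩ := var_trunc k hk C₀
  refine ⟨Real.sqrt (C / γ) + Real.sqrt (2 * C), by positivity, fun n m m' hn hγm hm => ?_⟩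
  have hD : (DD (univ : Finset (Fin n)) k).Nonempty := DD_nonempty (by simpa using hn)
  have hmC : m ≤ C₀ * n := by
    by_contra hlt
    have h1 := min_le_left γ 1
    have h2 := min_le_right γ 1
    have : satProb k n m ≤ min γ 1 / 2 :=
      calc satProb k n m ≤ ρ ^ m * 2 ^ n := satProb_le hn m
        _ ≤ ρ ^ (C₀ * n) * 2 ^ n :=
          mul_le_mul_of_nonneg_right (pow_le_pow_of_le_one hρ0 hρ1.le (by omega)) (by positivity)
        _ = (ρ ^ C₀ * 2) ^ n := by rw [mul_pow, pow_mul]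
        _ ≤ (ρ ^ C₀ * 2) ^ 1 :=
          pow_le_pow_of_le_one (by positivity) (by linarith) (by omega)
        _ ≤ _ := by rw [pow_one]; linarith
    linarith
  have v := hC n m hn hmC
  set μ := mH KK (DD (univ : Finset (Fin n)) k) m Set.univ with hμ
  have hμ1 : μ ≤ m + 1 := by
    rw [hμ, mH_eq hD]
    refine (sum_le_card_nsmul _ _ 1 fun j _ => pS_le_one hD j _).trans ?_
    simp
  have c1 := cheb_up (K := KK) hD m Set.univ hμ1
  rw [← satProb_eq, ← hμ] at c1
  have hn0 : (0 : ℝ) ≤ n := Nat.cast_nonneg _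
  have d1 : (m : ℝ) + 1 - μ ≤ Real.sqrt (C / γ) * Real.sqrt n := by
    rw [← Real.sqrt_mul (by positivity)]
    refine Real.le_sqrt_of_sq_le ?_
    rw [div_mul_eq_mul_div, le_div_iff₀ hγ]
    nlinarith [mul_le_mul_of_nonneg_right hγm (sq_nonneg ((m : ℝ) + 1 - μ))]
  have e0 : 0 ≤ Real.sqrt (2 * C) * Real.sqrt n := by positivity
  have e1 : 0 ≤ Real.sqrt (C / γ) * Real.sqrt n := by positivity
  have d2 : 1 + Real.sqrt (2 * C) * Real.sqrt n ≤ μ - m' := by nlinarith
  have hm' : m' ≤ m := by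
    have : (m' : ℝ) ≤ m := by nlinarith
    exact_mod_cast this
  have c2 := cheb_down (K := KK) hD hm' Set.univ (by rw [← hμ]; linarith)
  rw [← satProb_eq, ← hμ] at c2
  have e2 : (Real.sqrt (2 * C) * Real.sqrt n) ^ 2 = 2 * C * n := by
    rw [mul_pow, Real.sq_sqrt (by positivity), Real.sq_sqrt hn0]
  have d3 : 1 + 2 * C * n ≤ (μ - m') ^ 2 := by
    have := pow_le_pow_left₀ (by positivity) d2 2
    nlinarith
  by_contra hlt
  have h1 : 1 / 2 ≤ 1 - satProb k n m' := by linarith [not_le.1 hlt]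
  nlinarith [mul_le_mul_of_nonneg_right h1 (sq_nonneg (μ - m'))]

/-- Above the threshold the satisfiability probability is exponentially small. -/
theorem exp_tail (k : ℕ) (hk : 3 ≤ k) (α : ℝ) (hα : IsSharpThreshold (satProb k) α)
    (a : ℝ) (ha : α < a) :
    ∃ c : ℝ, 0 < c ∧ ∀ᶠ n : ℕ in atTop, satProb k n ⌊a * n⌋₊ ≤ Real.exp (-c * n) := by
  have hα0 : 0 ≤ α := by
    by_contra hneg
    have h := (hα 0 le_rfl).2 (not_le.1 hneg)
    have e : (fun n : ℕ => satProb k n ⌊(0 : ℝ) * n⌋₊) = fun _ => 1 := by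
      funext n
      rw [zero_mul, Nat.floor_zero, satProb_eq, pS_zero]; simp
    rw [e] at h
    exact one_ne_zero (tendsto_nhds_unique tendsto_const_nhds h)
  set δ := (a - α) / 3 with hδ
  have hδ0 : 0 < δ := by rw [hδ]; linarith
  have ha0 : 0 < a := by linarith
  obtain ⟨C, hC0, hC⟩ := mgf_trunc k hk ⌈a⌉₊
  set l := min 1 (δ / (2 * (C + 1))) with hl
  have hl0 : 0 < l := lt_min one_pos (by positivity)
  have hl1 : l ≤ 1 := min_le_left _ _
  have hl2 : l * (2 * (C + 1)) ≤ δ := by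
    rw [← le_div_iff₀ (by positivity)]; exact min_le_right _ _
  refine ⟨l * δ / 2, by positivity, ?_⟩
  have h := (hα (α + δ) (by linarith)).2 (by linarith)
  filter_upwards [h.eventually (gt_mem_nhds (show 0 < δ / (a + 1) by positivity)),
    eventually_ge_atTop k] with n h1 hn
  have hD : (DD (univ : Finset (Fin n)) k).Nonempty := DD_nonempty (by simpa using hn)
  have hn1 : (1 : ℝ) ≤ n := by exact_mod_cast (by omega : 1 ≤ n)
  set M := ⌊a * n⌋₊ with hM
  set m₁ := ⌊(α + δ) * n⌋₊ with hm₁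
  have hM1 : (M : ℝ) ≤ a * n := Nat.floor_le (by positivity)
  have hM2 : a * n < M + 1 := Nat.lt_floor_add_one _
  have hm1 : (m₁ : ℝ) ≤ (α + δ) * n := Nat.floor_le (by positivity)
  have hMC : M ≤ ⌈a⌉₊ * n := by
    have : (M : ℝ) ≤ (⌈a⌉₊ : ℝ) * n :=
      hM1.trans (mul_le_mul_of_nonneg_right (Nat.le_ceil a) (by positivity))
    exact_mod_cast this
  have b := hC n M hn hMC l hl0 hl1
  rw [satProb_eq] at h1
  have hmean : mH KK (DD (univ : Finset (Fin n)) k) M Set.univ ≤ (α + 2 * δ) * n := by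
    rw [mH_eq hD]
    have t1 : ∀ j ∈ range (M + 1), pS KK (DD (univ : Finset (Fin n)) k) j Set.univ ≤
        (if j ∈ range m₁ then 1 else 0) + δ / (a + 1) := by
      intro j _
      split_ifs with hj
      · have : 0 < δ / (a + 1) := by positivity
        linarith [pS_le_one (K := KK) hD j Set.univ]
      · have := pS_anti (K := KK) hD (not_lt.1 fun h => hj (mem_range.2 h)) Set.univ
        linarith
    refine (sum_le_sum t1).trans ?_
    rw [sum_add_distrib, sum_const, card_range, nsmul_eq_mul, sum_ite_mem, sum_const,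
      nsmul_eq_mul, mul_one]
    have t2 : ((range (M + 1) ∩ range m₁).card : ℝ) ≤ m₁ := by
      have := card_le_card (inter_subset_right (s₁ := range (M + 1)) (s₂ := range m₁))
      rw [card_range] at this
      exact_mod_cast this
    have t3 : ((M + 1 : ℕ) : ℝ) * (δ / (a + 1)) ≤ δ * n := by
      rw [← mul_div_assoc, div_le_iff₀ (by positivity)]
      push_cast
      nlinarith
    nlinarith
  have hq1 : 1 ≤ Real.exp l := Real.one_le_exp hl0.le
  have c := chernoff (K := KK) (D := DD (univ : Finset (Fin n)) k) hq1 M Set.univ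
  have hP : 0 < Psi KK (DD (univ : Finset (Fin n)) k) (Real.exp l) M Set.univ :=
    lt_of_lt_of_le one_pos (one_le_Psi hD hq1 M _)
  rw [Real.log_le_iff_le_exp hP] at b
  rw [← satProb_eq, ← Real.exp_nat_mul] at c
  have d := c.trans b
  rw [← le_div_iff₀ (Real.exp_pos _), ← Real.exp_sub] at d
  refine d.trans (Real.exp_le_exp.2 ?_)
  have e1 := mul_le_mul_of_nonneg_left hmean hl0.le
  have e2 := mul_le_mul_of_nonneg_left hM2.le hl0.le
  have e3 : C * n * l ^ 2 ≤ l * δ / 2 * n := by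
    have : C * l ≤ δ / 2 := by nlinarith
    have := mul_le_mul_of_nonneg_left this (show 0 ≤ l * n by positivity)
    nlinarith
  have e4 : a = α + 3 * δ := by rw [hδ]; ring
  push_cast
  rw [e4] at e2
  nlinarith

end Crest.Agent.R153
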