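import Crest.Agent.R153.ASS_Step

/-! Row 153, task ASS: the recursion in the number of variables. -/

set_option autoImplicit false

namespace Crest.Agent.R153.ASS

open Ms Nest Filter

variable {j : ℕ} {θ : ℝ}

/-- The conclusion of the decoupling theorem for the measure `Z`. -/
def Dec (θ ε : ℝ) (N : ℕ) (Z : Ms (Nest ((Fin (N + 1) → Bool) → ℝ) j)) : Prop :=
  ∃ (ν : Ms (Ms (Nest ((Fin (N + 1) → Bool) → ℝ) j)))
    (err : Ms (Nest ((Fin (N + 1) → Bool) → ℝ) j) → ℝ),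
    ν.Prob ∧ Ms.bind ν (fun Y => Y) = Z ∧ I ν (fun Y => err Y * pS θ Y) ≤ ε * pS θ Z ∧
    ν.Supp fun Y => GoodM U01 Y ∧ GoodM (PP N) Y ∧ 0 ≤ err Y ∧
      ∃ ξ : Ms (Nest ℝ j), GoodM R01 ξ ∧
        ∀ X V : Ms (Nest ((Fin (N + 1) → Bool) → ℝ) j), GoodM U01 X → GoodM U01 V →
          |pS θ (Y * X * neg (V * slotB (oldL N) j)) -
            pS θ (Y * X * neg (V * slotE _ ξ))| ≤ err Y * pS θ Y

theorem per_Z (h0 : 0 ≤ θ) (hθ1 : θ ≤ 1) {N : ℕ} [NeZero N] {m : ℕ} {a : ℝ} (ha : 0 ≤ a) {ε : ℝ}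
    (hε : 0 ≤ ε) (hPi : ∀ ξ : Ms (Nest ℝ j), GoodM R01 ξ → 1 ≤ PiF θ (m + 1) a ξ)
    {Z : Ms (Nest ((Fin (N + 1) → Bool) → ℝ) j)} (hZ : GoodM U01 Z) (hP : GoodM (PP N) Z)
    (hD : Dec θ ε N Z)
    {l₁ l₂ : ℝ} (h1 : 0 ≤ l₁) (h1' : l₁ ≤ (m + 1) * a) (h2 : 0 ≤ l₂) (h2' : l₂ ≤ m * a) :
    (Real.exp (-(m * a - l₂)) - 4 * (m + 1) ^ 2 * a * ε * Real.exp (m * a)) *
      (∑' J, poi l₂ J * pS θ (pb (g0 N) (Z * Cc N m j ^ J))) ≤
      ∑' J, poi l₁ J * pS θ (Z * Dc N m j ^ J) := by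
  obtain ⟨ν, err, hν, hb, he, hs⟩ := hD
  have key := hs.I_mono hν.1 (f := fun Y => Real.exp (-(m * a - l₂)) *
      (∑' J, poi l₂ J * pS θ (pb (g0 N) (Y * Cc N m j ^ J))) -
      2 * (m + 1) ^ 2 * a * (err Y * pS θ Y))
    (g := fun Y => ∑' J, poi l₁ J * pS θ (Y * Dc N m j ^ J)) (by
      rintro Y ⟨hY, hYP, he0, ξ, hξ, h⟩
      exact per_Y h0 ha hY hYP hξ (hPi ξ hξ) (mul_nonneg he0 (pS_nonneg hY)) h h1 h1' h2 h2')
  rw [I_sub_fun, I_const_mul, I_const_mul,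
    I_tsum ν _ (fun Y hY => summable_pS h0 h1 (hs Y hY).1 (good_Dc N m j)),
    I_tsum ν _ (fun Y hY => by
      simp only [pb_mul, pb_pow]
      exact summable_pS h0 h2 (good_pb _ (hs Y hY).1) (good_pb _ (good_Cc N m j)))] at key
  have e1 : ∀ J, I ν (fun Y => poi l₁ J * pS θ (Y * Dc N m j ^ J)) =
      poi l₁ J * pS θ (Z * Dc N m j ^ J) := fun J => by
    rw [I_const_mul, ← hb, bind_mul, pS, pre_bind]; rfl
  have e2 : ∀ J, I ν (fun Y => poi l₂ J * pS θ (pb (g0 N) (Y * Cc N m j ^ J))) =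
      poi l₂ J * pS θ (pb (g0 N) (Z * Cc N m j ^ J)) := fun J => by
    rw [I_const_mul, ← hb, bind_mul, pb_bind, pS, pre_bind]; rfl
  simp only [e1, e2] at key
  set Bz := ∑' J, poi l₂ J * pS θ (pb (g0 N) (Z * Cc N m j ^ J)) with hBz
  have b1 : Real.exp (-l₂) * pS θ (pb (g0 N) Z) ≤ Bz := by
    rw [hBz]
    simp only [pb_mul, pb_pow]
    exact le_tsum_pS h0 h2 (good_pb _ hZ) (good_pb _ (good_Cc N m j))
  have hy0 : 0 ≤ pS θ (pb (g0 N) Z) := pS_nonneg (good_pb _ hZ)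
  have b2 : pS θ Z ≤ 2 * pS θ (pb (g0 N) Z) := by
    rw [pS_PP hZ hP]
    refine mul_le_mul_of_nonneg_right ?_ hy0
    calc (2 : ℝ) ^ (θ ^ j) ≤ 2 ^ (1 : ℝ) :=
          Real.rpow_le_rpow_of_exponent_le (by norm_num) (pow_le_one₀ h0 hθ1)
      _ = 2 := Real.rpow_one _
  have b3 : pS θ (pb (g0 N) Z) ≤ Real.exp (m * a) * Bz := by
    have c1 := mul_le_mul_of_nonneg_left b1 (Real.exp_pos (m * a)).le
    have c2 : 1 ≤ Real.exp (m * a) * Real.exp (-l₂) := by
      rw [← Real.exp_add]; exact Real.one_le_exp (by linarith)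
    nlinarith
  have b4 : I ν (fun Y => err Y * pS θ Y) ≤ ε * (2 * (Real.exp (m * a) * Bz)) :=
    he.trans (mul_le_mul_of_nonneg_left (by linarith) hε)
  have b5 := mul_le_mul_of_nonneg_left b4 (show 0 ≤ 2 * ((m : ℝ) + 1) ^ 2 * a by positivity)
  nlinarith

/-- The pinned annealed value. -/
noncomputable def Phi (θ : ℝ) (k : ℕ) (a : ℝ) (Pm : ∀ i, Ms (Nest (Option Bool) i)) (R j N : ℕ) :
    ℝ := ∑' M, poi (a * N) M * pS θ (pinsM (lit N) Pm R j * neg (slotB (lit N) j ^ k) ^ M)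

theorem one_sub_pow_le {q : ℝ} (hq : q ≤ 1) (n : ℕ) : 1 - (1 - q) ^ n ≤ n * q := by
  have := one_add_mul_le_pow (a := -q) (by linarith) n
  rw [← sub_eq_add_neg] at this
  linarith

theorem le_one_sub_pow {q : ℝ} (hq0 : 0 ≤ q) (hq : q ≤ 1) (n : ℕ) :
    n * q * (1 - q) ^ n ≤ 1 - (1 - q) ^ n := by
  induction n with
  | zero => simp
  | succ n ih =>
    have h1 : 0 ≤ 1 - q := by linarith
    have h2 : 0 ≤ (1 - q) ^ n := pow_nonneg h1 n
    have h3 : (1 - q) ^ (n + 1) ≤ (1 - q) ^ n := pow_le_pow_of_le_one h1 (by linarith) (by omega)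
    have h4 : (n : ℝ) * q * (1 - q) ^ (n + 1) ≤ n * q * (1 - q) ^ n :=
      mul_le_mul_of_nonneg_left h3 (by positivity)
    have h5 := mul_le_mul_of_nonneg_left h3 hq0
    push_cast
    rw [pow_succ] at *
    nlinarith

theorem step (h0 : 0 ≤ θ) (hθ1 : θ ≤ 1) {N : ℕ} [NeZero N] {m : ℕ} {a : ℝ} (ha : 0 ≤ a) {ε : ℝ}
    (hε : 0 ≤ ε) (hPi : ∀ ξ : Ms (Nest ℝ j), GoodM R01 ξ → 1 ≤ PiF θ (m + 1) a ξ)
    {Pm : ∀ i, Ms (Nest (Option Bool) i)} (hPm : ∀ i, GoodM Any (Pm i)) (R : ℕ)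
    (hD : ∀ M, Dec θ ε N (Cc N m j ^ M * pinsM (oldL N) Pm R j))
    {p : ℝ} (hp : p = (N : ℝ) / (N + 1)) {κ : ℝ}
    (hκ : κ ≤ p ^ ((j + 1) * R) * Real.exp (-((m + 1) * a * (1 - p ^ m))) *
      (Real.exp (-(m * a * (1 - p ^ (m + 1)))) - 4 * (m + 1) ^ 2 * a * ε * Real.exp (m * a))) :
    κ * Phi θ (m + 1) a Pm R j N ≤ Phi θ (m + 1) a Pm R j (N + 1) := by
  have hN : 0 < N := Nat.pos_of_ne_zero (NeZero.ne N)
  have hN' : (0 : ℝ) < N := by exact_mod_cast hN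
  set q : ℝ := 1 / ((N : ℝ) + 1) with hq
  have hq0 : 0 < q := by positivity
  have hpq : p = 1 - q := by rw [hp, hq]; field_simp; ring
  have hp0 : 0 < p := by rw [hp]; positivity
  have hp1 : p ≤ 1 := by linarith
  have hNq : (N : ℝ) * q = p := by rw [hp, hq]; field_simp
  have hN1q : ((N : ℝ) + 1) * q = 1 := by rw [hq]; field_simp
  have hm0 : (0 : ℝ) ≤ m := Nat.cast_nonneg _
  set l₀ : ℝ := a * (N + 1) * p ^ (m + 1) with hl₀
  set l₁ : ℝ := (m + 1) * a * p ^ m with hl₁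
  set l₂ : ℝ := a * N * (1 - p ^ m) with hl₂
  have hpm : p ^ m ≤ 1 := pow_le_one₀ hp0.le hp1
  have h00 : 0 ≤ l₀ := by positivity
  have h1 : 0 ≤ l₁ := by positivity
  have h1' : l₁ ≤ (m + 1) * a := mul_le_of_le_one_right (by positivity) hpm
  have h2 : 0 ≤ l₂ := mul_nonneg (by positivity) (by linarith)
  have h2' : l₂ ≤ m * a := by
    have := one_sub_pow_le (q := q) (by linarith) m
    rw [← hpq] at this
    calc l₂ ≤ a * N * (m * q) := mul_le_mul_of_nonneg_left this (by positivity)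
      _ = m * a * p := by rw [← hNq]; ring
      _ ≤ _ := mul_le_of_le_one_right (by positivity) hp1
  have h2'' : m * a * p ^ (m + 1) ≤ l₂ := by
    have := le_one_sub_pow hq0.le (by linarith) m
    rw [← hpq] at this
    calc m * a * p ^ (m + 1) = a * N * (m * q * p ^ m) := by rw [pow_succ, ← hNq]; ring
      _ ≤ l₂ := mul_le_mul_of_nonneg_left this (by positivity)
  have hsum : a * N = l₀ + l₂ := by
    have : ((N : ℝ) + 1) * p = N := by rw [hp]; field_simp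
    rw [hl₀, hl₂, pow_succ]
    linear_combination (-(a * p ^ m)) * this
  have hδ : a * (N + 1) - (l₀ + l₁) ≤ (m + 1) * a * (1 - p ^ m) := by
    have := one_sub_pow_le (q := q) (by linarith) (m + 1)
    rw [← hpq] at this
    have h3 := mul_le_mul_of_nonneg_left this (show 0 ≤ a * (N + 1) by positivity)
    push_cast at h3
    have h4 : a * (N + 1) * ((m + 1) * q) = (m + 1) * a := by
      linear_combination (a * (m + 1)) * hN1q
    rw [hl₀, hl₁]; nlinarith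
  set Pn := pinsM (oldL N) Pm R j with hPn
  have gP : GoodM U01 Pn := goodM_pinsM (U01_oldL N) hPm R j
  have gPP : GoodM (PP N) Pn := goodM_pinsM' (PP_one N) (PP_mul N) (PP_test N) hPm R j
  have gC := good_Cc N m j
  have gD := good_Dc N m j
  set C := Cc N m j with hC
  set D := Dc N m j with hDc
  set C' := neg (slotB (lit (N + 1)) j ^ (m + 1)) with hC'
  have gC' : GoodM U01 C' := ((goodM_slotB (U01_lit _) j).powU _).neg
  have gP' : GoodM U01 (pinsM (lit (N + 1)) Pm R j) := goodM_pinsM (U01_lit _) hPm R j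
  -- the value with `N` variables
  have eN : Phi θ (m + 1) a Pm R j N =
      ∑' i, poi l₀ i * ∑' J, poi l₂ J * pS θ (pb (g0 N) (C ^ i * Pn * C ^ J)) := by
    unfold Phi
    rw [hsum, poi_merge h0 h00 h2 (goodM_pinsM (U01_lit _) hPm R j)
      ((goodM_slotB (U01_lit _) j).powU _).neg]
    simp only [pb_mul, pb_pow, hC, hPn, Cc, pb_neg, pb_slotB, pb_pinsM, oldL_g0]
    simp only [mul_comm (pinsM (lit N) Pm R j)]
  -- domination
  have hslot : slotB (lit (N + 1)) j = p • slotB (oldL N) j + q • slotB (newL N) j := by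
    rw [hp]; exact avg_split hN _
  have hpin : ∀ i, Pos (pinP (lit (N + 1)) (Pm i) - p • pinP (oldL N) (Pm i)) := fun i => by
    have : pinP (lit (N + 1)) (Pm i) = p • pinP (oldL N) (Pm i) + q • pinP (newL N) (Pm i) := by
      rw [hp]; exact avg_split hN _
    rw [this, add_sub_cancel_left]
    exact (pos_of_good (goodM_pinP (U01_newL N) (hPm i))).smul hq0.le
  set W := p ^ (m + 1) • C + ((m + 1) * p ^ m * q) • D with hW
  have pW : Pos W := ((pos_of_good gC).smul (by positivity)).add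
    ((pos_of_good gD).smul (by positivity))
  have hdom : Pos (C' - W) := by
    have := (pos_binom ((pos_of_good (goodM_slotB (U01_oldL N) j)).smul hp0.le)
      ((pos_of_good (goodM_slotB (U01_newL N) j)).smul hq0.le) m).neg
    rw [neg_sub, ← hslot, neg_add, smul_pow, smul_pow, smul_mul_smul_comm, smul_smul, neg_smul,
      neg_smul] at this
    rw [hW, show ((m : ℝ) + 1) * p ^ m * q = (m + 1) * (q * p ^ m) by ring]
    exact this
  have hlam : (a * (N + 1)) • W = l₀ • C + l₁ • D := by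
    rw [hW, smul_add, smul_smul, smul_smul]
    congr 2
    rw [hl₁]
    linear_combination (a * (m + 1) * p ^ m) * hN1q
  have t1 : ∀ M : ℕ, p ^ ((j + 1) * R) * Real.exp (-((m + 1) * a * (1 - p ^ m))) *
      (Real.exp (-(l₀ + l₁)) / (M.factorial : ℝ) * pS θ (Pn * (l₀ • C + l₁ • D) ^ M)) ≤
      poi (a * ((N + 1 : ℕ) : ℝ)) M * pS θ (pinsM (lit (N + 1)) Pm R j * C' ^ M) := by
    intro M
    have a1 := pinsM_cmp h0 hθ1 (U01_oldL N) (U01_lit (N + 1)) hPm hp0 hp1 hpin R j (C' ^ M)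
      (gC'.powU M)
    have a2 : pS θ (Pn * W ^ M) ≤ pS θ (C' ^ M * Pn) := by
      refine pS_le_of_pos ?_
      rw [mul_comm (C' ^ M), ← mul_sub]
      exact (pos_of_good gP).mul (pos_pow_sub pW (pos_of_good gC') hdom M)
    have a3 : 0 ≤ pS θ (Pn * W ^ M) := ((pos_of_good gP).mul (pW.pow M)).pS_nonneg
    have a4 : Real.exp (-((m + 1) * a * (1 - p ^ m))) * Real.exp (-(l₀ + l₁)) ≤
        Real.exp (-(a * (N + 1))) := by
      rw [← Real.exp_add]; exact Real.exp_le_exp.2 (by linarith)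
    rw [← hlam, smul_pow, mul_smul_comm, pS_smul, mul_comm (pinsM (lit (N + 1)) Pm R j), poi]
    push_cast
    calc _ = (Real.exp (-((m + 1) * a * (1 - p ^ m))) * Real.exp (-(l₀ + l₁))) *
          ((a * (N + 1)) ^ M / M.factorial) * (p ^ ((j + 1) * R) * pS θ (Pn * W ^ M)) := by ring
      _ ≤ Real.exp (-(a * (N + 1))) * ((a * (N + 1)) ^ M / M.factorial) *
          pS θ (C' ^ M * pinsM (lit (N + 1)) Pm R j) := by
          refine mul_le_mul (mul_le_mul_of_nonneg_right a4 (by positivity))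
            ((mul_le_mul_of_nonneg_left a2 (by positivity)).trans a1) (by positivity)
            (by positivity)
      _ = _ := by ring
  have t2 := hasSum_le t1 ((poi_split_pS h0 h00 h1 gP gC gD).mul_left _)
    (summable_pS h0 (by positivity) gP' gC').hasSum
  set η := Real.exp (-(m * a * (1 - p ^ (m + 1)))) - 4 * (m + 1) ^ 2 * a * ε * Real.exp (m * a)
    with hη
  have hBi : ∀ i, 0 ≤ ∑' J, poi l₂ J * pS θ (pb (g0 N) (C ^ i * Pn * C ^ J)) ∧
      ∑' J, poi l₂ J * pS θ (pb (g0 N) (C ^ i * Pn * C ^ J)) ≤ pS θ (pb (g0 N) Pn) := by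
    intro i
    have g1 := good_pb (g0 N) ((gC.powU i).mulU gP)
    have g2 := good_pb (g0 N) gC
    simp only [pb_mul (g0 N) (C ^ i * Pn), pb_pow]
    refine ⟨tsum_pS_nonneg h2 g1 g2, (tsum_pS_le h0 h2 g1 g2).trans ?_⟩
    rw [mul_comm, pb_mul]
    exact pS_mul_le h0 (good_pb _ gP) (good_pb _ (gC.powU i))
  have t3 : η * Phi θ (m + 1) a Pm R j N ≤
      ∑' i, poi l₀ i * ∑' J, poi l₁ J * pS θ (Pn * C ^ i * D ^ J) := by
    rw [eN, ← tsum_mul_left]
    refine Summable.tsum_le_tsum (fun i => ?_) (Summable.mul_left _ ?_) ?_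
    · have b1 := per_Z h0 hθ1 ha hε hPi ((gC.powU i).mulU gP)
        (((PP_Cc N m j).pow (PP_one N) (PP_mul N) i).mul (PP_mul N) gPP) (hD i) h1 h1' h2 h2'
      have b2 : Real.exp (-(m * a * (1 - p ^ (m + 1)))) ≤ Real.exp (-(m * a - l₂)) :=
        Real.exp_le_exp.2 (by linarith)
      rw [mul_left_comm, mul_comm Pn]
      refine mul_le_mul_of_nonneg_left (le_trans ?_ b1) (poi_nonneg h00 i)
      exact mul_le_mul_of_nonneg_right (by linarith) (hBi i).1
    · exact summable_poi_mul h00 fun i => by rw [abs_of_nonneg (hBi i).1]; exact (hBi i).2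
    · refine summable_poi_mul h00 (B := pS θ Pn) fun i => ?_
      rw [abs_of_nonneg (tsum_pS_nonneg h1 (gP.mulU (gC.powU i)) gD)]
      exact (tsum_pS_le h0 h1 (gP.mulU (gC.powU i)) gD).trans (pS_mul_le h0 gP (gC.powU i))
  have hΦ : 0 ≤ Phi θ (m + 1) a Pm R j N := tsum_pS_nonneg (by positivity)
    (goodM_pinsM (U01_lit _) hPm R j) ((goodM_slotB (U01_lit _) j).powU _).neg
  calc κ * Phi θ (m + 1) a Pm R j N
      ≤ p ^ ((j + 1) * R) * Real.exp (-((m + 1) * a * (1 - p ^ m))) * η *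
        Phi θ (m + 1) a Pm R j N := mul_le_mul_of_nonneg_right hκ hΦ
    _ ≤ _ := by
      rw [mul_assoc]
      exact (mul_le_mul_of_nonneg_left t3 (by positivity)).trans t2

theorem Phi_pos (h0 : 0 ≤ θ) {N : ℕ} [NeZero N] (k : ℕ) {a : ℝ} (ha : 0 ≤ a)
    {Pm : ∀ i, Ms (Nest (Option Bool) i)} (hPm : ∀ i, GoodM Any (Pm i)) (R : ℕ) :
    0 < Phi θ k a Pm R j N := by
  refine lt_of_lt_of_le ?_ (le_tsum_pS h0 (by positivity) (goodM_pinsM (U01_lit _) hPm R j)
    ((goodM_slotB (U01_lit _) j).powU _).neg)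
  refine mul_pos (Real.exp_pos _) (pre_pos (v := sumv)
    (P := fun x : (Fin N → Bool) → ℝ => ∀ σ, 0 < x σ) (fun x hx => Finset.sum_pos (fun σ _ => hx σ) Finset.univ_nonempty) ?_)
  refine goodM_pinsM' (fun _ => one_pos) (fun x y hx hy σ => mul_pos (hx σ) (hy σ))
    (fun l o σ => ?_) hPm R j
  linarith [(tv_mem (U01_lit N l σ) o).2]

theorem Phi_le (h0 : 0 < θ) {N : ℕ} [NeZero N] (k : ℕ) {a : ℝ} (ha : 0 ≤ a)
    {Pm : ∀ i, Ms (Nest (Option Bool) i)} (hPm : ∀ i, GoodM Any (Pm i)) (R : ℕ) :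
    Phi θ k a Pm R j N ≤ (2 : ℝ) ^ (θ ^ j * N) * poiProb k a N := by
  have gP := goodM_pinsM (U01_lit N) hPm R j
  have gC : GoodM U01 (neg (slotB (lit N) j ^ k)) := ((goodM_slotB (U01_lit _) j).powU _).neg
  have hx : 0 ≤ a * N := by positivity
  unfold Phi poiProb
  rw [← tsum_mul_left]
  refine Summable.tsum_le_tsum (fun M => ?_) (summable_pS h0.le hx gP gC) (Summable.mul_left _ ?_)
  · rw [mul_left_comm, mul_comm (pinsM _ _ _ _)]
    exact mul_le_mul_of_nonneg_left ((pS_mul_le h0.le (gC.powU M) gP).trans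
      (clause_power_upper h0 k N M j)) (poi_nonneg hx M)
  · refine summable_poi_mul hx (B := 1) fun M => ?_
    unfold replProb Crest.FinProb.uniformProb
    rw [abs_of_nonneg (by positivity)]
    refine div_le_one_of_le₀ ?_ (by positivity)
    exact_mod_cast Finset.card_le_univ _

end Crest.Agent.R153.ASS
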