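import Crest.Agent.R153.Sib

/-!
Row 153, task R153-D2a: hierarchical moments are uniform limits of linear combinations of losses.

Fix `j`.  Domain `Dom θ j` = tuples `(S, Fintype S, s, U01 s, X, Good U01 X, 0 < vS θ X)`.
`Approx P Φ f` := for all `η > 0` there is a signed `Λ` supported on `P` with
`|f - I Λ (V ↦ Φ V ·)| ≤ η` uniformly.  `Approx` is closed under sums, scalar multiples and uniform
limits.  Powers are extracted from `1 - (1 - δ g)^θ` as `δ → 0`, products by polarisation.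
-/

set_option autoImplicit false

namespace Crest.Agent.R153

open Ms Nest

namespace D2a

universe u

section abstract

variable {D : Type u} {M : Type} {P : M → Prop} {Φ : M → D → ℝ}

/-- Uniform limits of finite linear combinations of the functions `Φ V`, `P V`. -/
def Approx (P : M → Prop) (Φ : M → D → ℝ) (f : D → ℝ) : Prop :=
  ∀ η : ℝ, 0 < η → ∃ Λ : Ms M, Λ.Supp P ∧ ∀ d, |f d - I Λ (fun V => Φ V d)| ≤ η

theorem Approx.congr {f g : D → ℝ} (h : Approx P Φ f) (hfg : ∀ d, f d = g d) : Approx P Φ g := by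
  have : f = g := funext hfg
  rwa [← this]

theorem approx_basic {V : M} (hV : P V) : Approx P Φ (Φ V) := fun η hη =>
  ⟨dirac V, supp_dirac hV, fun d => by simpa using hη.le⟩

theorem approx_zero : Approx P Φ (fun _ => 0) := fun η hη =>
  ⟨0, supp_zero _, fun d => by simpa using hη.le⟩

theorem Approx.add {f g : D → ℝ} (hf : Approx P Φ f) (hg : Approx P Φ g) :
    Approx P Φ (fun d => f d + g d) := by
  intro η hη
  obtain ⟨Λ, h1, h2⟩ := hf (η / 2) (by positivity)
  obtain ⟨Λ', h1', h2'⟩ := hg (η / 2) (by positivity)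
  refine ⟨Λ + Λ', h1.add h1', fun d => ?_⟩
  rw [I_add]
  have := h2 d
  have := h2' d
  rw [abs_le] at *
  constructor <;> linarith [this.1, this.2, (abs_le.1 (h2 d)).1, (abs_le.1 (h2 d)).2]

theorem Approx.smul {f : D → ℝ} (hf : Approx P Φ f) (a : ℝ) : Approx P Φ (fun d => a * f d) := by
  intro η hη
  obtain ⟨Λ, h1, h2⟩ := hf (η / (|a| + 1)) (by positivity)
  refine ⟨a • Λ, h1.smul a, fun d => ?_⟩
  rw [I_smul, ← mul_sub, abs_mul]
  calc |a| * |f d - I Λ fun V => Φ V d| ≤ (|a| + 1) * (η / (|a| + 1)) :=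
        mul_le_mul (by linarith) (h2 d) (abs_nonneg _) (by positivity)
    _ = η := by field_simp

theorem Approx.sub {f g : D → ℝ} (hf : Approx P Φ f) (hg : Approx P Φ g) :
    Approx P Φ (fun d => f d - g d) :=
  (hf.add (hg.smul (-1))).congr fun d => by ring

theorem approx_sum {ι : Type*} (s : Finset ι) {f : ι → D → ℝ} (h : ∀ i ∈ s, Approx P Φ (f i)) :
    Approx P Φ (fun d => ∑ i ∈ s, f i d) := by
  classical
  induction s using Finset.induction_on with
  | empty => simpa using approx_zero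
  | insert i s hi ih =>
    refine ((h i (Finset.mem_insert_self _ _)).add
      (ih fun k hk => h k (Finset.mem_insert_of_mem hk))).congr fun d => ?_
    rw [Finset.sum_insert hi]

theorem approx_I {N : Type} {Λ : Ms N} {Q : N → Prop} (hΛ : Λ.Supp Q) {f : N → D → ℝ}
    (h : ∀ c, Q c → Approx P Φ (f c)) : Approx P Φ (fun d => I Λ fun c => f c d) := by
  simp only [I_eq_sum]
  exact approx_sum _ fun c hc => (h c (hΛ c (Finsupp.mem_support_iff.1 hc))).smul _

theorem approx_of_lim {f : D → ℝ}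
    (h : ∀ η : ℝ, 0 < η → ∃ g, Approx P Φ g ∧ ∀ d, |f d - g d| ≤ η) : Approx P Φ f := by
  intro η hη
  obtain ⟨g, hg, h1⟩ := h (η / 2) (by positivity)
  obtain ⟨Λ, h2, h3⟩ := hg (η / 2) (by positivity)
  refine ⟨Λ, h2, fun d => ?_⟩
  have a1 := abs_le.1 (h1 d)
  have a2 := abs_le.1 (h3 d)
  rw [abs_le]
  constructor <;> linarith [a1.1, a1.2, a2.1, a2.2]

/-- Extraction of the leading coefficient. -/
theorem approx_lead {G : D → ℝ} {F : ℝ → D → ℝ} {c C : ℝ} (hc : 0 < c) (p : ℕ)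
    (hF : ∀ δ, 0 < δ → δ ≤ 1 → Approx P Φ (F δ))
    (hb : ∀ δ, 0 < δ → δ ≤ 1 → ∀ d, |F δ d - c * δ ^ p * G d| ≤ C * δ ^ (p + 1)) :
    Approx P Φ G := by
  refine approx_of_lim fun η hη => ?_
  set δ : ℝ := min 1 (η * c / (|C| + 1)) with hδ
  have hδ0 : 0 < δ := lt_min one_pos (by positivity)
  have hδ1 : δ ≤ 1 := min_le_left _ _
  have hδ2 : δ ≤ η * c / (|C| + 1) := min_le_right _ _
  refine ⟨fun d => (c * δ ^ p)⁻¹ * F δ d, (hF δ hδ0 hδ1).smul _, fun d => ?_⟩
  have hpos : 0 < c * δ ^ p := by positivity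
  have e : G d - (c * δ ^ p)⁻¹ * F δ d = -((c * δ ^ p)⁻¹ * (F δ d - c * δ ^ p * G d)) := by
    field_simp; ring
  rw [e, abs_neg, abs_mul, abs_of_pos (inv_pos.2 hpos), inv_mul_le_iff₀ hpos]
  refine (hb δ hδ0 hδ1 d).trans ?_
  have h3 : (|C| + 1) * δ ≤ η * c := by
    rw [le_div_iff₀ (by positivity)] at hδ2; linarith
  have h4 : C * δ ≤ η * c := by
    have := le_abs_self C
    nlinarith
  calc C * δ ^ (p + 1) = (C * δ) * δ ^ p := by ring
    _ ≤ (η * c) * δ ^ p := mul_le_mul_of_nonneg_right h4 (by positivity)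
    _ = c * δ ^ p * η := by ring

theorem second_order (p : ℕ) : ∃ C : ℝ, 0 ≤ C ∧ ∀ h x : ℝ, 0 ≤ h → h ≤ 1 → 0 ≤ x → x ≤ 1 →
    |(h + x) ^ (p + 1) - h ^ (p + 1) - (p + 1) * h ^ p * x| ≤ C * x ^ 2 := by
  induction p with
  | zero => exact ⟨0, le_rfl, fun h x _ _ _ _ => by simp⟩
  | succ p ih =>
    obtain ⟨C, hC, hb⟩ := ih
    refine ⟨2 * C + (p + 1), by positivity, fun h x h0 h1 x0 x1 => ?_⟩
    have e : (h + x) ^ (p + 1 + 1) - h ^ (p + 1 + 1) - (((p + 1 : ℕ) : ℝ) + 1) * h ^ (p + 1) * x =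
        (h + x) * ((h + x) ^ (p + 1) - h ^ (p + 1) - (p + 1) * h ^ p * x) +
          (p + 1) * h ^ p * x ^ 2 := by
      push_cast; ring
    rw [e]
    refine (abs_add_le _ _).trans ?_
    rw [abs_mul, abs_of_nonneg (by positivity : 0 ≤ h + x),
      abs_of_nonneg (by positivity : 0 ≤ ((p : ℝ) + 1) * h ^ p * x ^ 2)]
    have a1 : (h + x) * |(h + x) ^ (p + 1) - h ^ (p + 1) - (p + 1) * h ^ p * x| ≤
        2 * (C * x ^ 2) := mul_le_mul (by linarith) (hb h x h0 h1 x0 x1) (abs_nonneg _) (by norm_num)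
    have a2 : ((p : ℝ) + 1) * h ^ p * x ^ 2 ≤ (p + 1) * 1 * x ^ 2 :=
      mul_le_mul_of_nonneg_right
        (mul_le_mul_of_nonneg_left (pow_le_one₀ h0 h1) (by positivity)) (by positivity)
    linarith

theorem prod_mem' {α : Type u} (ts : List α) (f : α → ℝ) (h : ∀ t ∈ ts, 0 ≤ f t ∧ f t ≤ 1) :
    0 ≤ (ts.map f).prod ∧ (ts.map f).prod ≤ 1 := by
  induction ts with
  | nil => simp
  | cons t ts ih =>
    have h1 := h t (by simp)
    have h2 := ih fun u hu => h u (by simp [hu])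
    simp only [List.map_cons, List.prod_cons]
    exact ⟨mul_nonneg h1.1 h2.1, mul_le_one₀ h1.2 h2.1 h2.2⟩

variable {θ : ℝ} {𝒢 : (D → ℝ) → Prop}

theorem approx_pow (h0 : 0 < θ) (h1 : θ < 1) (hone : Approx P Φ fun _ => 1)
    (hmem : ∀ g, 𝒢 g → ∀ d, 0 ≤ g d ∧ g d ≤ 1)
    (hsc : ∀ g, 𝒢 g → ∀ δ : ℝ, 0 ≤ δ → δ ≤ 1 → 𝒢 fun d => δ * g d)
    (hφ : ∀ g, 𝒢 g → Approx P Φ fun d => 1 - (1 - g d) ^ θ) {g : D → ℝ} (hg : 𝒢 g) (p : ℕ) :
    Approx P Φ fun d => g d ^ p := by
  induction p using Nat.strong_induction_on with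
  | _ p ih =>
    rcases Nat.eq_zero_or_pos p with rfl | hp
    · simpa using hone
    refine approx_lead (c := sib θ p) (C := 1)
      (F := fun δ d => 1 - (1 - δ * g d) ^ θ - ∑ q ∈ Finset.range p, sib θ q * δ ^ q * g d ^ q)
      (sib_pos h0 h1 hp) p (fun δ hδ0 hδ1 => ?_) (fun δ hδ0 hδ1 d => ?_)
    · exact (hφ _ (hsc g hg δ hδ0.le hδ1)).sub
        (approx_sum _ fun q hq => (ih q (Finset.mem_range.1 hq)).smul _)
    · have hx0 : 0 ≤ δ * g d := mul_nonneg hδ0.le (hmem g hg d).1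
      have hxδ : δ * g d ≤ δ := mul_le_of_le_one_right hδ0.le (hmem g hg d).2
      have hr := sib_remainder h0 h1.le hx0 (hxδ.trans hδ1) p
      have hs : 0 ≤ ∑ q ∈ Finset.range (p + 1), sib θ q :=
        Finset.sum_nonneg fun q _ => sib_nonneg h0.le h1.le q
      have hpw : (δ * g d) ^ (p + 1) ≤ δ ^ (p + 1) := pow_le_pow_left₀ hx0 hxδ _
      have hpw0 : 0 ≤ (δ * g d) ^ (p + 1) := pow_nonneg hx0 _
      have e : 1 - (1 - δ * g d) ^ θ - ∑ q ∈ Finset.range p, sib θ q * δ ^ q * g d ^ q -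
          sib θ p * δ ^ p * g d ^ p =
          1 - (1 - δ * g d) ^ θ - ∑ q ∈ Finset.range (p + 1), sib θ q * (δ * g d) ^ q := by
        rw [Finset.sum_range_succ]
        simp only [mul_pow, mul_assoc]
        ring
      rw [e, abs_of_nonneg hr.1]
      refine hr.2.trans ?_
      nlinarith

theorem approx_prod_pow (hmem : ∀ g, 𝒢 g → ∀ d, 0 ≤ g d ∧ g d ≤ 1)
    (hsc : ∀ g, 𝒢 g → ∀ δ : ℝ, 0 ≤ δ → δ ≤ 1 → 𝒢 fun d => δ * g d)
    (hmid : ∀ g h, 𝒢 g → 𝒢 h → 𝒢 fun d => (g d + h d) / 2)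
    (hpow : ∀ g, 𝒢 g → ∀ p : ℕ, Approx P Φ fun d => g d ^ p) (gs : List (D → ℝ))
    (hgs : ∀ g ∈ gs, 𝒢 g) : ∀ h, 𝒢 h → ∀ p : ℕ,
      Approx P Φ fun d => (gs.map fun g => g d).prod * h d ^ p := by
  induction gs with
  | nil => intro h hh p; simpa using hpow h hh p
  | cons g gs ih =>
    intro h hh p
    have ih' := ih fun k hk => hgs k (List.mem_cons_of_mem _ hk)
    have hg : 𝒢 g := hgs g List.mem_cons_self
    obtain ⟨C, hC, hb⟩ := second_order p
    refine approx_lead (c := (p : ℝ) + 1) (C := C)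
      (F := fun δ d => 2 ^ (p + 1) * ((gs.map fun g => g d).prod * ((h d + δ * g d) / 2) ^ (p + 1)) -
        (gs.map fun g => g d).prod * h d ^ (p + 1))
      (by positivity) 1 (fun δ hδ0 hδ1 => ?_) (fun δ hδ0 hδ1 d => ?_)
    · exact ((ih' _ (hmid _ _ hh (hsc g hg δ hδ0.le hδ1)) (p + 1)).smul _).sub (ih' h hh (p + 1))
    · have hπ := prod_mem' gs (fun g => g d) fun k hk =>
        hmem k (hgs k (List.mem_cons_of_mem _ hk)) d
      have hx0 : 0 ≤ δ * g d := mul_nonneg hδ0.le (hmem g hg d).1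
      have hxδ : δ * g d ≤ δ := mul_le_of_le_one_right hδ0.le (hmem g hg d).2
      have hb' := hb (h d) (δ * g d) (hmem h hh d).1 (hmem h hh d).2 hx0 (hxδ.trans hδ1)
      have e : 2 ^ (p + 1) * ((gs.map fun g => g d).prod * ((h d + δ * g d) / 2) ^ (p + 1)) -
          (gs.map fun g => g d).prod * h d ^ (p + 1) -
          ((p : ℝ) + 1) * δ ^ 1 * (((g :: gs).map fun g => g d).prod * h d ^ p) =
          (gs.map fun g => g d).prod *
            ((h d + δ * g d) ^ (p + 1) - h d ^ (p + 1) - (p + 1) * h d ^ p * (δ * g d)) := by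
        simp only [List.map_cons, List.prod_cons, div_pow]
        field_simp
      rw [e, abs_mul, abs_of_nonneg hπ.1]
      calc _ ≤ 1 * (C * (δ * g d) ^ 2) := mul_le_mul hπ.2 hb' (abs_nonneg _) zero_le_one
        _ ≤ C * δ ^ (1 + 1) := by
          rw [one_mul]
          exact mul_le_mul_of_nonneg_left (pow_le_pow_left₀ hx0 hxδ 2) hC

theorem approx_prod_closure {N : Type} {Q : N → Prop} {Ψ : N → D → ℝ}
    (hΨ : ∀ c, Q c → 𝒢 (Ψ c)) (hmem : ∀ g, 𝒢 g → ∀ d, 0 ≤ g d ∧ g d ≤ 1)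
    (hprod : ∀ gs : List (D → ℝ), (∀ g ∈ gs, 𝒢 g) →
      Approx P Φ fun d => (gs.map fun g => g d).prod)
    (fs : List (D → ℝ)) (hfs : ∀ f ∈ fs, Approx Q Ψ f ∧ ∀ d, 0 ≤ f d ∧ f d ≤ 1) :
    ∀ gs : List (D → ℝ), (∀ g ∈ gs, 𝒢 g) →
      Approx P Φ fun d => (gs.map fun g => g d).prod * (fs.map fun f => f d).prod := by
  induction fs with
  | nil => intro gs hgs; simpa using hprod gs hgs
  | cons f fs ih =>
    intro gs hgs
    have ih' := ih fun k hk => hfs k (List.mem_cons_of_mem _ hk)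
    refine approx_of_lim fun η hη => ?_
    obtain ⟨Λ, hΛ, hb⟩ := (hfs f List.mem_cons_self).1 η hη
    refine ⟨fun d => I Λ fun c => ((Ψ c :: gs).map fun g => g d).prod * (fs.map fun f => f d).prod,
      approx_I hΛ fun c hc => ih' _ fun g hg => ?_, fun d => ?_⟩
    · rcases List.mem_cons.1 hg with rfl | hg
      · exact hΨ c hc
      · exact hgs g hg
    · have hπ := prod_mem' gs (fun g => g d) fun k hk => hmem k (hgs k hk) d
      have hπ' := prod_mem' fs (fun g => g d) fun k hk =>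
        (hfs k (List.mem_cons_of_mem _ hk)).2 d
      simp only [List.map_cons, List.prod_cons, mul_assoc, I_mul_const]
      have e : (gs.map fun g => g d).prod * (f d * (fs.map fun f => f d).prod) -
          (I Λ fun c => Ψ c d) * ((gs.map fun g => g d).prod * (fs.map fun f => f d).prod) =
          ((gs.map fun g => g d).prod * (fs.map fun f => f d).prod) *
            (f d - I Λ fun c => Ψ c d) := by ring
      rw [e, abs_mul, abs_of_nonneg (mul_nonneg hπ.1 hπ'.1)]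
      calc _ ≤ 1 * η := mul_le_mul (mul_le_one₀ hπ.2 hπ'.1 hπ'.2) (hb d) (abs_nonneg _) zero_le_one
        _ = η := one_mul η

end abstract

/-- The domain on which the approximation is uniform. -/
structure Dom (θ : ℝ) (j : ℕ) : Type 1 where
  S : Type
  fin : Fintype S
  s : S → ℝ
  hs : U01 s
  X : Nest (S → ℝ) j
  hX : Good U01 X
  hpos : 0 < @vS S j fin θ X

attribute [instance] Dom.fin

variable {θ : ℝ}

theorem GG_half {S : Type} [Fintype S] {j : ℕ} (s : S → ℝ) {X : Nest (S → ℝ) j} (hX : Good U01 X)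
    (hpos : 0 < vS θ X) : GG θ X (test s (det (some false) j)) = 1 - (1 / 2 : ℝ) ^ (θ ^ j) := by
  have h1 : vS θ (X * test s (det (some false) j)) = (1 / 2 : ℝ) ^ (θ ^ j) * vS θ X := by
    rw [test, map_det, mul_det, vS, val_map, vS,
      ← val_const_mul sumv_nonneg (by norm_num : (0 : ℝ) ≤ 1 / 2) hX]
    congr 1
    funext a
    simp only [sumv, Pi.mul_apply, tv, Finset.mul_sum]
    exact Finset.sum_congr rfl fun σ _ => by ring
  rw [GG, h1, mul_div_assoc, div_self hpos.ne', mul_one]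

theorem main (h0 : 0 < θ) (h1 : θ < 1) : ∀ (j : ℕ) (t : Tr j),
    Approx (D := Dom θ j) (Good Any) (fun V d => GG θ d.X (test d.s V)) fun d => mm θ t d.X d.s
  | 0, t => by
    refine ((approx_basic (V := leaf (some t.lbl)) trivial).smul 2).congr fun d => ?_
    have hpos : 0 < sumv (unleaf d.X) := d.hpos
    rw [mm_zero, GG, vS_zero, vS_zero, unleaf_mul, test, unleaf_map, unleaf_leaf]
    have e : sumv (unleaf d.X * fun σ => 1 - tv (some t.lbl) (d.s σ)) =
        sumv (unleaf d.X) - (∑ σ, unleaf d.X σ * lab t.lbl d.s σ) / 2 := by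
      simp only [sumv, Pi.mul_apply, Finset.sum_div, ← Finset.sum_sub_distrib]
      refine Finset.sum_congr rfl fun σ _ => ?_
      cases t.lbl <;> simp [tv, lab] <;> ring
    rw [e]
    field_simp
    ring
  | j + 1, t => by
    let 𝒢 : (Dom θ (j + 1) → ℝ) → Prop := fun g =>
      ∃ W : Ms (Nest (Option Bool) j), GoodM Any W ∧ g = fun d => GP θ (dn d.X) (testM d.s W)
    have hp : ∀ d : Dom θ (j + 1), 0 < pS θ (dn d.X) := fun d => pS_pos_of_vS_pos h0 d.hX d.hpos
    have hmem : ∀ g, 𝒢 g → ∀ d, 0 ≤ g d ∧ g d ≤ 1 := by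
      rintro g ⟨W, hW, rfl⟩ d
      exact GP_mem h0.le d.hX (goodM_testM d.hs hW)
    have hmix : ∀ g h, 𝒢 g → 𝒢 h → ∀ a : ℝ, 0 ≤ a → a ≤ 1 →
        𝒢 fun d => (1 - a) * g d + a * h d := by
      rintro g h ⟨W, hW, rfl⟩ ⟨W', hW', rfl⟩ a a0 a1
      refine ⟨(1 - a) • W + a • W', goodM_mix hW hW' a0 a1, funext fun d => ?_⟩
      simp only [GP, testM, mapM_add, mapM_smul, mul_add, mul_smul_comm, pS_add, pS_smul]
      ring
    have hzero : 𝒢 fun _ => 0 := by
      refine ⟨dirac (det none j), goodM_dirac (good_det trivial j), funext fun d => ?_⟩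
      have e : testM d.s (dirac (det none j)) = 1 := by
        rw [testM, mapM_dirac, ← dirac_one]
        congr 1
        exact test_det_none d.s j
      rw [e, GP, mul_one, div_self (hp d).ne', sub_self]
    have hsc : ∀ g, 𝒢 g → ∀ δ : ℝ, 0 ≤ δ → δ ≤ 1 → 𝒢 fun d => δ * g d := by
      intro g hg δ δ0 δ1
      have := hmix _ _ hzero hg δ δ0 δ1
      simpa using this
    have hmid : ∀ g h, 𝒢 g → 𝒢 h → 𝒢 fun d => (g d + h d) / 2 := by
      intro g h hg hh
      have := hmix _ _ hg hh (1 / 2) (by norm_num) (by norm_num)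
      convert this using 2
      ring
    have hφ : ∀ g, 𝒢 g → Approx (D := Dom θ (j + 1)) (Good Any)
        (fun V d => GG θ d.X (test d.s V)) fun d => 1 - (1 - g d) ^ θ := by
      rintro g ⟨W, hW, rfl⟩
      refine (approx_basic (V := up W) hW).congr fun d => ?_
      exact GG_succ d.hX (good_test d.hs (V := up W) hW)
    have hone : Approx (D := Dom θ (j + 1)) (Good Any)
        (fun V d => GG θ d.X (test d.s V)) fun _ => 1 := by
      have hlt : (1 / 2 : ℝ) ^ (θ ^ (j + 1)) < 1 :=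
        Real.rpow_lt_one (by norm_num) (by norm_num) (pow_pos h0 _)
      refine ((approx_basic (V := det (some false) (j + 1)) (good_det trivial _)).smul
        (1 - (1 / 2 : ℝ) ^ (θ ^ (j + 1)))⁻¹).congr fun d => ?_
      rw [GG_half d.s d.hX d.hpos, inv_mul_cancel₀ (by linarith)]
    have hprod : ∀ gs : List (Dom θ (j + 1) → ℝ), (∀ g ∈ gs, 𝒢 g) →
        Approx (D := Dom θ (j + 1)) (Good Any) (fun V d => GG θ d.X (test d.s V))
          fun d => (gs.map fun g => g d).prod := by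
      intro gs hgs
      have := approx_prod_pow hmem hsc hmid
        (fun g hg p => approx_pow h0 h1 hone hmem hsc hφ hg p) gs hgs _ hzero 0
      simpa using this
    have hfin := approx_prod_closure (Q := Good Any)
      (Ψ := fun (V : Nest (Option Bool) j) (d : Dom θ (j + 1)) =>
        GP θ (dn d.X) (testM d.s (dirac V)))
      (fun c hc => ⟨dirac c, goodM_dirac hc, rfl⟩) hmem hprod
      (t.kids.map fun u d => mmP θ u (dn d.X) d.s) ?_ [] (by simp)
    · refine hfin.congr fun d => ?_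
      rw [mm_succ]
      simp [List.map_map, Function.comp_def]
    · intro f hf
      obtain ⟨u, -, rfl⟩ := List.mem_map.1 hf
      refine ⟨fun η hη => ?_, fun d => mmP_mem d.hs u d.hX⟩
      obtain ⟨Λ, hΛ, hb⟩ := main h0 h1 j u η hη
      refine ⟨Λ, hΛ, fun d => ?_⟩
      have e : (I Λ fun V => GP θ (dn d.X) (testM d.s (dirac V))) =
          I (tilt (dn d.X) (vS θ)) fun c => I Λ fun V => GG θ c (test d.s V) := by
        rw [I_comm]
        refine hΛ.I_congr fun V hV => ?_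
        rw [GP_eq h0.le d.hX (goodM_testM d.hs (goodM_dirac hV)) (hp d)]
        simp
      rw [e]
      simp only [mmP]
      rw [← I_sub_fun]
      refine (abs_I_le (NN_tilt_vS d.hX) _).trans ?_
      refine (prob_tilt_vS d.hX (hp d)).le_of_le fun c hc => ?_
      have hc' := supp_tilt_vS d.hX c hc
      exact hb ⟨d.S, d.fin, d.s, d.hs, c, hc'.1, hc'.2⟩

end D2a

theorem approx_mm {θ : ℝ} (h0 : 0 < θ) (h1 : θ < 1) (j : ℕ) (t : Tr j) {η : ℝ} (hη : 0 < η) :
    ∃ Λ : Ms (Nest (Option Bool) j), Λ.Supp (Good Any) ∧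
      ∀ (S : Type) [Fintype S] (s : S → ℝ), U01 s → ∀ X : Nest (S → ℝ) j, Good U01 X →
        0 < vS θ X → |mm θ t X s - I Λ (fun V => GG θ X (test s V))| ≤ η := by
  obtain ⟨Λ, hΛ, hb⟩ := D2a.main h0 h1 j t η hη
  exact ⟨Λ, hΛ, fun S inst s hs X hX hpos => hb ⟨S, inst, s, hs, X, hX, hpos⟩⟩

end Crest.Agent.R153
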