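import Crest.Agent.R153.D_Lev
import Crest.Agent.R153.D2a

/-!
Row 153: purity of the intermediate objects makes the total covariance of linear statistics small.
-/

set_option autoImplicit false

namespace Crest.Agent.R153

open Ms Nest

section taylor
variable {θ : ℝ}

theorem taylor1 (h0 : 0 < θ) (h1 : θ ≤ 1) {x : ℝ} (hx0 : 0 ≤ x) (hx1 : x ≤ 1) :
    |(1 - x) ^ θ - (1 - θ * x)| ≤ x ^ 2 ∧ |(1 - x) ^ θ - 1| ≤ x := by
  have h := sib_remainder h0 h1 hx0 hx1 1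
  simp only [Finset.sum_range_succ, Finset.range_zero, Finset.sum_empty, sib, zero_mul, zero_add,
    pow_one, Nat.reduceAdd] at h
  have hx2 : x ^ 2 ≤ x := by nlinarith
  have h3 : 0 ≤ θ * x := by positivity
  have h4 : 0 ≤ θ * x ^ 2 := by positivity
  have h5 : (1 - θ) * x ^ 2 ≤ (1 - θ) * x := mul_le_mul_of_nonneg_left hx2 (by linarith)
  constructor <;> rw [abs_le] <;> constructor <;> nlinarith [h.1, h.2]

theorem taylor2 (h0 : 0 < θ) (h1 : θ ≤ 1) {x y : ℝ} (hx0 : 0 ≤ x) (hx1 : x ≤ 1) (hy0 : 0 ≤ y)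
    (hy1 : y ≤ 1) :
    |(1 - x) ^ θ - (1 - y) ^ θ + θ * (x - y)| ≤ |x - y| * (x + y) + x ^ 3 + y ^ 3 := by
  have hx := sib_remainder h0 h1 hx0 hx1 2
  have hy := sib_remainder h0 h1 hy0 hy1 2
  have hs := sum_sib_le_one h0.le h1 3
  have hc := sib_nonneg h0.le h1 2
  simp only [Finset.sum_range_succ, Finset.range_zero, Finset.sum_empty, zero_add, pow_one,
    show sib θ 0 = 0 from rfl, show sib θ 1 = θ from rfl, zero_mul, Nat.reduceAdd] at hx hy hs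
  set c := sib θ 2
  have hx3 : 0 ≤ x ^ 3 := by positivity
  have hy3 : 0 ≤ y ^ 3 := by positivity
  have e1 : (1 - (θ + c)) * x ^ 3 ≤ x ^ 3 := mul_le_of_le_one_left hx3 (by linarith)
  have e2 : (1 - (θ + c)) * y ^ 3 ≤ y ^ 3 := mul_le_of_le_one_left hy3 (by linarith)
  have e3 : |c * ((x - y) * (x + y))| ≤ |x - y| * (x + y) := by
    rw [abs_mul, abs_mul, abs_of_nonneg hc, abs_of_nonneg (by linarith : 0 ≤ x + y)]
    exact mul_le_of_le_one_left (by positivity) (by linarith)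
  rw [abs_le] at e3 ⊢
  constructor <;> nlinarith [hx.1, hx.2, hy.1, hy.2, e3.1, e3.2]

theorem taylor3 (h0 : 0 < θ) (h1 : θ ≤ 1) {δ g g' ρ : ℝ} (hδ0 : 0 ≤ δ) (hδ1 : δ ≤ 1)
    (hg : 0 ≤ g ∧ g ≤ 1) (hg' : 0 ≤ g' ∧ g' ≤ 1) (hρ : |ρ| ≤ 1)
    (hD0 : 0 ≤ (1 - δ * g) * (1 - δ * g') + δ ^ 2 * ρ)
    (hD1 : (1 - δ * g) * (1 - δ * g') + δ ^ 2 * ρ ≤ 1) :
    |((1 - δ * g) * (1 - δ * g') + δ ^ 2 * ρ) ^ θ - (1 - δ * g) ^ θ * (1 - δ * g') ^ θ
      - θ * (δ ^ 2 * ρ)| ≤ 40 * δ ^ 3 := by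
  have a0 : 0 ≤ δ * g := mul_nonneg hδ0 hg.1
  have a1 : δ * g ≤ δ := mul_le_of_le_one_right hδ0 hg.2
  have b0 : 0 ≤ δ * g' := mul_nonneg hδ0 hg'.1
  have b1 : δ * g' ≤ δ := mul_le_of_le_one_right hδ0 hg'.2
  set x := 1 - ((1 - δ * g) * (1 - δ * g') + δ ^ 2 * ρ) with hx
  set y := 1 - (1 - δ * g) * (1 - δ * g') with hy
  have hy0 : 0 ≤ y := by nlinarith
  have hy1 : y ≤ 1 := by nlinarith
  have hy2 : y ≤ 2 * δ := by nlinarith
  have hd2 : δ ^ 2 ≤ δ := by nlinarith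
  have hxy : |x - y| ≤ δ ^ 2 := by
    have : x - y = -(δ ^ 2 * ρ) := by rw [hx, hy]; ring
    rw [this, abs_neg, abs_mul, abs_of_nonneg (sq_nonneg δ)]
    exact mul_le_of_le_one_right (sq_nonneg δ) hρ
  have hx0 : 0 ≤ x := by linarith
  have hx2 : x ≤ 3 * δ := by linarith [(abs_le.1 hxy).2]
  have h := taylor2 h0 h1 hx0 (by linarith) hy0 hy1
  rw [← Real.mul_rpow (by linarith) (by linarith)]
  have e1 : (1 - δ * g) * (1 - δ * g') + δ ^ 2 * ρ = 1 - x := by rw [hx]; ring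
  have e2 : (1 - δ * g) * (1 - δ * g') = 1 - y := by rw [hy]; ring
  have e3 : δ ^ 2 * ρ = -(x - y) := by rw [hx, hy]; ring
  rw [e1, e2, e3, mul_neg, sub_neg_eq_add]
  refine h.trans ?_
  have f1 : |x - y| * (x + y) ≤ δ ^ 2 * (5 * δ) :=
    mul_le_mul hxy (by linarith) (by linarith) (sq_nonneg δ)
  have f2 : x ^ 3 ≤ (3 * δ) ^ 3 := pow_le_pow_left₀ hx0 hx2 3
  have f3 : y ^ 3 ≤ (2 * δ) ^ 3 := pow_le_pow_left₀ hy0 hy2 3
  nlinarith

end taylor

variable {S L : Type} [Fintype S] {θ : ℝ} {j : ℕ}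

theorem ratio_eq (hθ : 0 ≤ θ) {X : Ms (Nest (S → ℝ) j)} (hX : GoodM U01 X)
    {d : Nest (S → ℝ) j} (hd : Good U01 d) :
    pS θ (X * dirac d) / pS θ X = I (tilt X (vS θ)) fun c => vS θ (c * d) / vS θ c := by
  simpa using pS_mul_div hθ hX (goodM_dirac hd)

theorem ratio_mem (hθ : 0 ≤ θ) {X W : Ms (Nest (S → ℝ) j)} (hX : GoodM U01 X)
    (hW : GoodM U01 W) : 0 ≤ pS θ (X * W) / pS θ X ∧ pS θ (X * W) / pS θ X ≤ 1 := by
  have := GP_mem hθ hX hW
  simp only [GP] at this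
  constructor <;> linarith [this.1, this.2]

theorem abs_Rr_le (hθ : 0 ≤ θ) {X : Ms (Nest (S → ℝ) j)} (hX : GoodM U01 X)
    {d e : Nest (S → ℝ) j} (hd : Good U01 d) (he : Good U01 e) : |Rr θ X d e| ≤ 1 := by
  have h1 := ratio_mem hθ hX (goodM_dirac hd)
  have h2 := ratio_mem hθ hX (goodM_dirac he)
  have h3 := ratio_mem hθ hX ((goodM_dirac hd).mulU (goodM_dirac he))
  rw [Rr, mul_assoc, abs_le]
  have h4 := mul_nonneg h1.1 h2.1
  have h5 := mul_le_one₀ h1.2 h2.1 h2.2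
  constructor <;> linarith [h3.1, h3.2]

theorem Rr_eq (hθ : 0 ≤ θ) {Y : Ms (Nest (S → ℝ) j)} (hY : GoodM U01 Y)
    {d e : Nest (S → ℝ) j} (hd : Good U01 d) (he : Good U01 e) :
    Rr θ Y d e =
      cov (tilt Y (vS θ)) (fun c => vS θ (c * d) / vS θ c) (fun c => vS θ (c * e) / vS θ c) +
      I (tilt Y (vS θ)) fun c => vS θ (c * (d * e)) / vS θ c -
        vS θ (c * d) / vS θ c * (vS θ (c * e) / vS θ c) := by
  rw [Rr, mul_assoc, ← dirac_mul, ratio_eq hθ hY hd, ratio_eq hθ hY he,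
    ratio_eq hθ hY (hd.mulU he), cov, I_sub_fun]
  ring

/-- The linearised pattern. -/
noncomputable def Wlin (δ : ℝ) (V : Nest (Option Bool) j) : Nest (Option Bool) (j + 1) :=
  up ((1 - δ) • dirac (det none j) + δ • dirac V)

theorem good_Wlin {δ : ℝ} (h0 : 0 ≤ δ) (h1 : δ ≤ 1) {V : Nest (Option Bool) j} (hV : Good Any V) :
    Good Any (Wlin δ V) := goodM_mix (goodM_dirac (good_det trivial j)) (goodM_dirac hV) h0 h1

omit [Fintype S] in
theorem dn_test_Wlin (s : S → ℝ) (δ : ℝ) (V : Nest (Option Bool) j) :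
    dn (test s (Wlin δ V)) = (1 - δ) • 1 + δ • dirac (test s V) :=
  ext_I fun f => by simp [Wlin]

theorem ratio_succ {c d : Nest (S → ℝ) (j + 1)} (hc : Good U01 c) (hd : Good U01 d) :
    vS θ (c * d) / vS θ c = (pS θ (dn c * dn d) / pS θ (dn c)) ^ θ := by
  rw [vS_succ, vS_succ, dn_mul, Real.div_rpow (pS_nonneg (GoodM.mulU hc hd)) (pS_nonneg hc)]

theorem ratio_lin {X : Ms (Nest (S → ℝ) j)} (hpos : 0 < pS θ X) (δ : ℝ) (e : Nest (S → ℝ) j) :
    pS θ (X * ((1 - δ) • 1 + δ • dirac e)) / pS θ X = 1 - δ * GP θ X (dirac e) := by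
  simp only [mul_add, mul_smul_comm, mul_one, pS_add, pS_smul, GP]
  field_simp
  ring

theorem ratio_lin2 {X : Ms (Nest (S → ℝ) j)} (hpos : 0 < pS θ X) (δ : ℝ) (e e' : Nest (S → ℝ) j) :
    pS θ (X * (((1 - δ) • 1 + δ • dirac e) * ((1 - δ) • 1 + δ • dirac e'))) / pS θ X =
      (1 - δ * GP θ X (dirac e)) * (1 - δ * GP θ X (dirac e')) + δ ^ 2 * Rr θ X e e' := by
  simp only [mul_add, add_mul, mul_smul_comm, smul_mul_assoc, mul_one, one_mul, pS_add, pS_smul,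
    GP, Rr, mul_assoc]
  field_simp
  ring

/-- Second-order expansion of the defect of multiplicativity for linearised tests. -/
theorem Rr_Wlin (h0 : 0 < θ) (h1 : θ ≤ 1) {δ : ℝ} (hδ0 : 0 ≤ δ) (hδ1 : δ ≤ 1)
    {Y : Ms (Nest (S → ℝ) (j + 1))} (hY : GoodM U01 Y) (hpos : 0 < pS θ Y) {s s' : S → ℝ}
    (hs : U01 s) (hs' : U01 s') {V : Nest (Option Bool) j} (hV : Good Any V) :
    |Rr θ Y (test s (Wlin δ V)) (test s' (Wlin δ V)) - δ ^ 2 *
      (θ ^ 2 * cov (tilt Y (vS θ)) (fun c => GP θ (dn c) (dirac (test s V)))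
          (fun c => GP θ (dn c) (dirac (test s' V))) +
        θ * I (tilt Y (vS θ)) fun c => Rr θ (dn c) (test s V) (test s' V))| ≤ 44 * δ ^ 3 := by
  have hW := good_Wlin hδ0 hδ1 hV
  have hF := prob_tilt_vS hY hpos
  have hsupp := supp_tilt_vS (θ := θ) hY
  have hU : ∀ {x : S → ℝ}, U01 x → ∀ c, (tilt Y (vS θ)).coeff c ≠ 0 →
      vS θ (c * test x (Wlin δ V)) / vS θ c = (1 - δ * GP θ (dn c) (dirac (test x V))) ^ θ := by
    intro x hx c hc
    have h := hsupp c hc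
    rw [ratio_succ h.1 (good_test hx hW), dn_test_Wlin, ratio_lin (pS_pos_of_vS_pos h0 h.1 h.2)]
  have hg : ∀ {x : S → ℝ}, U01 x → ∀ c, (tilt Y (vS θ)).coeff c ≠ 0 →
      0 ≤ GP θ (dn c) (dirac (test x V)) ∧ GP θ (dn c) (dirac (test x V)) ≤ 1 :=
    fun hx c hc => GP_mem h0.le (hsupp c hc).1 (goodM_dirac (good_test hx hV))
  have hT : ∀ {x : S → ℝ}, U01 x → ∀ c, (tilt Y (vS θ)).coeff c ≠ 0 →
      |vS θ (c * test x (Wlin δ V)) / vS θ c - (1 - θ * δ * GP θ (dn c) (dirac (test x V)))| ≤ δ ^ 2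
      ∧ |vS θ (c * test x (Wlin δ V)) / vS θ c - 1| ≤ δ := by
    intro x hx c hc
    have h := hg hx c hc
    have a0 : 0 ≤ δ * GP θ (dn c) (dirac (test x V)) := mul_nonneg hδ0 h.1
    have a1 : δ * GP θ (dn c) (dirac (test x V)) ≤ δ := mul_le_of_le_one_right hδ0 h.2
    have := taylor1 h0 h1 a0 (a1.trans hδ1)
    rw [hU hx c hc, mul_assoc]
    exact ⟨this.1.trans (pow_le_pow_left₀ a0 a1 2), this.2.trans a1⟩
  have k1 := abs_cov_sub_le hF (sq_nonneg δ) hδ0 (fun c hc => (hT hs c hc).1)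
    (fun c hc => (hT hs' c hc).1) (fun c hc => (hT hs' c hc).2) (fun c hc => by
      have h := hg hs c hc
      rw [sub_sub_cancel_left, abs_neg, abs_of_nonneg (mul_nonneg (by positivity) h.1)]
      calc _ ≤ 1 * δ * 1 := mul_le_mul (by gcongr) h.2 h.1 (by positivity)
        _ = δ := by ring)
  rw [cov_affine hF] at k1
  have k2 : |I (tilt Y (vS θ)) fun c => (vS θ (c * (test s (Wlin δ V) * test s' (Wlin δ V))) / vS θ c -
      vS θ (c * test s (Wlin δ V)) / vS θ c * (vS θ (c * test s' (Wlin δ V)) / vS θ c)) -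
        θ * (δ ^ 2 * Rr θ (dn c) (test s V) (test s' V))| ≤ 40 * δ ^ 3 := by
    refine abs_I_le_const hF fun c hc => ?_
    have h := hsupp c hc
    have hp := pS_pos_of_vS_pos h0 h.1 h.2
    have hr := ratio_mem h0.le (X := dn c) h.1 (GoodM.mulU (good_test hs hW) (good_test hs' hW))
    rw [hU hs c hc, hU hs' c hc, ratio_succ h.1 ((good_test hs hW).mulU (good_test hs' hW)),
      dn_mul]
    rw [dn_test_Wlin, dn_test_Wlin, ratio_lin2 hp] at hr ⊢
    exact taylor3 h0 h1 hδ0 hδ1 (hg hs c hc) (hg hs' c hc)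
      (abs_Rr_le h0.le h.1 (good_test hs hV) (good_test hs' hV)) hr.1 hr.2
  rw [I_sub_fun, I_const_mul, I_const_mul] at k2
  rw [Rr_eq h0.le hY (good_test hs hW) (good_test hs' hW)]
  rw [abs_le] at k1 k2 ⊢
  constructor <;> nlinarith [k1.1, k1.2, k2.1, k2.2]

variable [Fintype L] [Nonempty L] {β : L → S → ℝ} {Pm : ∀ i, Ms (Nest (Option Bool) i)} {R : ℕ}
  (hβ : ∀ l, U01 (β l)) (hPm : ∀ i, GoodM Any (Pm i))
include hβ hPm

theorem ratio_tower (hθ : 0 ≤ θ) (hR : 1 ≤ R) {a : Ms (Nest (S → ℝ) j)} (ha : GoodM U01 a)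
    {e : Nest (S → ℝ) j} (he : Good U01 e) :
    pS θ (a * pinsM β Pm R j * dirac e) / pS θ (a * pinsM β Pm R j) = I (Mid θ β Pm R j a) fun p =>
      pS θ (ZZ β Pm R j p * dirac e) / pS θ (ZZ β Pm R j p) := by
  rw [ratio_eq hθ (ha.mulU (goodM_pinsM hβ hPm R j)) he, I_tilt_pinsM hβ hPm hR ha]
  exact (supp_Mid hβ hPm ha).I_congr fun p hp => (ratio_eq hθ (goodM_ZZ hβ hPm hp.1) he).symm

theorem GP_tower (hθ : 0 ≤ θ) (hR : 1 ≤ R) {a : Ms (Nest (S → ℝ) j)} (ha : GoodM U01 a)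
    (hpos : 0 < pS θ (a * pinsM β Pm R j)) {e : Nest (S → ℝ) j} (he : Good U01 e) :
    GP θ (a * pinsM β Pm R j) (dirac e) =
      I (Mid θ β Pm R j a) fun p => GP θ (ZZ β Pm R j p) (dirac e) := by
  simp only [GP, I_sub_fun, (prob_Mid hβ hPm hR ha hpos).I_const, ratio_tower hβ hPm hθ hR ha he]

theorem Rr_tower (hθ : 0 ≤ θ) (hR : 1 ≤ R) {a : Ms (Nest (S → ℝ) j)} (ha : GoodM U01 a)
    (hpos : 0 < pS θ (a * pinsM β Pm R j)) {e e' : Nest (S → ℝ) j} (he : Good U01 e)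
    (he' : Good U01 e') :
    Rr θ (a * pinsM β Pm R j) e e' =
      cov (Mid θ β Pm R j a) (fun p => GP θ (ZZ β Pm R j p) (dirac e))
        (fun p => GP θ (ZZ β Pm R j p) (dirac e')) +
      I (Mid θ β Pm R j a) fun p => Rr θ (ZZ β Pm R j p) e e' := by
  have h := cov_affine (prob_Mid hβ hPm hR ha hpos)
    (fun p => pS θ (ZZ β Pm R j p * dirac e) / pS θ (ZZ β Pm R j p))
    (fun p => pS θ (ZZ β Pm R j p * dirac e') / pS θ (ZZ β Pm R j p)) 1 1
  simp only [one_mul] at h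
  simp only [GP, h, Rr, mul_assoc _ (dirac e) (dirac e'), ← dirac_mul]
  rw [ratio_tower hβ hPm hθ hR ha he, ratio_tower hβ hPm hθ hR ha he',
    ratio_tower hβ hPm hθ hR ha (he.mulU he'), cov, I_sub_fun]
  ring

theorem pur_single (hθ : 1 / 2 ≤ θ) (h1 : θ ≤ 1) (hR : 1 ≤ R) {δ : ℝ} (hδ0 : 0 < δ) (hδ1 : δ ≤ 1)
    {p : Nest (S → ℝ) (j + 1) × ℕ} (hp : Good U01 p.1) (hpos : 0 < pS θ (ZZ β Pm R (j + 1) p))
    {V : Nest (Option Bool) j} (hV : Good Any V) :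
    hs (fun l l' => cov (Ms.bind (FinK θ β Pm R (j + 1) p) fun a => Mid θ β Pm R j (dn a))
        (fun p' => GP θ (ZZ β Pm R j p') (dirac (test (β l) V)))
        (fun p' => GP θ (ZZ β Pm R j p') (dirac (test (β l') V)))) ≤
      4 * ((hs fun l l' => Rr θ (ZZ β Pm R (j + 1) p) (test (β l) (Wlin δ V))
          (test (β l') (Wlin δ V))) / δ ^ 2 + 44 * δ +
        I (FinK θ β Pm R (j + 1) p) fun a => I (Mid θ β Pm R j (dn a)) fun p' =>
          hs fun l l' => Rr θ (ZZ β Pm R j p') (test (β l) V) (test (β l') V)) := by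
  have h0 : 0 < θ := by linarith
  set F := FinK θ β Pm R (j + 1) p with hFdef
  set K : Nest (S → ℝ) (j + 1) → Ms (Nest (S → ℝ) j × ℕ) := fun a => Mid θ β Pm R j (dn a) with hK
  set g : Nest (S → ℝ) j × ℕ → L → ℝ := fun p' l => GP θ (ZZ β Pm R j p') (dirac (test (β l) V))
    with hg
  have hF : F.Prob := prob_FinK hβ hPm hp hpos
  have hKp := fun a ha => prob_Mid_dn (θ := θ) hβ hPm h0 hR hp (a := a) ha
  have hsF := supp_FinK (θ := θ) (R := R) hβ hPm hp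
  have hposa : ∀ a, F.coeff a ≠ 0 → 0 < pS θ (dn a * pinsM β Pm R j) := fun a ha =>
    pS_pos_of_vS_pos h0 ((hsF a ha).1.mulU (good_pins hβ hPm R (j + 1))) (hsF a ha).2
  set A : L → L → ℝ := fun l l' => cov F (fun a => I (K a) fun p' => g p' l)
    (fun a => I (K a) fun p' => g p' l') with hA
  set B : L → L → ℝ := fun l l' => I F fun a => cov (K a) (fun p' => g p' l) (fun p' => g p' l')
    with hB
  set C : L → L → ℝ := fun l l' => I F fun a => I (K a) fun p' =>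
    Rr θ (ZZ β Pm R j p') (test (β l) V) (test (β l') V) with hC
  set Rm : L → L → ℝ := fun l l' => Rr θ (ZZ β Pm R (j + 1) p) (test (β l) (Wlin δ V))
    (test (β l') (Wlin δ V)) with hRm
  have hexp : ∀ l l', |Rm l l' - δ ^ 2 * (θ ^ 2 * A l l' + θ * (B l l' + C l l'))| ≤ 44 * δ ^ 3 := by
    intro l l'
    have h := Rr_Wlin h0 h1 hδ0.le hδ1 (goodM_ZZ hβ hPm hp) hpos (hβ l) (hβ l') hV
    have e1 : ∀ x, U01 x → ∀ a, F.coeff a ≠ 0 →
        GP θ (dn (a * pins β Pm R (j + 1))) (dirac (test x V)) =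
          I (K a) fun p' => GP θ (ZZ β Pm R j p') (dirac (test x V)) := fun x hx a ha =>
      GP_tower hβ hPm h0.le hR (hsF a ha).1 (hposa a ha) (good_test hx hV)
    have e2 : cov (tilt (ZZ β Pm R (j + 1) p) (vS θ)) (fun c => GP θ (dn c) (dirac (test (β l) V)))
        (fun c => GP θ (dn c) (dirac (test (β l') V))) = A l l' := by
      simp only [cov, I_tilt_ZZ]
      exact cov_congr (μ := F) (e1 _ (hβ l)) (e1 _ (hβ l'))
    have e3 : (I (tilt (ZZ β Pm R (j + 1) p) (vS θ)) fun c =>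
        Rr θ (dn c) (test (β l) V) (test (β l') V)) = B l l' + C l l' := by
      rw [I_tilt_ZZ, hB, hC, ← I_add_fun]
      exact I_congr fun a ha => Rr_tower hβ hPm h0.le hR (hsF a ha).1 (hposa a ha)
        (good_test (hβ l) hV) (good_test (hβ l') hV)
    rwa [e2, e3] at h
  have hLow : (Ms.bind F K).Prob := hF.bind fun a ha => (hKp a ha).1
  have hBpsd : PSD B := PSD.I hF.1 fun a ha => psd_cov (hKp a ha).1 g
  have step1 := hs_cov_le_add hLow g (hBpsd.const_mul (c := (1 - θ) / θ) (by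
    apply div_nonneg <;> linarith))
  refine step1.trans ?_
  have hCle : hs C ≤ I F fun a => I (K a) fun p' =>
      hs fun l l' => Rr θ (ZZ β Pm R j p') (test (β l) V) (test (β l') V) :=
    (hs_I_le hF.1 _).trans (I_mono hF.1 fun a ha => hs_I_le (hKp a ha).1.1 _)
  have hθ2 : (θ ^ 2)⁻¹ ≤ 4 := by
    rw [inv_le_comm₀ (by positivity) (by norm_num)]; nlinarith
  have e : ∀ l l', cov (Ms.bind F K) (fun a => g a l) (fun a => g a l') + (1 - θ) / θ * B l l' =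
      (θ ^ 2)⁻¹ * (θ ^ 2 * A l l' + θ * B l l') := by
    intro l l'
    rw [cov_bind]
    change A l l' + B l l' + _ = _
    field_simp
    ring
  rw [hs_congr e, hs_const_mul, abs_of_nonneg (by positivity)]
  have step2 : hs (fun l l' => θ ^ 2 * A l l' + θ * B l l') ≤
      hs (fun l l' => (δ ^ 2)⁻¹ * Rm l l' + -θ * C l l') + 44 * δ := by
    refine hs_le_add_const (by positivity) fun l l' => ?_
    have e' : θ ^ 2 * A l l' + θ * B l l' - ((δ ^ 2)⁻¹ * Rm l l' + -θ * C l l') =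
        -((δ ^ 2)⁻¹ * (Rm l l' - δ ^ 2 * (θ ^ 2 * A l l' + θ * (B l l' + C l l')))) := by
      field_simp
      ring
    rw [e', abs_neg, abs_mul, abs_of_nonneg (by positivity)]
    calc _ ≤ (δ ^ 2)⁻¹ * (44 * δ ^ 3) := mul_le_mul_of_nonneg_left (hexp l l') (by positivity)
      _ = 44 * δ := by field_simp
  have step3 : hs (fun l l' => (δ ^ 2)⁻¹ * Rm l l' + -θ * C l l') ≤ hs Rm / δ ^ 2 + hs C := by
    refine (hs_add_le _ _).trans ?_
    rw [hs_const_mul, hs_const_mul, abs_of_nonneg (by positivity), abs_neg, abs_of_nonneg h0.le,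
      div_eq_inv_mul]
    exact add_le_add le_rfl (mul_le_of_le_one_left (hs_nonneg _) h1)
  exact mul_le_mul hθ2 (by linarith) (hs_nonneg _) (by norm_num)

/-- Averaged total covariance of a hierarchical moment. -/
theorem Mid_tPur_le (hθ : 1 / 2 ≤ θ) (h1 : θ ≤ 1) (hR : 1 ≤ R) {δ η κ N : ℝ} (hδ0 : 0 < δ)
    (hδ1 : δ ≤ 1) (hη0 : 0 ≤ η) (hη1 : η ≤ 1) (hκ : 0 < κ) {s : Tr j}
    {Λ : Ms (Nest (Option Bool) j)} (hΛ : Λ.Supp (Good Any))
    (happ : ∀ x : S → ℝ, U01 x → ∀ X : Nest (S → ℝ) j, Good U01 X → 0 < vS θ X →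
      |mm θ s X x - I Λ (fun V => GG θ X (test x V))| ≤ η)
    (hN : ∑ V ∈ Λ.coeff.support, |Λ.coeff V| ≤ N)
    (hm1 : ∀ V, Λ.coeff V ≠ 0 → κ ≤ (Pm j).coeff V)
    (hm2 : ∀ V, Λ.coeff V ≠ 0 → κ ≤ (Pm (j + 1)).coeff (Wlin δ V))
    (hn1 : κ ≤ (Pm j).coeff (det none j)) (hn2 : κ ≤ (Pm (j + 1)).coeff (det none (j + 1)))
    {a : Ms (Nest (S → ℝ) (j + 1))} (ha : GoodM U01 a) :
    (I (Mid θ β Pm R (j + 1) a) fun p => tPur (FinK θ β Pm R (j + 1) p)
      (fun a => Mid θ β Pm R j (dn a)) (fun s p' l => mmP θ s (ZZ β Pm R j p') (β l)) s) ≤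
      8 * η + N * (N * (4 * (Real.sqrt (12 / (κ * R)) / δ ^ 2 + 44 * δ +
        Real.sqrt (12 / (κ * R))))) := by
  have h0 : 0 < θ := by linarith
  set τ := Real.sqrt (12 / (κ * R)) with hτ
  have hτ0 : 0 ≤ τ := Real.sqrt_nonneg _
  set n := ∑ V ∈ Λ.coeff.support, |Λ.coeff V| with hn
  have hn0 : 0 ≤ n := Finset.sum_nonneg fun _ _ => abs_nonneg _
  have hNN := NN_Mid (θ := θ) hβ hPm hR ha
  have hmass : (Mid θ β Pm R (j + 1) a).mass ≤ 1 := mass_tilt_le_one _ _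
  have pt : ∀ p : Nest (S → ℝ) (j + 1) × ℕ, Good U01 p.1 ∧ 0 < pS θ (ZZ β Pm R (j + 1) p) →
      tPur (FinK θ β Pm R (j + 1) p) (fun a => Mid θ β Pm R j (dn a))
        (fun s p' l => mmP θ s (ZZ β Pm R j p') (β l)) s ≤
      8 * η + n * ∑ V ∈ Λ.coeff.support, |Λ.coeff V| * (4 * ((hs fun l l' =>
        Rr θ (ZZ β Pm R (j + 1) p) (test (β l) (Wlin δ V)) (test (β l') (Wlin δ V))) / δ ^ 2
          + 44 * δ + τ)) := by
    intro p hp
    have hF := prob_FinK hβ hPm hp.1 hp.2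
    have hKp := fun a ha => prob_Mid_dn (θ := θ) hβ hPm h0 hR hp.1 (a := a) ha
    have hLow : (Ms.bind (FinK θ β Pm R (j + 1) p) fun a => Mid θ β Pm R j (dn a)).Prob :=
      hF.bind fun a ha => (hKp a ha).1
    have hLs : (Ms.bind (FinK θ β Pm R (j + 1) p) fun a => Mid θ β Pm R j (dn a)).Supp
        fun p => Good U01 p.1 ∧ 0 < pS θ (ZZ β Pm R j p) :=
      (supp_self _).bind fun a ha => (hKp a ha).2
    have hclose : ∀ l p', Good U01 p'.1 ∧ 0 < pS θ (ZZ β Pm R j p') →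
        |mmP θ s (ZZ β Pm R j p') (β l) - ∑ V ∈ Λ.coeff.support, Λ.coeff V *
          GP θ (ZZ β Pm R j p') (dirac (test (β l) V))| ≤ η := by
      intro l p' hp'
      have hZ := goodM_ZZ (R := R) hβ hPm hp'.1
      rw [← I_eq_sum Λ fun V => GP θ (ZZ β Pm R j p') (dirac (test (β l) V)),
        hΛ.I_congr fun V hV => GP_eq h0.le hZ (goodM_dirac (good_test (hβ l) hV)) hp'.2,
        I_comm Λ, mmP, ← I_sub_fun]
      refine abs_I_le_const (prob_tilt_vS hZ hp'.2) fun c hc => ?_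
      have hc' := supp_tilt_vS hZ c hc
      simpa using happ _ (hβ l) c hc'.1 hc'.2
    have hmem : ∀ l p', Good U01 p'.1 ∧ 0 < pS θ (ZZ β Pm R j p') →
        0 ≤ mmP θ s (ZZ β Pm R j p') (β l) ∧ mmP θ s (ZZ β Pm R j p') (β l) ≤ 1 :=
      fun l p' hp' => mmP_mem (hβ l) s (goodM_ZZ hβ hPm hp'.1)
    refine (hs_le_add_const (c := 8 * η) (N := fun l l' => cov
      (Ms.bind (FinK θ β Pm R (j + 1) p) fun a => Mid θ β Pm R j (dn a))
      (fun p' => ∑ V ∈ Λ.coeff.support, Λ.coeff V * GP θ (ZZ β Pm R j p') (dirac (test (β l) V)))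
      (fun p' => ∑ V ∈ Λ.coeff.support, Λ.coeff V * GP θ (ZZ β Pm R j p') (dirac (test (β l') V))))
      (by positivity) fun l l' => ?_).trans ?_
    · refine (abs_cov_sub_le hLow hη0 zero_le_two (fun p' h => hclose l p' (hLs p' h))
        (fun p' h => hclose l' p' (hLs p' h)) (fun p' h => ?_) fun p' h => ?_).trans (by linarith)
      · have := hmem l' p' (hLs p' h)
        rw [abs_le]; constructor <;> linarith [this.1, this.2]
      · have h2 := hmem l p' (hLs p' h)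
        have h3 := abs_le.1 (hclose l p' (hLs p' h))
        rw [abs_le]; constructor <;> linarith [h2.1, h2.2, h3.1, h3.2]
    · rw [add_comm]
      refine add_le_add le_rfl ((hs_cov_comb hLow Λ.coeff.support (fun V => Λ.coeff V)
        fun V p' l => GP θ (ZZ β Pm R j p') (dirac (test (β l) V))).trans ?_)
      refine mul_le_mul_of_nonneg_left (Finset.sum_le_sum fun V hV => ?_) hn0
      have hV' := Finsupp.mem_support_iff.1 hV
      refine mul_le_mul_of_nonneg_left ((pur_single hβ hPm hθ h1 hR hδ0 hδ1 hp.1 hp.2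
        (hΛ V hV')).trans ?_) (abs_nonneg _)
      have := hF.le_of_le (a := τ) (f := fun a => I (Mid θ β Pm R j (dn a)) fun p' =>
          hs fun l l' => Rr θ (ZZ β Pm R j p') (test (β l) V) (test (β l') V)) fun a ha =>
        Mid_purity hβ hPm h0.le h1 hR hκ (hm1 V hV') hn1 (supp_FinK hβ hPm hp.1 a ha).1
      linarith
  refine ((supp_Mid hβ hPm ha).I_mono hNN pt).trans ?_
  rw [I_add_fun, I_const_mul _ n, I_sum_fun]
  refine add_le_add (I_le_of_le hNN hmass (by positivity) fun _ _ => le_rfl) ?_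
  have hb : ∀ V ∈ Λ.coeff.support, (I (Mid θ β Pm R (j + 1) a) fun p => |Λ.coeff V| * (4 * ((hs
      fun l l' => Rr θ (ZZ β Pm R (j + 1) p) (test (β l) (Wlin δ V)) (test (β l') (Wlin δ V))) / δ ^ 2
        + 44 * δ + τ))) ≤ |Λ.coeff V| * (4 * (τ / δ ^ 2 + 44 * δ + τ)) := by
    intro V hV
    have hV' := Finsupp.mem_support_iff.1 hV
    simp only [add_assoc]
    rw [I_const_mul, I_const_mul, I_add_fun, I_div_const]
    have k1 := Mid_purity hβ hPm h0.le h1 hR hκ (hm2 V hV') hn2 ha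
    have k2 : (I (Mid θ β Pm R (j + 1) a) fun _ => 44 * δ + τ) ≤ 44 * δ + τ :=
      I_le_of_le hNN hmass (by positivity) fun _ _ => le_rfl
    gcongr
  refine (mul_le_mul_of_nonneg_left (Finset.sum_le_sum hb) hn0).trans ?_
  rw [← Finset.sum_mul, ← hn]
  gcongr
  exact hn0.trans hN

end Crest.Agent.R153
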