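import Crest.Agent.R153.Rep
import Crest.Agent.R153.D_Pur

/-!
Row 153: the decoupling theorem.  After multiplying by the pins, a nest decomposes into
intermediate objects for which a slot filled by a uniformly random literal can be replaced by an
independent scalar nest.
-/

set_option autoImplicit false

namespace Crest.Agent.R153

open Ms Nest

section base
variable {S L : Type} [Fintype S] {θ : ℝ}

theorem ratio_test_zero {c : Nest (S → ℝ) 0} (hpos : 0 < vS θ c) (x : S → ℝ) :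
    vS θ (c * test x (leaf (some true))) / vS θ c = 1 - 1 / 2 * mm θ (Tr.tip true) c x := by
  simp only [vS_zero, mm_zero, Tr.lbl_tip, lab, if_true, unleaf_mul, test, unleaf_map,
    unleaf_leaf, tv] at hpos ⊢
  field_simp
  simp only [sumv, Pi.mul_apply, Finset.mul_sum, ← Finset.sum_sub_distrib]
  exact Finset.sum_congr rfl fun σ _ => by ring

theorem ratio_test_zero2 {c : Nest (S → ℝ) 0} (hpos : 0 < vS θ c) (x x' : S → ℝ) :
    vS θ (c * (test x (leaf (some true)) * test x' (leaf (some true)))) / vS θ c =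
      1 - 1 / 2 * mm θ (Tr.tip true) c x - 1 / 2 * mm θ (Tr.tip true) c x' +
        1 / 4 * mm θ (Tr.tip true) c (x * x') := by
  simp only [vS_zero, mm_zero, Tr.lbl_tip, lab, if_true, unleaf_mul, test, unleaf_map,
    unleaf_leaf, tv] at hpos ⊢
  field_simp
  simp only [sumv, Pi.mul_apply, Finset.mul_sum, Finset.sum_mul, ← Finset.sum_sub_distrib,
    ← Finset.sum_add_distrib]
  exact Finset.sum_congr rfl fun σ _ => by ring

theorem aa_zero [Fintype L] (hθ : 0 ≤ θ) {β : L → S → ℝ} (hβ : ∀ l, U01 (β l)) (Q' : ℕ)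
    {Y : Ms (Nest (S → ℝ) 0)} (hY : GoodM U01 Y) (hpos : 0 < pS θ Y) :
    aa θ β Q' 0 Y = hs fun l l' =>
      Rr θ Y (test (β l) (leaf (some true))) (test (β l') (leaf (some true))) := by
  have hF := prob_tilt_vS hY hpos
  have hsupp := supp_tilt_vS (θ := θ) hY
  have hg : ∀ l, Good U01 (test (β l) (leaf (some true))) := fun l => good_test (hβ l) trivial
  have e1 : ∀ l l', CP θ (Tr.tip true) Y β l l' =
      4 * Rr θ Y (test (β l) (leaf (some true))) (test (β l') (leaf (some true))) := by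
    intro l l'
    rw [Rr, mul_assoc, ← dirac_mul, ratio_eq hθ hY (hg l), ratio_eq hθ hY (hg l'),
      ratio_eq hθ hY ((hg l).mulU (hg l')),
      hsupp.I_congr fun c hc => ratio_test_zero hc.2 (β l),
      hsupp.I_congr fun c hc => ratio_test_zero hc.2 (β l'),
      hsupp.I_congr fun c hc => ratio_test_zero2 hc.2 (β l) (β l')]
    simp only [I_add_fun, I_sub_fun, I_const_mul, hF.I_const, CP, mmP]
    ring
  have e0 : ∀ x, mmP θ (Tr.tip false) Y x = 1 := fun x => by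
    rw [mmP, hsupp.I_congr (g := fun _ => 1) fun c hc => ?_, hF.I_const]
    have h := hc.2
    simp only [vS_zero] at h
    simp only [mm_zero, Tr.lbl_tip, lab, Bool.false_eq_true, if_false, mul_one]
    exact div_self h.ne'
  have e2 : hs (CP θ (Tr.tip false) Y β) = 0 :=
    le_antisymm (hs_le_const le_rfl fun l l' => by simp [CP, e0]) (hs_nonneg _)
  rw [aa, I_treeP_zero, e2, hs_congr e1, hs_const_mul]
  simp only [Tr.size_zero]
  norm_num
  ring

theorem En_le_one [Fintype L] (h0 : 0 ≤ θ) (h1 : θ ≤ 1) {β : L → S → ℝ} (hβ : ∀ l, U01 (β l))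
    (Q' : ℕ) {j : ℕ} {Y : Ms (Nest (S → ℝ) j)} (hY : GoodM U01 Y) :
    0 ≤ En θ β Q' j Y ∧ En θ β Q' j Y ≤ 1 := by
  refine ⟨I_nonneg (NN_treeP h0 h1 Q' j) fun t _ =>
    mul_nonneg (by positivity) (avgL_nonneg fun l => sq_nonneg _), ?_⟩
  refine I_le_of_le (NN_treeP h0 h1 Q' j) (mass_treeP_le_one h0 h1 Q' j) zero_le_one fun t _ => ?_
  refine mul_le_one₀ (pow_le_one₀ (by norm_num) (by norm_num)) (avgL_nonneg fun l => sq_nonneg _)
    (avgL_le_one fun l => ?_)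
  have := mmP_mem (θ := θ) (hβ l) t hY
  exact pow_le_one₀ this.1 this.2

theorem aa_nonneg [Fintype L] (h0 : 0 ≤ θ) (h1 : θ ≤ 1) (β : L → S → ℝ) (Q' : ℕ) {j : ℕ}
    (Y : Ms (Nest (S → ℝ) j)) : 0 ≤ aa θ β Q' j Y :=
  I_nonneg (NN_treeP h0 h1 Q' j) fun _ _ => mul_nonneg (by positivity) (hs_nonneg _)

end base

theorem exists_unif {α : Type} (s : Finset α) (hs : s.Nonempty) :
    ∃ μ : Ms α, μ.Prob ∧ μ.Supp (· ∈ s) ∧ ∀ V ∈ s, μ.coeff V = 1 / (s.card : ℝ) := by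
  classical
  have hc : (0 : ℝ) < s.card := by exact_mod_cast hs.card_pos
  refine ⟨(s.card : ℝ)⁻¹ • ∑ V ∈ s, dirac V, ⟨(NN_sum fun V _ => NN_dirac V).smul (by positivity),
    ?_⟩, (supp_sum fun V hV => supp_dirac hV).smul _, fun V hV => ?_⟩
  · simp [mass, I_sum, hc.ne']
  · rw [coeff_eq_I]
    simp [I_sum, hV]

/-- The purity properties of the pins at the levels `≤ J`. -/
def MenuSpec (θ : ℝ) (Q' J R : ℕ) (Pm : ∀ i, Ms (Nest (Option Bool) i)) (p : ℝ) : Prop :=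
  ∀ (S L : Type) [Fintype S] [Fintype L] [Nonempty L] (β : L → S → ℝ), (∀ l, U01 (β l)) →
    (∀ a : Ms (Nest (S → ℝ) 0), GoodM U01 a →
      (I (Mid θ β Pm R 0 a) fun p => aa θ β Q' 0 (ZZ β Pm R 0 p)) ≤ p) ∧
    ∀ i, i < J → ∀ s, (treeP θ Q' i).coeff s ≠ 0 → ∀ a : Ms (Nest (S → ℝ) (i + 1)), GoodM U01 a →
      (I (Mid θ β Pm R (i + 1) a) fun p => tPur (FinK θ β Pm R (i + 1) p)
        (fun a => Mid θ β Pm R i (dn a)) (fun s p' l => mmP θ s (ZZ β Pm R i p') (β l)) s) ≤ p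

/-- Extra patterns put in the menus. -/
noncomputable def extraMenu (δ : ℝ) (𝒱 : ∀ i, Finset (Nest (Option Bool) i)) :
    ∀ i, Finset (Nest (Option Bool) i)
  | 0 => {leaf (some true)}
  | i + 1 => by classical exact (𝒱 i).image (Wlin δ)

theorem exists_menu {θ : ℝ} (hθ : 1 / 2 ≤ θ) (h1 : θ < 1) (Q' J : ℕ) {p : ℝ} (hp : 0 < p) :
    ∃ (R : ℕ) (Pm : ∀ i, Ms (Nest (Option Bool) i)), 1 ≤ R ∧ (∀ i, GoodM Any (Pm i)) ∧
      MenuSpec θ Q' J R Pm p := by
  classical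
  have h0 : 0 < θ := by linarith
  obtain ⟨η, hη0, hη1, hη⟩ : ∃ η : ℝ, 0 < η ∧ η ≤ 1 ∧ η ≤ p / 16 :=
    ⟨min 1 (p / 16), lt_min one_pos (by positivity), min_le_left _ _, min_le_right _ _⟩
  choose Λ hΛ happ using fun i (s : Tr i) => approx_mm h0 h1 i s hη0
  set N : ℝ := 1 + ∑ i ∈ Finset.range J, ∑ s ∈ (treeP θ Q' i).coeff.support,
    ∑ V ∈ (Λ i s).coeff.support, |(Λ i s).coeff V| with hN
  have hNi : ∀ i, i < J → ∀ s, (treeP θ Q' i).coeff s ≠ 0 →
      ∑ V ∈ (Λ i s).coeff.support, |(Λ i s).coeff V| ≤ N := by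
    intro i hi s hs
    have a1 := Finset.single_le_sum (f := fun s => ∑ V ∈ (Λ i s).coeff.support, |(Λ i s).coeff V|)
      (fun _ _ => Finset.sum_nonneg fun _ _ => abs_nonneg _) (Finsupp.mem_support_iff.2 hs)
    have a2 := Finset.single_le_sum (f := fun i => ∑ s ∈ (treeP θ Q' i).coeff.support,
      ∑ V ∈ (Λ i s).coeff.support, |(Λ i s).coeff V|)
      (fun _ _ => Finset.sum_nonneg fun _ _ => Finset.sum_nonneg fun _ _ => abs_nonneg _)
      (Finset.mem_range.2 hi)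
    linarith
  have hN1 : 1 ≤ N := le_add_of_nonneg_right
    (Finset.sum_nonneg fun _ _ => Finset.sum_nonneg fun _ _ =>
      Finset.sum_nonneg fun _ _ => abs_nonneg _)
  clear_value N
  obtain ⟨δ, hδ0, hδ1, hδ⟩ : ∃ δ : ℝ, 0 < δ ∧ δ ≤ 1 ∧ δ ≤ p / (704 * N ^ 2) :=
    ⟨min 1 (p / (704 * N ^ 2)), lt_min one_pos (by positivity), min_le_left _ _, min_le_right _ _⟩
  set 𝒱 : ∀ i, Finset (Nest (Option Bool) i) := fun i =>
    (treeP θ Q' i).coeff.support.biUnion fun s => (Λ i s).coeff.support with h𝒱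
  set 𝓜 : ∀ i, Finset (Nest (Option Bool) i) := fun i =>
    insert (det none i) (𝒱 i ∪ extraMenu δ 𝒱 i) with h𝓜
  have h𝒱g : ∀ i, ∀ V ∈ 𝒱 i, Good Any V := fun i V hV => by
    obtain ⟨s, _, hs⟩ := Finset.mem_biUnion.1 hV
    exact hΛ i s V (Finsupp.mem_support_iff.1 hs)
  have h𝓜g : ∀ i, ∀ V ∈ 𝓜 i, Good Any V := fun i V hV => by
    rcases Finset.mem_insert.1 hV with rfl | hV
    · exact good_det trivial i
    rcases Finset.mem_union.1 hV with hV | hV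
    · exact h𝒱g i V hV
    cases i with
    | zero => trivial
    | succ i =>
      obtain ⟨V', hV', rfl⟩ := Finset.mem_image.1 hV
      exact good_Wlin hδ0.le hδ1 (h𝒱g i V' hV')
  choose Pm hPm1 hPm2 hPm3 using fun i => exists_unif (𝓜 i) (Finset.insert_nonempty _ _)
  have hPm : ∀ i, GoodM Any (Pm i) := fun i => ⟨hPm1 i, (hPm2 i).mono (h𝓜g i)⟩
  set κ : ℝ := 1 / ∑ i ∈ Finset.range (J + 1), ((𝓜 i).card : ℝ) with hκ
  have hcard : ∀ i, (0 : ℝ) < (𝓜 i).card := fun i => by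
    exact_mod_cast (Finset.insert_nonempty _ _).card_pos
  have hκi : ∀ i, i ≤ J → ∀ V ∈ 𝓜 i, κ ≤ (Pm i).coeff V := fun i hi V hV => by
    rw [hPm3 i V hV]
    exact one_div_le_one_div_of_le (hcard i) (Finset.single_le_sum
      (f := fun i => ((𝓜 i).card : ℝ)) (fun i _ => (hcard i).le)
      (Finset.mem_range.2 (by omega)))
  have hκ0 : 0 < κ := one_div_pos.2 (Finset.sum_pos (fun i _ => hcard i)
    (Finset.nonempty_range_iff.2 (Nat.succ_ne_zero J)))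
  clear_value κ
  obtain ⟨τ, hτ⟩ : ∃ τ : ℝ, τ = p * δ ^ 2 / (32 * N ^ 2) := ⟨_, rfl⟩
  have hτ0 : 0 < τ := by rw [hτ]; positivity
  obtain ⟨R, hR⟩ := exists_nat_ge (1 + 12 / (κ * τ ^ 2))
  have hR0 : (1 : ℝ) ≤ R := le_trans (le_add_of_nonneg_right (by positivity)) hR
  have hR1 : 1 ≤ R := by exact_mod_cast hR0
  have hsq : Real.sqrt (12 / (κ * R)) ≤ τ := by
    refine Real.sqrt_le_iff.2 ⟨hτ0.le, ?_⟩
    rw [div_le_iff₀ (by positivity)]
    have : 12 / (κ * τ ^ 2) ≤ R := by linarith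
    rw [div_le_iff₀ (by positivity)] at this
    linarith
  have hδ2 : δ ^ 2 ≤ 1 := pow_le_one₀ hδ0.le hδ1
  have hN2 : 1 ≤ N ^ 2 := one_le_pow₀ hN1
  have hτp : τ ≤ p := by
    rw [hτ, div_le_iff₀ (by positivity)]
    nlinarith
  refine ⟨R, Pm, hR1, hPm, fun S L _ _ _ β hβ => ⟨fun a ha => ?_, fun i hi s hs a ha => ?_⟩⟩
  · rw [(supp_Mid hβ hPm ha).I_congr fun q hq => aa_zero h0.le hβ Q' (goodM_ZZ hβ hPm hq.1) hq.2]
    refine (Mid_purity hβ hPm h0.le h1.le hR1 hκ0 (hκi 0 (by omega) _ ?_)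
      (hκi 0 (by omega) _ (Finset.mem_insert_self _ _)) ha).trans (hsq.trans hτp)
    exact Finset.mem_insert_of_mem (Finset.mem_union_right _ (Finset.mem_singleton_self _))
  · have hmem : ∀ V, (Λ i s).coeff V ≠ 0 → V ∈ 𝒱 i := fun V hV =>
      Finset.mem_biUnion.2 ⟨s, Finsupp.mem_support_iff.2 hs, Finsupp.mem_support_iff.2 hV⟩
    refine (Mid_tPur_le hβ hPm hθ h1.le hR1 hδ0 hδ1 hη0.le hη1 hκ0 (hΛ i s)
      (happ i s S) (hNi i hi s hs)
      (fun V hV => hκi i hi.le V (Finset.mem_insert_of_mem (Finset.mem_union_left _ (hmem V hV))))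
      (fun V hV => hκi (i + 1) hi _ (Finset.mem_insert_of_mem (Finset.mem_union_right _
        (Finset.mem_image_of_mem _ (hmem V hV)))))
      (hκi i hi.le _ (Finset.mem_insert_self _ _))
      (hκi (i + 1) hi _ (Finset.mem_insert_self _ _)) ha).trans ?_
    have b1 : 8 * η ≤ p / 2 := by linarith
    have b2 : N ^ 2 * δ ≤ p / 704 := by
      rw [le_div_iff₀ (by positivity)] at hδ
      linarith
    have b3 : N ^ 2 * (τ / δ ^ 2) = p / 32 := by rw [hτ]; field_simp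
    have b4 : τ ≤ τ / δ ^ 2 := le_div_self hτ0.le (by positivity) hδ2
    have b5 : Real.sqrt (12 / (κ * R)) / δ ^ 2 ≤ τ / δ ^ 2 := by gcongr
    have b6 : N * (N * (4 * (Real.sqrt (12 / (κ * R)) / δ ^ 2 + 44 * δ + Real.sqrt (12 / (κ * R)))))
        ≤ N * (N * (4 * (τ / δ ^ 2 + 44 * δ + τ / δ ^ 2))) := by
      gcongr
      exact hsq.trans b4
    nlinarith

theorem psi_bound {θ : ℝ} (hθ : 1 / 2 ≤ θ) (h1 : θ ≤ 1) {Q' J R : ℕ} (hQ : 1 ≤ Q') (hR : 1 ≤ R)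
    {Pm : ∀ i, Ms (Nest (Option Bool) i)} (hPm : ∀ i, GoodM Any (Pm i)) {p : ℝ} (hp : 0 ≤ p)
    (hM : MenuSpec θ Q' J R Pm p) {S L : Type} [Fintype S] [Fintype L] [Nonempty L]
    {β : L → S → ℝ} (hβ : ∀ l, U01 (β l)) : ∀ i, i ≤ J → ∀ a : Ms (Nest (S → ℝ) i), GoodM U01 a →
      (I (Mid θ β Pm R i a) fun q => aa θ β Q' i (ZZ β Pm R i q) +
        6 * (1 - θ) * En θ β Q' i (ZZ β Pm R i q)) ≤
      (1 + 3 * (1 - θ)) ^ i * ((i + 1) * p + 6 * (1 - θ) * (1 + i * (1 - θ))) := by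
  have h0 : 0 < θ := by linarith
  have h2 : 0 ≤ 1 - θ := by linarith
  intro i
  induction i with
  | zero =>
    intro _ a ha
    rw [I_add_fun, I_const_mul]
    have a1 := (hM S L β hβ).1 a ha
    have a2 : (I (Mid θ β Pm R 0 a) fun q => En θ β Q' 0 (ZZ β Pm R 0 q)) ≤ 1 :=
      I_le_of_le (NN_Mid hβ hPm hR ha) (mass_tilt_le_one _ _) zero_le_one fun q hq =>
        (En_le_one h0.le h1 hβ Q' (goodM_ZZ hβ hPm (supp_Mid hβ hPm ha q hq).1)).2
    have a3 := mul_le_mul_of_nonneg_left a2 (by positivity : 0 ≤ 6 * (1 - θ))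
    simp only [pow_zero, Nat.cast_zero]
    linarith
  | succ i ih =>
    intro hi a ha
    set B := (1 + 3 * (1 - θ)) ^ i * ((i + 1) * p + 6 * (1 - θ) * (1 + i * (1 - θ))) with hB
    have hB0 : 0 ≤ B := by positivity
    have hNN := NN_Mid (θ := θ) hβ hPm hR ha
    have hmass : (Mid θ β Pm R (i + 1) a).mass ≤ 1 := mass_tilt_le_one _ _
    have pt : ∀ q : Nest (S → ℝ) (i + 1) × ℕ, Good U01 q.1 ∧ 0 < pS θ (ZZ β Pm R (i + 1) q) →
        aa θ β Q' (i + 1) (ZZ β Pm R (i + 1) q) +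
          6 * (1 - θ) * En θ β Q' (i + 1) (ZZ β Pm R (i + 1) q) ≤
        (I (treeP θ Q' i) fun s => (1 / 2) ^ s.size * tPur (FinK θ β Pm R (i + 1) q)
            (fun a => Mid θ β Pm R i (dn a)) (fun s p' l => mmP θ s (ZZ β Pm R i p') (β l)) s)
          + (6 * (1 - θ) * (1 - θ) + (1 + 3 * (1 - θ)) * B) := by
      intro q hq
      refine (level_step hβ hPm hθ h1 hR hQ hq.1 hq.2).trans ?_
      have := (prob_FinK hβ hPm hq.1 hq.2).le_of_le (a := B) fun a' ha' =>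
        ih (by omega) (dn a') (supp_FinK hβ hPm hq.1 a' ha').1
      have := mul_le_mul_of_nonneg_left this (by positivity : 0 ≤ 1 + 3 * (1 - θ))
      linarith
    refine ((supp_Mid hβ hPm ha).I_mono hNN pt).trans ?_
    rw [I_add_fun, I_comm]
    have a1 : (I (treeP θ Q' i) fun s => I (Mid θ β Pm R (i + 1) a) fun q =>
        (1 / 2) ^ s.size * tPur (FinK θ β Pm R (i + 1) q)
          (fun a => Mid θ β Pm R i (dn a)) (fun s p' l => mmP θ s (ZZ β Pm R i p') (β l)) s) ≤ p := by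
      refine I_le_of_le (NN_treeP h0.le h1 Q' i) (mass_treeP_le_one h0.le h1 Q' i) hp
        fun s hs => ?_
      rw [I_const_mul]
      have b1 := (hM S L β hβ).2 i (by omega) s hs a ha
      have b2 : (1 / 2 : ℝ) ^ s.size ≤ 1 := pow_le_one₀ (by norm_num) (by norm_num)
      calc _ ≤ (1 / 2 : ℝ) ^ s.size * p := mul_le_mul_of_nonneg_left b1 (by positivity)
        _ ≤ p := mul_le_of_le_one_left hp b2
    have a2 : (I (Mid θ β Pm R (i + 1) a) fun _ => 6 * (1 - θ) * (1 - θ) + (1 + 3 * (1 - θ)) * B)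
        ≤ 6 * (1 - θ) * (1 - θ) + (1 + 3 * (1 - θ)) * B :=
      I_le_of_le hNN hmass (by positivity) fun _ _ => le_rfl
    have a3 : 1 ≤ (1 + 3 * (1 - θ)) ^ (i + 1) := one_le_pow₀ (by linarith)
    have a4 : 0 ≤ p + 6 * (1 - θ) * (1 - θ) := by positivity
    have a5 := mul_le_mul_of_nonneg_right a3 a4
    have e : (1 + 3 * (1 - θ)) ^ (i + 1) * (((i + 1 : ℕ) + 1) * p +
        6 * (1 - θ) * (1 + (i + 1 : ℕ) * (1 - θ))) = (1 + 3 * (1 - θ)) * B +
        (1 + 3 * (1 - θ)) ^ (i + 1) * (p + 6 * (1 - θ) * (1 - θ)) := by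
      rw [hB]; push_cast; ring
    rw [e]
    linarith

theorem th_pow_bounds {Q₀ : ℕ} (hQ : 1 ≤ Q₀) (A : ℕ) :
    (1 / 4 : ℝ) ^ A ≤ th (2 * Q₀) ^ (2 * Q₀ * A) ∧ th (2 * Q₀) ^ (2 * Q₀ * A) ≤ (1 / 2) ^ A := by
  have hq : (1 : ℝ) ≤ Q₀ := by exact_mod_cast hQ
  have hth := th_mem (Q := 2 * Q₀) (by omega)
  constructor
  · have h1 : 1 / 2 ≤ th (2 * Q₀) ^ Q₀ := by
      have := one_add_mul_le_pow (a := -(1 / ((2 * Q₀ : ℕ) : ℝ))) (by
        have : 1 / ((2 * Q₀ : ℕ) : ℝ) ≤ 1 := by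
          rw [div_le_one (by positivity)]; push_cast; linarith
        linarith) Q₀
      refine le_trans (le_of_eq ?_) this
      push_cast; field_simp; ring
    rw [pow_mul, mul_comm 2 Q₀, pow_mul]
    refine pow_le_pow_left₀ (by norm_num) ?_ A
    rw [mul_comm Q₀ 2]
    nlinarith
  · rw [pow_mul]
    refine pow_le_pow_left₀ (by linarith [pow_pos (by linarith [hth.1] : 0 < th (2 * Q₀)) (2 * Q₀)])
      ?_ A
    have h1 := Real.one_sub_div_pow_le_exp_neg (n := 2 * Q₀) (t := 1) (by push_cast; linarith)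
    refine h1.trans ?_
    rw [Real.exp_neg, one_div]
    exact inv_anti₀ (by norm_num) (by linarith [Real.add_one_le_exp (1 : ℝ)])

theorem decoupling {ε y : ℝ} (hε : 0 < ε) (hy : 0 < y) :
    ∃ (Q j R : ℕ) (Pm : ∀ i, Ms (Nest (Option Bool) i)), 2 ≤ Q ∧ th Q ^ j ≤ y ∧
      (∀ i, GoodM Any (Pm i)) ∧
      ∀ (S L : Type) [Fintype S] [Fintype L] [Nonempty L] (β : L → S → ℝ), (∀ l, U01 (β l)) →
      ∀ P : (S → ℝ) → Prop, P 1 → (∀ x x', P x → P x' → P (x * x')) →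
        (∀ l o, P fun σ => 1 - tv o (β l σ)) →
      ∀ A₀ : Ms (Nest (S → ℝ) j), GoodM U01 A₀ → GoodM P A₀ →
        ∃ (ν : Ms (Ms (Nest (S → ℝ) j))) (err : Ms (Nest (S → ℝ) j) → ℝ),
          ν.Prob ∧ Ms.bind ν (fun Y => Y) = A₀ * pinsM β Pm R j ∧
          I ν (fun Y => err Y * pS (th Q) Y) ≤ ε * pS (th Q) (A₀ * pinsM β Pm R j) ∧
          ν.Supp fun Y => GoodM U01 Y ∧ GoodM P Y ∧ 0 ≤ err Y ∧
            ∃ ξ : Ms (Nest ℝ j), GoodM R01 ξ ∧
              ∀ X V : Ms (Nest (S → ℝ) j), GoodM U01 X → GoodM U01 V →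
                |pS (th Q) (Y * X * neg (V * slotB β j)) -
                  pS (th Q) (Y * X * neg (V * slotE S ξ))| ≤ err Y * pS (th Q) Y := by
  obtain ⟨A, hA⟩ := exists_pow_lt_of_lt_one hy (by norm_num : (1 / 2 : ℝ) < 1)
  obtain ⟨M, hM0, hM⟩ := decouple_of_variance (η := ε / 2) (y := (1 / 4) ^ A) (by positivity)
    (by positivity)
  set τ := ε / (2 * (M + 1)) with hτ
  have hτ0 : 0 < τ := by positivity
  obtain ⟨Q₀, hQ₀⟩ := exists_nat_ge (1 + Real.exp (3 * A) * (6 * (1 + A)) / τ ^ 2)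
  have hQ1 : (1 : ℝ) ≤ Q₀ := le_trans (le_add_of_nonneg_right (by positivity)) hQ₀
  have hQ1' : 1 ≤ Q₀ := by exact_mod_cast hQ1
  set Q := 2 * Q₀ with hQ
  set j := Q * A with hj
  have hQ2 : 2 ≤ Q := by omega
  have hth := th_mem hQ2
  have hb := th_pow_bounds hQ1' A
  set θ := th Q with hθ
  have h0 : 0 < θ := by linarith [hth.1]
  obtain ⟨Q', hQ', hD⟩ := hM θ h0 hth.2.le j hb.1
  set p := τ ^ 2 / (2 * (Real.exp (3 * A) * (j + 1))) with hp
  have hp0 : 0 < p := by positivity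
  obtain ⟨R, Pm, hR, hPm, hspec⟩ := exists_menu hth.1 hth.2 Q' j hp0
  refine ⟨Q, j, R, Pm, hQ2, hb.2.trans hA.le, hPm, fun S L _ _ _ β hβ P hP1 hPmul hPt A₀ hA₀ hA₀' =>
    ⟨Ms.map (ZZ β Pm R j) (base0 β Pm R j A₀), fun Y => ε / 2 + M * Real.sqrt (aa θ β Q' j Y),
      (prob_base0 hβ hPm hR hA₀).map _, ext_I fun f => ?_, ?_, ?_⟩⟩
  · simp only [I_bind, I_map]
    exact I_base0_ZZ hR A₀ f
  · have hX := hA₀.mulU (goodM_pinsM hβ hPm R j)
    have hmain : (I (Mid θ β Pm R j A₀) fun q => Real.sqrt (aa θ β Q' j (ZZ β Pm R j q))) ≤ τ := by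
      refine (I_sqrt_le (NN_Mid hβ hPm hR hA₀) (mass_tilt_le_one _ _)
        fun q _ => aa_nonneg h0.le hth.2.le β Q' _).trans (Real.sqrt_le_iff.2 ⟨hτ0.le, ?_⟩)
      have a1 := psi_bound hth.1 hth.2.le hQ' hR hPm hp0.le hspec hβ j le_rfl A₀ hA₀
      have h2 : 0 ≤ 1 - θ := by linarith [hth.2]
      refine le_trans ((supp_Mid hβ hPm hA₀).I_mono (NN_Mid hβ hPm hR hA₀) fun q hq =>
        le_add_of_nonneg_right (mul_nonneg (by positivity)
          (En_le_one h0.le hth.2.le hβ Q' (goodM_ZZ hβ hPm hq.1)).1)) (a1.trans ?_)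
      have hQr : (Q : ℝ) = 2 * Q₀ := by rw [hQ]; push_cast; ring
      have e1 : 1 - θ = 1 / (Q : ℝ) := by rw [hθ, th]; ring
      have e2 : (j : ℝ) * (1 - θ) = A := by
        rw [e1, hj]; push_cast; rw [hQr]; field_simp
      have a2 : (1 + 3 * (1 - θ)) ^ j ≤ Real.exp (3 * A) := by
        calc _ ≤ Real.exp (3 * (1 - θ)) ^ j :=
              pow_le_pow_left₀ (by positivity) (by linarith [Real.add_one_le_exp (3 * (1 - θ))]) j
          _ = Real.exp (3 * A) := by rw [← Real.exp_nat_mul, ← e2]; congr 1; ring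
      rw [e2]
      refine (mul_le_mul_of_nonneg_right a2 (by positivity)).trans ?_
      have a3 : Real.exp (3 * A) * ((j + 1) * p) = τ ^ 2 / 2 := by rw [hp]; field_simp
      have a4 : Real.exp (3 * A) * (6 * (1 - θ) * (1 + A)) ≤ τ ^ 2 / 2 := by
        have a5 : Real.exp (3 * A) * (6 * (1 + A)) / τ ^ 2 ≤ Q₀ := by linarith
        rw [div_le_iff₀ (by positivity)] at a5
        rw [e1, hQr]
        calc _ = Real.exp (3 * A) * (6 * (1 + A)) / (2 * Q₀) := by ring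
          _ ≤ τ ^ 2 / 2 := by rw [div_le_iff₀ (by positivity)]; linarith
      rw [mul_add]
      linarith
    rw [I_Mid hR] at hmain
    have hb0 : (I (base0 β Pm R j A₀) fun q => pS θ (ZZ β Pm R j q)) = pS θ (A₀ * pinsM β Pm R j) :=
      I_base0_ZZ hR A₀ (vS θ)
    have hle : (I (base0 β Pm R j A₀) fun q => pS θ (ZZ β Pm R j q) *
        Real.sqrt (aa θ β Q' j (ZZ β Pm R j q))) ≤ τ * pS θ (A₀ * pinsM β Pm R j) := by
      rcases (pS_nonneg (θ := θ) hX).eq_or_lt with hz | hz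
      · rw [← hz, mul_zero, ← I_zero_fun (base0 β Pm R j A₀)]
        refine le_of_eq (I_congr fun q hq => ?_)
        rw [eq_zero_of_I_eq_zero (prob_base0 hβ hPm hR hA₀).1 (fun q hq =>
          pS_nonneg (goodM_ZZ hβ hPm (supp_base0 hβ hPm hA₀ q hq))) (hb0.trans hz.symm) q hq,
          zero_mul]
      · rwa [div_le_iff₀ hz] at hmain
    have e : (I (Ms.map (ZZ β Pm R j) (base0 β Pm R j A₀)) fun Y =>
        (ε / 2 + M * Real.sqrt (aa θ β Q' j Y)) * pS θ Y) =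
        ε / 2 * pS θ (A₀ * pinsM β Pm R j) + M * I (base0 β Pm R j A₀) fun q =>
          pS θ (ZZ β Pm R j q) * Real.sqrt (aa θ β Q' j (ZZ β Pm R j q)) := by
      rw [I_map, ← hb0, ← I_const_mul, ← I_const_mul, ← I_add_fun]
      congr 1; funext q; ring
    rw [e]
    have a1 := mul_le_mul_of_nonneg_left hle hM0
    have a2 : M * τ ≤ ε / 2 := by
      rw [hτ, mul_div_assoc', div_le_iff₀ (by positivity)]; nlinarith
    have a3 := mul_le_mul_of_nonneg_right a2 (pS_nonneg (θ := θ) hX)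
    nlinarith
  · refine ((supp_base0 hβ hPm hA₀).and (supp_base0' hP1 hPmul hPt hPm hA₀')).map fun q hq => ?_
    have hY := goodM_ZZ (R := R) hβ hPm hq.1
    refine ⟨hY, goodM_ZZ' hP1 hPmul hPt hPm hq.2, by positivity, ?_⟩
    rcases (pS_nonneg (θ := θ) hY).eq_or_lt with hz | hz
    · refine ⟨1, goodM_one R01_one, fun X V hX hV => ?_⟩
      have z : ∀ W, GoodM U01 W → pS θ (ZZ β Pm R j q * X * W) = 0 := fun W hW => by
        rw [mul_assoc]
        exact le_antisymm ((pS_mul_le h0.le hY (hX.mulU hW)).trans hz.symm.le)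
          (pS_nonneg (hY.mulU (hX.mulU hW)))
      rw [z _ (hV.mulU (goodM_slotB hβ j)).neg, z _ (hV.mulU (goodM_one R01_one).slotE).neg, ← hz]
      simp
    · exact ⟨xiOf θ β _, goodM_xiOf h0 hβ hY hz, fun X V hX hV => hD S L β hβ _ X V hY hX hV hz⟩

end Crest.Agent.R153
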