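import Crest.Agent.R153.Poi
import Crest.Agent.R153.D
import Crest.Agent.R153.ASS_Main

/-!
Row 153, task R153-ASS: the cavity (Aizenman-Sims-Starr) lower bound.  Use `decoupling` (D.lean) and
`Poi.lean` as black boxes.  Owner: put work in `R153/ASS_*.lean`, keep the statement below.

PLAN.  Suppose `1 ≤ PiF (th Q) k a ξ` for all `Q ≥ 2`, `j`, good `ξ`.  Let `c` be the decay rate, choose
`y` with `y log 2 ≤ c/4`, `ε` small (depending on `c, k, a`), and `Q, j, R, Pm` from `decoupling`; `θ = th Q`.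
`C_N = neg (slotB (lit N) j ^ k)`, `Φ N = Σ' M, poi (a N) M * pS θ (C_N^M * pinsM (lit N) Pm R j)`.
Upper bound: `Φ N ≤ 2^(θ^j N) poiProb k a N` (`pS_mul_le`, `clause_power_upper`).  `Φ N > 0` (term `M = 0`,
`pre_pos`, leaves of the pins are positive: `goodM_pinsM'`).  Claim: `Φ (N+1) ≥ e^{-c/4} Φ N` for large
`N`; this contradicts `Φ N ≤ e^{-3cN/4}`.
Step, on `S⁺ = Fin (N+1) → Bool`, `β l = lit (N+1) (old literal l)` for `l : Fin N × Bool`, `B = slotB β j`,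
`B' = slotB (new literals, indexed by Bool) j`, `p = N/(N+1)`, `q = 1/(N+1)`:
* `slotB (lit (N+1)) j = p • B + q • B'`; binomial theorem and linearity of `neg` give
  `C_{N+1} = p^k • C + k p^(k-1) q • D + (nonnegative rest)`, `C = neg (B^k)`, `D = neg (B' * B^(k-1))`; hence
  `pS (X * C_{N+1}^M) ≥ pS (X * (p^k • C + k p^(k-1) q • D)^M)` (differences of powers are `NN` measures
  supported on good nests) and by `poi_split_pS`
  `Σ' poi (a(N+1)) M pS (X C_{N+1}^M) ≥ e^{-(a(N+1) - λ₀ - λ₁)} Σ' poi λ₀ M Σ' poi λ₁ J pS (X C^M D^J)`,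
  `λ₀ = a (N+1) p^k`, `λ₁ = a k p^(k-1) ≤ k a`, `a(N+1) - λ₀ - λ₁ → 0`.
* pins: `pS (X * pinsM (lit (N+1)) ..) ≥ p^((j+1) R) pS (X * pinsM β ..)` (induction on the depth:
  `pinP (lit (N+1)) = p • pinP β + q • rest`, and `(p^m)^θ ≥ p^m`).
* `P x` := `x` does not depend on the new variable; `p0 = pre θ (x ↦ Σ_τ x (Fin.snoc/cons τ false))`.
  On `P`-good nests `pS = 2^(θ^j) p0 ≤ 2 p0` (`pre_congr`, `pre_const_mul`), and by naturality of `neg`,
  `slotB`, `pinsM` under the pull-back homomorphism `p0 (C^M * pinsM β ..) = pS (C_N^M * pinsM (lit N) ..)`.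
  So `Φ N = Σ' poi λ₀ M Σ' poi λ₂ J p0 (C^M C^J pinsM β)`, `λ₂ = a N - λ₀ ∈ [0, (k-1) a]`, `λ₂ → (k-1) a`.
* For each `M` apply `decoupling` to `A₀ = C^M`.  For `Y` in the support, with its `ξ`, `E = slotE ξ`:
  replacing the slots one at a time (`neg (V * B)` by `neg (V * E)` in a good context `X`) gives
  `pS (Y D^J) ≥ pS (Y (neg (B' E^(k-1)))^J) - J (k-1) err pS Y` with main term `p0 Y * siteW θ k ξ J`
  (`pre_tensor`), and `pS (Y C^J) ≤ pS Y * clauseW^J + J k err pS Y`.  `0 ≤ siteW ≤ 2`, so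
  `Σ' poi λ₁ J siteW J ≥ Σ' poi (k a) J siteW J - 2 (k a - λ₁)` (or any bound tending to `0` uniformly), which is
  `≥ exp (-(k-1) a g) - o(1) ≥ e^{-o(1)} exp (-λ₂ g) - o(1)`, `g = 1 - clauseW ∈ [0,1]`, by `PiF ≥ 1`.
  Integrate against `ν` (linearity, `pre_bind`; interchange `I ν` with the Poisson series) and absorb the
  additive errors `(o(1) + C ε) p0 (C^M pins)` using `Σ' poi λ₂ J p0 (C^M C^J pins) ≥ e^{-(k-1)a} p0 (C^M pins)`.
-/

set_option autoImplicit false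

namespace Crest.Agent.R153

open Ms Nest Filter

theorem ass {k : ℕ} (hk : 1 ≤ k) {a : ℝ} (ha : 0 ≤ a)
    (h : ∃ c : ℝ, 0 < c ∧ ∀ᶠ n : ℕ in atTop, poiProb k a n ≤ Real.exp (-c * n)) :
    ∃ (Q j : ℕ) (ξ : Ms (Nest ℝ j)), 2 ≤ Q ∧ GoodM R01 ξ ∧ PiF (th Q) k a ξ < 1 := by
  by_contra hcon
  push Not at hcon
  obtain ⟨c, hc, hdec⟩ := h
  obtain ⟨m, rfl⟩ : ∃ m, k = m + 1 := ⟨k - 1, by omega⟩
  set κ := Real.exp (-(c / 2)) with hκ
  have hκ0 : 0 < κ := Real.exp_pos _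
  have hκ1 : κ < 1 := Real.exp_lt_one_iff.2 (by linarith)
  set G : ℝ := 4 * (m + 1) ^ 2 * a * Real.exp (m * a) with hG
  have hG0 : 0 ≤ G := by positivity
  set ε := (1 - κ) / (2 * (G + 1)) with hε
  have hε0 : 0 < ε := div_pos (by linarith) (by positivity)
  have hGε : κ < 1 - 4 * (m + 1) ^ 2 * a * ε * Real.exp (m * a) := by
    have e1 : ε * (2 * (G + 1)) = 1 - κ := by rw [hε]; field_simp
    have e2 : 4 * (m + 1) ^ 2 * a * ε * Real.exp (m * a) = G * ε := by rw [hG]; ring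
    rw [e2]; nlinarith
  obtain ⟨Q, j, R, Pm, hQ, hy, hPm, hD⟩ := decoupling hε0 (show 0 < c / 4 by positivity)
  have hth := th_mem hQ
  have h0 : 0 < th Q := by linarith [hth.1]
  have hp : Tendsto (fun N : ℕ => (N : ℝ) / (N + 1)) atTop (nhds 1) :=
    tendsto_natCast_div_add_atTop 1
  have hcont : Continuous fun p : ℝ => p ^ ((j + 1) * R) *
      Real.exp (-((m + 1) * a * (1 - p ^ m))) *
      (Real.exp (-(m * a * (1 - p ^ (m + 1)))) - 4 * (m + 1) ^ 2 * a * ε * Real.exp (m * a)) := by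
    fun_prop
  have hlim := (hcont.tendsto 1).comp hp
  simp only [one_pow, sub_self, mul_zero, neg_zero, Real.exp_zero, one_mul] at hlim
  obtain ⟨N₀, hN₀⟩ := eventually_atTop.1 ((hlim.eventually (lt_mem_nhds hGε)).and
    (hdec.and (eventually_ge_atTop 1)))
  have hlow : ∀ n, κ ^ n * ASS.Phi (th Q) (m + 1) a Pm R j N₀ ≤
      ASS.Phi (th Q) (m + 1) a Pm R j (N₀ + n) := by
    intro n
    induction n with
    | zero => simp
    | succ n ih =>
      obtain ⟨b1, _, b3⟩ := hN₀ (N₀ + n) (by omega)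
      haveI : NeZero (N₀ + n) := ⟨by omega⟩
      have := ASS.step h0.le hth.2.le (N := N₀ + n) ha hε0.le (fun ξ hξ => hcon Q j ξ hQ hξ) hPm R
        (fun M => hD _ _ (ASS.oldL _) (ASS.U01_oldL _) (ASS.PP _) (ASS.PP_one _) (ASS.PP_mul _)
          (ASS.PP_test _) _ ((ASS.good_Cc _ m j).powU M)
          ((ASS.PP_Cc _ m j).pow (ASS.PP_one _) (ASS.PP_mul _) M)) rfl b1.le
      calc _ = κ * (κ ^ n * ASS.Phi (th Q) (m + 1) a Pm R j N₀) := by ring
        _ ≤ _ := (mul_le_mul_of_nonneg_left ih hκ0.le).trans this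
  have hup : ∀ N, N₀ ≤ N →
      ASS.Phi (th Q) (m + 1) a Pm R j N ≤ Real.exp (-(3 * c / 4) * N) := by
    intro N hN
    obtain ⟨_, b2, b3⟩ := hN₀ N hN
    haveI : NeZero N := ⟨by omega⟩
    refine (ASS.Phi_le h0 _ ha hPm R).trans ?_
    have e1 : (2 : ℝ) ^ (th Q ^ j * N) ≤ Real.exp (c / 4 * N) := by
      calc (2 : ℝ) ^ (th Q ^ j * N) ≤ Real.exp 1 ^ (th Q ^ j * N) :=
            Real.rpow_le_rpow (by norm_num) (by linarith [Real.add_one_le_exp 1]) (by positivity)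
        _ = Real.exp (th Q ^ j * N) := Real.exp_one_rpow _
        _ ≤ _ := Real.exp_le_exp.2 (mul_le_mul_of_nonneg_right hy (Nat.cast_nonneg _))
    calc _ ≤ (2 : ℝ) ^ (th Q ^ j * N) * Real.exp (-c * N) :=
          mul_le_mul_of_nonneg_left b2 (by positivity)
      _ ≤ Real.exp (c / 4 * N) * Real.exp (-c * N) :=
          mul_le_mul_of_nonneg_right e1 (Real.exp_pos _).le
      _ = _ := by rw [← Real.exp_add]; congr 1; ring
  haveI : NeZero N₀ := ⟨by have := (hN₀ N₀ le_rfl).2.2; omega⟩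
  have hpos : 0 < ASS.Phi (th Q) (m + 1) a Pm R j N₀ := ASS.Phi_pos h0.le _ ha hPm R
  obtain ⟨n, hn⟩ := exists_pow_lt_of_lt_one hpos
    (Real.exp_lt_one_iff.2 (show -(c / 4) < 0 by linarith))
  have f1 := (hlow n).trans (hup _ (by omega))
  have f2 : Real.exp (-(3 * c / 4) * ((N₀ + n : ℕ) : ℝ)) ≤ κ ^ n * Real.exp (-(c / 4)) ^ n := by
    rw [hκ, ← Real.exp_nat_mul, ← Real.exp_nat_mul, ← Real.exp_add]
    refine Real.exp_le_exp.2 ?_
    push_cast
    nlinarith [Nat.cast_nonneg (α := ℝ) N₀]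
  have f3 := mul_lt_mul_of_pos_left hn (pow_pos hκ0 n)
  linarith

end Crest.Agent.R153
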