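import Crest.Agent.R153.Objs

/-! Row 153, task ASS: positivity order on measures of nests, naturality, slot replacement. -/

set_option autoImplicit false

namespace Crest.Agent.R153.ASS

open Ms Nest

variable {S T L L' : Type} {j : ℕ} {θ : ℝ}

/-- Nonnegative measures supported on good nests. -/
def Pos (X : Ms (Nest (S → ℝ) j)) : Prop := X.NN ∧ X.Supp (Good U01)

theorem pos_of_good {X : Ms (Nest (S → ℝ) j)} (h : GoodM U01 X) : Pos X := ⟨h.1.1, h.2⟩

theorem pos_zero : Pos (0 : Ms (Nest (S → ℝ) j)) := ⟨NN_zero, supp_zero _⟩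

theorem Pos.add {X Y : Ms (Nest (S → ℝ) j)} (hX : Pos X) (hY : Pos Y) : Pos (X + Y) :=
  ⟨hX.1.add hY.1, hX.2.add hY.2⟩

theorem Pos.smul {X : Ms (Nest (S → ℝ) j)} (hX : Pos X) {a : ℝ} (ha : 0 ≤ a) : Pos (a • X) :=
  ⟨hX.1.smul ha, hX.2.smul a⟩

theorem Pos.mul {X Y : Ms (Nest (S → ℝ) j)} (hX : Pos X) (hY : Pos Y) : Pos (X * Y) :=
  ⟨hX.1.mul hY.1, hX.2.mul hY.2 fun _ _ hc hd => hc.mulU hd⟩

theorem Pos.pow {X : Ms (Nest (S → ℝ) j)} (hX : Pos X) (n : ℕ) : Pos (X ^ n) := by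
  induction n with
  | zero => rw [pow_zero]; exact pos_of_good (goodM_one U01_one)
  | succ n ih => rw [pow_succ]; exact ih.mul hX

theorem Pos.neg {X : Ms (Nest (S → ℝ) j)} (hX : Pos X) : Pos (neg X) :=
  ⟨hX.1.map _, hX.2.map fun _ hc => hc.map fun _ h => h.one_sub⟩

theorem Pos.pS_nonneg [Fintype S] {X : Ms (Nest (S → ℝ) j)} (hX : Pos X) : 0 ≤ pS θ X :=
  hX.2.I_nonneg hX.1 fun _ hc => vS_nonneg hc

theorem pS_le_of_pos [Fintype S] {X Y : Ms (Nest (S → ℝ) j)} (h : Pos (Y - X)) :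
    pS θ X ≤ pS θ Y := by
  have := h.pS_nonneg (θ := θ)
  rw [pS_eq, I_sub] at this
  rw [pS_eq, pS_eq]; linarith

theorem pos_pow_sub {X Y : Ms (Nest (S → ℝ) j)} (hX : Pos X) (hY : Pos Y) (h : Pos (Y - X))
    (n : ℕ) : Pos (Y ^ n - X ^ n) := by
  induction n with
  | zero => simpa using pos_zero
  | succ n ih =>
    have : Y ^ (n + 1) - X ^ (n + 1) = Y * (Y ^ n - X ^ n) + (Y - X) * X ^ n := by ring
    rw [this]
    exact (hY.mul ih).add (h.mul (hX.pow n))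

theorem pos_binom {U V : Ms (Nest (S → ℝ) j)} (hU : Pos U) (hV : Pos V) (m : ℕ) :
    Pos ((U + V) ^ (m + 1) - (U ^ (m + 1) + ((m : ℝ) + 1) • (V * U ^ m))) := by
  induction m with
  | zero => simpa using pos_zero
  | succ m ih =>
    have : (U + V) ^ (m + 1 + 1) - (U ^ (m + 1 + 1) + (((m + 1 : ℕ) : ℝ) + 1) • (V * U ^ (m + 1))) =
        (U + V) * ((U + V) ^ (m + 1) - (U ^ (m + 1) + ((m : ℝ) + 1) • (V * U ^ m))) +
          ((m : ℝ) + 1) • (V * V * U ^ m) := by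
      push_cast
      simp only [Algebra.smul_def, _root_.map_add, _root_.map_one]
      ring
    rw [this]
    exact ((hU.add hV).mul ih).add (((hV.mul hV).mul (hU.pow m)).smul (by positivity))

theorem neg_add (X Y : Ms (Nest (S → ℝ) j)) : neg (X + Y) = neg X + neg Y := mapM_add _ _ _

theorem neg_smul (a : ℝ) (X : Ms (Nest (S → ℝ) j)) : neg (a • X) = a • neg X := mapM_smul _ _ _

theorem neg_sub (X Y : Ms (Nest (S → ℝ) j)) : neg (X - Y) = neg X - neg Y :=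
  ext_I fun f => by simp [neg]

/-! ### Pull-backs -/

/-- Pull-back of all leaves along `g`. -/
noncomputable def pb (g : T → S) (X : Ms (Nest (S → ℝ) j)) : Ms (Nest (T → ℝ) j) :=
  mapM (fun x τ => x (g τ)) X

theorem pb_mul (g : T → S) (X Y : Ms (Nest (S → ℝ) j)) : pb g (X * Y) = pb g X * pb g Y :=
  mapM_mul _ (fun _ _ => rfl) X Y

theorem pb_pow (g : T → S) (X : Ms (Nest (S → ℝ) j)) (n : ℕ) : pb g (X ^ n) = pb g X ^ n :=
  mapM_pow _ rfl (fun _ _ => rfl) X n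

theorem pb_neg (g : T → S) (X : Ms (Nest (S → ℝ) j)) : pb g (neg X) = neg (pb g X) := by
  simp only [pb, neg, mapM_mapM]

theorem pb_slotB [Fintype L] (g : T → S) (β : L → S → ℝ) (j : ℕ) :
    pb g (slotB β j) = slotB (fun l τ => β l (g τ)) j := by
  simp only [pb, slotB, mapM_avg, mapM_dirac, map_det]

theorem pb_slotE (g : T → S) (ξ : Ms (Nest ℝ j)) : pb g (slotE S ξ) = slotE T ξ := by
  simp only [pb, slotE, mapM_mapM]

theorem pb_pinP [Fintype L] (g : T → S) (β : L → S → ℝ) (Pm : Ms (Nest (Option Bool) j)) :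
    pb g (pinP β Pm) = pinP (fun l τ => β l (g τ)) Pm := by
  simp only [pb, pinP, mapM_avg, testM, mapM_mapM]

theorem map_pins [Fintype L] (g : T → S) (β : L → S → ℝ) (Pm : ∀ i, Ms (Nest (Option Bool) i))
    (R : ℕ) : ∀ j, map (fun (x : S → ℝ) τ => x (g τ)) (pins β Pm R j) =
      pins (fun l τ => β l (g τ)) Pm R j
  | 0 => rfl
  | j + 1 => by
    rw [pins_succ, pins_succ, map_up]
    congr 1
    change pb g _ = _
    rw [pinsM, pb_mul, pb_pow, pb_pinP, pb, mapM_dirac, map_pins g β Pm R j, pinsM]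

theorem pb_pinsM [Fintype L] (g : T → S) (β : L → S → ℝ) (Pm : ∀ i, Ms (Nest (Option Bool) i))
    (R j : ℕ) : pb g (pinsM β Pm R j) = pinsM (fun l τ => β l (g τ)) Pm R j :=
  map_pins g β Pm R (j + 1)

theorem good_pb (g : T → S) {X : Ms (Nest (S → ℝ) j)} (h : GoodM U01 X) : GoodM U01 (pb g X) :=
  h.mapM fun _ hx _ => hx _

theorem pb_bind {M : Type} (g : T → S) (ν : Ms M) (κ : M → Ms (Nest (S → ℝ) j)) :
    pb g (bind ν κ) = bind ν fun c => pb g (κ c) :=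
  ext_I fun f => by simp [pb]

theorem bind_mul {M : Type} (ν : Ms M) (κ : M → Ms (Nest (S → ℝ) j)) (Z : Ms (Nest (S → ℝ) j)) :
    bind ν κ * Z = bind ν fun c => κ c * Z :=
  ext_I fun f => by simp [I_mul]

/-! ### Comparison of pins -/

section pins
variable [Fintype S] [Fintype L] [Nonempty L] [Fintype L'] [Nonempty L']
  {β : L → S → ℝ} {β' : L' → S → ℝ} {Pm : ∀ i, Ms (Nest (Option Bool) i)} {p : ℝ}

theorem pinsM_step (hβ : ∀ l, U01 (β l)) (hβ' : ∀ l, U01 (β' l)) (hPm : ∀ i, GoodM Any (Pm i))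
    (hp0 : 0 ≤ p) (hd : ∀ i, Pos (pinP β' (Pm i) - p • pinP β (Pm i))) (R j : ℕ)
    (ih : ∀ x : Nest (S → ℝ) j, Good U01 x →
      p ^ (j * R) * vS θ (x * pins β Pm R j) ≤ vS θ (x * pins β' Pm R j))
    (X : Ms (Nest (S → ℝ) j)) (hX : GoodM U01 X) :
    p ^ ((j + 1) * R) * pS θ (X * pinsM β Pm R j) ≤ pS θ (X * pinsM β' Pm R j) := by
  have g' := (hX.mulU ((goodM_pinP hβ' (hPm j)).powU R))
  have a : p ^ (j * R) * pS θ (X * pinP β' (Pm j) ^ R * dirac (pins β Pm R j)) ≤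
      pS θ (X * pinP β' (Pm j) ^ R * dirac (pins β' Pm R j)) := by
    rw [pS_eq, pS_eq, I_mul_dirac, I_mul_dirac, ← I_const_mul]
    exact g'.2.I_mono g'.1.1 ih
  have b : p ^ R * pS θ (X * pinP β (Pm j) ^ R * dirac (pins β Pm R j)) ≤
      pS θ (X * pinP β' (Pm j) ^ R * dirac (pins β Pm R j)) := by
    rw [← pS_smul]
    refine pS_le_of_pos ?_
    have : X * pinP β' (Pm j) ^ R * dirac (pins β Pm R j) -
        p ^ R • (X * pinP β (Pm j) ^ R * dirac (pins β Pm R j)) =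
        X * (pinP β' (Pm j) ^ R - (p • pinP β (Pm j)) ^ R) * dirac (pins β Pm R j) := by
      rw [smul_pow]; simp only [Algebra.smul_def]; ring
    rw [this]
    exact ((pos_of_good hX).mul (pos_pow_sub ((pos_of_good (goodM_pinP hβ (hPm j))).smul hp0)
      (pos_of_good (goodM_pinP hβ' (hPm j))) (hd j) R)).mul
      (pos_of_good (goodM_dirac (good_pins hβ hPm R j)))
  rw [pinsM, pinsM, ← mul_assoc X, ← mul_assoc X]
  calc _ = p ^ (j * R) * (p ^ R * pS θ (X * pinP β (Pm j) ^ R * dirac (pins β Pm R j))) := by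
        ring
    _ ≤ _ := (mul_le_mul_of_nonneg_left b (pow_nonneg hp0 _)).trans a

theorem pins_cmp (h0 : 0 ≤ θ) (h1 : θ ≤ 1) (hβ : ∀ l, U01 (β l)) (hβ' : ∀ l, U01 (β' l))
    (hPm : ∀ i, GoodM Any (Pm i)) (hp0 : 0 < p) (hp1 : p ≤ 1)
    (hd : ∀ i, Pos (pinP β' (Pm i) - p • pinP β (Pm i))) (R : ℕ) :
    ∀ (j : ℕ) (x : Nest (S → ℝ) j), Good U01 x →
      p ^ (j * R) * vS θ (x * pins β Pm R j) ≤ vS θ (x * pins β' Pm R j)
  | 0, x, _ => by simp [pins]
  | j + 1, x, hx => by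
    have a := pinsM_step (θ := θ) hβ hβ' hPm hp0.le hd R j
      (pins_cmp h0 h1 hβ hβ' hPm hp0 hp1 hd R j) (dn x) hx
    have hn : 0 ≤ pS θ (dn x * pinsM β Pm R j) :=
      pS_nonneg (GoodM.mulU hx (goodM_pinsM hβ hPm R j))
    rw [vS_succ, vS_succ, dn_mul, dn_mul, pins_succ, pins_succ, dn_up, dn_up]
    refine le_trans ?_ (Real.rpow_le_rpow (by positivity) a h0)
    rw [Real.mul_rpow (by positivity) hn]
    refine mul_le_mul_of_nonneg_right ?_ (Real.rpow_nonneg hn _)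
    calc p ^ ((j + 1) * R) = (p ^ ((j + 1) * R)) ^ (1 : ℝ) := (Real.rpow_one _).symm
      _ ≤ _ := Real.rpow_le_rpow_of_exponent_ge (by positivity) (pow_le_one₀ hp0.le hp1) h1

theorem pinsM_cmp (h0 : 0 ≤ θ) (h1 : θ ≤ 1) (hβ : ∀ l, U01 (β l)) (hβ' : ∀ l, U01 (β' l))
    (hPm : ∀ i, GoodM Any (Pm i)) (hp0 : 0 < p) (hp1 : p ≤ 1)
    (hd : ∀ i, Pos (pinP β' (Pm i) - p • pinP β (Pm i))) (R j : ℕ)
    (X : Ms (Nest (S → ℝ) j)) (hX : GoodM U01 X) :
    p ^ ((j + 1) * R) * pS θ (X * pinsM β Pm R j) ≤ pS θ (X * pinsM β' Pm R j) :=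
  pinsM_step hβ hβ' hPm hp0.le hd R j (pins_cmp h0 h1 hβ hβ' hPm hp0 hp1 hd R j) X hX

end pins

/-! ### Slot replacement -/

section slots
variable [Fintype S] {Y B E : Ms (Nest (S → ℝ) j)} {e : ℝ}

theorem replace_slots (hB : GoodM U01 B) (hE : GoodM U01 E)
    (h : ∀ X V : Ms (Nest (S → ℝ) j), GoodM U01 X → GoodM U01 V →
      |pS θ (Y * X * neg (V * B)) - pS θ (Y * X * neg (V * E))| ≤ e)
    (m : ℕ) (X W : Ms (Nest (S → ℝ) j)) (hX : GoodM U01 X) (hW : GoodM U01 W) :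
    |pS θ (Y * X * neg (W * B ^ m)) - pS θ (Y * X * neg (W * E ^ m))| ≤ m * e := by
  induction m generalizing W with
  | zero => simp
  | succ m ih =>
    have a := h X (W * B ^ m) hX (hW.mulU (hB.powU m))
    have b := ih (W * E) (hW.mulU hE)
    rw [show W * B ^ m * E = W * E * B ^ m by ring] at a
    rw [show W * B ^ (m + 1) = W * B ^ m * B by ring, show W * E ^ (m + 1) = W * E * E ^ m by ring]
    refine (abs_sub_le _ _ _).trans ((add_le_add a b).trans (le_of_eq ?_))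
    push_cast; ring

theorem replace_pow {G G' : Ms (Nest (S → ℝ) j)} (hG : GoodM U01 G) (hG' : GoodM U01 G')
    (h : ∀ X : Ms (Nest (S → ℝ) j), GoodM U01 X → |pS θ (Y * X * G) - pS θ (Y * X * G')| ≤ e)
    (J : ℕ) (X : Ms (Nest (S → ℝ) j)) (hX : GoodM U01 X) :
    |pS θ (Y * X * G ^ J) - pS θ (Y * X * G' ^ J)| ≤ J * e := by
  induction J generalizing X with
  | zero => simp
  | succ J ih =>
    have a := h (X * G ^ J) (hX.mulU (hG.powU J))
    have b := ih (X * G') (hX.mulU hG')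
    rw [show Y * (X * G ^ J) * G' = Y * (X * G') * G ^ J by ring] at a
    rw [show Y * X * G ^ (J + 1) = Y * (X * G ^ J) * G by ring,
      show Y * X * G' ^ (J + 1) = Y * (X * G') * G' ^ J by ring]
    refine (abs_sub_le _ _ _).trans ((add_le_add a b).trans (le_of_eq ?_))
    push_cast; ring

theorem replace_all (hB : GoodM U01 B) (hE : GoodM U01 E)
    (h : ∀ X V : Ms (Nest (S → ℝ) j), GoodM U01 X → GoodM U01 V →
      |pS θ (Y * X * neg (V * B)) - pS θ (Y * X * neg (V * E))| ≤ e)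
    (m J : ℕ) (W : Ms (Nest (S → ℝ) j)) (hW : GoodM U01 W) :
    |pS θ (Y * neg (W * B ^ m) ^ J) - pS θ (Y * neg (W * E ^ m) ^ J)| ≤ J * (m * e) := by
  have := replace_pow (hW.mulU (hB.powU m)).neg (hW.mulU (hE.powU m)).neg
    (fun X hX => replace_slots hB hE h m X W hX hW) J 1 (goodM_one U01_one)
  simpa using this

/-- Clauses all of whose slots are scalar act by scalars. -/
theorem pS_mul_clause {ξ : Ms (Nest ℝ j)} (hξ : GoodM R01 ξ) (k : ℕ) {X : Ms (Nest (S → ℝ) j)}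
    (hX : GoodM U01 X) : pS θ (X * neg (slotE S ξ ^ k)) = pS θ X * clauseW θ k ξ := by
  have e : neg (slotE S ξ ^ k) = mapM (fun r (_ : S) => 1 - r) (ξ ^ k) := by
    rw [slotE, ← mapM_pow _ rfl (fun _ _ => rfl), neg, mapM_mapM]
  rw [e, mul_eq_map2M, map2M_mapM_right]
  refine pre_tensor (P := U01) (Q := R01) sumv_nonneg (fun r hr => by linarith [hr.2])
    (fun x r _ _ => ?_) hX (hξ.powR k)
  simp [sumv, Finset.sum_mul]

theorem pS_mul_clause_pow {ξ : Ms (Nest ℝ j)} (hξ : GoodM R01 ξ) (k J : ℕ)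
    {X : Ms (Nest (S → ℝ) j)} (hX : GoodM U01 X) :
    pS θ (X * neg (slotE S ξ ^ k) ^ J) = pS θ X * clauseW θ k ξ ^ J := by
  induction J with
  | zero => simp
  | succ J ih =>
    rw [pow_succ, ← mul_assoc, pS_mul_clause hξ k (hX.mulU ((hξ.slotE.powU k).neg.powU J)), ih]
    ring

end slots

theorem clauseW_mem (h0 : 0 ≤ θ) {ξ : Ms (Nest ℝ j)} (hξ : GoodM R01 ξ) (k : ℕ) :
    0 ≤ clauseW θ k ξ ∧ clauseW θ k ξ ≤ 1 := by
  refine ⟨pre_nonneg (P := R01) (fun r hr => by linarith [hr.2]) (hξ.powR k), ?_⟩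
  have := pre_mono h0 (P := R01) (u := fun r => 1 - r) (v := fun _ => 1)
    (fun r hr => by linarith [hr.2]) (fun r hr => by linarith [hr.1]) (hξ.powR k)
  rw [pre_const zero_le_one (hξ.powR k), Real.one_rpow] at this
  exact this

end Crest.Agent.R153.ASS
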