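import Crest.Agent.R153.Objs

/-!
Row 153: Poisson algebra and the value of a random formula (interface; first part of task R153-C,
also used by task R153-ASS).
-/

set_option autoImplicit false

namespace Crest.Agent.R153

open Ms Nest

variable {S : Type} {j : ℕ} {θ : ℝ}

theorem poi_nonneg {x : ℝ} (hx : 0 ≤ x) (J : ℕ) : 0 ≤ poi x J := by
  unfold poi; positivity

theorem hasSum_poi_mul_pow (x w : ℝ) :
    HasSum (fun J : ℕ => poi x J * w ^ J) (Real.exp (-x * (1 - w))) := by
  have h := (NormedSpace.expSeries_div_hasSum_exp (x * w)).mul_left (Real.exp (-x))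
  rw [← Real.exp_eq_exp_ℝ, ← Real.exp_add] at h
  have e1 : (fun J : ℕ => poi x J * w ^ J) =
      fun i : ℕ => Real.exp (-x) * ((x * w) ^ i / (i.factorial : ℝ)) := by
    funext J
    unfold poi
    rw [mul_pow]; ring
  have e2 : -x * (1 - w) = -x + x * w := by ring
  rw [e1, e2]
  exact h

theorem hasSum_poi (x : ℝ) : HasSum (fun J : ℕ => poi x J) 1 := by
  simpa using hasSum_poi_mul_pow x 1

theorem hasSum_poi_mul_nat (x : ℝ) : HasSum (fun J : ℕ => poi x J * J) x := by
  rw [← hasSum_nat_add_iff' 1]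
  have h := (hasSum_poi x).mul_left x
  have e : (fun n : ℕ => poi x (n + 1) * ((n + 1 : ℕ) : ℝ)) = fun i => x * poi x i := by
    funext n
    unfold poi
    rw [Nat.factorial_succ]
    have : (n.factorial : ℝ) ≠ 0 := by positivity
    push_cast
    field_simp
    ring
  rw [e]
  simpa using h

theorem summable_poi_mul {x : ℝ} (hx : 0 ≤ x) {f : ℕ → ℝ} {B : ℝ} (hf : ∀ J, |f J| ≤ B) :
    Summable fun J => poi x J * f J := by
  refine Summable.of_norm_bounded ((hasSum_poi x).summable.mul_right B) fun J => ?_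
  rw [Real.norm_eq_abs, abs_mul, abs_of_nonneg (poi_nonneg hx J)]
  exact mul_le_mul_of_nonneg_left (hf J) (poi_nonneg hx J)

/-- Poisson thinning, scalar form. -/
theorem poi_split {x y : ℝ} (hx : 0 ≤ x) (hy : 0 ≤ y) {f : ℕ → ℕ → ℝ} {B : ℝ}
    (hf : ∀ i i', |f i i'| ≤ B) :
    HasSum (fun M : ℕ => Real.exp (-(x + y)) / (M.factorial : ℝ) *
        ∑ p ∈ Finset.HasAntidiagonal.antidiagonal M, (M.choose p.1 : ℝ) * x ^ p.1 * y ^ p.2 * f p.1 p.2)
      (∑' i, poi x i * ∑' i', poi y i' * f i i') := by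
  let F : ℕ × ℕ → ℝ := fun p => poi x p.1 * (poi y p.2 * f p.1 p.2)
  have hF : Summable F := by
    have h1 : Summable fun p : ℕ × ℕ => poi x p.1 * poi y p.2 :=
      (hasSum_poi x).summable.mul_of_nonneg (hasSum_poi y).summable (poi_nonneg hx)
        (poi_nonneg hy)
    refine Summable.of_norm_bounded (h1.mul_right B) fun p => ?_
    simp only [F]
    rw [Real.norm_eq_abs, abs_mul, abs_mul, abs_of_nonneg (poi_nonneg hx _),
      abs_of_nonneg (poi_nonneg hy _), mul_assoc]
    exact mul_le_mul_of_nonneg_left (mul_le_mul_of_nonneg_left (hf _ _) (poi_nonneg hy _))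
      (poi_nonneg hx _)
  have h2 : ∑' p, F p = ∑' i, poi x i * ∑' i', poi y i' * f i i' := by
    rw [hF.tsum_prod]
    simp only [F, tsum_mul_left]
  rw [← h2]
  have h3 := (Finset.HasAntidiagonal.sigmaAntidiagonalEquivProd (A := ℕ)).hasSum_iff.2 hF.hasSum
  refine h3.sigma fun M => ?_
  have h4 : Real.exp (-(x + y)) / (M.factorial : ℝ) *
        ∑ p ∈ Finset.HasAntidiagonal.antidiagonal M,
          (M.choose p.1 : ℝ) * x ^ p.1 * y ^ p.2 * f p.1 p.2 =
      ∑ p ∈ Finset.HasAntidiagonal.antidiagonal M, F p := by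
    rw [Finset.mul_sum]
    refine Finset.sum_congr rfl fun p hp => ?_
    have hp' : p.1 + p.2 = M := Finset.HasAntidiagonal.mem_antidiagonal.1 hp
    have h5 : (M.choose p.1 : ℝ) * (p.1.factorial : ℝ) * (p.2.factorial : ℝ) = M.factorial := by
      have := Nat.add_choose_mul_factorial_mul_factorial p.2 p.1
      rw [add_comm p.2, hp'] at this
      rw [mul_right_comm]
      exact_mod_cast this
    have h6 : (p.1.factorial : ℝ) ≠ 0 := by positivity
    have h7 : (p.2.factorial : ℝ) ≠ 0 := by positivity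
    have h8 : (M.choose p.1 : ℝ) ≠ 0 := by
      intro h; rw [h, zero_mul, zero_mul] at h5
      exact (by positivity : (M.factorial : ℝ) ≠ 0) h5.symm
    simp only [F, poi]
    rw [← h5, neg_add, Real.exp_add]
    field_simp
  rw [h4]
  exact Finset.hasSum _ F

/-- Poisson thinning in the algebra of nests. -/
theorem poi_split_pS [Fintype S] (hθ : 0 ≤ θ) {x y : ℝ} (hx : 0 ≤ x) (hy : 0 ≤ y)
    {X A B : Ms (Nest (S → ℝ) j)} (hX : GoodM U01 X) (hA : GoodM U01 A) (hB : GoodM U01 B) :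
    HasSum (fun M : ℕ => Real.exp (-(x + y)) / (M.factorial : ℝ) * pS θ (X * (x • A + y • B) ^ M))
      (∑' i, poi x i * ∑' i', poi y i' * pS θ (X * A ^ i * B ^ i')) := by
  have hb : ∀ i i' : ℕ, |pS θ (X * A ^ i * B ^ i')| ≤ pS θ X := fun i i' => by
    rw [abs_of_nonneg (pS_nonneg ((hX.mulU (hA.powU i)).mulU (hB.powU i'))), mul_assoc]
    exact pS_mul_le hθ hX ((hA.powU i).mulU (hB.powU i'))
  convert poi_split hx hy hb using 3 with M
  rw [(Commute.all (x • A) (y • B)).add_pow', Finset.mul_sum, pS, pre_sum]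
  refine Finset.sum_congr rfl fun p _ => ?_
  rw [smul_pow, smul_pow, ← Nat.cast_smul_eq_nsmul ℝ, smul_mul_smul_comm, smul_smul,
    mul_smul_comm, pre_smul, mul_assoc X, pS]
  ring

theorem dirac_prod {M ι : Type} [CommMonoid M] (s : Finset ι) (c : ι → M) :
    dirac (∏ i ∈ s, c i) = ∏ i ∈ s, dirac (c i) :=
  map_prod (MonoidAlgebra.of ℝ M) c s

theorem det_prod {A ι : Type} [CommMonoid A] (s : Finset ι) (c : ι → A) (j : ℕ) :
    det (∏ i ∈ s, c i) j = ∏ i ∈ s, det (c i) j :=
  map_prod (detHom j) c s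

theorem slotB_pow {L : Type} [Fintype L] (β : L → S → ℝ) (j k : ℕ) :
    slotB β j ^ k = slotB (fun f : Fin k → L => ∏ i, β (f i)) j := by
  simp only [slotB, avg, smul_pow, Fintype.sum_pow, det_prod, dirac_prod, Fintype.card_fun,
    Fintype.card_fin, Nat.cast_pow, inv_pow]

theorem mapM_slotB {S' L : Type} [Fintype L] (g : (S → ℝ) → S' → ℝ) (β : L → S → ℝ) (j : ℕ) :
    mapM g (slotB β j) = slotB (fun l => g (β l)) j := by
  simp only [slotB, mapM_avg, mapM_dirac, map_det]

theorem neg_slotB {L : Type} [Fintype L] (β : L → S → ℝ) (j : ℕ) :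
    neg (slotB β j) = slotB (fun l σ => 1 - β l σ) j := mapM_slotB _ _ _

theorem pS_slotB [Fintype S] {L : Type} [Fintype L] {β : L → S → ℝ} (hβ : ∀ l, 0 ≤ sumv (β l))
    (j : ℕ) : pS θ (slotB β j) = (∑ l, sumv (β l) ^ (θ ^ j)) / Fintype.card L := by
  rw [pS, slotB, pre_avg]
  congr 1
  exact Finset.sum_congr rfl fun l _ => by rw [pre_dirac, val_det _ (hβ l)]

open Classical in
theorem clause_leaf (k n m : ℕ) (F : Fin m → Fin k → Fin n × Bool) (σ : Fin n → Bool) :
    (∏ i, (fun σ => 1 - (∏ i', lit n (F i i')) σ : (Fin n → Bool) → ℝ)) σ =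
      if ∀ i, ∃ i', σ (F i i').1 = (F i i').2 then 1 else 0 := by
  simp only [Finset.prod_apply]
  split_ifs with h
  · refine Finset.prod_eq_one fun i _ => ?_
    obtain ⟨i', hi'⟩ := h i
    rw [Finset.prod_eq_zero (Finset.mem_univ i') (by simp [lit, hi']), sub_zero]
  · push Not at h
    obtain ⟨i, hi⟩ := h
    refine Finset.prod_eq_zero (Finset.mem_univ i) ?_
    rw [Finset.prod_eq_one fun i' _ => by simp [lit, hi i'], sub_self]

open Classical in
theorem pS_clause_power (k n m j : ℕ) :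
    pS θ (neg (slotB (lit n) j ^ k) ^ m) =
      (∑ F : Fin m → Fin k → Fin n × Bool,
        (∑ σ : Fin n → Bool, if ∀ i, ∃ i', σ (F i i').1 = (F i i').2 then (1 : ℝ) else 0)
          ^ (θ ^ j)) / Fintype.card (Fin m → Fin k → Fin n × Bool) := by
  rw [slotB_pow, neg_slotB, slotB_pow, pS_slotB]
  · simp only [sumv, clause_leaf]
  · intro F
    simp only [sumv, clause_leaf]
    exact Finset.sum_nonneg fun σ _ => by split_ifs <;> norm_num

/-- `pS` of `m` random clauses is the average of `Z ^ (θ ^ j)`, `Z` the number of solutions. -/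
theorem clause_power_lower (h0 : 0 < θ) (k n m j : ℕ) [NeZero n] :
    replProb k n m ≤ pS θ (neg (slotB (lit n) j ^ k) ^ m) := by
  classical
  rw [pS_clause_power, replProb, Crest.FinProb.uniformProb]
  refine div_le_div_of_nonneg_right ?_ (Nat.cast_nonneg _)
  rw [Finset.card_filter, Nat.cast_sum]
  refine Finset.sum_le_sum fun F _ => ?_
  have hnn : ∀ σ : Fin n → Bool,
      (0 : ℝ) ≤ if ∀ i, ∃ i', σ (F i i').1 = (F i i').2 then (1 : ℝ) else 0 :=
    fun σ => by split_ifs <;> norm_num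
  split_ifs with h
  · obtain ⟨σ, hσ⟩ := h
    rw [Nat.cast_one]
    refine Real.one_le_rpow ?_ (by positivity)
    have := Finset.single_le_sum (fun σ _ => hnn σ) (Finset.mem_univ σ)
    rwa [if_pos hσ] at this
  · rw [Nat.cast_zero]
    exact Real.rpow_nonneg (Finset.sum_nonneg fun σ _ => hnn σ) _

theorem clause_power_upper (h0 : 0 < θ) (k n m j : ℕ) [NeZero n] :
    pS θ (neg (slotB (lit n) j ^ k) ^ m) ≤ (2 : ℝ) ^ (θ ^ j * n) * replProb k n m := by
  classical
  rw [pS_clause_power, replProb, Crest.FinProb.uniformProb, ← mul_div_assoc]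
  refine div_le_div_of_nonneg_right ?_ (Nat.cast_nonneg _)
  rw [Finset.card_filter, Nat.cast_sum, Finset.mul_sum]
  refine Finset.sum_le_sum fun F _ => ?_
  have hnn : ∀ σ : Fin n → Bool,
      (0 : ℝ) ≤ if ∀ i, ∃ i', σ (F i i').1 = (F i i').2 then (1 : ℝ) else 0 :=
    fun σ => by split_ifs <;> norm_num
  split_ifs with h
  · rw [Nat.cast_one, mul_one, mul_comm, Real.rpow_mul (by norm_num), Real.rpow_natCast]
    refine Real.rpow_le_rpow (Finset.sum_nonneg fun σ _ => hnn σ) ?_ (by positivity)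
    calc (∑ σ : Fin n → Bool, if ∀ i, ∃ i', σ (F i i').1 = (F i i').2 then (1 : ℝ) else 0)
        ≤ ∑ _σ : Fin n → Bool, (1 : ℝ) :=
          Finset.sum_le_sum fun σ _ => by split_ifs <;> norm_num
      _ = 2 ^ n := by simp
  · have : (∑ σ : Fin n → Bool,
        if ∀ i, ∃ i', σ (F i i').1 = (F i i').2 then (1 : ℝ) else 0) = 0 :=
      Finset.sum_eq_zero fun σ _ => if_neg fun hσ => h ⟨σ, hσ⟩
    rw [this, Real.zero_rpow (by positivity), Nat.cast_zero, mul_zero]

end Crest.Agent.R153
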