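import Crest.Agent.R153.ASS_Dom
import Crest.Agent.R153.Poi

/-! Row 153, task ASS: one more variable. -/

set_option autoImplicit false

namespace Crest.Agent.R153.ASS

open Ms Nest

variable {j : ℕ} {θ : ℝ}

def oldL (N : ℕ) (l : Fin N × Bool) : (Fin (N + 1) → Bool) → ℝ := lit (N + 1) (l.1.succ, l.2)

def newL (N : ℕ) (b : Bool) : (Fin (N + 1) → Bool) → ℝ := lit (N + 1) (0, b)

def g0 (N : ℕ) (τ : Fin N → Bool) : Fin (N + 1) → Bool := Fin.cons false τ

/-- Functions that do not depend on the new variable. -/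
def PP (N : ℕ) (x : (Fin (N + 1) → Bool) → ℝ) : Prop := ∀ σ, x σ = x (g0 N (Fin.tail σ))

theorem U01_oldL (N : ℕ) (l : Fin N × Bool) : U01 (oldL N l) := U01_lit _ _

theorem U01_newL (N : ℕ) (b : Bool) : U01 (newL N b) := U01_lit _ _

theorem PP_one (N : ℕ) : PP N 1 := fun _ => rfl

theorem PP_mul (N : ℕ) (x y : (Fin (N + 1) → Bool) → ℝ) (hx : PP N x) (hy : PP N y) :
    PP N (x * y) := fun σ => by
  simp only [Pi.mul_apply]; rw [← hx σ, ← hy σ]

theorem PP_oldL (N : ℕ) (l : Fin N × Bool) : PP N (oldL N l) := fun σ => by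
  simp [oldL, lit, g0, Fin.tail]

theorem PP_test (N : ℕ) (l : Fin N × Bool) (o : Option Bool) :
    PP N fun σ => 1 - tv o (oldL N l σ) := fun σ => by
  simp only []; rw [← PP_oldL N l σ]

theorem PP_neg {N : ℕ} {X : Ms (Nest ((Fin (N + 1) → Bool) → ℝ) j)} (h : GoodM (PP N) X) :
    GoodM (PP N) (neg X) := h.mapM fun x hx σ => by simp only []; rw [← hx σ]

theorem oldL_g0 (N : ℕ) : (fun l τ => oldL N l (g0 N τ)) = lit N := by
  funext l τ; simp [oldL, lit, g0]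

theorem lit1_hd (N : ℕ) : (fun (b : Bool) (σ : Fin (N + 1) → Bool) => lit1 b (σ 0)) = newL N := by
  funext b σ; simp [newL, lit, lit1]

theorem avg_split {M : Type} {N : ℕ} (hN : 0 < N) (X : Fin (N + 1) × Bool → Ms M) :
    avg X = ((N : ℝ) / (N + 1)) • avg (fun l : Fin N × Bool => X (l.1.succ, l.2)) +
      (1 / ((N : ℝ) + 1)) • avg (fun b : Bool => X (0, b)) := by
  refine ext_I fun f => ?_
  have : (N : ℝ) ≠ 0 := by positivity
  simp only [I_add, I_smul, I_avg, Fintype.sum_prod_type, Fin.sum_univ_succ, Fintype.card_prod,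
    Fintype.card_fin, Fintype.card_bool]
  push_cast
  field_simp
  ring

theorem sumv_tensor {N : ℕ} {x : (Fin (N + 1) → Bool) → ℝ} (hx : PP N x) (b : Bool → ℝ) :
    sumv (x * fun σ => b (σ 0)) = sumv (fun τ => x (g0 N τ)) * sumv b := by
  unfold sumv
  rw [← (Fin.consEquiv fun _ => Bool).sum_comp, Fintype.sum_prod_type, Finset.sum_comm,
    Finset.sum_mul_sum]
  refine Finset.sum_congr rfl fun τ _ => Finset.sum_congr rfl fun c _ => ?_
  simp only [Pi.mul_apply]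
  rw [hx]
  simp [Fin.consEquiv]

theorem pS_tensor {N : ℕ} {Y : Ms (Nest ((Fin (N + 1) → Bool) → ℝ) j)} (hY : GoodM U01 Y)
    (hP : GoodM (PP N) Y) {Z : Ms (Nest (Bool → ℝ) j)} (hZ : GoodM U01 Z) :
    pS θ (Y * pb (fun σ => σ 0) Z) = pS θ (pb (g0 N) Y) * pS θ Z := by
  rw [pb, mul_eq_map2M, map2M_mapM_right, pb, pS, pS, pre_mapM]
  exact pre_tensor (P := fun x => U01 x ∧ PP N x) (Q := U01)
    (fun x hx => sumv_nonneg _ fun τ => hx.1 _) sumv_nonneg
    (fun x b hx _ => sumv_tensor hx.2 b) (hY.and hP) hZ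

theorem pS_PP {N : ℕ} {Y : Ms (Nest ((Fin (N + 1) → Bool) → ℝ) j)} (hY : GoodM U01 Y)
    (hP : GoodM (PP N) Y) : pS θ Y = (2 : ℝ) ^ (θ ^ j) * pS θ (pb (g0 N) Y) := by
  rw [pb, pS, pS, pre_mapM, ← pre_const_mul (P := U01)
    (fun x hx => sumv_nonneg _ fun τ => hx _) (by norm_num) hY]
  refine pre_congr (fun x hx => ?_) hP
  have := sumv_tensor hx (fun _ => 1)
  rw [show (x * fun _ => (1 : ℝ)) = x from mul_one x] at this
  rw [this, mul_comm]; simp [sumv]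

theorem good_site {ξ : Ms (Nest ℝ j)} (hξ : GoodM R01 ξ) (m : ℕ) :
    GoodM U01 (neg (slotB lit1 j * slotE Bool ξ ^ m)) :=
  ((goodM_slotB U01_lit1 j).mulU (hξ.slotE.powU m)).neg

theorem pS_site {N : ℕ} {Y : Ms (Nest ((Fin (N + 1) → Bool) → ℝ) j)} (hY : GoodM U01 Y)
    (hP : GoodM (PP N) Y) {ξ : Ms (Nest ℝ j)} (hξ : GoodM R01 ξ) (m J : ℕ) :
    pS θ (Y * neg (slotB (newL N) j * slotE _ ξ ^ m) ^ J) =
      pS θ (pb (g0 N) Y) * siteW θ (m + 1) ξ J := by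
  rw [siteW, Nat.add_sub_cancel, ← pS_tensor hY hP ((good_site hξ m).powU J), pb_pow, pb_neg,
    pb_mul, pb_pow, pb_slotB, pb_slotE, lit1_hd]

section poisson
variable {S : Type} [Fintype S]

theorem summable_pS (h0 : 0 ≤ θ) {x : ℝ} (hx : 0 ≤ x) {X A : Ms (Nest (S → ℝ) j)}
    (hX : GoodM U01 X) (hA : GoodM U01 A) : Summable fun J => poi x J * pS θ (X * A ^ J) :=
  summable_poi_mul hx (B := pS θ X) fun J => by
    rw [abs_of_nonneg (pS_nonneg (hX.mulU (hA.powU J)))]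
    exact pS_mul_le h0 hX (hA.powU J)

theorem tsum_pS_nonneg {x : ℝ} (hx : 0 ≤ x) {X A : Ms (Nest (S → ℝ) j)}
    (hX : GoodM U01 X) (hA : GoodM U01 A) : 0 ≤ ∑' J, poi x J * pS θ (X * A ^ J) :=
  tsum_nonneg fun J => mul_nonneg (poi_nonneg hx J) (pS_nonneg (hX.mulU (hA.powU J)))

theorem tsum_pS_le (h0 : 0 ≤ θ) {x : ℝ} (hx : 0 ≤ x) {X A : Ms (Nest (S → ℝ) j)}
    (hX : GoodM U01 X) (hA : GoodM U01 A) : ∑' J, poi x J * pS θ (X * A ^ J) ≤ pS θ X := by
  have := hasSum_le (fun J => mul_le_mul_of_nonneg_left (pS_mul_le h0 hX (hA.powU J))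
    (poi_nonneg hx J)) (summable_pS h0 hx hX hA).hasSum ((hasSum_poi x).mul_right (pS θ X))
  rwa [one_mul] at this

theorem le_tsum_pS (h0 : 0 ≤ θ) {x : ℝ} (hx : 0 ≤ x) {X A : Ms (Nest (S → ℝ) j)}
    (hX : GoodM U01 X) (hA : GoodM U01 A) :
    Real.exp (-x) * pS θ X ≤ ∑' J, poi x J * pS θ (X * A ^ J) := by
  have := (summable_pS h0 hx hX hA).le_tsum 0
    fun J _ => mul_nonneg (poi_nonneg hx J) (pS_nonneg (hX.mulU (hA.powU J)))
  simpa [poi] using this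

theorem poi_merge (h0 : 0 ≤ θ) {x y : ℝ} (hx : 0 ≤ x) (hy : 0 ≤ y) {X A : Ms (Nest (S → ℝ) j)}
    (hX : GoodM U01 X) (hA : GoodM U01 A) :
    ∑' M, poi (x + y) M * pS θ (X * A ^ M) =
      ∑' i, poi x i * ∑' i', poi y i' * pS θ (X * A ^ i * A ^ i') := by
  rw [← (poi_split_pS h0 hx hy hX hA hA).tsum_eq]
  refine tsum_congr fun M => ?_
  rw [← add_smul, smul_pow, mul_smul_comm, pS_smul, poi]; ring

theorem tsum_pS_anti (h0 : 0 ≤ θ) {x z : ℝ} (hx : 0 ≤ x) (hxz : x ≤ z)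
    {X A : Ms (Nest (S → ℝ) j)} (hX : GoodM U01 X) (hA : GoodM U01 A) :
    ∑' M, poi z M * pS θ (X * A ^ M) ≤ ∑' M, poi x M * pS θ (X * A ^ M) := by
  have e : z = x + (z - x) := by ring
  have hy : 0 ≤ z - x := by linarith
  rw [e, poi_merge h0 hx hy hX hA]
  refine Summable.tsum_le_tsum (fun i => mul_le_mul_of_nonneg_left
    (tsum_pS_le h0 hy (hX.mulU (hA.powU i)) hA) (poi_nonneg hx i)) ?_ (summable_pS h0 hx hX hA)
  refine summable_poi_mul hx (B := pS θ X) fun i => ?_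
  rw [abs_of_nonneg (tsum_pS_nonneg hy (hX.mulU (hA.powU i)) hA)]
  exact (tsum_pS_le h0 hy (hX.mulU (hA.powU i)) hA).trans (pS_mul_le h0 hX (hA.powU i))

end poisson

theorem I_tsum {M : Type} (ν : Ms M) (f : M → ℕ → ℝ)
    (hf : ∀ Y, ν.coeff Y ≠ 0 → Summable (f Y)) :
    I ν (fun Y => ∑' J, f Y J) = ∑' J, I ν (fun Y => f Y J) := by
  simp only [I_eq_sum]
  rw [Summable.tsum_finsetSum fun Y hY => (hf Y (Finsupp.mem_support_iff.1 hY)).mul_left _]
  exact Finset.sum_congr rfl fun Y _ => tsum_mul_left.symm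

/-- The clause on old variables only, and the clause with exactly one new slot. -/
noncomputable def Cc (N m j : ℕ) : Ms (Nest ((Fin (N + 1) → Bool) → ℝ) j) :=
  neg (slotB (oldL N) j ^ (m + 1))

noncomputable def Dc (N m j : ℕ) : Ms (Nest ((Fin (N + 1) → Bool) → ℝ) j) :=
  neg (slotB (newL N) j * slotB (oldL N) j ^ m)

theorem good_Cc (N m j : ℕ) [NeZero N] : GoodM U01 (Cc N m j) :=
  ((goodM_slotB (U01_oldL N) j).powU _).neg

theorem PP_Cc (N m j : ℕ) [NeZero N] : GoodM (PP N) (Cc N m j) :=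
  PP_neg ((goodM_slotB' (PP_oldL N) j).pow (PP_one N) (PP_mul N) _)

theorem good_Dc (N m j : ℕ) [NeZero N] : GoodM U01 (Dc N m j) :=
  ((goodM_slotB (U01_newL N) j).mulU ((goodM_slotB (U01_oldL N) j).powU _)).neg

theorem per_Y (h0 : 0 ≤ θ) {N : ℕ} [NeZero N] {m : ℕ} {a : ℝ} (ha : 0 ≤ a)
    {Y : Ms (Nest ((Fin (N + 1) → Bool) → ℝ) j)} (hY : GoodM U01 Y) (hP : GoodM (PP N) Y)
    {ξ : Ms (Nest ℝ j)} (hξ : GoodM R01 ξ) (hPi : 1 ≤ PiF θ (m + 1) a ξ) {e : ℝ} (he : 0 ≤ e)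
    (h : ∀ X V : Ms (Nest ((Fin (N + 1) → Bool) → ℝ) j), GoodM U01 X → GoodM U01 V →
      |pS θ (Y * X * neg (V * slotB (oldL N) j)) - pS θ (Y * X * neg (V * slotE _ ξ))| ≤ e)
    {l₁ l₂ : ℝ} (h1 : 0 ≤ l₁) (h1' : l₁ ≤ (m + 1) * a) (h2 : 0 ≤ l₂) (h2' : l₂ ≤ m * a) :
    Real.exp (-(m * a - l₂)) * (∑' J, poi l₂ J * pS θ (pb (g0 N) (Y * Cc N m j ^ J))) -
      2 * (m + 1) ^ 2 * a * e ≤ ∑' J, poi l₁ J * pS θ (Y * Dc N m j ^ J) := by
  have hB := goodM_slotB (U01_oldL N) j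
  have hE : GoodM U01 (slotE (Fin (N + 1) → Bool) ξ) := hξ.slotE
  set y := pS θ (pb (g0 N) Y) with hy
  have hy0 : 0 ≤ y := pS_nonneg (good_pb _ hY)
  set w := clauseW θ (m + 1) ξ with hw
  have hw01 := clauseW_mem h0 hξ (m + 1)
  have ht : (1 : ℝ) ≤ 2 ^ (θ ^ j) := Real.one_le_rpow (by norm_num) (pow_nonneg h0 _)
  have hm0 : (0 : ℝ) ≤ m := Nat.cast_nonneg _
  -- site part
  have s1 : ∀ J : ℕ, y * siteW θ (m + 1) ξ J - J * (m * e) ≤ pS θ (Y * Dc N m j ^ J) := by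
    intro J
    have := replace_all hB hE h m J _ (goodM_slotB (U01_newL N) j)
    rw [pS_site hY hP hξ] at this
    have := (abs_le.1 this).1
    unfold Dc; linarith
  have sumS : Summable fun J => poi l₁ J * siteW θ (m + 1) ξ J := by
    have := summable_pS h0 h1 (goodM_one U01_one) (good_site hξ m)
    simpa [siteW] using this
  have s2 : y * (∑' J, poi l₁ J * siteW θ (m + 1) ξ J) - l₁ * (m * e) ≤
      ∑' J, poi l₁ J * pS θ (Y * Dc N m j ^ J) := by
    refine hasSum_le (fun J => ?_) ((sumS.hasSum.mul_left y).sub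
      ((hasSum_poi_mul_nat l₁).mul_right (m * e))) (summable_pS h0 h1 hY (good_Dc N m j)).hasSum
    have := mul_le_mul_of_nonneg_left (s1 J) (poi_nonneg h1 J)
    linarith
  have s3 : Real.exp (-(m * a * (1 - w))) ≤ ∑' J, poi l₁ J * siteW θ (m + 1) ξ J := by
    have a1 := tsum_pS_anti h0 h1 h1' (goodM_one U01_one) (good_site hξ m)
    simp only [one_mul] at a1
    refine le_trans ?_ a1
    unfold PiF at hPi
    rw [← hw] at hPi
    push_cast at hPi
    rw [add_sub_cancel_right] at hPi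
    rw [Real.exp_neg, inv_eq_one_div, div_le_iff₀ (Real.exp_pos _)]
    exact hPi
  -- clause part
  have c1 : ∀ J : ℕ, pS θ (pb (g0 N) (Y * Cc N m j ^ J)) ≤ y * w ^ J + J * ((m + 1) * e) := by
    intro J
    have a1 := replace_all hB hE h (m + 1) J 1 (goodM_one U01_one)
    rw [one_mul, one_mul, pS_mul_clause_pow hξ _ _ hY, pS_PP hY hP, ← hy, ← hw] at a1
    have a2 := (abs_le.1 a1).2
    have a3 := pS_PP (θ := θ) (hY.mulU ((good_Cc N m j).powU J))
      (hP.mul (PP_mul N) ((PP_Cc N m j).pow (PP_one N) (PP_mul N) J))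
    unfold Cc at a3 ⊢
    rw [a3] at a2
    push_cast at a2
    have a4 : (0 : ℝ) ≤ J * ((m + 1) * e) := by positivity
    by_contra hlt
    have a5 := not_le.1 hlt
    nlinarith
  have c2 : ∑' J, poi l₂ J * pS θ (pb (g0 N) (Y * Cc N m j ^ J)) ≤
      y * Real.exp (-l₂ * (1 - w)) + l₂ * ((m + 1) * e) := by
    have sumC : Summable fun J => poi l₂ J * pS θ (pb (g0 N) (Y * Cc N m j ^ J)) := by
      simp only [pb_mul, pb_pow]
      exact summable_pS h0 h2 (good_pb _ hY) (good_pb _ (good_Cc N m j))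
    refine hasSum_le (fun J => ?_) sumC.hasSum (((hasSum_poi_mul_pow l₂ w).mul_left y).add
      ((hasSum_poi_mul_nat l₂).mul_right ((m + 1) * e)))
    have := mul_le_mul_of_nonneg_left (c1 J) (poi_nonneg h2 J)
    linarith
  have d0 : Real.exp (-(m * a - l₂)) ≤ 1 := Real.exp_le_one_iff.2 (by linarith)
  have d1 : Real.exp (-(m * a - l₂)) * Real.exp (-l₂ * (1 - w)) ≤
      Real.exp (-(m * a * (1 - w))) := by
    rw [← Real.exp_add]
    refine Real.exp_le_exp.2 ?_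
    nlinarith [mul_nonneg (sub_nonneg.2 h2') hw01.1]
  have d2 := mul_le_mul_of_nonneg_left c2 (Real.exp_pos (-(m * a - l₂))).le
  have d3 := mul_le_mul_of_nonneg_left (d1.trans s3) hy0
  have d4 : Real.exp (-(m * a - l₂)) * (l₂ * ((m + 1) * e)) ≤ (m + 1) ^ 2 * a * e := by
    calc _ ≤ 1 * ((m + 1) * a * ((m + 1) * e)) :=
          mul_le_mul d0 (mul_le_mul_of_nonneg_right (by nlinarith) (by positivity))
            (by positivity) zero_le_one
      _ = _ := by ring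
  have d5 : l₁ * (m * e) ≤ (m + 1) ^ 2 * a * e := by
    calc _ ≤ (m + 1) * a * ((m + 1) * e) :=
          mul_le_mul h1' (by nlinarith) (by positivity) (by positivity)
      _ = _ := by ring
  nlinarith

end Crest.Agent.R153.ASS
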