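import Mathlib
import Crest.Prelude.Def_RandomSAT

/-!
Row 153 (random k-SAT): auxiliary models.

* `replProb k n m`: `m` clauses, each with `k` independent uniform literals (variables drawn WITH
  replacement among `n`).
* `poiProb k a n`: the same with a Poisson(`a n`) number of clauses.
-/

set_option autoImplicit false

namespace Crest.Agent.R153

/-- Satisfiability probability of `m` clauses of `k` independent uniform literals on `n`
variables (with replacement). A literal is a pair (variable, required value). -/
noncomputable def replProb (k n m : ℕ) : ℝ :=
  Crest.FinProb.uniformProb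
    {F : Fin m → Fin k → Fin n × Bool |
      ∃ σ : Fin n → Bool, ∀ j, ∃ i, σ (F j i).1 = (F j i).2}

/-- Poisson weight `e^{-x} x^j / j!`. -/
noncomputable def poi (x : ℝ) (j : ℕ) : ℝ := Real.exp (-x) * x ^ j / (j.factorial : ℝ)

/-- The with-replacement model with a Poisson(`a n`) number of clauses. -/
noncomputable def poiProb (k : ℕ) (a : ℝ) (n : ℕ) : ℝ :=
  ∑' j : ℕ, poi (a * n) j * replProb k n j

end Crest.Agent.R153
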