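import Mathlib
import Crest.Prelude.Def_RandomSAT
import Crest.Agent.R153.Defs

/-!
Row 153, part B: computability.  The abstract assembly from two semidecisions, and the primitive
recursive count of satisfiable with-replacement formulas.
-/

set_option autoImplicit false

namespace Crest.Agent.R153.PartB

open Primrec

theorem computablePred_comp {α β : Type} [Primcodable α] [Primcodable β] {p : β → Prop}
    (hp : ComputablePred p) {f : α → β} (hf : Computable f) : ComputablePred (fun a => p (f a)) := by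
  classical
  exact Computable.computablePred (hp.decide.comp hf)

theorem computablePred_and {α : Type} [Primcodable α] {p q : α → Prop}
    (hp : ComputablePred p) (hq : ComputablePred q) : ComputablePred (fun a => p a ∧ q a) := by
  classical
  refine Computable.computablePred ((Primrec.and.to_comp.comp hp.decide hq.decide).of_eq ?_)
  intro a
  simp

theorem computablePred_or {α : Type} [Primcodable α] {p q : α → Prop}
    (hp : ComputablePred p) (hq : ComputablePred q) : ComputablePred (fun a => p a ∨ q a) := by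
  classical
  refine Computable.computablePred ((Primrec.or.to_comp.comp hp.decide hq.decide).of_eq ?_)
  intro a
  simp

theorem primrec_pow : Primrec₂ (fun a b : ℕ => a ^ b) := Primrec₂.unpaired'.1 Nat.Primrec.pow

theorem computable_of_semidecisions' (α : ℝ) (hα : 0 ≤ α) (P Q : ℕ × ℕ × ℕ → Prop)
    (hP : ComputablePred P) (hQ : ComputablePred Q)
    (hP1 : ∀ u v w : ℕ, P (u, v, w) → (u : ℝ) / (v + 1) ≤ α)
    (hP2 : ∀ u v : ℕ, (u : ℝ) / (v + 1) < α → ∃ w, P (u, v, w))
    (hQ1 : ∀ u v w : ℕ, Q (u, v, w) → α ≤ (u : ℝ) / (v + 1))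
    (hQ2 : ∀ u v : ℕ, α < (u : ℝ) / (v + 1) → ∃ w, Q (u, v, w)) :
    ∃ f : ℕ → ℕ, Computable f ∧ ∀ r : ℕ, |(f r : ℝ) / 2 ^ r - α| ≤ 1 / 2 ^ r := by
  classical
  let R : ℕ → ℕ → Prop := fun r n =>
    (n.unpair.1 = 0 ∨ P (n.unpair.1 - 1, 2 ^ r - 1, n.unpair.2.unpair.1)) ∧
      Q (n.unpair.1 + 1, 2 ^ r - 1, n.unpair.2.unpair.2)
  have hj : Primrec (fun p : ℕ × ℕ => p.2.unpair.1) := fst.comp (unpair.comp snd)
  have hw : Primrec (fun p : ℕ × ℕ => p.2.unpair.2.unpair) :=
    unpair.comp (snd.comp (unpair.comp snd))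
  have hv : Primrec (fun p : ℕ × ℕ => 2 ^ p.1 - 1) :=
    nat_sub.comp (primrec_pow.comp (const 2) fst) (const 1)
  have hR : ComputablePred (fun p : ℕ × ℕ => R p.1 p.2) := by
    refine computablePred_and (computablePred_or ?_ ?_) ?_
    · exact (Primrec.eq.comp hj (const 0)).computablePred
    · exact computablePred_comp hP
        (((nat_sub.comp hj (const 1)).pair (hv.pair (fst.comp hw))).to_comp)
    · exact computablePred_comp hQ
        (((nat_add.comp hj (const 1)).pair (hv.pair (snd.comp hw))).to_comp)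
  have hcast : ∀ r : ℕ, ((2 ^ r - 1 : ℕ) : ℝ) + 1 = 2 ^ r := by
    intro r
    have : 1 ≤ 2 ^ r := Nat.one_le_two_pow
    rw [Nat.cast_sub this]
    push_cast
    ring
  have hex : ∀ r, ∃ n, R r n := by
    intro r
    have h2 : (0 : ℝ) < 2 ^ r := by positivity
    set j := ⌊α * 2 ^ r⌋₊ with hjdef
    have h0 : 0 ≤ α * 2 ^ r := by positivity
    have hj1 : (j : ℝ) ≤ α * 2 ^ r := Nat.floor_le h0
    have hj2 : α * 2 ^ r < j + 1 := Nat.lt_floor_add_one _
    obtain ⟨w', hw'⟩ := hQ2 (j + 1) (2 ^ r - 1) (by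
      rw [hcast, lt_div_iff₀ h2]; push_cast; exact hj2)
    by_cases hj0 : j = 0
    · refine ⟨Nat.pair j (Nat.pair 0 w'), ?_⟩
      simp only [R, Nat.unpair_pair]
      exact ⟨Or.inl hj0, hw'⟩
    · obtain ⟨w, hw⟩ := hP2 (j - 1) (2 ^ r - 1) (by
        rw [hcast, div_lt_iff₀ h2, Nat.cast_sub (Nat.one_le_iff_ne_zero.2 hj0)]
        push_cast; linarith)
      refine ⟨Nat.pair j (Nat.pair w w'), ?_⟩
      simp only [R, Nat.unpair_pair]
      exact ⟨Or.inr hw, hw'⟩
  refine ⟨fun r => (Nat.find (hex r)).unpair.1,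
    (fst.comp unpair).to_comp.comp (Computable.find hR hex), fun r => ?_⟩
  obtain ⟨h1, h2⟩ := Nat.find_spec (hex r)
  set j := (Nat.find (hex r)).unpair.1
  have hpos : (0 : ℝ) < 2 ^ r := by positivity
  have hu := hQ1 _ _ _ h2
  rw [hcast] at hu
  have hl : ((j : ℝ) - 1) / 2 ^ r ≤ α := by
    rcases h1 with h1 | h1
    · rw [h1]
      have : ((((0 : ℕ) : ℝ)) - 1) / 2 ^ r ≤ 0 := by
        apply div_nonpos_of_nonpos_of_nonneg <;> simp
      linarith
    · have h3 := hP1 _ _ _ h1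
      rw [hcast] at h3
      refine le_trans ?_ h3
      apply div_le_div_of_nonneg_right _ hpos.le
      rcases Nat.eq_zero_or_pos j with h | h
      · simp [h]
      · rw [Nat.cast_sub h]; simp
  rw [abs_le]
  push_cast at hu
  rw [add_div] at hu
  rw [sub_div] at hl
  constructor <;> linarith

/-! ### Counting satisfiable formulas -/

/-- the code of literal `i` of clause `j` in the formula with code `F` -/
def litCode (n F j i : ℕ) : ℕ := F / ((n * 2) ^ 3) ^ j % (n * 2) ^ 3 / (n * 2) ^ i % (n * 2)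

/-- the coded formula `F` with `m` clauses on `n` variables is satisfiable -/
def SatCode (n m F : ℕ) : Prop :=
  ∃ σ < 2 ^ n, ∀ j < m, ∃ i < 3, σ / 2 ^ (litCode n F j i / 2) % 2 = litCode n F j i % 2

open Classical in
/-- the number of satisfiable coded formulas -/
noncomputable def satCount (n m : ℕ) : ℕ :=
  ((List.range (((n * 2) ^ 3) ^ m)).filter (fun F => SatCode n m F)).length

theorem primrec_litCode :
    Primrec (fun p : (ℕ × ℕ) × ℕ × ℕ => litCode p.1.1 p.1.2 p.2.1 p.2.2) := by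
  have hn : Primrec (fun p : (ℕ × ℕ) × ℕ × ℕ => p.1.1 * 2) :=
    nat_mul.comp (fst.comp fst) (const 2)
  have hB : Primrec (fun p : (ℕ × ℕ) × ℕ × ℕ => (p.1.1 * 2) ^ 3) :=
    primrec_pow.comp hn (const 3)
  exact nat_mod.comp (nat_div.comp (nat_mod.comp (nat_div.comp (snd.comp fst)
    (primrec_pow.comp hB (fst.comp snd))) hB) (primrec_pow.comp hn (snd.comp snd))) hn

theorem primrec_satCode : PrimrecRel (fun (F : ℕ) (p : ℕ × ℕ) => SatCode p.1 p.2 F) := by
  -- innermost: i ; parameters (j, σ, F, n, m)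
  have hl : Primrec (fun q : ℕ × ℕ × ℕ × ℕ × ℕ × ℕ =>
      litCode q.2.2.2.2.1 q.2.2.2.1 q.2.1 q.1) :=
    primrec_litCode.comp (((fst.comp (snd.comp (snd.comp (snd.comp snd)))).pair
      (fst.comp (snd.comp (snd.comp snd)))).pair ((fst.comp snd).pair fst))
  have h1 : PrimrecRel (fun (i : ℕ) (q : ℕ × ℕ × ℕ × ℕ × ℕ) =>
      q.2.1 / 2 ^ (litCode q.2.2.2.1 q.2.2.1 q.1 i / 2) % 2 =
        litCode q.2.2.2.1 q.2.2.1 q.1 i % 2) :=
    Primrec.eq.comp (nat_mod.comp (nat_div.comp (fst.comp (snd.comp snd))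
      (primrec_pow.comp (const 2) (nat_div.comp hl (const 2)))) (const 2))
      (nat_mod.comp hl (const 2))
  have h2 : PrimrecRel (fun (j : ℕ) (q : ℕ × ℕ × ℕ × ℕ) => ∃ i < 3,
      q.1 / 2 ^ (litCode q.2.2.1 q.2.1 j i / 2) % 2 = litCode q.2.2.1 q.2.1 j i % 2) :=
    (h1.exists_mem_list.comp (const (List.range 3)) Primrec.id).of_eq (by simp)
  have h3 : PrimrecRel (fun (σ : ℕ) (q : ℕ × ℕ × ℕ) => ∀ j < q.2.2, ∃ i < 3,
      σ / 2 ^ (litCode q.2.1 q.1 j i / 2) % 2 = litCode q.2.1 q.1 j i % 2) :=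
    (h2.forall_mem_list.comp (list_range.comp (snd.comp (snd.comp snd))) Primrec.id).of_eq
      (by simp)
  exact (h3.exists_mem_list.comp (list_range.comp (primrec_pow.comp (const 2) (fst.comp snd)))
    Primrec.id).of_eq (by simp [SatCode])

theorem primrec_satCount : Primrec₂ satCount := by
  classical
  have hB : Primrec (fun p : ℕ × ℕ => ((p.1 * 2) ^ 3) ^ p.2) :=
    primrec_pow.comp (primrec_pow.comp (nat_mul.comp fst (const 2)) (const 3)) snd
  have := list_length.comp (primrec_satCode.listFilter.comp (list_range.comp hB) Primrec.id)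
  refine this.of_eq fun p => ?_
  simp only [satCount, id]

/-- decoding of literals -/
def litEquiv (n : ℕ) : Fin (n * 2) ≃ Fin n × Bool :=
  finProdFinEquiv.symm.trans (Equiv.prodCongr (Equiv.refl _) finTwoEquiv)

/-- decoding of formulas -/
def formEquiv (n m : ℕ) : Fin (((n * 2) ^ 3) ^ m) ≃ (Fin m → Fin 3 → Fin n × Bool) :=
  finFunctionFinEquiv.symm.trans (Equiv.arrowCongr (Equiv.refl _)
    (finFunctionFinEquiv.symm.trans (Equiv.arrowCongr (Equiv.refl _) (litEquiv n))))

/-- decoding of assignments -/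
def assignEquiv (n : ℕ) : Fin (2 ^ n) ≃ (Fin n → Bool) :=
  finFunctionFinEquiv.symm.trans (Equiv.arrowCongr (Equiv.refl _) finTwoEquiv)

theorem finTwoEquiv_eq_iff (a b : Fin 2) : finTwoEquiv a = finTwoEquiv b ↔ (a : ℕ) = b := by
  rw [Equiv.apply_eq_iff_eq, Fin.ext_iff]

theorem satCode_iff (n m : ℕ) (F : Fin (((n * 2) ^ 3) ^ m)) :
    SatCode n m F ↔ ∃ σ : Fin n → Bool, ∀ j, ∃ i,
      σ (formEquiv n m F j i).1 = (formEquiv n m F j i).2 := by
  have key : ∀ (σ : Fin (2 ^ n)) (j : Fin m) (i : Fin 3),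
      assignEquiv n σ (formEquiv n m F j i).1 = (formEquiv n m F j i).2 ↔
        (σ : ℕ) / 2 ^ (litCode n F j i / 2) % 2 = litCode n F j i % 2 := by
    intro σ j i
    simp only [assignEquiv, formEquiv, litEquiv, Equiv.trans_apply, Equiv.arrowCongr_apply,
      Equiv.refl_symm, Equiv.coe_refl, Function.comp_apply, id, Equiv.prodCongr_apply,
      Prod.map_fst, Prod.map_snd, finTwoEquiv_eq_iff, finFunctionFinEquiv_symm_apply_val,
      finProdFinEquiv_symm_apply, Fin.coe_divNat, Fin.coe_modNat, litCode]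
  constructor
  · rintro ⟨σ, hσ, h⟩
    refine ⟨assignEquiv n ⟨σ, hσ⟩, fun j => ?_⟩
    obtain ⟨i, hi, h⟩ := h j j.2
    exact ⟨⟨i, hi⟩, (key ⟨σ, hσ⟩ j ⟨i, hi⟩).2 h⟩
  · rintro ⟨σ, h⟩
    obtain ⟨σ, rfl⟩ := (assignEquiv n).surjective σ
    refine ⟨σ, σ.2, fun j hj => ?_⟩
    obtain ⟨i, h⟩ := h ⟨j, hj⟩
    exact ⟨i, i.2, (key σ ⟨j, hj⟩ i).1 h⟩

theorem replProb_eq_satCount (n m : ℕ) :
    replProb 3 n m = (satCount n m : ℝ) / ((((n * 2) ^ 3) ^ m : ℕ) : ℝ) := by
  classical
  unfold replProb Crest.FinProb.uniformProb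
  have hc : Fintype.card (Fin m → Fin 3 → Fin n × Bool) = ((n * 2) ^ 3) ^ m := by
    simp
  rw [hc]
  congr 2
  have h1 : satCount n m =
      ((Finset.range (((n * 2) ^ 3) ^ m)).filter (fun F => SatCode n m F)).card := by
    unfold satCount
    rw [Finset.card_def, Finset.filter_val, Finset.range_val]
    simp [Multiset.range, Multiset.filter_coe]
  rw [h1, Finset.card_filter, Finset.card_filter, Finset.sum_range]
  refine (Fintype.sum_equiv (formEquiv n m) _ _ fun F => ?_).symm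
  exact @if_congr _ _ _ _ (_) _ _ _ _ (satCode_iff n m F) rfl rfl

end Crest.Agent.R153.PartB
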