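import Mathlib
import Crest.Prelude.Def_RandomSAT
import Crest.Agent.R153.Defs

/-!
Row 153, part B: operators on functions of the allowed set; monotonicity, transfers between the
models, and the two-block interpolation.
-/

set_option autoImplicit false

namespace Crest.Agent.R153.PartB

open Crest.ProbabilityR.RandomSAT Finset

section Op

variable {Ω : Type}

/-- functions of the allowed set -/
abbrev SF (Ω : Type) : Type := Set Ω → ℝ

/-- intersect the allowed set with `K` -/
def cut (K : Set Ω) : Module.End ℝ (SF Ω) where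
  toFun g := fun S => g (S ∩ K)
  map_add' _ _ := rfl
  map_smul' _ _ := rfl

@[simp] theorem cut_apply (K : Set Ω) (g : SF Ω) (S : Set Ω) : cut K g S = g (S ∩ K) := rfl

theorem cut_comm (K L : Set Ω) : Commute (cut K) (cut L) := by
  ext g S
  simp [Set.inter_right_comm]

open Classical in
/-- indicator of nonemptiness -/
noncomputable def ind : SF Ω := fun S => if S.Nonempty then 1 else 0

theorem ind_nonneg (S : Set Ω) : 0 ≤ ind S := by
  unfold ind; split_ifs <;> norm_num

theorem ind_le_one (S : Set Ω) : ind S ≤ 1 := by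
  unfold ind; split_ifs <;> norm_num

theorem ind_mono {S T : Set Ω} (h : S ⊆ T) : ind S ≤ ind T := by
  unfold ind
  by_cases hS : S.Nonempty
  · simp [hS, hS.mono h]
  · simp only [hS, if_false]; split_ifs <;> norm_num

/-- weighted sum of cuts -/
noncomputable def wop {C : Type} (s : Finset C) (K : C → Set Ω) (w : ℝ) : Module.End ℝ (SF Ω) :=
  w • ∑ c ∈ s, cut (K c)

theorem wop_apply {C : Type} (s : Finset C) (K : C → Set Ω) (w : ℝ) (g : SF Ω) (S : Set Ω) :
    wop s K w g S = w * ∑ c ∈ s, g (S ∩ K c) := by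
  simp [wop, LinearMap.sum_apply, Finset.sum_apply]

theorem wop_comm {C D : Type} (s : Finset C) (K : C → Set Ω) (w : ℝ)
    (t : Finset D) (L : D → Set Ω) (v : ℝ) : Commute (wop s K w) (wop t L v) := by
  unfold wop
  refine Commute.smul_left (Commute.smul_right ?_ _) _
  exact Commute.sum_left _ _ _ fun c _ => Commute.sum_right _ _ _ fun d _ => cut_comm _ _

/-- positive operators -/
def Pos (A : Module.End ℝ (SF Ω)) : Prop := ∀ g : SF Ω, 0 ≤ g → 0 ≤ A g

theorem Pos.mono {A : Module.End ℝ (SF Ω)} (hA : Pos A) {g h : SF Ω} (hgh : g ≤ h) :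
    A g ≤ A h := by
  have := hA (h - g) (sub_nonneg.2 hgh)
  rw [map_sub] at this
  exact sub_nonneg.1 this

theorem Pos.mul {A B : Module.End ℝ (SF Ω)} (hA : Pos A) (hB : Pos B) : Pos (A * B) :=
  fun g hg => hA _ (hB g hg)

theorem Pos.add {A B : Module.End ℝ (SF Ω)} (hA : Pos A) (hB : Pos B) : Pos (A + B) :=
  fun g hg => add_nonneg (hA g hg) (hB g hg)

theorem Pos.pow {A : Module.End ℝ (SF Ω)} (hA : Pos A) (m : ℕ) : Pos (A ^ m) := by
  induction m with
  | zero => intro g hg; simpa using hg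
  | succ m ih => rw [pow_succ]; exact ih.mul hA

theorem wop_pos {C : Type} (s : Finset C) (K : C → Set Ω) {w : ℝ} (hw : 0 ≤ w) :
    Pos (wop s K w) := by
  intro g hg S
  rw [wop_apply]
  exact mul_nonneg hw (Finset.sum_nonneg fun c _ => hg _)

theorem wop_ind_le {C : Type} (s : Finset C) (K : C → Set Ω) {w : ℝ} (hw : 0 ≤ w) :
    wop s K w ind ≤ (w * s.card) • (ind : SF Ω) := by
  intro S
  rw [wop_apply, Pi.smul_apply, smul_eq_mul, mul_assoc]
  refine mul_le_mul_of_nonneg_left ?_ hw
  have := Finset.sum_le_card_nsmul s (fun c => ind (S ∩ K c)) (ind S)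
    (fun c _ => ind_mono Set.inter_subset_left)
  simpa using this

theorem pow_ind_le {A : Module.End ℝ (SF Ω)} (hA : Pos A) {q : ℝ} (hq : 0 ≤ q)
    (h : A ind ≤ q • (ind : SF Ω)) (m : ℕ) : (A ^ m) ind ≤ q ^ m • (ind : SF Ω) := by
  induction m with
  | zero => simp
  | succ m ih =>
    rw [pow_succ, Module.End.mul_apply]
    refine ((hA.pow m).mono h).trans ?_
    rw [map_smul, pow_succ', mul_smul]
    exact smul_le_smul_of_nonneg_left ih hq

/-- hybrid argument -/
theorem hybrid {A B : Module.End ℝ (SF Ω)} (hA : Pos A) (hB : Pos B) (hc : Commute A B)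
    (h : A ind ≤ B ind) (m : ℕ) : (A ^ m) ind ≤ (B ^ m) ind := by
  induction m with
  | zero => simp
  | succ m ih =>
    calc (A ^ (m + 1)) ind = A ((A ^ m) ind) := by rw [pow_succ', Module.End.mul_apply]
      _ ≤ A ((B ^ m) ind) := hA.mono ih
      _ = (B ^ m) (A ind) := by
          rw [← Module.End.mul_apply, (hc.pow_right m).eq, Module.End.mul_apply]
      _ ≤ (B ^ m) (B ind) := (hB.pow m).mono h
      _ = (B ^ (m + 1)) ind := by rw [pow_succ, Module.End.mul_apply]

theorem pow_dom {A B : Module.End ℝ (SF Ω)} (hA : Pos A) (hB : Pos B) (m : ℕ) (g : SF Ω)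
    (hg : 0 ≤ g) : (A ^ m) g ≤ ((A + B) ^ m) g := by
  induction m with
  | zero => simp
  | succ m ih =>
    rw [pow_succ', pow_succ', Module.End.mul_apply, Module.End.mul_apply, LinearMap.add_apply]
    have h1 := hA.mono ih
    have h2 := hB _ (((hA.add hB).pow m) g hg)
    exact h1.trans (le_add_of_nonneg_right h2)

theorem binom_apply {A B : Module.End ℝ (SF Ω)} (hc : Commute A B) (m : ℕ) (g : SF Ω)
    (S : Set Ω) :
    ((A + B) ^ m) g S =
      ∑ j ∈ range (m + 1), (m.choose j : ℝ) * (A ^ j) ((B ^ (m - j)) g) S := by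
  rw [hc.add_pow, LinearMap.sum_apply, Finset.sum_apply]
  refine Finset.sum_congr rfl fun j _ => ?_
  rw [Module.End.mul_apply, Module.End.mul_apply, Module.End.natCast_apply, map_nsmul, map_nsmul]
  simp

open Classical in
theorem count_eq {C : Type} [Fintype C] (K : C → Set Ω) (w : ℝ) (m : ℕ) (S : Set Ω) :
    (wop univ K w ^ m) ind S =
      w ^ m * ∑ F : Fin m → C, if ∃ σ ∈ S, ∀ j, σ ∈ K (F j) then (1 : ℝ) else 0 := by
  induction m generalizing S with
  | zero => simp [ind, Set.Nonempty]
  | succ m ih =>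
    rw [pow_succ', Module.End.mul_apply, wop_apply]
    simp_rw [ih]
    rw [← Finset.mul_sum, ← mul_assoc, ← pow_succ', ← Fintype.sum_prod_type']
    congr 1
    refine Fintype.sum_equiv (Fin.consEquiv fun _ => C) _ _ fun p => ?_
    congr 1
    simp [Fin.consEquiv, Fin.forall_fin_succ, and_assoc]

theorem uniformProb_eq {C : Type} [Fintype C] (K : C → Set Ω) (m : ℕ) :
    Crest.FinProb.uniformProb {F : Fin m → C | ∃ σ, ∀ j, σ ∈ K (F j)} =
      (wop univ K (Fintype.card C : ℝ)⁻¹ ^ m) ind Set.univ := by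
  classical
  rw [count_eq, Crest.FinProb.uniformProb, Finset.card_filter, div_eq_inv_mul]
  simp

theorem avg_ind_le {C : Type} [Fintype C] (K : C → Set Ω) :
    wop univ K (Fintype.card C : ℝ)⁻¹ ind ≤ (ind : SF Ω) := by
  refine (wop_ind_le _ _ (by positivity)).trans ?_
  intro S
  rw [Pi.smul_apply, smul_eq_mul, Finset.card_univ]
  refine mul_le_of_le_one_left (ind_nonneg _) ?_
  exact inv_mul_le_one

theorem avg_anti {C : Type} [Fintype C] (K : C → Set Ω) (S : Set Ω) :
    Antitone fun m : ℕ => (wop univ K (Fintype.card C : ℝ)⁻¹ ^ m) ind S := by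
  refine antitone_nat_of_succ_le fun m => ?_
  rw [pow_succ, Module.End.mul_apply]
  exact ((wop_pos _ _ (by positivity)).pow m).mono (avg_ind_le K) S

end Op

/-! ### The two models -/

/-- assignments satisfying a with-replacement clause -/
def Kr {k n : ℕ} (c : Fin k → Fin n × Bool) : Set (Fin n → Bool) :=
  {σ | ∃ i, σ (c i).1 = (c i).2}

/-- assignments satisfying a distinct-variable clause -/
def Ks {k n : ℕ} (c : Clause k n) : Set (Fin n → Bool) := {σ | ClauseSat σ c}

/-- with-replacement clause operator -/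
noncomputable def Rop (k n : ℕ) : Module.End ℝ (SF (Fin n → Bool)) :=
  wop univ (Kr (k := k) (n := n)) (Fintype.card (Fin k → Fin n × Bool) : ℝ)⁻¹

/-- distinct-variable clause operator -/
noncomputable def Sop (k n : ℕ) : Module.End ℝ (SF (Fin n → Bool)) :=
  wop univ (Ks (k := k) (n := n)) (Fintype.card (Clause k n) : ℝ)⁻¹

theorem replProb_eq (k n m : ℕ) : replProb k n m = (Rop k n ^ m) ind Set.univ :=
  uniformProb_eq Kr m

theorem satProb_eq (k n m : ℕ) : satProb k n m = (Sop k n ^ m) ind Set.univ :=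
  uniformProb_eq Ks m

theorem replProb_anti (k n : ℕ) : Antitone (replProb k n) := by
  intro a b hab
  rw [replProb_eq, replProb_eq]
  exact avg_anti _ _ hab

theorem satProb_anti (k n : ℕ) : Antitone (satProb k n) := by
  intro a b hab
  rw [satProb_eq, satProb_eq]
  exact avg_anti _ _ hab

theorem Rop_pos (k n : ℕ) : Pos (Rop k n) := wop_pos _ _ (by positivity)

theorem Sop_pos (k n : ℕ) : Pos (Sop k n) := wop_pos _ _ (by positivity)

theorem replProb_nonneg (k n m : ℕ) : 0 ≤ replProb k n m := by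
  rw [replProb_eq]; exact (Rop_pos k n).pow m _ ind_nonneg _

theorem satProb_nonneg (k n m : ℕ) : 0 ≤ satProb k n m := by
  rw [satProb_eq]; exact (Sop_pos k n).pow m _ ind_nonneg _

theorem replProb_zero (k n : ℕ) : replProb k n 0 = 1 := by
  rw [replProb_eq]; simp [ind]

theorem satProb_zero (k n : ℕ) : satProb k n 0 = 1 := by
  rw [satProb_eq]; simp [ind]

theorem replProb_le_one (k n m : ℕ) : replProb k n m ≤ 1 :=
  (replProb_anti k n (Nat.zero_le m)).trans (replProb_zero k n).le

theorem satProb_le_one (k n m : ℕ) : satProb k n m ≤ 1 :=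
  (satProb_anti k n (Nat.zero_le m)).trans (satProb_zero k n).le

/-! ### Transfer -/

/-- distinct-variable clauses as with-replacement clauses -/
def clauseEquiv (k n : ℕ) :
    Clause k n ≃ {c : Fin k → Fin n × Bool // Function.Injective fun i => (c i).1} where
  toFun c := ⟨fun i => (c.1.1 i, c.2 i), c.1.2⟩
  invFun c := (⟨fun i => (c.1 i).1, c.2⟩, fun i => (c.1 i).2)
  left_inv _ := rfl
  right_inv _ := rfl

/-- probability that the variables of a with-replacement clause are distinct -/
noncomputable def pd (k n : ℕ) : ℝ :=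
  (Fintype.card (Clause k n) : ℝ) / (Fintype.card (Fin k → Fin n × Bool) : ℝ)

open Classical in
/-- the part of `Rop` on clauses with a repeated variable -/
noncomputable def Nop (k n : ℕ) : Module.End ℝ (SF (Fin n → Bool)) :=
  wop (univ.filter fun c : Fin k → Fin n × Bool => ¬ Function.Injective fun i => (c i).1)
    (Kr (k := k) (n := n)) (Fintype.card (Fin k → Fin n × Bool) : ℝ)⁻¹

theorem card_clause (k n : ℕ) : Fintype.card (Clause k n) = n.descFactorial k * 2 ^ k := by
  rw [Fintype.card_prod, Fintype.card_congr (Equiv.subtypeInjectiveEquivEmbedding _ _),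
    Fintype.card_embedding_eq]
  simp

theorem card_clause_pos {k n : ℕ} (h : k ≤ n) : 0 < Fintype.card (Clause k n) := by
  rw [card_clause]
  exact Nat.mul_pos (Nat.descFactorial_pos.2 h) (by positivity)

theorem Rop_split {k n : ℕ} (h : k ≤ n) : Rop k n = pd k n • Sop k n + Nop k n := by
  classical
  have hc : (Fintype.card (Clause k n) : ℝ) ≠ 0 := by
    exact_mod_cast (card_clause_pos h).ne'
  unfold Rop Sop Nop wop pd
  rw [smul_smul, div_eq_inv_mul, mul_assoc, mul_inv_cancel₀ hc, mul_one, ← smul_add]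
  congr 1
  rw [← Finset.sum_filter_add_sum_filter_not univ
    (fun c : Fin k → Fin n × Bool => Function.Injective fun i => (c i).1)]
  congr 1
  rw [Finset.sum_subtype (p := fun c : Fin k → Fin n × Bool =>
    Function.Injective fun i => (c i).1) _ (by simp)]
  exact (Fintype.sum_equiv (clauseEquiv k n) _ _ fun c => rfl).symm

theorem pd_nonneg (k n : ℕ) : 0 ≤ pd k n := by unfold pd; positivity

theorem Nop_pos (k n : ℕ) : Pos (Nop k n) := wop_pos _ _ (by positivity)

theorem card_noninj {k n : ℕ} (hn : 0 < n) :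
    (Fintype.card (Fin k → Fin n × Bool) : ℝ)⁻¹ *
      ((univ.filter fun c : Fin k → Fin n × Bool =>
        ¬ Function.Injective fun i => (c i).1).card : ℝ) = 1 - pd k n := by
  classical
  have h1 := Finset.card_filter_add_card_filter_not (s := univ)
    (fun c : Fin k → Fin n × Bool => Function.Injective fun i => (c i).1)
  have h2 : (univ.filter fun c : Fin k → Fin n × Bool =>
      Function.Injective fun i => (c i).1).card = Fintype.card (Clause k n) := by
    rw [Fintype.card_congr (clauseEquiv k n), Fintype.card_subtype]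
  rw [h2, Finset.card_univ] at h1
  have hc : (Fintype.card (Fin k → Fin n × Bool) : ℝ) ≠ 0 := by
    have : Nonempty (Fin n) := ⟨⟨0, hn⟩⟩
    exact_mod_cast Fintype.card_ne_zero
  unfold pd
  have h3 : (Fintype.card (Clause k n) : ℝ) + ((univ.filter fun c : Fin k → Fin n × Bool =>
        ¬ Function.Injective fun i => (c i).1).card : ℝ) =
        (Fintype.card (Fin k → Fin n × Bool) : ℝ) := by exact_mod_cast h1
  field_simp
  linarith

theorem pd_le_one {k n : ℕ} (hn : 0 < n) : pd k n ≤ 1 := by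
  have := card_noninj (k := k) hn
  have h2 : 0 ≤ (Fintype.card (Fin k → Fin n × Bool) : ℝ)⁻¹ *
      ((univ.filter fun c : Fin k → Fin n × Bool =>
        ¬ Function.Injective fun i => (c i).1).card : ℝ) := by positivity
  linarith

theorem Nop_ind_le {k n : ℕ} (hn : 0 < n) :
    Nop k n ind ≤ (1 - pd k n) • (ind : SF (Fin n → Bool)) := by
  rw [← card_noninj hn]
  exact wop_ind_le _ Kr (by positivity : (0 : ℝ) ≤ (Fintype.card (Fin k → Fin n × Bool) : ℝ)⁻¹)

theorem smul_pos' {Ω : Type} {A : Module.End ℝ (SF Ω)} (hA : Pos A) {c : ℝ} (hc : 0 ≤ c) :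
    Pos (c • A) := fun g hg => smul_nonneg hc (hA g hg)

/-- lower transfer -/
theorem repl_ge {k n : ℕ} (h : k ≤ n) (m : ℕ) :
    pd k n ^ m * satProb k n m ≤ replProb k n m := by
  rw [replProb_eq, satProb_eq, Rop_split h]
  have := pow_dom (smul_pos' (Sop_pos k n) (pd_nonneg k n)) (Nop_pos k n) m ind ind_nonneg Set.univ
  rw [smul_pow] at this
  exact this

/-- upper transfer, in exponential-moment form -/
theorem repl_le {k n : ℕ} (h : k ≤ n) (hn : 0 < n) (m L : ℕ) :
    replProb k n m ≤ (2 - pd k n) ^ m / 2 ^ L + satProb k n (m - L) := by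
  have hq : 0 ≤ 1 - pd k n := sub_nonneg.2 (pd_le_one hn)
  have hp := pd_nonneg k n
  have hc : Commute (pd k n • Sop k n) (Nop k n) := Commute.smul_left (wop_comm _ _ _ _ _ _) _
  rw [replProb_eq, Rop_split h, binom_apply hc]
  have h1 : ∀ j ∈ range (m + 1),
      (m.choose j : ℝ) * ((pd k n • Sop k n) ^ j) ((Nop k n ^ (m - j)) ind) Set.univ ≤
        pd k n ^ j * (2 * (1 - pd k n)) ^ (m - j) * (m.choose j : ℝ) / 2 ^ L +
          pd k n ^ j * (1 - pd k n) ^ (m - j) * (m.choose j : ℝ) * satProb k n (m - L) := by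
    intro j hj
    have h2 := ((smul_pos' (Sop_pos k n) hp).pow j).mono
      (pow_ind_le (Nop_pos k n) hq (Nop_ind_le hn) (m - j)) Set.univ
    rw [map_smul, smul_pow, LinearMap.smul_apply, LinearMap.smul_apply] at h2
    simp only [Pi.smul_apply, smul_eq_mul] at h2
    rw [← satProb_eq] at h2
    rw [smul_pow, LinearMap.smul_apply, Pi.smul_apply, smul_eq_mul]
    have h3 : satProb k n j ≤ 2 ^ (m - j) / 2 ^ L + satProb k n (m - L) := by
      by_cases hjL : m - L ≤ j
      · have := satProb_anti k n hjL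
        have h4 : (0 : ℝ) ≤ 2 ^ (m - j) / 2 ^ L := by positivity
        linarith
      · have h4 : (1 : ℝ) ≤ 2 ^ (m - j) / 2 ^ L := by
          rw [le_div_iff₀ (by positivity), one_mul]
          exact pow_le_pow_right₀ (by norm_num) (by omega)
        have := satProb_le_one k n j
        have := satProb_nonneg k n (m - L)
        linarith
    have h5 : 0 ≤ pd k n ^ j * (1 - pd k n) ^ (m - j) * (m.choose j : ℝ) := by positivity
    calc _ ≤ (m.choose j : ℝ) * ((1 - pd k n) ^ (m - j) * (pd k n ^ j * satProb k n j)) :=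
          mul_le_mul_of_nonneg_left h2 (by positivity)
      _ = pd k n ^ j * (1 - pd k n) ^ (m - j) * (m.choose j : ℝ) * satProb k n j := by ring
      _ ≤ pd k n ^ j * (1 - pd k n) ^ (m - j) * (m.choose j : ℝ) *
            (2 ^ (m - j) / 2 ^ L + satProb k n (m - L)) := mul_le_mul_of_nonneg_left h3 h5
      _ = _ := by rw [mul_pow]; ring
  refine (Finset.sum_le_sum h1).trans (le_of_eq ?_)
  rw [Finset.sum_add_distrib, ← Finset.sum_div, ← Finset.sum_mul, ← add_pow, ← add_pow]
  have e1 : pd k n + 2 * (1 - pd k n) = 2 - pd k n := by ring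
  have e2 : pd k n + (1 - pd k n) = 1 := by ring
  rw [e1, e2, one_pow, one_mul]

theorem pd_three {n : ℕ} (hn : 3 ≤ n) : 1 - 3 / (n : ℝ) ≤ pd 3 n := by
  unfold pd
  rw [card_clause]
  obtain ⟨n, rfl⟩ := Nat.exists_eq_add_of_le' hn
  simp only [Nat.descFactorial_succ, Nat.descFactorial_zero, Fintype.card_pi, Fintype.card_prod,
    Fintype.card_fin, Fintype.card_bool, Finset.prod_const, Finset.card_univ]
  have e1 : n + 3 - 2 = n + 1 := by omega
  have e2 : n + 3 - 1 = n + 2 := by omega
  rw [e1, e2, Nat.sub_zero]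
  push_cast
  have hx : (0 : ℝ) ≤ n := by positivity
  rw [le_div_iff₀ (by positivity)]
  have : (1 - 3 / ((n : ℝ) + 3)) * (((n : ℝ) + 3) * 2) ^ 3 = 8 * (n * (n + 3) ^ 2) := by
    field_simp; ring
  rw [this]
  nlinarith

/-! ### Two-block interpolation -/

section Block

variable {k n : ℕ}

/-- clause operator in block 1 -/
noncomputable def Aop (k n : ℕ) : Module.End ℝ (SF (Fin (n + n) → Bool)) :=
  wop univ (fun c : Fin k → Fin n × Bool => Kr fun i => (Fin.castAdd n (c i).1, (c i).2))
    (Fintype.card (Fin k → Fin n × Bool) : ℝ)⁻¹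

/-- clause operator in block 2 -/
noncomputable def Bop (k n : ℕ) : Module.End ℝ (SF (Fin (n + n) → Bool)) :=
  wop univ (fun c : Fin k → Fin n × Bool => Kr fun i => (Fin.natAdd n (c i).1, (c i).2))
    (Fintype.card (Fin k → Fin n × Bool) : ℝ)⁻¹

/-- product of allowed sets -/
def box (S T : Set (Fin n → Bool)) : Set (Fin (n + n) → Bool) :=
  {σ | (fun x => σ (Fin.castAdd n x)) ∈ S ∧ (fun x => σ (Fin.natAdd n x)) ∈ T}

theorem ind_box (S T : Set (Fin n → Bool)) : ind (box S T) = ind S * ind T := by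
  have : (box S T).Nonempty ↔ S.Nonempty ∧ T.Nonempty := by
    constructor
    · rintro ⟨σ, h1, h2⟩; exact ⟨⟨_, h1⟩, ⟨_, h2⟩⟩
    · rintro ⟨⟨σ, h1⟩, ⟨τ, h2⟩⟩
      refine ⟨Fin.append σ τ, ?_, ?_⟩
      · simpa only [Fin.append_left] using h1
      · simpa only [Fin.append_right] using h2
  unfold ind
  rw [this]
  by_cases hS : S.Nonempty <;> by_cases hT : T.Nonempty <;> simp [hS, hT]

theorem Bop_box (l : ℕ) (S T : Set (Fin n → Bool)) :
    (Bop k n ^ l) ind (box S T) = ind S * (Rop k n ^ l) ind T := by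
  induction l generalizing T with
  | zero => simpa using ind_box S T
  | succ l ih =>
    rw [pow_succ', pow_succ', Module.End.mul_apply, Module.End.mul_apply, Bop, Rop, wop_apply,
      wop_apply, ← Bop, ← Rop, mul_left_comm]
    congr 1
    rw [Finset.mul_sum]
    refine Finset.sum_congr rfl fun c _ => ?_
    rw [← ih]
    refine congrArg _ ?_
    ext σ
    simp only [box, Kr, and_assoc, Set.mem_inter_iff, Set.mem_ofPred_eq]

theorem Aop_box (j l : ℕ) (S T : Set (Fin n → Bool)) :
    (Aop k n ^ j) ((Bop k n ^ l) ind) (box S T) = (Rop k n ^ j) ind S * (Rop k n ^ l) ind T := by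
  induction j generalizing S with
  | zero => simpa using Bop_box l S T
  | succ j ih =>
    rw [pow_succ', pow_succ' (Rop k n) j, Module.End.mul_apply, Module.End.mul_apply, Aop,
      wop_apply, ← Aop]
    conv_rhs => rw [Rop, wop_apply, ← Rop, mul_assoc, Finset.sum_mul]
    congr 1
    refine Finset.sum_congr rfl fun c _ => ?_
    rw [← ih]
    refine congrArg _ ?_
    ext σ
    simp only [box, Kr, Set.mem_inter_iff, Set.mem_ofPred_eq]
    tauto

open Classical in
/-- a literal is false on the whole set -/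
noncomputable def dead {N : ℕ} (S : Set (Fin N → Bool)) (l : Fin N × Bool) : ℝ :=
  if ∀ σ ∈ S, σ l.1 ≠ l.2 then 1 else 0

theorem dead_nonneg {N : ℕ} (S : Set (Fin N → Bool)) (l : Fin N × Bool) : 0 ≤ dead S l := by
  unfold dead; split_ifs <;> norm_num

theorem ind_inter_Kr {N : ℕ} (S : Set (Fin N → Bool)) (c : Fin k → Fin N × Bool) :
    ind (S ∩ Kr c) = 1 - ∏ i, dead S (c i) := by
  classical
  unfold ind dead
  rw [Finset.prod_boole]
  by_cases h : (S ∩ Kr c).Nonempty
  · rw [if_pos h, if_neg, sub_zero]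
    obtain ⟨σ, h1, i, h2⟩ := h
    intro h3
    exact h3 i (Finset.mem_univ _) σ h1 h2
  · rw [if_neg h, if_pos, sub_self]
    intro i _ σ h1 h2
    exact h ⟨σ, h1, i, h2⟩

theorem avg_ind_eq {N : ℕ} {D : Type} [Fintype D] [Nonempty D] (S : Set (Fin N → Bool))
    (e : D → Fin N × Bool) :
    wop univ (fun c : Fin k → D => Kr fun i => e (c i)) (Fintype.card (Fin k → D) : ℝ)⁻¹ ind S =
      1 - ((∑ d, dead S (e d)) / Fintype.card D) ^ k := by
  classical
  rw [wop_apply]
  simp_rw [ind_inter_Kr]
  rw [Finset.sum_sub_distrib, ← Fintype.piFinset_univ,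
    ← Finset.prod_univ_sum (fun _ : Fin k => (univ : Finset D)) (fun _ d => dead S (e d))]
  have hc : (Fintype.card D : ℝ) ≠ 0 := by exact_mod_cast Fintype.card_ne_zero
  simp only [Finset.prod_const, Finset.card_univ, Fintype.card_fin, Fintype.piFinset_univ,
    Finset.sum_const, nsmul_eq_mul, mul_one, Fintype.card_pi, Nat.cast_pow, div_pow]
  field_simp

theorem block_ind_le (hn : 0 < n) :
    ((1 / 2 : ℝ) • Aop k n + (1 / 2 : ℝ) • Bop k n) ind ≤ Rop k (n + n) ind := by
  intro S
  have : Nonempty (Fin n) := ⟨⟨0, hn⟩⟩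
  have : Nonempty (Fin (n + n)) := ⟨⟨0, by omega⟩⟩
  have hA := avg_ind_eq (k := k) S (fun d : Fin n × Bool => (Fin.castAdd n d.1, d.2))
  have hB := avg_ind_eq (k := k) S (fun d : Fin n × Bool => (Fin.natAdd n d.1, d.2))
  have hR := avg_ind_eq (k := k) S (fun d : Fin (n + n) × Bool => d)
  simp only [LinearMap.add_apply, LinearMap.smul_apply, Pi.add_apply, Pi.smul_apply, smul_eq_mul]
  rw [Aop, Bop, Rop, hA, hB]
  erw [hR]
  set x := ∑ d : Fin n × Bool, dead S (Fin.castAdd n d.1, d.2)
  set y := ∑ d : Fin n × Bool, dead S (Fin.natAdd n d.1, d.2)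
  have hs : ∑ d : Fin (n + n) × Bool, dead S d = x + y := by
    simp only [x, y, Fintype.sum_prod_type, Fin.sum_univ_add]
  have hx : 0 ≤ x := Finset.sum_nonneg fun _ _ => dead_nonneg _ _
  have hy : 0 ≤ y := Finset.sum_nonneg fun _ _ => dead_nonneg _ _
  rw [hs]
  have hc : (Fintype.card (Fin (n + n) × Bool) : ℝ) = 2 * Fintype.card (Fin n × Bool) := by
    simp; ring
  rw [hc]
  set N := (Fintype.card (Fin n × Bool) : ℝ)
  have hN : 0 < N := by
    simp only [N]; exact_mod_cast Fintype.card_pos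
  have hconv := (convexOn_pow (𝕜 := ℝ) k).2 (show x / N ∈ Set.Ici (0 : ℝ) from div_nonneg hx hN.le)
    (show y / N ∈ Set.Ici (0 : ℝ) from div_nonneg hy hN.le)
    (show (0 : ℝ) ≤ 1 / 2 by norm_num) (show (0 : ℝ) ≤ 1 / 2 by norm_num) (by norm_num)
  simp only [smul_eq_mul] at hconv
  have e : (x + y) / (2 * N) = 1 / 2 * (x / N) + 1 / 2 * (y / N) := by field_simp
  rw [e]
  linarith

theorem box_univ : box (Set.univ : Set (Fin n → Bool)) Set.univ = Set.univ := by
  ext σ; simp [box]

/-- two-block interpolation -/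
theorem interpolation (hn : 0 < n) (M : ℕ) :
    ∑ j ∈ range (M + 1), (M.choose j : ℝ) * (1 / 2) ^ M * (replProb k n j * replProb k n (M - j)) ≤
      replProb k (n + n) M := by
  have hA : Pos (Aop k n) := wop_pos _ _ (by positivity)
  have hB : Pos (Bop k n) := wop_pos _ _ (by positivity)
  have hc : Commute ((1 / 2 : ℝ) • Aop k n + (1 / 2 : ℝ) • Bop k n) (Rop k (n + n)) :=
    Commute.add_left (Commute.smul_left (wop_comm _ _ _ _ _ _) _)
      (Commute.smul_left (wop_comm _ _ _ _ _ _) _)
  have h := hybrid ((smul_pos' hA (by norm_num)).add (smul_pos' hB (by norm_num)))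
    (Rop_pos k (n + n)) hc (block_ind_le hn) M Set.univ
  rw [← replProb_eq, ← smul_add, smul_pow, LinearMap.smul_apply, Pi.smul_apply,
    binom_apply (show Commute (Aop k n) (Bop k n) from wop_comm _ _ _ _ _ _), smul_eq_mul,
    Finset.mul_sum] at h
  refine le_trans (le_of_eq (Finset.sum_congr rfl fun j _ => ?_)) h
  rw [← box_univ, Aop_box, ← replProb_eq, ← replProb_eq]
  ring

end Block

end Crest.Agent.R153.PartB
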