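import Mathlib
import Crest.Prelude.Def_RandomSAT
import Crest.Agent.R153.Defs
import Crest.Agent.R153.A
import Crest.Agent.R153.B_Op
import Crest.Agent.R153.B_Comp

/-!
Row 153, part B: estimates, doubling, lower semidecision.
-/

set_option autoImplicit false

namespace Crest.Agent.R153.PartB

open Crest.ProbabilityR.RandomSAT Finset Filter

theorem threshold_nonneg' (k : ℕ) (α : ℝ) (hα : IsSharpThreshold (satProb k) α) : 0 ≤ α := by
  by_contra h
  have h1 := (hα 0 le_rfl).2 (not_le.1 h)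
  simp only [zero_mul, Nat.floor_zero, satProb_zero] at h1
  have := tendsto_nhds_unique h1 tendsto_const_nhds
  norm_num at this

theorem pd_pow_ge (C : ℝ) {n m : ℕ} (hn : 6 ≤ n) (hm : (m : ℝ) ≤ C * n) :
    Real.exp (-6 * C) ≤ pd 3 n ^ m := by
  have hn' : (6 : ℝ) ≤ n := by exact_mod_cast hn
  have hn0 : (0 : ℝ) < n := by linarith
  have h1 : Real.exp (-(6 / n)) ≤ pd 3 n := by
    refine le_trans ?_ (pd_three (by omega))
    set x : ℝ := 3 / n with hx
    have hx0 : 0 ≤ x := by positivity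
    have hx1 : x ≤ 1 / 2 := by rw [hx, div_le_iff₀ hn0]; linarith
    have e : (6 : ℝ) / n = 2 * x := by rw [hx]; ring
    rw [e, Real.exp_neg, inv_le_iff_one_le_mul₀ (Real.exp_pos _)]
    have h2 := Real.add_one_le_exp (2 * x)
    nlinarith [mul_le_mul_of_nonneg_left h2 (show 0 ≤ 1 - x by linarith)]
  refine le_trans ?_ (pow_le_pow_left₀ (Real.exp_pos _).le h1 m)
  rw [← Real.exp_nat_mul, Real.exp_le_exp]
  have : (m : ℝ) * (6 / n) ≤ 6 * C := by
    rw [mul_div_assoc', div_le_iff₀ hn0]; nlinarith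
  linarith

theorem two_sub_pd_pow_le (C : ℝ) {n m : ℕ} (hn : 6 ≤ n) (hm : (m : ℝ) ≤ C * n) :
    (2 - pd 3 n) ^ m ≤ Real.exp (3 * C) := by
  have hn' : (6 : ℝ) ≤ n := by exact_mod_cast hn
  have hn0 : (0 : ℝ) < n := by linarith
  have h0 : 0 ≤ 2 - pd 3 n := by linarith [pd_le_one (k := 3) (n := n) (by omega)]
  have h1 : 2 - pd 3 n ≤ Real.exp (3 / n) := by
    linarith [pd_three (n := n) (by omega), Real.add_one_le_exp (3 / (n : ℝ))]
  refine (pow_le_pow_left₀ h0 h1 m).trans ?_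
  rw [← Real.exp_nat_mul, Real.exp_le_exp, mul_div_assoc', div_le_iff₀ hn0]
  nlinarith

theorem repl_of_sat (C : ℝ) {n m : ℕ} (hn : 6 ≤ n) (hm : (m : ℝ) ≤ C * n) :
    Real.exp (-6 * C) * satProb 3 n m ≤ replProb 3 n m :=
  (mul_le_mul_of_nonneg_right (pd_pow_ge C hn hm) (satProb_nonneg _ _ _)).trans
    (repl_ge (by omega) m)

theorem repl_le' (C : ℝ) {n m : ℕ} (hn : 6 ≤ n) (hm : (m : ℝ) ≤ C * n) (L : ℕ) :
    replProb 3 n m ≤ Real.exp (3 * C) / 2 ^ L + satProb 3 n (m - L) := by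
  refine (repl_le (by omega) (by omega) m L).trans ?_
  gcongr
  exact two_sub_pd_pow_le C hn hm

theorem one_le_sqrt_nat {n : ℕ} (hn : 1 ≤ n) : 1 ≤ Real.sqrt n := by
  rw [Real.one_le_sqrt]; exact_mod_cast hn

theorem sat_of_repl (C γ : ℝ) (hγ : 0 < γ) :
    ∃ K : ℝ, 0 ≤ K ∧ ∀ n m m' : ℕ, 6 ≤ n → (m : ℝ) ≤ C * n → γ ≤ replProb 3 n m →
      (m' : ℝ) + K * Real.sqrt n ≤ m → 1 / 2 ≤ satProb 3 n m' := by
  obtain ⟨L, hL⟩ : ∃ L : ℕ, Real.exp (3 * C) / (γ / 2) < 2 ^ L :=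
    pow_unbounded_of_one_lt _ (by norm_num)
  obtain ⟨K, hK, hb⟩ := boost 3 le_rfl (γ / 2) (by positivity)
  refine ⟨K + L, by positivity, fun n m m' hn hm h hm' => hb n (m - L) m' (by omega) ?_ ?_⟩
  · have h1 := repl_le' C hn hm L
    have h2 : Real.exp (3 * C) / 2 ^ L ≤ γ / 2 := by
      rw [div_lt_iff₀ (by positivity)] at hL
      rw [div_le_iff₀ (by positivity)]
      linarith
    linarith
  · have h1 := one_le_sqrt_nat (n := n) (by omega)
    have h2 : (m : ℝ) - L ≤ ((m - L : ℕ) : ℝ) := by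
      rcases le_total L m with h | h
      · rw [Nat.cast_sub h]
      · have : (m : ℝ) ≤ L := by exact_mod_cast h
        have h3 : (0 : ℝ) ≤ ((m - L : ℕ) : ℝ) := by positivity
        linarith
    have h3 : (L : ℝ) ≤ L * Real.sqrt n := le_mul_of_one_le_right (by positivity) h1
    nlinarith

theorem exp_le_quad {t : ℝ} (ht : |t| ≤ 1) : Real.exp t ≤ 1 + t + t ^ 2 := by
  have := Real.abs_exp_sub_one_sub_id_le ht
  linarith [le_abs_self (Real.exp t - 1 - t)]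

theorem repl_double (C γ : ℝ) (hγ : 0 ≤ γ) {n m M : ℕ} (hn : 1 ≤ n) (hm : (m : ℝ) ≤ C * n)
    (h : γ ≤ replProb 3 n m) (hM : (M : ℝ) + 2 * (C + 2) * Real.sqrt n ≤ 2 * m) :
    γ ^ 2 / 2 ≤ replProb 3 (n + n) M := by
  refine le_trans ?_ (interpolation (by omega) M)
  have hs := one_le_sqrt_nat hn
  have hn0 : (0 : ℝ) < n := by exact_mod_cast hn
  have hC : 0 ≤ C := by
    have : (0 : ℝ) ≤ C * n := le_trans (by positivity) hm
    exact nonneg_of_mul_nonneg_left this hn0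
  set t : ℝ := 1 / Real.sqrt n with ht
  have ht0 : 0 < t := by positivity
  have ht1 : t ≤ 1 := by rw [ht, div_le_one (by linarith)]; exact hs
  set x := Real.exp t with hx
  have hx1 : 1 ≤ x := Real.one_le_exp ht0.le
  have hx0 : 0 < x := by linarith
  have hterm : ∀ j ∈ range (M + 1),
      γ ^ 2 * ((1 / 2 : ℝ) ^ j * (1 / 2) ^ (M - j) * (M.choose j : ℝ)) -
        γ ^ 2 / x ^ m * ((x / 2) ^ j * (1 / 2) ^ (M - j) * (M.choose j : ℝ)) -
        γ ^ 2 / x ^ m * ((1 / 2) ^ j * (x / 2) ^ (M - j) * (M.choose j : ℝ)) ≤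
      (M.choose j : ℝ) * (1 / 2) ^ M * (replProb 3 n j * replProb 3 n (M - j)) := by
    intro j hj
    have hjM : j ≤ M := Nat.lt_succ_iff.1 (Finset.mem_range.1 hj)
    have e : (1 / 2 : ℝ) ^ M = (1 / 2) ^ j * (1 / 2) ^ (M - j) := by
      rw [← pow_add, Nat.add_sub_cancel' hjM]
    have key : γ ^ 2 * (1 - x ^ j / x ^ m - x ^ (M - j) / x ^ m) ≤
        replProb 3 n j * replProb 3 n (M - j) := by
      have p1 : 0 ≤ x ^ j / x ^ m := by positivity
      have p2 : 0 ≤ x ^ (M - j) / x ^ m := by positivity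
      have r0 : 0 ≤ replProb 3 n j * replProb 3 n (M - j) :=
        mul_nonneg (replProb_nonneg _ _ _) (replProb_nonneg _ _ _)
      by_cases h1 : j ≤ m
      · by_cases h2 : M - j ≤ m
        · have a1 := h.trans (replProb_anti 3 n h1)
          have a2 := h.trans (replProb_anti 3 n h2)
          have a3 : γ * γ ≤ replProb 3 n j * replProb 3 n (M - j) :=
            mul_le_mul a1 a2 hγ (hγ.trans a1)
          nlinarith [sq_nonneg γ]
        · have : 1 ≤ x ^ (M - j) / x ^ m := by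
            rw [le_div_iff₀ (by positivity), one_mul]
            exact pow_le_pow_right₀ hx1 (by omega)
          nlinarith [sq_nonneg γ]
      · have : 1 ≤ x ^ j / x ^ m := by
          rw [le_div_iff₀ (by positivity), one_mul]
          exact pow_le_pow_right₀ hx1 (by omega)
        nlinarith [sq_nonneg γ]
    have h5 : 0 ≤ (M.choose j : ℝ) * (1 / 2) ^ M := by positivity
    refine le_trans (le_of_eq ?_) (mul_le_mul_of_nonneg_left key h5)
    rw [e, div_pow x 2, div_pow x 2, one_div_pow, one_div_pow]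
    field_simp
  refine le_trans ?_ (Finset.sum_le_sum hterm)
  rw [Finset.sum_sub_distrib, Finset.sum_sub_distrib, ← Finset.mul_sum, ← Finset.mul_sum,
    ← Finset.mul_sum, ← add_pow, ← add_pow, ← add_pow]
  have hb : (x / 2 + 1 / 2) ^ M / x ^ m ≤ 1 / 4 := by
    have h1 : x / 2 + 1 / 2 ≤ Real.exp (t / 2 + t ^ 2 / 2) := by
      have := exp_le_quad (t := t) (by rw [abs_of_pos ht0]; exact ht1)
      linarith [Real.add_one_le_exp (t / 2 + t ^ 2 / 2)]
    have h2 := pow_le_pow_left₀ (by positivity) h1 M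
    rw [div_le_iff₀ (by positivity)]
    refine h2.trans ?_
    have h4 : Real.exp (-2) ≤ 1 / 4 := by
      rw [Real.exp_neg, one_div, inv_le_inv₀ (Real.exp_pos _) (by norm_num)]
      have := Real.add_one_le_exp 1
      have e : Real.exp 2 = Real.exp 1 * Real.exp 1 := by rw [← Real.exp_add]; norm_num
      nlinarith
    refine le_trans ?_ (mul_le_mul_of_nonneg_right h4 (by positivity))
    rw [hx, ← Real.exp_nat_mul, ← Real.exp_nat_mul, ← Real.exp_add, Real.exp_le_exp]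
    have e1 : t * Real.sqrt n = 1 := by rw [ht]; field_simp
    have e2 : t ^ 2 * n = 1 := by
      rw [ht, div_pow, Real.sq_sqrt hn0.le]; field_simp
    have h6 : (M : ℝ) ≤ 2 * (C * n) := by nlinarith
    have h7 : (M : ℝ) * t ^ 2 ≤ 2 * C := by
      have := mul_le_mul_of_nonneg_right h6 (sq_nonneg t)
      nlinarith
    have h8 := mul_le_mul_of_nonneg_right hM ht0.le
    nlinarith
  have e1 : ((1 / 2 : ℝ) + 1 / 2) ^ M = 1 := by norm_num
  rw [e1, add_comm (1 / 2 : ℝ) (x / 2)]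
  have e2 : γ ^ 2 / x ^ m * (x / 2 + 1 / 2) ^ M = γ ^ 2 * ((x / 2 + 1 / 2) ^ M / x ^ m) := by ring
  rw [e2]
  nlinarith [mul_le_mul_of_nonneg_left hb (sq_nonneg γ)]

theorem sqrt_two_mul_le (n : ℕ) : Real.sqrt ((n + n : ℕ) : ℝ) ≤ 3 / 2 * Real.sqrt n := by
  have h0 : (0 : ℝ) ≤ n := by positivity
  rw [Real.sqrt_le_left (by positivity), mul_pow, Real.sq_sqrt h0]
  push_cast
  linarith

theorem sat_double (C : ℝ) (hC : 0 ≤ C) :
    ∃ K : ℝ, 0 ≤ K ∧ ∀ n m m' : ℕ, 6 ≤ n → (m : ℝ) ≤ C * n → 1 / 2 ≤ satProb 3 n m →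
      (m' : ℝ) + K * Real.sqrt n ≤ 2 * m → 1 / 2 ≤ satProb 3 (n + n) m' := by
  obtain ⟨K, hK, hb⟩ := sat_of_repl C ((Real.exp (-6 * C) / 2) ^ 2 / 2) (by positivity)
  refine ⟨2 * K + 1 + 2 * (C + 2), by positivity, fun n m m' hn hm h hm' => ?_⟩
  have hs := one_le_sqrt_nat (n := n) (by omega)
  have h1 : Real.exp (-6 * C) / 2 ≤ replProb 3 n m := by
    refine le_trans ?_ (repl_of_sat C hn hm)
    nlinarith [Real.exp_pos (-6 * C)]
  set D := ⌈K * Real.sqrt ((n + n : ℕ) : ℝ)⌉₊ with hD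
  have hD1 : K * Real.sqrt ((n + n : ℕ) : ℝ) ≤ D := Nat.le_ceil _
  have hD2 : (D : ℝ) < K * Real.sqrt ((n + n : ℕ) : ℝ) + 1 := Nat.ceil_lt_add_one (by positivity)
  have hD3 : (D : ℝ) ≤ (2 * K + 1) * Real.sqrt n := by
    have := mul_le_mul_of_nonneg_left (sqrt_two_mul_le n) hK
    nlinarith
  have hM : ((m' + D : ℕ) : ℝ) + 2 * (C + 2) * Real.sqrt n ≤ 2 * m := by
    push_cast; nlinarith
  refine hb (n + n) (m' + D) m' (by omega) ?_
    (repl_double C _ (by positivity) (by omega) hm h1 hM) ?_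
  · have : 0 ≤ 2 * (C + 2) * Real.sqrt n := by positivity
    push_cast at hM ⊢
    nlinarith
  · push_cast at hD1 ⊢
    linarith

theorem cert_sat (α : ℝ) (hα : IsSharpThreshold (satProb 3) α) (C : ℝ) (hC : 0 ≤ C) :
    ∃ K : ℝ, 0 ≤ K ∧ ∀ (n : ℕ) (a : ℝ), 6 ≤ n → 0 ≤ a → a * n + K * Real.sqrt n ≤ C * n →
      (∀ m : ℕ, (m : ℝ) ≤ a * n + K * Real.sqrt n → 1 / 2 ≤ satProb 3 n m) → a ≤ α := by
  obtain ⟨K, hK, hb⟩ := sat_double C hC
  refine ⟨2 * (K + 2), by positivity, fun n a hn ha h1 h2 => ?_⟩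
  have step : ∀ n : ℕ, 6 ≤ n → a * n + 2 * (K + 2) * Real.sqrt n ≤ C * n →
      (∀ m : ℕ, (m : ℝ) ≤ a * n + 2 * (K + 2) * Real.sqrt n → 1 / 2 ≤ satProb 3 n m) →
      a * ((n + n : ℕ) : ℝ) + 2 * (K + 2) * Real.sqrt ((n + n : ℕ) : ℝ) ≤ C * ((n + n : ℕ) : ℝ) ∧
      (∀ m : ℕ, (m : ℝ) ≤ a * ((n + n : ℕ) : ℝ) + 2 * (K + 2) * Real.sqrt ((n + n : ℕ) : ℝ) →
        1 / 2 ≤ satProb 3 (n + n) m) := by
    intro n hn h1 h2
    have hs := one_le_sqrt_nat (n := n) (by omega)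
    have h3 := mul_le_mul_of_nonneg_left (sqrt_two_mul_le n) (show 0 ≤ 2 * (K + 2) by positivity)
    have h4 : 0 ≤ (K + 2) * Real.sqrt n := by positivity
    constructor
    · have e : ((n + n : ℕ) : ℝ) = 2 * n := by push_cast; ring
      rw [e] at h3 ⊢
      nlinarith
    · intro m' hm'
      set x := a * n + 2 * (K + 2) * Real.sqrt n with hx
      have hx0 : 0 ≤ x := by positivity
      have f1 : (⌊x⌋₊ : ℝ) ≤ x := Nat.floor_le hx0
      have f2 : x < ⌊x⌋₊ + 1 := Nat.lt_floor_add_one x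
      refine hb n ⌊x⌋₊ m' hn (f1.trans h1) (h2 _ f1) ?_
      have e : ((n + n : ℕ) : ℝ) = 2 * n := by push_cast; ring
      rw [e] at h3 hm'
      nlinarith
  have iter : ∀ i : ℕ,
      a * ((2 ^ i * n : ℕ) : ℝ) + 2 * (K + 2) * Real.sqrt ((2 ^ i * n : ℕ) : ℝ) ≤
        C * ((2 ^ i * n : ℕ) : ℝ) ∧
      (∀ m : ℕ, (m : ℝ) ≤ a * ((2 ^ i * n : ℕ) : ℝ) +
        2 * (K + 2) * Real.sqrt ((2 ^ i * n : ℕ) : ℝ) → 1 / 2 ≤ satProb 3 (2 ^ i * n) m) := by
    intro i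
    induction i with
    | zero => simpa using ⟨h1, by simpa using h2⟩
    | succ i ih =>
      have e : 2 ^ (i + 1) * n = 2 ^ i * n + 2 ^ i * n := by ring
      rw [e]
      exact step _ (le_trans hn (Nat.le_mul_of_pos_left _ (by positivity))) ih.1 ih.2
  by_contra hlt
  have h3 := (hα a ha).2 (not_le.1 hlt)
  have h4 : Tendsto (fun i : ℕ => 2 ^ i * n) atTop atTop :=
    (tendsto_pow_atTop_atTop_of_one_lt (by norm_num : 1 < 2)).atTop_mul_const' (by omega)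
  have h5 := (h3.comp h4).eventually (gt_mem_nhds (show (0 : ℝ) < 1 / 2 by norm_num))
  obtain ⟨i, hi⟩ := h5.exists
  have h6 := (iter i).2 ⌊a * ((2 ^ i * n : ℕ) : ℝ)⌋₊ (by
    have : (⌊a * ((2 ^ i * n : ℕ) : ℝ)⌋₊ : ℝ) ≤ a * ((2 ^ i * n : ℕ) : ℝ) :=
      Nat.floor_le (by positivity)
    have h7 : 0 ≤ 2 * (K + 2) * Real.sqrt ((2 ^ i * n : ℕ) : ℝ) := by positivity
    linarith)
  simp only [Function.comp] at hi
  linarith

theorem cert_repl (α : ℝ) (hα : IsSharpThreshold (satProb 3) α) (C γ : ℝ) (hC : 0 ≤ C)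
    (hγ : 0 < γ) :
    ∃ K : ℕ, ∀ (n m : ℕ) (a : ℝ), 6 ≤ n → 0 ≤ a → (m : ℝ) ≤ C * n → γ ≤ replProb 3 n m →
      a * n + K * Real.sqrt n ≤ m → a ≤ α := by
  obtain ⟨K₁, hK₁, h₁⟩ := cert_sat α hα C hC
  obtain ⟨K₂, hK₂, h₂⟩ := sat_of_repl C γ hγ
  obtain ⟨K, hK⟩ := exists_nat_ge (K₁ + K₂)
  refine ⟨K, fun n m a hn ha hm h hK' => ?_⟩
  have hs : 0 ≤ Real.sqrt n := Real.sqrt_nonneg _
  have h3 := mul_le_mul_of_nonneg_right hK hs
  have h4 : 0 ≤ K₂ * Real.sqrt n := by positivity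
  refine h₁ n a hn ha (by nlinarith) fun m' hm' => h₂ n m m' hn hm h (by nlinarith)

theorem lower_semidecision' (α : ℝ) (hα : IsSharpThreshold (satProb 3) α) :
    ∃ P : ℕ × ℕ × ℕ → Prop, ComputablePred P ∧
      (∀ u v w : ℕ, P (u, v, w) → (u : ℝ) / (v + 1) ≤ α) ∧
      (∀ u v : ℕ, (u : ℝ) / (v + 1) < α → ∃ w, P (u, v, w)) := by
  obtain ⟨C, hC⟩ := exists_nat_ge α
  obtain ⟨G, hG⟩ := exists_nat_ge (2 * Real.exp (6 * C))
  have hG0 : (0 : ℝ) < G := lt_of_lt_of_le (by positivity) hG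
  obtain ⟨K, hK⟩ := cert_repl α hα C (1 / G) (by positivity) (by positivity)
  have hiff : ∀ n m : ℕ, 1 ≤ n →
      (((n * 2) ^ 3) ^ m ≤ G * satCount n m ↔ 1 / (G : ℝ) ≤ replProb 3 n m) := by
    intro n m hn
    have : (0 : ℝ) < ((((n * 2) ^ 3) ^ m : ℕ) : ℝ) := by
      exact_mod_cast (by positivity : 0 < ((n * 2) ^ 3) ^ m)
    rw [replProb_eq_satCount, div_le_div_iff₀ hG0 this, one_mul, mul_comm (satCount n m : ℝ)]
    exact_mod_cast Iff.rfl
  refine ⟨fun p => 3 ≤ p.2.2.unpair.1 ∧ p.2.2.unpair.2 ≤ C * p.2.2.unpair.1 ^ 2 ∧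
    ((p.2.2.unpair.1 ^ 2 * 2) ^ 3) ^ p.2.2.unpair.2 ≤
      G * satCount (p.2.2.unpair.1 ^ 2) p.2.2.unpair.2 ∧
    p.1 * p.2.2.unpair.1 ^ 2 + K * p.2.2.unpair.1 * (p.2.1 + 1) ≤ p.2.2.unpair.2 * (p.2.1 + 1),
    ?_, ?_, ?_⟩
  · apply PrimrecPred.computablePred
    have ht : Primrec (fun p : ℕ × ℕ × ℕ => p.2.2.unpair.1) :=
      Primrec.fst.comp (Primrec.unpair.comp (Primrec.snd.comp Primrec.snd))
    have hm : Primrec (fun p : ℕ × ℕ × ℕ => p.2.2.unpair.2) :=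
      Primrec.snd.comp (Primrec.unpair.comp (Primrec.snd.comp Primrec.snd))
    have hn : Primrec (fun p : ℕ × ℕ × ℕ => p.2.2.unpair.1 ^ 2) :=
      primrec_pow.comp ht (Primrec.const 2)
    have hv : Primrec (fun p : ℕ × ℕ × ℕ => p.2.1 + 1) :=
      Primrec.nat_add.comp (Primrec.fst.comp Primrec.snd) (Primrec.const 1)
    refine (Primrec.nat_le.comp (Primrec.const 3) ht).and
      ((Primrec.nat_le.comp hm (Primrec.nat_mul.comp (Primrec.const C) hn)).and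
      ((Primrec.nat_le.comp (primrec_pow.comp (primrec_pow.comp
        (Primrec.nat_mul.comp hn (Primrec.const 2)) (Primrec.const 3)) hm)
        (Primrec.nat_mul.comp (Primrec.const G) (primrec_satCount.comp hn hm))).and
      (Primrec.nat_le.comp (Primrec.nat_add.comp (Primrec.nat_mul.comp Primrec.fst hn)
        (Primrec.nat_mul.comp (Primrec.nat_mul.comp (Primrec.const K) ht) hv))
        (Primrec.nat_mul.comp hm hv))))
  · rintro u v w ⟨h1, h2, h3, h4⟩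
    dsimp only at h1 h2 h3 h4
    set t := w.unpair.1
    set m := w.unpair.2
    have hn : 6 ≤ t ^ 2 := by nlinarith
    refine hK (t ^ 2) m _ hn (by positivity) (by exact_mod_cast h2)
      ((hiff _ _ (by omega)).1 h3) ?_
    have h5 : (u : ℝ) * t ^ 2 + K * t * (v + 1) ≤ m * (v + 1) := by exact_mod_cast h4
    have hv : (0 : ℝ) < v + 1 := by positivity
    push_cast
    rw [Real.sqrt_sq (by positivity), div_mul_eq_mul_div, div_add' _ _ _ hv.ne', div_le_iff₀ hv]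
    exact h5
  · intro u v huv
    obtain ⟨a, ha1, ha2⟩ := exists_between huv
    have hv : (0 : ℝ) < v + 1 := by positivity
    have hb0 : (0 : ℝ) ≤ u / (v + 1) := by positivity
    have ha0 : 0 ≤ a := hb0.trans ha1.le
    have h1 := (hα a ha0).1 ha2
    have h2 : Tendsto (fun t : ℕ => t ^ 2) atTop atTop := tendsto_pow_atTop (by norm_num)
    have h3 := (h1.comp h2).eventually (lt_mem_nhds (show (1 / 2 : ℝ) < 1 by norm_num))
    have h4 : ∀ᶠ t : ℕ in atTop, (K + 1) / (a - u / (v + 1)) ≤ (t : ℝ) :=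
      tendsto_natCast_atTop_atTop.eventually_ge_atTop _
    obtain ⟨t, ht1, ht2, ht3⟩ := (h3.and (h4.and (eventually_ge_atTop 3))).exists
    simp only [Function.comp] at ht1
    set m := ⌊a * ((t ^ 2 : ℕ) : ℝ)⌋₊ with hm
    have f1 : (m : ℝ) ≤ a * ((t ^ 2 : ℕ) : ℝ) := Nat.floor_le (by positivity)
    have f2 : a * ((t ^ 2 : ℕ) : ℝ) < m + 1 := Nat.lt_floor_add_one _
    have hn : 6 ≤ t ^ 2 := by nlinarith
    have hmC : (m : ℝ) ≤ C * ((t ^ 2 : ℕ) : ℝ) :=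
      f1.trans (mul_le_mul_of_nonneg_right (ha2.le.trans hC) (by positivity))
    refine ⟨Nat.pair t m, ?_⟩
    simp only [Nat.unpair_pair]
    refine ⟨ht3, by exact_mod_cast hmC, (hiff _ _ (by omega)).2 ?_, ?_⟩
    · refine le_trans ?_ (repl_of_sat C hn hmC)
      have e : Real.exp (-6 * C) * Real.exp (6 * C) = 1 := by
        rw [← Real.exp_add]; simp
      rw [div_le_iff₀ hG0]
      have h5 := Real.exp_pos (-6 * C)
      have h6 : Real.exp (-6 * C) * (1 / 2) * (2 * Real.exp (6 * C)) ≤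
          Real.exp (-6 * C) * satProb 3 (t ^ 2) m * G :=
        mul_le_mul (mul_le_mul_of_nonneg_left ht1.le h5.le) hG (by positivity)
          (mul_nonneg h5.le (satProb_nonneg _ _ _))
      nlinarith
    · have ht : (3 : ℝ) ≤ t := by exact_mod_cast ht3
      rw [div_le_iff₀ (by linarith)] at ht2
      have h5 : (u : ℝ) / (v + 1) * t ^ 2 + K * t ≤ m := by
        push_cast at f2
        nlinarith
      rw [div_mul_eq_mul_div, div_add' _ _ _ hv.ne', div_le_iff₀ hv] at h5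
      exact_mod_cast h5

end Crest.Agent.R153.PartB
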