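import Mathlib
import Crest.Prelude.Def_RandomSAT
import Crest.Agent.R153.Defs
import Crest.Agent.R153.A
import Crest.Agent.R153.B_Est

/-!
Row 153, part B: the Poisson model.
-/

set_option autoImplicit false

namespace Crest.Agent.R153.PartB

open Crest.ProbabilityR.RandomSAT Finset Filter

theorem poi_nonneg {x : ℝ} (hx : 0 ≤ x) (j : ℕ) : 0 ≤ poi x j := by
  unfold poi; positivity

theorem hasSum_poi_pow (x y : ℝ) :
    HasSum (fun j : ℕ => poi x j * y ^ j) (Real.exp (x * (y - 1))) := by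
  have h := (NormedSpace.expSeries_div_hasSum_exp (x * y)).mul_left (Real.exp (-x))
  rw [← Real.exp_eq_exp_ℝ, ← Real.exp_add] at h
  have e1 : (fun j : ℕ => poi x j * y ^ j) =
      fun i : ℕ => Real.exp (-x) * ((x * y) ^ i / (i.factorial : ℝ)) := by
    funext j
    unfold poi
    rw [mul_pow]; ring
  have e2 : x * (y - 1) = -x + x * y := by ring
  rw [e1, e2]
  exact h

theorem hasSum_poi (x : ℝ) : HasSum (poi x) 1 := by
  simpa using hasSum_poi_pow x 1

theorem summable_poi_repl (k n : ℕ) {x : ℝ} (hx : 0 ≤ x) :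
    Summable fun j : ℕ => poi x j * replProb k n j :=
  Summable.of_nonneg_of_le (fun j => mul_nonneg (poi_nonneg hx j) (replProb_nonneg _ _ _))
    (fun j => mul_le_of_le_one_right (poi_nonneg hx j) (replProb_le_one _ _ _))
    (hasSum_poi x).summable

theorem poiProb_le (k n m : ℕ) {a : ℝ} (ha : 0 ≤ a) {t : ℝ} (ht : 0 ≤ t) :
    poiProb k a n ≤
      Real.exp (t * m) * Real.exp (a * n * (Real.exp (-t) - 1)) + replProb k n m := by
  have hx : 0 ≤ a * n := by positivity
  have h1 := ((hasSum_poi_pow (a * n) (Real.exp (-t))).mul_left (Real.exp (t * m))).add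
    ((hasSum_poi (a * n)).mul_left (replProb k n m))
  rw [mul_one] at h1
  refine hasSum_le (fun j => ?_) (summable_poi_repl k n hx).hasSum h1
  have h2 : replProb k n j ≤ Real.exp (t * m) * Real.exp (-t) ^ j + replProb k n m := by
    rcases le_total m j with h | h
    · have := replProb_anti k n h
      have h3 : 0 ≤ Real.exp (t * m) * Real.exp (-t) ^ j := by positivity
      linarith
    · have h3 : 1 ≤ Real.exp (t * m) * Real.exp (-t) ^ j := by
        rw [← Real.exp_nat_mul, ← Real.exp_add]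
        apply Real.one_le_exp
        have : (j : ℝ) ≤ m := by exact_mod_cast h
        nlinarith
      linarith [replProb_le_one k n j, replProb_nonneg k n m]
  nlinarith [mul_le_mul_of_nonneg_left h2 (poi_nonneg hx j)]

theorem le_poiProb (k n m : ℕ) {a : ℝ} (ha : 0 ≤ a) {t : ℝ} (ht : 0 ≤ t) :
    replProb k n m * (1 - Real.exp (-(t * m)) * Real.exp (a * n * (Real.exp t - 1))) ≤
      poiProb k a n := by
  have hx : 0 ≤ a * n := by positivity
  have h1 := ((hasSum_poi (a * n)).sub
    ((hasSum_poi_pow (a * n) (Real.exp t)).mul_left (Real.exp (-(t * m))))).mul_left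
    (replProb k n m)
  refine hasSum_le (fun j => ?_) h1 (summable_poi_repl k n hx).hasSum
  have h2 : replProb k n m * (1 - Real.exp (-(t * m)) * Real.exp t ^ j) ≤ replProb k n j := by
    rcases le_total j m with h | h
    · have := replProb_anti k n h
      have h3 : 0 ≤ Real.exp (-(t * m)) * Real.exp t ^ j := by positivity
      nlinarith [replProb_nonneg k n m]
    · have h3 : 1 ≤ Real.exp (-(t * m)) * Real.exp t ^ j := by
        rw [← Real.exp_nat_mul, ← Real.exp_add]
        apply Real.one_le_exp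
        have : (m : ℝ) ≤ j := by exact_mod_cast h
        nlinarith
      nlinarith [replProb_nonneg k n j, replProb_nonneg k n m]
  nlinarith [mul_le_mul_of_nonneg_left h2 (poi_nonneg hx j)]

theorem eventually_const_mul_exp_le (A c ε : ℝ) (hc : 0 < c) (hε : 0 < ε) :
    ∀ᶠ n : ℕ in atTop, A * Real.exp (-c * n) ≤ ε := by
  have h1 : Tendsto (fun n : ℕ => -c * (n : ℝ)) atTop atBot :=
    tendsto_natCast_atTop_atTop.const_mul_atTop_of_neg (by linarith)
  have h2 := (Real.tendsto_exp_atBot.comp h1).const_mul A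
  rw [mul_zero] at h2
  exact (h2.eventually (gt_mem_nhds hε)).mono fun n hn => hn.le

theorem poi_decay' (α : ℝ) (hα : IsSharpThreshold (satProb 3) α) (a : ℝ) (ha : α < a) :
    ∃ c : ℝ, 0 < c ∧ ∀ᶠ n : ℕ in atTop, poiProb 3 a n ≤ Real.exp (-c * n) := by
  have hα0 := threshold_nonneg' 3 α hα
  obtain ⟨a₂, h1, h2⟩ := exists_between ha
  obtain ⟨a₁, h3, h4⟩ := exists_between h1
  have ha0 : 0 < a := by linarith
  obtain ⟨c₁, hc₁, he⟩ := exp_tail 3 le_rfl α hα a₁ h3
  set t := min 1 ((a - a₂) / (2 * a)) with ht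
  have ht0 : 0 < t := lt_min one_pos (div_pos (by linarith) (by linarith))
  have ht1 : t ≤ 1 := min_le_left _ _
  have ht2 : a * t ≤ (a - a₂) / 2 := by
    have : t ≤ (a - a₂) / (2 * a) := min_le_right _ _
    rw [le_div_iff₀ (by linarith)] at this
    linarith
  set c₂ := t * (a - a₂) / 2 with hc₂
  have hc₂0 : 0 < c₂ := by have : 0 < a - a₂ := by linarith
                           positivity
  set c₃ := (a₂ - a₁) * Real.log 2 with hc₃
  have hl : 0 < Real.log 2 := Real.log_pos (by norm_num)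
  have hc₃0 : 0 < c₃ := by have : 0 < a₂ - a₁ := by linarith
                           positivity
  set c := min c₁ (min c₂ c₃) with hc
  have hc0 : 0 < c := lt_min hc₁ (lt_min hc₂0 hc₃0)
  refine ⟨c / 2, by positivity, ?_⟩
  filter_upwards [he, eventually_ge_atTop 6,
    eventually_const_mul_exp_le (2 + 2 * Real.exp (3 * a₂)) (c / 2) 1 (by positivity) one_pos]
    with n hn1 hn2 hn3
  have hn0 : (0 : ℝ) ≤ n := by positivity
  set m := ⌊a₂ * n⌋₊ with hm
  set m₁ := ⌊a₁ * n⌋₊ with hm₁
  have f1 : (m : ℝ) ≤ a₂ * n := Nat.floor_le (mul_nonneg (by linarith) hn0)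
  have f2 : a₂ * n < m + 1 := Nat.lt_floor_add_one _
  have f3 : (m₁ : ℝ) ≤ a₁ * n := Nat.floor_le (mul_nonneg (by linarith) hn0)
  have f4 : m₁ ≤ m := Nat.floor_le_floor (mul_le_mul_of_nonneg_right h4.le hn0)
  have b1 := poiProb_le 3 n m ha0.le ht0.le
  have b2 := repl_le' a₂ hn2 f1 (m - m₁)
  rw [Nat.sub_sub_self f4] at b2
  have mono : ∀ d : ℝ, c ≤ d → Real.exp (-d * n) ≤ Real.exp (-c * n) := by
    intro d hd
    rw [Real.exp_le_exp]
    nlinarith
  have b3 : Real.exp (t * m) * Real.exp (a * n * (Real.exp (-t) - 1)) ≤ Real.exp (-c * n) := by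
    refine le_trans ?_ (mono c₂ ((min_le_right _ _).trans (min_le_left _ _)))
    rw [← Real.exp_add, Real.exp_le_exp]
    have e1 := exp_le_quad (t := -t) (by rw [abs_neg, abs_of_pos ht0]; exact ht1)
    have e2 : a * n * (Real.exp (-t) - 1) ≤ a * n * (-t + t ^ 2) :=
      mul_le_mul_of_nonneg_left (by linarith) (by positivity)
    have e3 := mul_le_mul_of_nonneg_left f1 ht0.le
    have e4 := mul_le_mul_of_nonneg_left ht2 (show 0 ≤ t * n by positivity)
    rw [hc₂]
    nlinarith
  have b4 : Real.exp (3 * a₂) / 2 ^ (m - m₁) ≤ 2 * Real.exp (3 * a₂) * Real.exp (-c * n) := by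
    refine le_trans ?_ (mul_le_mul_of_nonneg_left
      (mono c₃ ((min_le_right _ _).trans (min_le_right _ _))) (by positivity))
    have e1 : (2 : ℝ) ^ (m - m₁) = Real.exp (((m - m₁ : ℕ) : ℝ) * Real.log 2) := by
      rw [Real.exp_nat_mul, Real.exp_log (by norm_num)]
    have e2 : (2 : ℝ) * Real.exp (3 * a₂) = Real.exp (Real.log 2 + 3 * a₂) := by
      rw [Real.exp_add, Real.exp_log (by norm_num)]
    rw [e1, e2, ← Real.exp_sub, ← Real.exp_add, Real.exp_le_exp, Nat.cast_sub f4, hc₃]
    have e3 : (a₂ - a₁) * n - 1 ≤ (m : ℝ) - m₁ := by nlinarith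
    nlinarith [mul_le_mul_of_nonneg_right e3 hl.le]
  have b5 := hn1.trans (mono c₁ (min_le_left _ _))
  have e : Real.exp (-c * n) = Real.exp (-(c / 2) * n) * Real.exp (-(c / 2) * n) := by
    rw [← Real.exp_add]; congr 1; ring
  have b6 : poiProb 3 a n ≤ (2 + 2 * Real.exp (3 * a₂)) * Real.exp (-c * n) := by linarith
  rw [e, ← mul_assoc] at b6
  exact b6.trans (mul_le_of_le_one_left (Real.exp_pos _).le hn3)

theorem le_of_poi' (α : ℝ) (hα : IsSharpThreshold (satProb 3) α) (a : ℝ) (ha : 0 ≤ a)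
    (h : Tendsto (poiProb 3 a) atTop (nhds 0)) : α ≤ a := by
  by_contra hlt
  obtain ⟨a', h1, h2⟩ := exists_between (not_le.1 hlt)
  have ha' : 0 ≤ a' := by linarith
  set t := min 1 ((a' - a) / (2 * (a + 1))) with ht
  have ht0 : 0 < t := lt_min one_pos (div_pos (by linarith) (by linarith))
  have ht1 : t ≤ 1 := min_le_left _ _
  have ht2 : a * t ≤ (a' - a) / 2 := by
    have : t ≤ (a' - a) / (2 * (a + 1)) := min_le_right _ _
    rw [le_div_iff₀ (by linarith)] at this
    linarith
  set c := t * (a' - a) / 2 with hc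
  have hc0 : 0 < c := by have : 0 < a' - a := by linarith
                         positivity
  have h3 := ((hα a' ha').1 h2).eventually (lt_mem_nhds (show (1 / 2 : ℝ) < 1 by norm_num))
  have h4 := h.eventually (gt_mem_nhds (show (0 : ℝ) < Real.exp (-6 * a') / 4 by positivity))
  obtain ⟨n, hn1, hn2, hn3, hn4⟩ := (h3.and (h4.and ((eventually_ge_atTop 6).and
    (eventually_const_mul_exp_le (Real.exp t) c (1 / 2) hc0 (by norm_num))))).exists
  have hn0 : (0 : ℝ) ≤ n := by positivity
  set m := ⌊a' * n⌋₊ with hm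
  have f1 : (m : ℝ) ≤ a' * n := Nat.floor_le (mul_nonneg ha' hn0)
  have f2 : a' * n < m + 1 := Nat.lt_floor_add_one _
  have b1 := le_poiProb 3 n m ha ht0.le
  have b2 := repl_of_sat a' hn3 f1
  have b3 : Real.exp (-(t * m)) * Real.exp (a * n * (Real.exp t - 1)) ≤ 1 / 2 := by
    refine le_trans ?_ hn4
    rw [← Real.exp_add, ← Real.exp_add, Real.exp_le_exp]
    have e1 := exp_le_quad (t := t) (by rw [abs_of_pos ht0]; exact ht1)
    have e2 : a * n * (Real.exp t - 1) ≤ a * n * (t + t ^ 2) :=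
      mul_le_mul_of_nonneg_left (by linarith) (by positivity)
    have e3 := mul_le_mul_of_nonneg_left f2.le ht0.le
    have e4 := mul_le_mul_of_nonneg_left ht2 (show 0 ≤ t * n by positivity)
    rw [hc]
    nlinarith
  have b4 : Real.exp (-6 * a') / 2 ≤ replProb 3 n m := by
    nlinarith [Real.exp_pos (-6 * a')]
  nlinarith [replProb_nonneg 3 n m]

end Crest.Agent.R153.PartB
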