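import Mathlib
import Crest.Prelude.Def_RandomSAT
import Crest.Agent.R153.Defs
import Crest.Agent.R153.A
import Crest.Agent.R153.B_Poi

/-!
Row 153, part B (interface file): lower semidecision of the threshold, transfers between the
distinct-variable model, the with-replacement model and the Poisson model, and the abstract final
assembly.  Owner of task B: put the work in `Crest/Agent/R153/B_*.lean` and replace the proofs
below (keep the statements).  You may use `boost` and `exp_tail` from `A.lean`.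

PROOF PLAN.
* `α ≥ 0`: otherwise `a = 0 > α` forces `satProb k n 0 = 1 → 0`.
* Monotonicity of `satProb k n m` (for `k ≤ n`) and `replProb k n m` in `m`; first moment bounds.
* Transfers: `replProb k n m ≥ (P(k uniform variables distinct))^m · satProb k n m`
  (`≥ c₀ satProb` for `m ≤ C₀ n`), and `replProb k n m ≤ P(#non-distinct clauses > L) + satProb k n (m-L)`
  (the number of non-distinct clauses is binomial with mean `≤ k² m / n`; Markov for
  `lower_semidecision`, an exponential moment with `L = δ n` for `poi_decay`).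
* Two-block interpolation: for a nonempty allowed set `S ⊆ (Fin (2n) → Bool)` let `b₁, b₂` be the
  fractions of literals of block 1, 2 that are false on all of `S`; a uniform with-replacement clause
  empties `S` with probability `((b₁+b₂)/2)^k ≤ (b₁^k+b₂^k)/2`, the probability for a clause inside a
  uniformly chosen block.  Hybrid argument (intersection commutes) gives
  `replProb k (2n) M ≥ Σ_j C(M,j) 2^{-M} replProb k n j · replProb k n (M-j)`.
* Doubling: `satProb 3 n m ≥ 1/2 ⇒ m ≤ 6(n+1)`, `replProb 3 n m ≥ c₀/2`,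
  `replProb 3 (2n) (2m - C√n) ≥ c₀²/8` (Chebyshev for the binomial), `satProb 3 (2n) (2m - C√n - L) ≥ c₀²/16`,
  `boost` ⇒ `satProb 3 (2n) (2m - C'√n) ≥ 1/2`.  Iterating, `satProb 3 (2^i n) ⌊a 2^i n⌋ ≥ 1/2` for all
  `i` with `a = m/n - C''/√n`, hence `m/n - C''/√n ≤ α`.  The certificate for `u/(v+1) ≤ α` is a pair
  `(t,m)` with `1/2 ≤ satProb 3 (t²) m` (or the same with `replProb` and another constant) and
  `u/(v+1) ≤ m/t² - C''/t`; the probability is a ratio of counts, so the predicate is primitive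
  recursive (count over explicit lists of codes).
* `poi_decay`: Poisson lower tail (`Σ_{j ≤ a'n} poi (a n) j ≤ e^{-cn}` via `E e^{-tJ}`), transfer,
  `exp_tail`.  `le_of_poi`: if `a < a' < α` then `poiProb ≥ P(J ≤ a' n) c₀ satProb(⌊a' n⌋)` stays
  bounded below.
* `computable_of_semidecisions`: search (Nat.rfind over a code of `(j, w, w')`) for `j` with
  (`j = 0` or `P (j-1, 2^r-1, w)`) and `Q (j+1, 2^r-1, w')`; then `|j/2^r - α| ≤ 1/2^r`, and
  `j = ⌊α 2^r⌋` or `⌈α 2^r⌉` works (`(j-1)/2^r < α < (j+1)/2^r`).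
-/

set_option autoImplicit false

namespace Crest.Agent.R153

open Crest.ProbabilityR.RandomSAT Filter

theorem threshold_nonneg (k : ℕ) (α : ℝ) (hα : IsSharpThreshold (satProb k) α) : 0 ≤ α :=
  PartB.threshold_nonneg' k α hα

theorem lower_semidecision (α : ℝ) (hα : IsSharpThreshold (satProb 3) α) :
    ∃ P : ℕ × ℕ × ℕ → Prop, ComputablePred P ∧
      (∀ u v w : ℕ, P (u, v, w) → (u : ℝ) / (v + 1) ≤ α) ∧
      (∀ u v : ℕ, (u : ℝ) / (v + 1) < α → ∃ w, P (u, v, w)) :=
  PartB.lower_semidecision' α hα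

theorem poi_decay (α : ℝ) (hα : IsSharpThreshold (satProb 3) α) (a : ℝ) (ha : α < a) :
    ∃ c : ℝ, 0 < c ∧ ∀ᶠ n : ℕ in atTop, poiProb 3 a n ≤ Real.exp (-c * n) :=
  PartB.poi_decay' α hα a ha

theorem le_of_poi (α : ℝ) (hα : IsSharpThreshold (satProb 3) α) (a : ℝ) (ha : 0 ≤ a)
    (h : Tendsto (poiProb 3 a) atTop (nhds 0)) : α ≤ a :=
  PartB.le_of_poi' α hα a ha h

theorem computable_of_semidecisions (α : ℝ) (hα : 0 ≤ α) (P Q : ℕ × ℕ × ℕ → Prop)
    (hP : ComputablePred P) (hQ : ComputablePred Q)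
    (hP1 : ∀ u v w : ℕ, P (u, v, w) → (u : ℝ) / (v + 1) ≤ α)
    (hP2 : ∀ u v : ℕ, (u : ℝ) / (v + 1) < α → ∃ w, P (u, v, w))
    (hQ1 : ∀ u v w : ℕ, Q (u, v, w) → α ≤ (u : ℝ) / (v + 1))
    (hQ2 : ∀ u v : ℕ, α < (u : ℝ) / (v + 1) → ∃ w, Q (u, v, w)) :
    ∃ f : ℕ → ℕ, Computable f ∧ ∀ r : ℕ, |(f r : ℝ) / 2 ^ r - α| ≤ 1 / 2 ^ r :=
  PartB.computable_of_semidecisions' α hα P Q hP hQ hP1 hP2 hQ1 hQ2

end Crest.Agent.R153
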