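import Crest.Agent.R153.Rep_Ch

/-!
Row 153, task R153-Rep: replica representation of the loss `GP` and the decoupling estimate D1.
Owner: put work in `R153/Rep_*.lean`, keep the statements below (and those of `Sib.lean`).

PLAN.  Let `A' = Bool → S → ℝ` (pointwise monoid), `Ch j = Nest A' j →* ℝ`.
`liftCh χ : Ch (j+1) := V ↦ I (dn V) χ` (multiplicative by `I_mul_hom`).
`mu : Tr j → Nest (S → ℝ) j → Ms (Ch j)`:  `mu t x = Σ_σ (x σ / sumv x) • dirac (w ↦ w t.lbl σ)` at depth 0,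
`mu t X = (t.kids.map fun u => Ms.map liftCh (muP u (dn X))).prod` (product in the commutative monoid
algebra of characters), `muP u X = bind (tilt X (vS θ)) (mu u)`.  They are probability measures when
`X` is good with positive value.  Every `χ` in the support of `mu t X` satisfies:
(a) `0 ≤ χ c` if the leaves of the good nest `c` are `≥ 0`, and `χ c ≤ 1` if they are in `[0,1]`;
(b) `χ (map (fun r b _ => r b) ζ) = hat t ζ` for every good nest `ζ` over `Bool → ℝ`, where `hat t` is the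
    scalar character (`hat t r = r t.lbl`, `hat t ζ = Π_{u ∈ kids} I (dn ζ) (hat u)`); in particular
    `χ (det (const z)) = z ^ t.size`, hence `χ (map (z • ·) c) = z ^ size * χ c`.
(c) `I (mu t X) (χ ↦ χ (det (fun b => lab b s) j)) = mm θ t X s`, and
    `hat t (map (fun r b => if b then r else 1) (sNest θ s X)) = mm θ t X s` when `0 < vS θ X`.
REPRESENTATION.  For a good `W` over `A'` with leaves `w ≥ 0`, `v = (w true + w false)/2 ≤ 1`, put
`G' X W = I (treeP θ Q' j) (t ↦ I (mu t X) (χ ↦ χ W))`.  Then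
`0 ≤ GG θ X (map (fun w σ => 1 - (w true σ + w false σ)/2) W) - G' X W ≤ e_j`, `e_0 = 0`,
`e_{j+1} = e_j ^ θ + (1 - Σ_{q ≤ Q'} sib θ q)`: by `GG_succ`, `GP_eq`, `I_listPow_prod` one has
`G'_{j+1} = Σ_{q ≤ Q'} sib θ q (G'P)^q` with `0 ≤ G'P ≤ GP ≤ 1`; use `sib_remainder` and
`abs_rpow_sub_rpow_le`.  `e_j → 0` as `Q' → ∞` (`tendsto_sum_sib`).
`rep_char`: take `w b = v` for both labels (compose characters with `mapHom`).
D1.  `X * neg (V * T) = neg (mapM (fun w => w true + w false) (W * mapM (fun s b => lab b s) T))` with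
`W = map2M (fun x v b => if b then x * v else 1 - x) X V` (use `mul_eq_map2M`, `map2M_assoc` ...).
Apply the representation to `2 •` the leaves: `GP ≈ I treeP (t ↦ 2^size * I (muP t Y) (F * R))` with
`F χ = I W χ ∈ [0,1]`, `R χ = I (mapM lab T) χ`.  For `T = slotB β j`, `R = avg_l χ (det (lab β_l))`, with mean
`avg_l mmP t Y (β l)` and variance `avg_{l,l'} CP θ t Y β l l' ≤ hs (CP θ t Y β)`; for
`T = slotE S (xiOf θ β Y)`, `R` is the constant `avg_l mmP t Y (β l)` by (b), (c).  Trees of size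
`≤ q₀` contribute at most `2^{q₀} I treeP (1{size ≤ q₀} √Var) ≤ 4^{q₀} √(I treeP (2^{-size} hs))`
(Cauchy-Schwarz `sq_I_mul_le`, `I_sqrt_le`).  Trees of size `> q₀`: with `z^{q₀} ≤ 1/2`, `0 < z < 1`,
`1{size > q₀} ≤ 2 (1 - z^size)`, so each of the two nonnegative contributions is at most
`2 (G'(W') - G'(z • W')) ≤ 2 ((1-z)^(θ^j) + e_j)` by homogeneity (b) and `pre_holder` on the pair nest
(`pre_map2M_eq`), and `(1-z)^(θ^j) ≤ (1-z)^y`.  Choose `z` from `η, y`, then `q₀`, `M = 4^{q₀}`, then `Q'`.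
-/

set_option autoImplicit false

namespace Crest.Agent.R153

open Ms Nest

variable {S L : Type} {j : ℕ} {θ : ℝ}

/-- Both labels see the same function. -/
def dblHom (S : Type) : (S → ℝ) →* (Bool → S → ℝ) where
  toFun v := fun _ => v
  map_one' := rfl
  map_mul' _ _ := rfl

/-- Approximate representation of the loss as a positive combination of characters. -/
theorem rep_char [Fintype S] (h0 : 0 < θ) (h1 : θ ≤ 1) {η : ℝ} (hη : 0 < η)
    {X : Ms (Nest (S → ℝ) j)} (hX : GoodM U01 X) (hpos : 0 < pS θ X) :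
    ∃ Λ : Ms (Nest (S → ℝ) j →* ℝ), Λ.NN ∧ Λ.Supp (fun χ => ∀ c, Good U01 c → 0 ≤ χ c) ∧
      ∀ V : Ms (Nest (S → ℝ) j), GoodM U01 V →
        |GP θ X (neg V) - I Λ (fun χ => I V χ)| ≤ η := by
  obtain ⟨Q', -, hQ⟩ := exists_errR_le h0 h1 j hη
  refine ⟨Ms.map (fun χ : Ch S j => χ.comp (mapHom (dblHom S) j))
    (Ms.bind (treeP θ Q' j) fun t => muP θ t X), ?_, ?_, fun V hV => ?_⟩
  · exact ((NN_treeP h0.le h1 Q' j).bind fun t _ => (prob_muP h0 t hX hpos).1).map _
  · refine Supp.map (P := fun χ => ∀ c, Good N0 c → 0 ≤ χ c)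
      ((supp_true _).bind fun t _ => (supp_muP t X).mono fun χ hχ => hχ.nonneg) ?_
    intro χ hχ c hc
    exact hχ _ (hc.map fun v hv _ σ => (hv σ).1)
  · have hW : GoodM (PW 2) (mapM (dblHom S) V) :=
      hV.mapM fun v hv => ⟨fun _ σ => (hv σ).1, fun σ => by
        have := (hv σ).2
        show v σ + v σ ≤ 2
        linarith⟩
    obtain ⟨-, h2, h3⟩ := repP h0 h1 Q' hX hpos hW
    have e1 : mapM cl (mapM (dblHom S) V) = neg V := by
      rw [mapM_mapM, neg]
      congr 1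
      funext v σ
      show 1 - (v σ + v σ) / 2 = 1 - v σ
      ring
    have e2 : I (Ms.map (fun χ : Ch S j => χ.comp (mapHom (dblHom S) j))
        (Ms.bind (treeP θ Q' j) fun t => muP θ t X)) (fun χ => I V χ) =
        G1P θ Q' X (mapM (dblHom S) V) := by
      simp only [I_map, I_bind, G1P, I_mapM]
      rfl
    rw [e1] at h2 h3
    rw [e2, abs_le]
    constructor <;> linarith

theorem goodM_xiOf [Fintype S] [Fintype L] [Nonempty L] (h0 : 0 < θ) {β : L → S → ℝ}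
    (hβ : ∀ l, U01 (β l)) {Y : Ms (Nest (S → ℝ) j)} (hY : GoodM U01 Y) (hpos : 0 < pS θ Y) :
    GoodM R01 (xiOf θ β Y) :=
  goodM_avg fun l => ⟨(prob_tilt_vS hY hpos).map _,
    (supp_tilt_vS hY).map fun _ hc => good_sNest h0 (hβ l) hc.1 hc.2⟩

/-- The labelled leaf of `x (1 - v τ) = 1 - (x v) τ - (1 - x)`. -/
def wf (x v : S → ℝ) : Bool → S → ℝ := fun b σ => if b then x σ * v σ else 1 - x σ

theorem PW_wf {x v : S → ℝ} (hx : U01 x) (hv : U01 v) : PW 1 (wf x v) := by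
  refine ⟨fun b σ => ?_, fun σ => ?_⟩
  · cases b
    · simpa [wf] using (hx σ).2
    · simpa [wf] using mul_nonneg (hx σ).1 (hv σ).1
  · have := mul_le_of_le_one_right (hx σ).1 (hv σ).2
    simp only [wf, if_true, Bool.false_eq_true, if_false]
    linarith

theorem PW.n01 {w : Bool → S → ℝ} (h : PW 1 w) : N01 w := fun b σ => by
  have h1 := h.1 true σ
  have h2 := h.1 false σ
  have h3 := h.2 σ
  cases b <;> constructor <;> linarith

theorem N01_labf {s : S → ℝ} (hs : U01 s) : N01 (labf s) := fun b σ => hs.lab b σ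

theorem N01_scal {z : ℝ} (h0 : 0 ≤ z) (h1 : z ≤ 1) : N01 (scal z : Bool → S → ℝ) :=
  fun _ _ => ⟨h0, h1⟩

theorem labf_mul (s s' : S → ℝ) : labf (s * s') = labf s * labf s' := by
  funext b; exact lab_mul b s s'

theorem neg_eq_cl (X V T : Ms (Nest (S → ℝ) j)) :
    X * neg (V * T) =
      mapM cl (map2M wf X V * dirac (det (scal 2) j) * mapM labf T) := by
  rw [mul_dirac_det, mapM_map2M, mul_eq_map2M (map2M _ X V), map2M_mapM_right, mapM_map2M,
    map2M_assoc _ _ (fun x p : S → ℝ => x * fun σ => 1 - p σ) (fun a b : S → ℝ => a * b),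
    ← mul_eq_map2M, mul_eq_map2M X, neg, map2M_mapM_right]
  intro x v s
  funext σ
  simp only [cl, wf, scal, labf, lab, Pi.mul_apply, if_true, Bool.false_eq_true, if_false]
  ring

theorem goodM_U {X V T : Ms (Nest (S → ℝ) j)} (hX : GoodM U01 X) (hV : GoodM U01 V)
    (hT : GoodM U01 T) :
    GoodM (PW 2) (map2M wf X V * dirac (det (scal 2) j) * mapM labf T) := by
  refine GoodM.mul PW.mul01 ?_ (hT.mapM fun _ => N01_labf)
  rw [mul_dirac_det]
  refine (GoodM.map2M (R := PW 1) (fun _ _ => PW_wf) hX hV).mapM fun w hw => ?_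
  refine ⟨fun b σ => mul_nonneg (hw.1 b σ) (by simp [scal]), fun σ => ?_⟩
  have := hw.2 σ
  simp only [Pi.mul_apply, scal]
  linarith

theorem avg_le_hs [Fintype L] [Nonempty L] (M : L → L → ℝ) :
    (∑ l, ∑ l', M l l') / (Fintype.card L : ℝ) ^ 2 ≤ hs M := by
  have hc : (0 : ℝ) < Fintype.card L := by positivity
  refine Real.le_sqrt_of_sq_le ?_
  have h := sq_sum_le_card_mul_sum_sq (s := (Finset.univ : Finset (L × L)))
    (f := fun p => M p.1 p.2)
  simp only [Fintype.sum_prod_type, Finset.card_univ, Fintype.card_prod, Nat.cast_mul] at h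
  rw [hs2, div_pow, div_le_div_iff₀ (by positivity) (by positivity)]
  calc _ ≤ ((Fintype.card L : ℝ) * Fintype.card L * ∑ l, ∑ l', M l l' ^ 2) *
        (Fintype.card L : ℝ) ^ 2 := mul_le_mul_of_nonneg_right h (by positivity)
    _ = _ := by ring

section
variable [Fintype S] [Fintype L] [Nonempty L]

omit [Fintype S] [Nonempty L] in
theorem I_labf_slotB (β : L → S → ℝ) (f : Nest (Bool → S → ℝ) j → ℝ) :
    I (mapM labf (slotB β j)) f = (∑ l, f (det (labf (β l)) j)) / Fintype.card L := by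
  simp [slotB, I_avg]

omit [Nonempty L] in
theorem I_labf_slotE (h0 : 0 < θ) (β : L → S → ℝ) {Y : Ms (Nest (S → ℝ) j)} (hY : GoodM U01 Y)
    {t : Tr j} {χ : Ch S j} (hχ : Adm t χ) :
    I (mapM labf (slotE S (xiOf θ β Y))) χ = (∑ l, mmP θ t Y (β l)) / Fintype.card L := by
  simp only [slotE, xiOf, I_mapM, I_avg, I_map, mmP]
  congr 1
  refine Finset.sum_congr rfl fun l _ => (supp_tilt_vS hY).I_congr fun c hc => ?_
  rw [← hat_sNest h0 (β l) t hc.1 hc.2, ← hχ.hat_eq, Nest.map_map, Nest.map_map]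
  rfl

/-- The covariance estimate for one tree. -/
theorem tree_cov (h0 : 0 < θ) (β : L → S → ℝ) {Y : Ms (Nest (S → ℝ) j)} (hY : GoodM U01 Y)
    (hp : 0 < pS θ Y) {W : Ms (Nest (Bool → S → ℝ) j)} (hW : GoodM N01 W) (t : Tr j) :
    |(I (muP θ t Y) fun χ => I (W * dirac (det (scal 2) j) * mapM labf (slotB β j)) χ) -
      I (muP θ t Y) fun χ =>
        I (W * dirac (det (scal 2) j) * mapM labf (slotE S (xiOf θ β Y))) χ|
      ≤ 2 ^ t.size * Real.sqrt (hs (CP θ t Y β)) := by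
  have hμ := prob_muP h0 t hY hp
  have hS := supp_muP (θ := θ) t Y
  have hc : (0 : ℝ) < Fintype.card L := by positivity
  set m : ℝ := (∑ l, mmP θ t Y (β l)) / Fintype.card L with hm
  set R : Ch S j → ℝ := fun χ => (∑ l, χ (det (labf (β l)) j)) / Fintype.card L with hR
  have e1 : (I (muP θ t Y) fun χ => I (W * dirac (det (scal 2) j) * mapM labf (slotB β j)) χ) -
      (I (muP θ t Y) fun χ =>
        I (W * dirac (det (scal 2) j) * mapM labf (slotE S (xiOf θ β Y))) χ) =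
      2 ^ t.size * I (muP θ t Y) fun χ => I W χ * (R χ - m) := by
    rw [← I_sub_fun, ← I_const_mul]
    refine hS.I_congr fun χ hχ => ?_
    simp only [I_mul_hom _ _ _ χ.map_mul, I_dirac, hχ.det_scal, I_labf_slotB,
      I_labf_slotE h0 β hY hχ]
    ring
  have hmean : I (muP θ t Y) R = m := by
    simp only [hR, hm, I_div_const, I_sum_fun, I_muP_det]
  have hsq : I (muP θ t Y) (fun χ => R χ ^ 2) =
      (∑ l, ∑ l', mmP θ t Y (β l * β l')) / (Fintype.card L : ℝ) ^ 2 := by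
    simp only [hR, div_pow, I_div_const]
    congr 1
    simp only [sq, Finset.sum_mul_sum, ← _root_.map_mul, ← det_mul, ← labf_mul, I_sum_fun, I_muP_det]
  have hvar : I (muP θ t Y) (fun χ => (R χ - m) ^ 2) ≤ hs (CP θ t Y β) := by
    refine le_trans (le_of_eq ?_) (avg_le_hs _)
    have : (fun χ => (R χ - m) ^ 2) = fun χ => R χ ^ 2 - 2 * m * R χ + m ^ 2 := by
      funext χ; ring
    rw [this, I_add_fun, I_sub_fun, I_const_mul, hμ.I_const, hmean, hsq]
    simp only [CP, Finset.sum_sub_distrib, ← Finset.sum_mul_sum, sub_div]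
    rw [hm]
    field_simp
    ring
  have hF : I (muP θ t Y) (fun χ => I W χ ^ 2) ≤ 1 := hμ.le_of_le fun χ hχ =>
    pow_le_one₀
      (hW.2.I_nonneg hW.1.1 fun d hd => (hS χ hχ).nonneg d (hd.mono fun _ => N01.n0))
      (hW.1.le_of_le fun d hd => (hS χ hχ).le_one d (hW.2 d hd))
  have hcs := sq_I_mul_le hμ.1 (fun χ => I W χ) (fun χ => R χ - m)
  have hv0 : 0 ≤ I (muP θ t Y) (fun χ => (R χ - m) ^ 2) := I_nonneg hμ.1 fun _ _ => sq_nonneg _
  rw [e1, abs_mul, abs_of_pos (by positivity)]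
  refine mul_le_mul_of_nonneg_left (Real.abs_le_sqrt ?_) (by positivity)
  exact hcs.trans ((mul_le_of_le_one_left hv0 hF).trans hvar)

omit [Fintype L] [Nonempty L] in
/-- Large trees contribute little. -/
theorem tail_le (h0 : 0 < θ) (h1 : θ ≤ 1) (Q' : ℕ) {δ : ℝ} (hδ0 : 0 ≤ δ) (hδ1 : δ ≤ 1)
    {Y : Ms (Nest (S → ℝ) j)} (hY : GoodM U01 Y) (hp : 0 < pS θ Y)
    {U : Ms (Nest (Bool → S → ℝ) j)} (hU : GoodM (PW 2) U) :
    (I (treeP θ Q' j) fun t => (1 - (1 - δ) ^ t.size) * I (muP θ t Y) fun χ => I U χ)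
      ≤ δ ^ (θ ^ j) + errR θ Q' j := by
  have hz : N01 (scal (1 - δ) : Bool → S → ℝ) := N01_scal (by linarith) (by linarith)
  have hU' : GoodM (PW 2) (U * dirac (det (scal (1 - δ)) j)) :=
    GoodM.mul PW.mul01 hU (goodM_dirac (good_det hz j))
  have e1 : (I (treeP θ Q' j) fun t => (1 - (1 - δ) ^ t.size) * I (muP θ t Y) fun χ => I U χ) =
      G1P θ Q' Y U - G1P θ Q' Y (U * dirac (det (scal (1 - δ)) j)) := by
    rw [G1P, G1P, ← I_sub_fun]
    congr 1
    funext t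
    rw [← I_sub_fun, ← I_const_mul]
    refine (supp_muP t Y).I_congr fun χ hχ => ?_
    simp only [I_mul_hom _ _ _ χ.map_mul, I_dirac, hχ.det_scal]
    ring
  obtain ⟨-, h2, -⟩ := repP h0 h1 Q' hY hp hU
  obtain ⟨-, -, h3⟩ := repP h0 h1 Q' hY hp hU'
  have h4 := GP_holder h0.le h1 (f := cl) (g := fun w => cl (w * scal (1 - δ))) hδ0
    (fun _ => PW.u01) (fun w hw => (PW.mul01 w _ hw hz).u01) (fun w hw σ => by
      have a1 := hw.1 true σ
      have a2 := hw.1 false σ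
      have a3 := hw.2 σ
      simp only [cl, Pi.mul_apply, scal]
      rw [abs_le]
      constructor <;> nlinarith) hY hp hU
  rw [← mapM_mapM (fun w => w * scal (1 - δ)) cl, ← mul_dirac_det] at h4
  rw [e1]
  linarith [(abs_le.1 h4).2]

end

/-- D1: small multi-overlap covariances imply decoupling of a random slot. -/
theorem decouple_of_variance {η y : ℝ} (hη : 0 < η) (hy : 0 < y) :
    ∃ M : ℝ, 0 ≤ M ∧ ∀ θ : ℝ, 0 < θ → θ ≤ 1 → ∀ j : ℕ, y ≤ θ ^ j → ∃ Q' : ℕ, 1 ≤ Q' ∧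
      ∀ (S L : Type) [Fintype S] [Fintype L] [Nonempty L] (β : L → S → ℝ), (∀ l, U01 (β l)) →
      ∀ Y X V : Ms (Nest (S → ℝ) j), GoodM U01 Y → GoodM U01 X → GoodM U01 V → 0 < pS θ Y →
        |pS θ (Y * X * neg (V * slotB β j)) - pS θ (Y * X * neg (V * slotE S (xiOf θ β Y)))|
          ≤ (η + M * Real.sqrt
              (I (treeP θ Q' j) fun t => (1 / 2) ^ t.size * hs (CP θ t Y β))) * pS θ Y := by
  have hb0 : 0 < min (1 / 2 : ℝ) (η / 8) := lt_min (by norm_num) (by linarith)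
  have hb1 : min (1 / 2 : ℝ) (η / 8) < 1 := (min_le_left _ _).trans_lt (by norm_num)
  set δ : ℝ := (min (1 / 2 : ℝ) (η / 8)) ^ y⁻¹ with hδ
  have hδ0 : 0 < δ := Real.rpow_pos_of_pos hb0 _
  have hδ1 : δ < 1 := Real.rpow_lt_one hb0.le hb1 (inv_pos.2 hy)
  have hδy : δ ^ y ≤ η / 8 := by
    rw [hδ, Real.rpow_inv_rpow hb0.le hy.ne']; exact min_le_right _ _
  obtain ⟨q₀, hq₀⟩ := exists_pow_lt_of_lt_one (x := (1 / 2 : ℝ)) (y := 1 - δ) (by norm_num)
    (by linarith)
  refine ⟨4 ^ q₀, by positivity, fun θ h0 h1 j hj => ?_⟩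
  obtain ⟨Q', hQ1, hQ⟩ := exists_errR_le h0 h1 j (η := η / 10) (by linarith)
  refine ⟨Q', hQ1, fun S L _ _ _ β hβ Y X V hY hX hV hp => ?_⟩
  have hδθ : δ ^ (θ ^ j) ≤ η / 8 :=
    (Real.rpow_le_rpow_of_exponent_ge hδ0 hδ1.le hj).trans hδy
  have hT1 : GoodM U01 (slotB β j) := goodM_slotB hβ j
  have hT2 : GoodM U01 (slotE S (xiOf θ β Y)) := (goodM_xiOf h0 hβ hY hp).slotE
  have hU1 := goodM_U hX hV hT1
  have hU2 := goodM_U hX hV hT2
  have hW : GoodM N01 (map2M wf X V) := GoodM.map2M (fun _ _ hx hv => (PW_wf hx hv).n01) hX hV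
  have hcov := tree_cov h0 β hY hp hW
  have ht1 := tail_le h0 h1 Q' hδ0.le hδ1.le hY hp hU1
  have ht2 := tail_le h0 h1 Q' hδ0.le hδ1.le hY hp hU2
  obtain ⟨-, a1, a2⟩ := repP h0 h1 Q' hY hp hU1
  obtain ⟨-, b1, b2⟩ := repP h0 h1 Q' hY hp hU2
  rw [mul_assoc Y, mul_assoc Y, neg_eq_cl, neg_eq_cl]
  set U1 := map2M wf X V * dirac (det (scal 2) j) * mapM labf (slotB β j)
  set U2 := map2M wf X V * dirac (det (scal 2) j) * mapM labf (slotE S (xiOf θ β Y))
  set H1 : Tr j → ℝ := fun t => I (muP θ t Y) fun χ => I U1 χ with hH1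
  set H2 : Tr j → ℝ := fun t => I (muP θ t Y) fun χ => I U2 χ with hH2
  have hNN := NN_treeP h0.le h1 Q' j
  have hH : ∀ {U : Ms (Nest (Bool → S → ℝ) j)}, GoodM (PW 2) U → ∀ t : Tr j,
      0 ≤ I (muP θ t Y) fun χ => I U χ := fun hU t =>
    (supp_muP t Y).I_nonneg (prob_muP h0 t hY hp).1 fun χ hχ =>
      hU.2.I_nonneg hU.1.1 fun d hd => hχ.nonneg d (hd.mono fun _ h => h.1)
  have hpt : ∀ t : Tr j, |H1 t - H2 t| ≤
      4 ^ q₀ * Real.sqrt ((1 / 2) ^ t.size * hs (CP θ t Y β)) +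
        2 * ((1 - (1 - δ) ^ t.size) * H1 t) + 2 * ((1 - (1 - δ) ^ t.size) * H2 t) := by
    intro t
    have p1 : 0 ≤ H1 t := hH hU1 t
    have p2 : 0 ≤ H2 t := hH hU2 t
    have p3 : (1 - δ) ^ t.size ≤ 1 := pow_le_one₀ (by linarith) (by linarith)
    have p4 : 0 ≤ 4 ^ q₀ * Real.sqrt ((1 / 2) ^ t.size * hs (CP θ t Y β)) := by positivity
    rcases le_or_gt t.size q₀ with hs' | hs'
    · have p5 : (2 : ℝ) ^ t.size * Real.sqrt (hs (CP θ t Y β)) ≤
          4 ^ q₀ * Real.sqrt ((1 / 2) ^ t.size * hs (CP θ t Y β)) := by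
        rw [Real.sqrt_mul (by positivity), ← mul_assoc]
        refine mul_le_mul_of_nonneg_right ?_ (Real.sqrt_nonneg _)
        have p6 : (1 / 2 : ℝ) ^ t.size ≤ Real.sqrt ((1 / 2) ^ t.size) := by
          refine Real.le_sqrt_of_sq_le ?_
          have : (1 / 2 : ℝ) ^ t.size ≤ 1 := pow_le_one₀ (by norm_num) (by norm_num)
          have : (0 : ℝ) ≤ (1 / 2 : ℝ) ^ t.size := by positivity
          nlinarith
        calc (2 : ℝ) ^ t.size = 4 ^ t.size * (1 / 2) ^ t.size := by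
              rw [← mul_pow]; norm_num
          _ ≤ 4 ^ q₀ * Real.sqrt ((1 / 2) ^ t.size) :=
              mul_le_mul (pow_le_pow_right₀ (by norm_num) hs') p6 (by positivity) (by positivity)
      have p7 := (hcov t).trans p5
      have p8 : 0 ≤ (1 - (1 - δ) ^ t.size) * H1 t := mul_nonneg (by linarith) p1
      have p9 : 0 ≤ (1 - (1 - δ) ^ t.size) * H2 t := mul_nonneg (by linarith) p2
      linarith
    · have p5 : (1 - δ) ^ t.size ≤ 1 / 2 :=
        (pow_le_pow_of_le_one (by linarith) (by linarith) hs'.le).trans hq₀.le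
      rw [abs_le]
      constructor <;> nlinarith
  have hG : |G1P θ Q' Y U1 - G1P θ Q' Y U2| ≤
      4 ^ q₀ * Real.sqrt (I (treeP θ Q' j) fun t => (1 / 2) ^ t.size * hs (CP θ t Y β)) +
        4 * (η / 8 + η / 10) := by
    rw [G1P, G1P, ← I_sub_fun]
    refine (abs_I_le hNN _).trans ((I_mono hNN fun t _ => hpt t).trans ?_)
    rw [I_add_fun, I_add_fun, I_const_mul, I_const_mul, I_const_mul]
    have := I_sqrt_le hNN (mass_treeP_le_one h0.le h1 Q' j)
      (f := fun t => (1 / 2) ^ t.size * hs (CP θ t Y β))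
      (fun t _ => mul_nonneg (by positivity) (Real.sqrt_nonneg _))
    have h4 := mul_le_mul_of_nonneg_left this (by positivity : (0 : ℝ) ≤ 4 ^ q₀)
    linarith
  have e : ∀ Z : Ms (Nest (S → ℝ) j), pS θ (Y * Z) = (1 - GP θ Y Z) * pS θ Y := by
    intro Z; rw [GP]; field_simp; ring
  rw [e, e, ← sub_mul, abs_mul, abs_of_pos hp]
  refine mul_le_mul_of_nonneg_right ?_ hp.le
  rw [abs_le] at hG ⊢
  constructor <;> linarith [hG.1, hG.2]

end Crest.Agent.R153
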