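import Crest.Agent.R153.Poi
import Crest.Agent.R153.Rep

/-!
Row 153, task R153-C: the interpolation (Guerra / Franz-Leone / Panchenko-Talagrand) bound.
Owner: prove `Poi.lean` first (land it at once, task ASS needs it), then this file.

PLAN.  `B = slotB (lit n) j`, `E = slotE _ ξ`, `C_k = neg (B^k)`, `C_0 = neg (E^k)`, `C_1 = neg (B * E^(k-1))`,
`Mix = (1/k) • C_k + ((k-1)/k) • C_0`.
(1) For every good `X`: `pS θ (X * Mix) ≤ pS θ (X * C_1)`.  If `pS θ X = 0` both vanish (`pS_mul_le`);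
otherwise `rep_char`, `I_mul_hom` (so `V ↦ I V χ` is multiplicative) and Young's inequality
`k x y^(k-1) ≤ x^k + (k-1) y^k` for `x = I B χ ≥ 0`, `y = I E χ ≥ 0`; let `η → 0`.
(2) Hybrid: `pS θ (Mix^M) ≤ pS θ (C_1^M)`; multiply by `poi (k a n) M` and sum.
(3) Left side (`poi_split_pS` with `x = a n`, `y = (k-1) a n`): `pS θ (C_k^i * C_0^i') = pS θ (C_k^i) * clauseW^i'`
(`pre_tensor`: `C_0 = mapM (fun r _ => 1 - r) (ξ^k)` acts by scalars; `mul_eq_map2M`, `map2M_mapM_right`),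
`hasSum_poi_mul_pow`, `clause_power_lower`: left side `≥ poiProb k a n * exp (-(k-1) a n (1 - clauseW))`.
(4) Right side `= (Σ' J, poi (k a) J * siteW θ k ξ J)^n`: induction on `n`; the slot of `n+1` variables is
`n/(n+1)` of the slot of the old variables plus `1/(n+1)` of the slot of the new one, `poi_split_pS`, and
`pre_tensor` for `(Fin (n+1) → Bool) ≃ Bool × (Fin n → Bool)` (pull-backs `mapM (· ∘ π)` are monoid
homomorphisms commuting with `neg`, `slotB`, `slotE`: `mapM_mul`, `mapM_pow`, `mapM_mapM`, `mapM_avg`).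
-/

set_option autoImplicit false

namespace Crest.Agent.R153

open Ms Nest

namespace PartC

variable {S S' L : Type} {j : ℕ} {θ : ℝ}

theorem young (x y : ℝ) (hx : 0 ≤ x) (hy : 0 ≤ y) (m : ℕ) :
    ((m : ℝ) + 1) * (x * y ^ m) ≤ x ^ (m + 1) + m * y ^ (m + 1) := by
  induction m with
  | zero => simp
  | succ m ih =>
    have h1 := mul_le_mul_of_nonneg_right ih hy
    have h2 : 0 ≤ (x ^ (m + 1) - y ^ (m + 1)) * (x - y) := by
      rcases le_total x y with h | h
      · exact mul_nonneg_of_nonpos_of_nonpos (sub_nonpos.2 (pow_le_pow_left₀ hx h _))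
          (sub_nonpos.2 h)
      · exact mul_nonneg (sub_nonneg.2 (pow_le_pow_left₀ hy h _)) (sub_nonneg.2 h)
    push_cast
    simp only [pow_succ] at h1 h2 ⊢
    nlinarith

theorem I_pow_hom {M : Type} [Monoid M] (X : Ms M) (χ : M →* ℝ) (n : ℕ) :
    I (X ^ n) χ = I X χ ^ n := by
  induction n with
  | zero => simp
  | succ n ih => rw [pow_succ, I_mul_hom _ _ _ (map_mul χ), ih, pow_succ]

/-- one step of the interpolation -/
theorem step [Fintype S] (h0 : 0 < θ) (h1 : θ ≤ 1) (m : ℕ) {X B E : Ms (Nest (S → ℝ) j)}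
    (hX : GoodM U01 X) (hB : GoodM U01 B) (hE : GoodM U01 E) :
    pS θ (X * neg (B ^ (m + 1))) + m * pS θ (X * neg (E ^ (m + 1))) ≤
      ((m : ℝ) + 1) * pS θ (X * neg (B * E ^ m)) := by
  have g1 := hB.powU (m + 1)
  have g2 := hE.powU (m + 1)
  have g3 := hB.mulU (hE.powU m)
  have hm : (0 : ℝ) ≤ m := Nat.cast_nonneg m
  rcases (pS_nonneg (θ := θ) hX).eq_or_lt with hz | hpos
  · have e1 := pS_mul_le h0.le hX g1.neg
    have e2 := pS_mul_le h0.le hX g2.neg
    have e3 := pS_nonneg (θ := θ) (hX.mulU g3.neg)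
    rw [← hz] at e1 e2
    nlinarith
  have key : ((m : ℝ) + 1) * GP θ X (neg (B * E ^ m)) ≤
      GP θ X (neg (B ^ (m + 1))) + m * GP θ X (neg (E ^ (m + 1))) := by
    refine le_of_forall_pos_le_add fun ε hε => ?_
    obtain ⟨Λ, hΛ, hs, hr⟩ := rep_char h0 h1 (η := ε / (2 * (m + 1))) (by positivity) hX hpos
    have r1 := abs_le.1 (hr _ g1)
    have r2 := abs_le.1 (hr _ g2)
    have r3 := abs_le.1 (hr _ g3)
    have r4 : ((m : ℝ) + 1) * I Λ (fun χ => I (B * E ^ m) χ) ≤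
        I Λ (fun χ => I (B ^ (m + 1)) χ) + m * I Λ (fun χ => I (E ^ (m + 1)) χ) := by
      rw [← I_const_mul, ← I_const_mul, ← I_add_fun]
      refine hs.I_mono hΛ fun χ hχ => ?_
      rw [I_mul_hom _ _ _ (map_mul χ), I_pow_hom, I_pow_hom, I_pow_hom]
      exact young _ _ (hB.2.I_nonneg hB.1.1 hχ) (hE.2.I_nonneg hE.1.1 hχ) m
    have r5 : (2 * ((m : ℝ) + 1)) * (ε / (2 * (m + 1))) = ε := by field_simp
    have r6 : 0 < ε / (2 * ((m : ℝ) + 1)) := by positivity
    nlinarith [mul_le_mul_of_nonneg_left r3.2 (by positivity : (0 : ℝ) ≤ m + 1),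
      mul_le_mul_of_nonneg_left r2.1 hm, r1.1]
  simp only [GP] at key
  have := mul_le_mul_of_nonneg_right key hpos.le
  field_simp at this
  nlinarith

theorem hybrid [Fintype S] {A C : Ms (Nest (S → ℝ) j)} (hA : GoodM U01 A) (hC : GoodM U01 C)
    (h : ∀ X, GoodM U01 X → pS θ (X * A) ≤ pS θ (X * C)) (M : ℕ) :
    ∀ X, GoodM U01 X → pS θ (X * A ^ M) ≤ pS θ (X * C ^ M) := by
  induction M with
  | zero => intro X _; simp
  | succ M ih =>
    intro X hX
    calc pS θ (X * A ^ (M + 1)) = pS θ ((X * A ^ M) * A) := by rw [pow_succ, mul_assoc]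
      _ ≤ pS θ ((X * A ^ M) * C) := h _ (hX.mulU (hA.powU M))
      _ = pS θ ((X * C) * A ^ M) := by rw [mul_right_comm]
      _ ≤ pS θ ((X * C) * C ^ M) := ih _ (hX.mulU hC)
      _ = pS θ (X * C ^ (M + 1)) := by rw [pow_succ', mul_assoc]

theorem slotE_pow (ξ : Ms (Nest ℝ j)) (k : ℕ) : slotE S ξ ^ k = slotE S (ξ ^ k) :=
  (mapM_pow (fun (r : ℝ) (_ : S) => r) rfl (fun _ _ => rfl) ξ k).symm

theorem pS_mul_clause [Fintype S] {X : Ms (Nest (S → ℝ) j)} (hX : GoodM U01 X)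
    {ξ : Ms (Nest ℝ j)} (hξ : GoodM R01 ξ) (k : ℕ) :
    pS θ (X * neg (slotE S ξ ^ k)) = pS θ X * clauseW θ k ξ := by
  rw [slotE_pow, neg, slotE, mapM_mapM, mul_eq_map2M, map2M_mapM_right]
  refine pre_tensor (P := U01) (Q := R01) sumv_nonneg (fun r hr => sub_nonneg.2 hr.2)
    (fun a r _ _ => ?_) hX (hξ.powR k)
  simp [sumv, Finset.sum_mul]

theorem pS_mul_clause_pow [Fintype S] {X : Ms (Nest (S → ℝ) j)} (hX : GoodM U01 X)
    {ξ : Ms (Nest ℝ j)} (hξ : GoodM R01 ξ) (k i : ℕ) :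
    pS θ (X * neg (slotE S ξ ^ k) ^ i) = pS θ X * clauseW θ k ξ ^ i := by
  induction i with
  | zero => simp
  | succ i ih =>
    rw [pow_succ, ← mul_assoc, pS_mul_clause (hX.mulU (((hξ.slotE).powU k).neg.powU i)) hξ, ih,
      pow_succ, mul_assoc]

/-- Poissonised value -/
noncomputable def Phi [Fintype S] (θ x : ℝ) (A : Ms (Nest (S → ℝ) j)) : ℝ :=
  ∑' M : ℕ, poi x M * pS θ (A ^ M)

theorem abs_pS_pow_le [Fintype S] (hθ : 0 ≤ θ) {A : Ms (Nest (S → ℝ) j)} (hA : GoodM U01 A)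
    (M : ℕ) : |pS θ (A ^ M)| ≤ pS θ (1 : Ms (Nest (S → ℝ) j)) := by
  rw [abs_of_nonneg (pS_nonneg (hA.powU M))]
  simpa using pS_mul_le hθ (goodM_one U01_one) (hA.powU M)

theorem Phi_split [Fintype S] (hθ : 0 ≤ θ) {x y : ℝ} (hx : 0 ≤ x) (hy : 0 ≤ y)
    {A B C : Ms (Nest (S → ℝ) j)} (hA : GoodM U01 A) (hB : GoodM U01 B)
    (h : (x + y) • C = x • A + y • B) :
    Phi θ (x + y) C = ∑' i, poi x i * ∑' i', poi y i' * pS θ (A ^ i * B ^ i') := by
  have h1 := poi_split_pS hθ hx hy (goodM_one U01_one) hA hB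
  simp only [one_mul] at h1
  rw [← h1.tsum_eq, Phi]
  refine tsum_congr fun M => ?_
  rw [← h, smul_pow, pS_smul, poi]
  ring

/-- pull-back along a map of configuration spaces -/
noncomputable def pull (π : S → S') (X : Ms (Nest (S' → ℝ) j)) : Ms (Nest (S → ℝ) j) :=
  mapM (fun x σ => x (π σ)) X

theorem pull_mul (π : S → S') (X Y : Ms (Nest (S' → ℝ) j)) :
    pull π (X * Y) = pull π X * pull π Y := mapM_mul _ (fun _ _ => rfl) X Y

theorem pull_pow (π : S → S') (X : Ms (Nest (S' → ℝ) j)) (n : ℕ) :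
    pull π (X ^ n) = pull π X ^ n := mapM_pow _ rfl (fun _ _ => rfl) X n

theorem pull_neg (π : S → S') (X : Ms (Nest (S' → ℝ) j)) : pull π (neg X) = neg (pull π X) := by
  simp only [pull, neg, mapM_mapM]

theorem pull_slotB [Fintype L] (π : S → S') (β : L → S' → ℝ) :
    pull π (slotB β j) = slotB (fun l σ => β l (π σ)) j := mapM_slotB _ _ _

theorem pull_slotE (π : S → S') (ξ : Ms (Nest ℝ j)) : pull π (slotE S' ξ) = slotE S ξ := by
  simp only [pull, slotE, mapM_mapM]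

theorem good_pull (π : S → S') {X : Ms (Nest (S' → ℝ) j)} (hX : GoodM U01 X) :
    GoodM U01 (pull π X) := hX.mapM fun _ h σ => h (π σ)

theorem pS_pull_cons (n : ℕ) {X : Ms (Nest (Bool → ℝ) j)} {Y : Ms (Nest ((Fin n → Bool) → ℝ) j)}
    (hX : GoodM U01 X) (hY : GoodM U01 Y) :
    pS θ (pull (fun σ : Fin (n + 1) → Bool => σ 0) X *
      pull (fun σ : Fin (n + 1) → Bool => Fin.tail σ) Y) = pS θ X * pS θ Y := by
  rw [pull, pull, mul_eq_map2M, map2M_mapM_right, map2M_mapM_left]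
  refine pre_tensor (P := U01) (Q := U01) sumv_nonneg sumv_nonneg (fun a b _ _ => ?_) hX hY
  simp only [sumv, Pi.mul_apply]
  rw [← (Fin.consEquiv fun _ : Fin (n + 1) => Bool).sum_comp, Fintype.sum_prod_type,
    Finset.sum_mul_sum]
  simp [Fin.consEquiv]

/-- the cavity clause attached to the variable `v` -/
noncomputable def cav (n : ℕ) (m : ℕ) (ξ : Ms (Nest ℝ j)) (v : Fin n) :
    Ms (Nest ((Fin n → Bool) → ℝ) j) :=
  neg (slotB (fun b : Bool => lit n (v, b)) j * slotE _ ξ ^ m)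

theorem site_factor (hθ : 0 ≤ θ) (m : ℕ) {ξ : Ms (Nest ℝ j)} (hξ : GoodM R01 ξ) {c : ℝ}
    (hc : 0 ≤ c) (n : ℕ) :
    ∃ A : Ms (Nest ((Fin n → Bool) → ℝ) j), GoodM U01 A ∧ (n : ℝ) • A = ∑ v, cav n m ξ v ∧
      Phi θ (c * n) A = Phi θ c (neg (slotB lit1 j * slotE Bool ξ ^ m)) ^ n := by
  have hs : GoodM U01 (neg (slotB lit1 j * slotE Bool ξ ^ m)) :=
    ((goodM_slotB U01_lit1 j).mulU (hξ.slotE.powU m)).neg
  induction n with
  | zero =>
    refine ⟨1, goodM_one U01_one, by simp, ?_⟩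
    have h1 : pS θ (1 : Ms (Nest ((Fin 0 → Bool) → ℝ) j)) = 1 := by
      rw [← dirac_one, ← det_one, pS_dirac, vS, val_det _ (sumv_nonneg _ U01_one)]
      simp [sumv]
    simp only [Phi, one_pow, h1, mul_one, pow_zero]
    exact (hasSum_poi _).tsum_eq
  | succ n ih =>
    obtain ⟨A, hA, hAe, hAP⟩ := ih
    set H := pull (fun σ : Fin (n + 1) → Bool => σ 0) (neg (slotB lit1 j * slotE Bool ξ ^ m))
      with hH
    set T := pull (fun σ : Fin (n + 1) → Bool => Fin.tail σ) A with hT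
    have hHg : GoodM U01 H := good_pull _ hs
    have hTg : GoodM U01 T := good_pull _ hA
    have hn : (0 : ℝ) < (n : ℝ) + 1 := by positivity
    have hmix : GoodM U01 ((1 - 1 / ((n : ℝ) + 1)) • T + (1 / ((n : ℝ) + 1)) • H) :=
      goodM_mix hTg hHg (by positivity) (by rw [div_le_one hn]; linarith [Nat.cast_nonneg (α := ℝ) n])
    have e1 : ∀ c : ℝ, (c + c * n) • ((1 - 1 / ((n : ℝ) + 1)) • T + (1 / ((n : ℝ) + 1)) • H) =
        c • H + (c * n) • T := fun c => by
      rw [smul_add, smul_smul, smul_smul, add_comm (_ • T)]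
      congr 2 <;> field_simp <;> ring
    refine ⟨_, hmix, ?_, ?_⟩
    · have e2 := e1 1
      rw [one_mul, one_smul] at e2
      push_cast
      rw [add_comm (n : ℝ) 1] at e2 ⊢
      rw [e2, Fin.sum_univ_succ, hT, pull, ← mapM_smul, hAe, mapM_sum]
      congr 1
      · rw [hH, pull_neg, pull_mul, pull_pow, pull_slotB, pull_slotE]
        rfl
      · refine Finset.sum_congr rfl fun v _ => ?_
        rw [← pull, cav, pull_neg, pull_mul, pull_pow, pull_slotB, pull_slotE]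
        rfl
    · have e3 : c * ((n + 1 : ℕ) : ℝ) = c + c * n := by push_cast; ring
      rw [e3, Phi_split hθ hc (by positivity) hHg hTg (e1 c), pow_succ', ← hAP]
      simp only [hH, hT, ← pull_pow, pS_pull_cons n (hs.powU _) (hA.powU _), Phi]
      rw [← tsum_mul_right]
      refine tsum_congr fun i => ?_
      rw [mul_assoc, ← tsum_mul_left (a := pS θ _)]
      congr 1
      refine tsum_congr fun i' => ?_
      ring

theorem sum_cav (n m : ℕ) (hn : 1 ≤ n) (ξ : Ms (Nest ℝ j)) :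
    ∑ v, cav n m ξ v = (n : ℝ) • neg (slotB (lit n) j * slotE _ ξ ^ m) := by
  have h : (n : ℝ) • slotB (lit n) j = ∑ v, slotB (fun b : Bool => lit n (v, b)) j := by
    have hn' : (n : ℝ) ≠ 0 := by positivity
    simp only [slotB, avg, smul_smul, Fintype.sum_prod_type, ← Finset.smul_sum,
      Fintype.card_prod, Fintype.card_fin, Fintype.card_bool]
    congr 1
    push_cast
    field_simp
  rw [neg, ← mapM_smul, ← smul_mul_assoc, h, Finset.sum_mul, mapM_sum]
  rfl

end PartC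

open PartC in
theorem guerra {θ : ℝ} (h0 : 0 < θ) (h1 : θ ≤ 1) {k : ℕ} (hk : 1 ≤ k) {a : ℝ} (ha : 0 ≤ a)
    {j : ℕ} {ξ : Ms (Nest ℝ j)} (hξ : GoodM R01 ξ) (n : ℕ) (hn : 1 ≤ n) :
    poiProb k a n ≤ PiF θ k a ξ ^ n := by
  obtain ⟨m, rfl⟩ : ∃ m, k = m + 1 := ⟨k - 1, by omega⟩
  have : NeZero n := ⟨by omega⟩
  set B := slotB (lit n) j with hBdef
  set E := slotE (Fin n → Bool) ξ with hEdef
  have hB : GoodM U01 B := goodM_slotB (U01_lit n) j
  have hE : GoodM U01 E := hξ.slotE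
  have g1 := (hB.powU (m + 1)).neg
  have g2 := (hE.powU (m + 1)).neg
  have g3 := (hB.mulU (hE.powU m)).neg
  have hm : (0 : ℝ) < (m : ℝ) + 1 := by positivity
  have hm0 : (0 : ℝ) ≤ m := Nat.cast_nonneg m
  set Mix := (1 - 1 / ((m : ℝ) + 1)) • neg (E ^ (m + 1)) + (1 / ((m : ℝ) + 1)) • neg (B ^ (m + 1))
    with hMix
  have gM : GoodM U01 Mix :=
    goodM_mix g2 g1 (by positivity) (by rw [div_le_one hm]; linarith)
  have hstep : ∀ X, GoodM U01 X → pS θ (X * Mix) ≤ pS θ (X * neg (B * E ^ m)) := by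
    intro X hX
    have := step h0 h1 m hX hB hE
    rw [hMix, mul_add, mul_smul_comm, mul_smul_comm, pS_add, pS_smul, pS_smul]
    refine le_of_mul_le_mul_left (le_trans (le_of_eq ?_) this) hm
    field_simp
    ring
  have hx : 0 ≤ a * n := by positivity
  have hy : 0 ≤ m * (a * n) := by positivity
  -- comparison of the two Poissonised values
  have hcmp : Phi θ (a * n + m * (a * n)) Mix ≤ Phi θ (a * n + m * (a * n)) (neg (B * E ^ m)) := by
    refine Summable.tsum_le_tsum (fun M => ?_)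
      (summable_poi_mul (add_nonneg hx hy) (abs_pS_pow_le h0.le gM))
      (summable_poi_mul (add_nonneg hx hy) (abs_pS_pow_le h0.le g3))
    refine mul_le_mul_of_nonneg_left ?_ (poi_nonneg (add_nonneg hx hy) M)
    simpa using hybrid gM g3 hstep M 1 (goodM_one U01_one)
  -- left side
  have hleft : poiProb (m + 1) a n * Real.exp (-(m * (a * n)) * (1 - clauseW θ (m + 1) ξ)) ≤
      Phi θ (a * n + m * (a * n)) Mix := by
    rw [Phi_split h0.le hx hy g1 g2 (by
      rw [hMix, smul_add, smul_smul, smul_smul, add_comm (_ • neg (E ^ (m + 1)))]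
      congr 2 <;> field_simp <;> ring)]
    have e : ∀ i : ℕ, ∑' i', poi (m * (a * n)) i' *
        pS θ (neg (B ^ (m + 1)) ^ i * neg (E ^ (m + 1)) ^ i') =
        pS θ (neg (B ^ (m + 1)) ^ i) *
          Real.exp (-(m * (a * n)) * (1 - clauseW θ (m + 1) ξ)) := fun i => by
      rw [← (hasSum_poi_mul_pow _ _).tsum_eq, ← tsum_mul_left]
      refine tsum_congr fun i' => ?_
      rw [hEdef, pS_mul_clause_pow (g1.powU i) hξ]
      ring
    simp only [e]
    simp only [← mul_assoc (poi _ _)]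
    rw [tsum_mul_right]
    refine mul_le_mul_of_nonneg_right ?_ (Real.exp_pos _).le
    have hs := summable_poi_mul hx (abs_pS_pow_le h0.le g1)
    have hle : ∀ i, poi (a * n) i * replProb (m + 1) n i ≤
        poi (a * n) i * pS θ (neg (B ^ (m + 1)) ^ i) := fun i =>
      mul_le_mul_of_nonneg_left (clause_power_lower h0 (m + 1) n i j) (poi_nonneg hx i)
    refine Summable.tsum_le_tsum hle (Summable.of_nonneg_of_le (fun i => ?_) hle hs) hs
    refine mul_nonneg (poi_nonneg hx i) ?_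
    unfold replProb Crest.FinProb.uniformProb
    positivity
  -- right side
  have hc : 0 ≤ ((m + 1 : ℕ) : ℝ) * a := by positivity
  obtain ⟨A, -, hAe, hAP⟩ := site_factor h0.le m hξ hc n
  have hn' : (n : ℝ) ≠ 0 := by positivity
  rw [sum_cav n m hn, smul_right_inj hn'] at hAe
  have e4 : ((m + 1 : ℕ) : ℝ) * a * n = a * n + m * (a * n) := by push_cast; ring
  rw [hAe, e4] at hAP
  have hfin := hleft.trans (hcmp.trans hAP.le)
  have e5 : PiF θ (m + 1) a ξ ^ n =
      Phi θ (((m + 1 : ℕ) : ℝ) * a) (neg (slotB lit1 j * slotE Bool ξ ^ m)) ^ n *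
        Real.exp ((m * (a * n)) * (1 - clauseW θ (m + 1) ξ)) := by
    rw [PiF, mul_pow, ← Real.exp_nat_mul]
    congr 2
    push_cast
    ring
  rw [e5]
  have e6 := mul_le_mul_of_nonneg_right hfin
    (Real.exp_pos ((m * (a * n)) * (1 - clauseW θ (m + 1) ξ))).le
  rwa [mul_assoc, ← Real.exp_add, neg_mul, neg_add_cancel, Real.exp_zero, mul_one] at e6

end Crest.Agent.R153
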