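import Crest.Agent.R153.Objs

/-!
Row 153, task R153-D2b: pinning makes tests approximately multiplicative (martingale argument).
Owner: keep the statement below.

PLAN.  `P = pinP β Pm`, `Z b n = midZ P T R b n`, `W Z = pS θ Z`.  For `n < R` put
`Z' = dirac (b*T) * P^(R-n-1)`; then `Z b n = Z' * P` and `Z (b*d) (n+1) = Z' * dirac d`.  For a good
nest `e` let `N Z = pS θ (Z * dirac e) ∈ [0, W Z]`, `u Z = N Z / W Z ∈ [0,1]`,
`En n = I (a * P^n) (b ↦ N (Z b n)^2 / W (Z b n)) ∈ [0, Wtot]`, `Wtot = pS θ (a * P^R * dirac T)`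
(`I (a * P^n) (b ↦ W (Z b n)) = Wtot` by `pS_mul_left`).  By linearity (`pS_mul_right`),
`En (n+1) - En n = I (a * P^n) (b ↦ Δ_e b n)`, `Δ_e b n = I P (d ↦ W (Z' d) (u (Z' d) - u (Z b n))^2) ≥ 0`,
so `Σ_{n<R} I (a * P^n) (Δ_e · n) ≤ Wtot`.  For `f ≥ 0`: `I P f ≥ κ f 1` (`I_pinP`, `coeff_mul_le_I`,
`test_det_none`) and `I P f ≥ κ avg_l f (d_l)`, `d_l = test (β l) V`.  With primes denoting ratios at `Z'`:
`Rr (Z b n) d e = (D_n - D') + U'(d) (u_e (Z' d) - U_n(e)) + (U'(d) - U_n(d)) U_n(e)`,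
`W (Z b n) ≤ W Z' ≤ 2 W (Z' d_l)` (`pS_mul_le`, `half_pS_le`, `good_test_UH`), whence
`W (Z b n) hs2 Rr ≤ (3/κ) (avg_{l,l'} Δ_{d_l d_l'} + 2 avg_l' Δ_{d_l'} + avg_l Δ_{d_l})`.
-/

set_option autoImplicit false

namespace Crest.Agent.R153

open Ms Nest

namespace PartD2b

variable {S L : Type} [Fintype S] {j : ℕ} {θ : ℝ}

/-- ratio of values -/
noncomputable def uu (θ : ℝ) (Z : Ms (Nest (S → ℝ) j)) (e : Nest (S → ℝ) j) : ℝ :=
  pS θ (Z * dirac e) / pS θ Z

/-- energy density -/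
noncomputable def phi (θ : ℝ) (Z : Ms (Nest (S → ℝ) j)) (e : Nest (S → ℝ) j) : ℝ :=
  pS θ (Z * dirac e) ^ 2 / pS θ Z

/-- energy increment -/
noncomputable def Del (θ : ℝ) (P Z : Ms (Nest (S → ℝ) j)) (e : Nest (S → ℝ) j) : ℝ :=
  I P fun d => pS θ (Z * dirac d) * (uu θ (Z * dirac d) e - uu θ (Z * P) e) ^ 2

theorem uu_mem (h0 : 0 ≤ θ) {Z : Ms (Nest (S → ℝ) j)} (hZ : GoodM U01 Z) {e : Nest (S → ℝ) j}
    (he : Good U01 e) : 0 ≤ uu θ Z e ∧ uu θ Z e ≤ 1 :=
  ⟨div_nonneg (pS_nonneg (hZ.mulU (goodM_dirac he))) (pS_nonneg hZ),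
    div_le_one_of_le₀ (pS_mul_le h0 hZ (goodM_dirac he)) (pS_nonneg hZ)⟩

theorem phi_mem (h0 : 0 ≤ θ) {Z : Ms (Nest (S → ℝ) j)} (hZ : GoodM U01 Z) {e : Nest (S → ℝ) j}
    (he : Good U01 e) : 0 ≤ phi θ Z e ∧ phi θ Z e ≤ pS θ Z := by
  have a := pS_nonneg (θ := θ) hZ
  have b := pS_nonneg (θ := θ) (hZ.mulU (goodM_dirac he))
  have c := pS_mul_le h0 hZ (goodM_dirac he)
  refine ⟨div_nonneg (sq_nonneg _) a, ?_⟩
  unfold phi
  rcases a.eq_or_lt with h | h
  · rw [← h]; simp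
  · rw [div_le_iff₀ h]; nlinarith

theorem sq_expand {N W c : ℝ} (hN : 0 ≤ N) (hNW : N ≤ W) :
    W * (N / W - c) ^ 2 = N ^ 2 / W - 2 * c * N + c ^ 2 * W := by
  rcases (hN.trans hNW).eq_or_lt with h | h
  · have : N = 0 := by linarith
    rw [← h, this]; simp
  · field_simp; ring

theorem Del_eq (h0 : 0 ≤ θ) {P Z : Ms (Nest (S → ℝ) j)} (hP : GoodM U01 P) (hZ : GoodM U01 Z)
    {e : Nest (S → ℝ) j} (he : Good U01 e) :
    Del θ P Z e = I P (fun d => phi θ (Z * dirac d) e) - phi θ (Z * P) e := by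
  unfold Del
  have e1 : I P (fun d => pS θ (Z * dirac d) * (uu θ (Z * dirac d) e - uu θ (Z * P) e) ^ 2) =
      I P (fun d => phi θ (Z * dirac d) e - 2 * uu θ (Z * P) e * pS θ (Z * dirac e * dirac d)
        + uu θ (Z * P) e ^ 2 * pS θ (Z * dirac d)) := by
    refine hP.2.I_congr fun d hd => ?_
    have hZd := hZ.mulU (goodM_dirac hd)
    rw [mul_right_comm Z (dirac e) (dirac d)]
    exact sq_expand (pS_nonneg (hZd.mulU (goodM_dirac he))) (pS_mul_le h0 hZd (goodM_dirac he))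
  rw [e1, I_add_fun, I_sub_fun, I_const_mul, I_const_mul, ← pS_mul_right, ← pS_mul_right,
    mul_right_comm Z (dirac e) P]
  have hZP := hZ.mulU hP
  have := sq_expand (c := uu θ (Z * P) e) (pS_nonneg (hZP.mulU (goodM_dirac he)))
    (pS_mul_le h0 hZP (goodM_dirac he))
  unfold uu at this ⊢
  unfold phi
  rw [sub_self] at this
  linarith

theorem sum_Del_le (h0 : 0 ≤ θ) {P a : Ms (Nest (S → ℝ) j)} (hP : GoodM U01 P) (ha : GoodM U01 a)
    {T e : Nest (S → ℝ) j} (hT : Good U01 T) (he : Good U01 e) (R : ℕ) :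
    ∑ n ∈ Finset.range R, I (a * P ^ n) (fun b => Del θ P (midZ P T R b (n + 1)) e) ≤
      pS θ (a * (P ^ R * dirac T)) := by
  set En : ℕ → ℝ := fun n => I (a * P ^ n) fun b => phi θ (midZ P T R b n) e with hEn
  have gZ : ∀ {b : Nest (S → ℝ) j}, Good U01 b → ∀ n, GoodM U01 (midZ P T R b n) := fun hb n =>
    (goodM_dirac (hb.mulU hT)).mulU (hP.powU _)
  have step : ∀ n ∈ Finset.range R,
      I (a * P ^ n) (fun b => Del θ P (midZ P T R b (n + 1)) e) = En (n + 1) - En n := by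
    intro n hn
    have hn' := Finset.mem_range.1 hn
    simp only [hEn]
    rw [pow_succ, ← mul_assoc, I_mul (a * P ^ n) P, ← I_sub_fun]
    refine (ha.mulU (hP.powU n)).2.I_congr fun b hb => ?_
    rw [Del_eq h0 hP (gZ hb _) he]
    have e1 : midZ P T R b (n + 1) * P = midZ P T R b n := by
      unfold midZ
      rw [mul_assoc, ← pow_succ]
      congr 2; omega
    have e2 : ∀ d, midZ P T R b (n + 1) * dirac d = midZ P T R (b * d) (n + 1) := fun d => by
      unfold midZ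
      rw [mul_right_comm, ← dirac_mul, mul_right_comm b T d]
    simp only [e1, e2]
  rw [Finset.sum_congr rfl step, Finset.sum_range_sub]
  have a0 : 0 ≤ En 0 := (ha.mulU (hP.powU 0)).2.I_nonneg (ha.mulU (hP.powU 0)).1.1
    fun b hb => (phi_mem h0 (gZ hb _) he).1
  have a1 : En R ≤ pS θ (a * (P ^ R * dirac T)) := by
    rw [← mul_assoc, pS_mul_left]
    refine (ha.mulU (hP.powU R)).2.I_mono (ha.mulU (hP.powU R)).1.1 fun b hb => ?_
    refine (phi_mem h0 (gZ hb _) he).2.trans (le_of_eq ?_)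
    unfold midZ
    rw [Nat.sub_self, pow_zero, mul_one, dirac_mul]
  linarith

variable [Fintype L] [Nonempty L] {β : L → S → ℝ} {Pm : Ms (Nest (Option Bool) j)} {κ : ℝ}

omit [Fintype S] in
theorem avg_le_I (hPm : GoodM Any Pm) {V : Nest (Option Bool) j}
    (hV : κ ≤ Pm.coeff V) (hgV : Good Any V) (hβ : ∀ l, U01 (β l)) {f : Nest (S → ℝ) j → ℝ}
    (hf : ∀ d, Good U01 d → 0 ≤ f d) :
    κ * ∑ l, f (test (β l) V) ≤ Fintype.card L * I (pinP β Pm) f := by
  have hm : (0 : ℝ) < Fintype.card L := by exact_mod_cast Fintype.card_pos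
  rw [I_pinP, mul_div_cancel₀ _ hm.ne', Finset.mul_sum]
  refine Finset.sum_le_sum fun l _ => le_trans ?_ (coeff_mul_le_I hPm.1.1
    (f := fun d => f (test (β l) d)) (fun d hd => hf _ (good_test (hβ l) (hPm.2 d hd))) V)
  exact mul_le_mul_of_nonneg_right hV (hf _ (good_test (hβ l) hgV))

theorem point_le (h0 : 0 ≤ θ) (h1 : θ ≤ 1) (hβ : ∀ l, U01 (β l)) (hPm : GoodM Any Pm)
    (hκ : 0 < κ) {V : Nest (Option Bool) j} (hV : κ ≤ Pm.coeff V)
    (hnone : κ ≤ Pm.coeff (det none j)) {Z : Ms (Nest (S → ℝ) j)} (hZ : GoodM U01 Z) :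
    pS θ (Z * pinP β Pm) *
        hs2 (fun l l' => Rr θ (Z * pinP β Pm) (test (β l) V) (test (β l') V)) ≤
      3 / κ / (Fintype.card L : ℝ) ^ 2 * ∑ l, ∑ l',
        (Del θ (pinP β Pm) Z (test (β l) V * test (β l') V)
          + 2 * Del θ (pinP β Pm) Z (test (β l') V) + Del θ (pinP β Pm) Z (test (β l) V)) := by
  have hm : (0 : ℝ) < Fintype.card L := by exact_mod_cast Fintype.card_pos
  set m : ℝ := (Fintype.card L : ℝ) with hmd
  set P := pinP β Pm with hPd
  have hP : GoodM U01 P := goodM_pinP hβ hPm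
  have hgV : Good Any V := hPm.2 V (by linarith)
  set d : L → Nest (S → ℝ) j := fun l => test (β l) V with hd
  have gd : ∀ l, Good U01 (d l) := fun l => good_test (hβ l) hgV
  have nn : ∀ e d', Good U01 d' →
      0 ≤ pS θ (Z * dirac d') * (uu θ (Z * dirac d') e - uu θ (Z * P) e) ^ 2 := fun e d' hd' =>
    mul_nonneg (pS_nonneg (hZ.mulU (goodM_dirac hd'))) (sq_nonneg _)
  have A : ∀ e, κ * (pS θ Z * (uu θ Z e - uu θ (Z * P) e) ^ 2) ≤ Del θ P Z e := fun e => by
    have := avg_le_I hPm hnone (good_det trivial j) hβ (nn e)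
    simp only [test_det_none, dirac_one, mul_one, Finset.sum_const, Finset.card_univ,
      nsmul_eq_mul] at this
    refine le_of_mul_le_mul_left (le_trans (le_of_eq ?_) this) hm
    ring
  have B : ∀ e, κ * ∑ l, pS θ (Z * dirac (d l)) *
      (uu θ (Z * dirac (d l)) e - uu θ (Z * P) e) ^ 2 ≤ m * Del θ P Z e := fun e =>
    avg_le_I hPm hV hgV hβ (nn e)
  have W0 := pS_nonneg (θ := θ) (hZ.mulU hP)
  have W1 := pS_mul_le h0 hZ hP
  have key : ∀ l l', κ * (pS θ (Z * P) * Rr θ (Z * P) (d l) (d l') ^ 2) ≤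
      3 * (Del θ P Z (d l * d l') + 2 * (κ * (pS θ (Z * dirac (d l)) *
        (uu θ (Z * dirac (d l)) (d l') - uu θ (Z * P) (d l')) ^ 2)) + Del θ P Z (d l)) := by
    intro l l'
    have a1 := A (d l * d l')
    have a2 := A (d l)
    have a3 := nn (d l') (d l) (gd l)
    have W2 : 1 / 2 * pS θ Z ≤ pS θ (Z * dirac (d l)) :=
      half_pS_le h0 h1 hZ (goodM_dirac (good_test_UH (hβ l) hgV))
    rcases W0.eq_or_lt with h | h
    · rw [← h, zero_mul, mul_zero]
      have b1 : 0 ≤ κ * (pS θ Z * (uu θ Z (d l * d l') - uu θ (Z * P) (d l * d l')) ^ 2) := by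
        have := pS_nonneg (θ := θ) hZ; positivity
      have b2 : 0 ≤ κ * (pS θ Z * (uu θ Z (d l) - uu θ (Z * P) (d l)) ^ 2) := by
        have := pS_nonneg (θ := θ) hZ; positivity
      have := mul_nonneg hκ.le a3
      linarith
    · have W3 : 0 < pS θ Z := h.trans_le W1
      have W4 : 0 < pS θ (Z * dirac (d l)) := by linarith
      have e : Rr θ (Z * P) (d l) (d l') =
          -(uu θ Z (d l * d l') - uu θ (Z * P) (d l * d l'))
          + uu θ Z (d l) * (uu θ (Z * dirac (d l)) (d l') - uu θ (Z * P) (d l'))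
          + (uu θ Z (d l) - uu θ (Z * P) (d l)) * uu θ (Z * P) (d l') := by
        unfold Rr uu
        rw [dirac_mul, ← mul_assoc, ← mul_assoc]
        field_simp
        ring
      obtain ⟨u1, u2⟩ := uu_mem h0 hZ (gd l)
      obtain ⟨u3, u4⟩ := uu_mem h0 (hZ.mulU hP) (gd l')
      set x := uu θ Z (d l * d l') - uu θ (Z * P) (d l * d l')
      set y := uu θ (Z * dirac (d l)) (d l') - uu θ (Z * P) (d l')
      set z := uu θ Z (d l) - uu θ (Z * P) (d l)
      set p := uu θ Z (d l)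
      set q := uu θ (Z * P) (d l')
      have r1 : (p * y) ^ 2 ≤ y ^ 2 := by
        rw [mul_pow]; exact mul_le_of_le_one_left (sq_nonneg _) (pow_le_one₀ u1 u2)
      have r2 : (z * q) ^ 2 ≤ z ^ 2 := by
        rw [mul_pow]; exact mul_le_of_le_one_right (sq_nonneg _) (pow_le_one₀ u3 u4)
      have r3 : Rr θ (Z * P) (d l) (d l') ^ 2 ≤ 3 * (x ^ 2 + y ^ 2 + z ^ 2) := by
        rw [e]
        nlinarith [sq_nonneg (x + p * y), sq_nonneg (x + z * q), sq_nonneg (p * y - z * q)]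
      have r4 : pS θ (Z * P) * Rr θ (Z * P) (d l) (d l') ^ 2 ≤
          pS θ Z * (3 * (x ^ 2 + y ^ 2 + z ^ 2)) := by gcongr
      have r5 : pS θ Z * y ^ 2 ≤ 2 * pS θ (Z * dirac (d l)) * y ^ 2 := by gcongr; linarith
      have r6 := mul_le_mul_of_nonneg_left r4 hκ.le
      have r7 := mul_le_mul_of_nonneg_left r5 hκ.le
      nlinarith
  have tot : κ * (pS θ (Z * P) * ∑ l, ∑ l', Rr θ (Z * P) (d l) (d l') ^ 2) ≤
      3 * ∑ l, ∑ l', (Del θ P Z (d l * d l') + 2 * Del θ P Z (d l') + Del θ P Z (d l)) := by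
    have s1 := Finset.sum_le_sum (s := Finset.univ) fun l _ =>
      Finset.sum_le_sum (s := Finset.univ) fun l' _ => key l l'
    have s2 := Finset.sum_le_sum (s := Finset.univ) fun l' (_ : l' ∈ Finset.univ) => B (d l')
    simp only [← Finset.mul_sum, Finset.sum_add_distrib] at s1 s2 ⊢
    rw [Finset.sum_comm] at s2
    simp only [← Finset.mul_sum] at s2
    have s3 : ∑ _l : L, ∑ l', Del θ P Z (d l') = m * ∑ l', Del θ P Z (d l') := by
      simp [hmd]
    rw [s3]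
    linarith
  unfold hs2
  rw [← mul_div_assoc, div_mul_eq_mul_div, div_le_div_iff_of_pos_right (by positivity),
    div_mul_eq_mul_div, le_div_iff₀ hκ]
  linarith

end PartD2b

open PartD2b in
theorem purity {S L : Type} [Fintype S] [Fintype L] [Nonempty L] {j : ℕ} {θ : ℝ}
    (h0 : 0 ≤ θ) (h1 : θ ≤ 1) {β : L → S → ℝ} (hβ : ∀ l, U01 (β l))
    {Pm : Ms (Nest (Option Bool) j)} (hPm : GoodM Any Pm) {κ : ℝ} (hκ : 0 < κ)
    {V : Nest (Option Bool) j} (hV : κ ≤ Pm.coeff V) (hnone : κ ≤ Pm.coeff (det none j))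
    {T : Nest (S → ℝ) j} (hT : Good U01 T) {a : Ms (Nest (S → ℝ) j)} (ha : GoodM U01 a) (R : ℕ) :
    ∑ n ∈ Finset.range R, I (a * pinP β Pm ^ n) (fun b =>
        pS θ (midZ (pinP β Pm) T R b n) *
          hs2 fun l l' => Rr θ (midZ (pinP β Pm) T R b n) (test (β l) V) (test (β l') V))
      ≤ 12 / κ * pS θ (a * (pinP β Pm ^ R * dirac T)) := by
  have hm : (0 : ℝ) < Fintype.card L := by exact_mod_cast Fintype.card_pos
  set P := pinP β Pm with hPd
  have hP : GoodM U01 P := goodM_pinP hβ hPm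
  have hgV : Good Any V := hPm.2 V (by linarith)
  have gd : ∀ l, Good U01 (test (β l) V) := fun l => good_test (hβ l) hgV
  set Wt := pS θ (a * (P ^ R * dirac T)) with hWt
  have step : ∀ n ∈ Finset.range R, I (a * P ^ n) (fun b => pS θ (midZ P T R b n) *
      hs2 fun l l' => Rr θ (midZ P T R b n) (test (β l) V) (test (β l') V)) ≤
      3 / κ / (Fintype.card L : ℝ) ^ 2 * ∑ l, ∑ l',
        (I (a * P ^ n) (fun b => Del θ P (midZ P T R b (n + 1)) (test (β l) V * test (β l') V))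
          + 2 * I (a * P ^ n) (fun b => Del θ P (midZ P T R b (n + 1)) (test (β l') V))
          + I (a * P ^ n) (fun b => Del θ P (midZ P T R b (n + 1)) (test (β l) V))) := by
    intro n hn
    have hn' := Finset.mem_range.1 hn
    simp only [← I_const_mul, ← I_add_fun, ← I_sum_fun]
    refine (ha.mulU (hP.powU n)).2.I_mono (ha.mulU (hP.powU n)).1.1 fun b hb => ?_
    have e1 : midZ P T R b n = midZ P T R b (n + 1) * P := by
      unfold midZ
      rw [mul_assoc, ← pow_succ]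
      congr 2; omega
    rw [e1]
    exact point_le h0 h1 hβ hPm hκ hV hnone ((goodM_dirac (hb.mulU hT)).mulU (hP.powU _))
  refine (Finset.sum_le_sum step).trans ?_
  rw [← Finset.mul_sum, Finset.sum_comm]
  have s : ∀ l ∈ (Finset.univ : Finset L), ∑ n ∈ Finset.range R, ∑ l',
      (I (a * P ^ n) (fun b => Del θ P (midZ P T R b (n + 1)) (test (β l) V * test (β l') V))
          + 2 * I (a * P ^ n) (fun b => Del θ P (midZ P T R b (n + 1)) (test (β l') V))
          + I (a * P ^ n) (fun b => Del θ P (midZ P T R b (n + 1)) (test (β l) V))) ≤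
      Fintype.card L * (4 * Wt) := by
    intro l _
    rw [Finset.sum_comm]
    refine (Finset.sum_le_sum (g := fun _ => 4 * Wt) fun l' _ => ?_).trans (by simp)
    rw [Finset.sum_add_distrib, Finset.sum_add_distrib, ← Finset.mul_sum]
    have b1 := sum_Del_le h0 hP ha hT ((gd l).mulU (gd l')) R
    have b2 := sum_Del_le h0 hP ha hT (gd l') R
    have b3 := sum_Del_le h0 hP ha hT (gd l) R
    linarith
  refine (mul_le_mul_of_nonneg_left (Finset.sum_le_sum s) (by positivity)).trans (le_of_eq ?_)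
  simp only [Finset.sum_const, Finset.card_univ, nsmul_eq_mul]
  field_simp
  ring

end Crest.Agent.R153
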