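import Crest.Agent.R153.Objs

/-!
Row 153: covariance matrices and the normalised Hilbert-Schmidt seminorm `hs`.
-/

set_option autoImplicit false

namespace Crest.Agent.R153

open Ms

variable {L α γ σ : Type}

section hs
variable [Fintype L]

/-- Normalised entrywise inner product of matrices. -/
noncomputable def ip (M N : L → L → ℝ) : ℝ :=
  (∑ l, ∑ l', M l l' * N l l') / (Fintype.card L : ℝ) ^ 2

/-- Average over `L`. -/
noncomputable def avgL (f : L → ℝ) : ℝ := (∑ l, f l) / (Fintype.card L : ℝ)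

theorem hs2_eq_ip (M : L → L → ℝ) : hs2 M = ip M M := by simp [hs2, ip, sq]

theorem hs2_nonneg (M : L → L → ℝ) : 0 ≤ hs2 M := by unfold hs2; positivity

theorem hs_nonneg (M : L → L → ℝ) : 0 ≤ hs M := Real.sqrt_nonneg _

theorem sq_hs (M : L → L → ℝ) : hs M ^ 2 = hs2 M := Real.sq_sqrt (hs2_nonneg M)

theorem hs_le_of_sq {M : L → L → ℝ} {c : ℝ} (hc : 0 ≤ c) (h : hs2 M ≤ c ^ 2) : hs M ≤ c :=
  Real.sqrt_le_iff.2 ⟨hc, h⟩

theorem ip_le (M N : L → L → ℝ) : ip M N ≤ hs M * hs N := by
  have h := Finset.sum_mul_sq_le_sq_mul_sq (Finset.univ : Finset (L × L))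
    (fun p => M p.1 p.2) (fun p => N p.1 p.2)
  simp only [Fintype.sum_prod_type] at h
  have h2 : ip M N ^ 2 ≤ (hs M * hs N) ^ 2 := by
    rw [mul_pow, sq_hs, sq_hs, ip, hs2, hs2, div_pow, div_mul_div_comm, ← sq]
    exact div_le_div_of_nonneg_right h (by positivity)
  exact le_trans (le_abs_self _) (abs_le_of_sq_le_sq' h2 (mul_nonneg (hs_nonneg _) (hs_nonneg _))
    |> fun h => abs_le.2 h)

theorem ip_add_left (M M' N : L → L → ℝ) :
    ip (fun l l' => M l l' + M' l l') N = ip M N + ip M' N := by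
  simp [ip, add_mul, Finset.sum_add_distrib, add_div]

theorem ip_comm (M N : L → L → ℝ) : ip M N = ip N M := by simp [ip, mul_comm]

theorem ip_I_left (μ : Ms α) (M : α → L → L → ℝ) (N : L → L → ℝ) :
    ip (fun l l' => I μ fun a => M a l l') N = I μ fun a => ip (M a) N := by
  simp only [ip, I_div_const, I_sum_fun, I_mul_const]

theorem hs_mono {M N : L → L → ℝ} (h : ∀ l l', |M l l'| ≤ |N l l'|) : hs M ≤ hs N := by
  refine Real.sqrt_le_sqrt (div_le_div_of_nonneg_right ?_ (by positivity))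
  exact Finset.sum_le_sum fun l _ => Finset.sum_le_sum fun l' _ => sq_le_sq.2 (h l l')

theorem hs_congr {M N : L → L → ℝ} (h : ∀ l l', M l l' = N l l') : hs M = hs N := by
  congr 1; funext l l'; exact h l l'

theorem hs_add_le (M N : L → L → ℝ) : hs (fun l l' => M l l' + N l l') ≤ hs M + hs N := by
  refine hs_le_of_sq (add_nonneg (hs_nonneg _) (hs_nonneg _)) ?_
  rw [hs2_eq_ip, ip_add_left, ip_comm M, ip_comm N, ip_add_left, ip_add_left, ← hs2_eq_ip,
    ← hs2_eq_ip, ← sq_hs, ← sq_hs]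
  nlinarith [ip_le N M, ip_le M N]

theorem hs_abs (M : L → L → ℝ) : hs (fun l l' => |M l l'|) = hs M :=
  le_antisymm (hs_mono fun _ _ => by simp) (hs_mono fun _ _ => by simp)

theorem hs_const_mul (c : ℝ) (M : L → L → ℝ) : hs (fun l l' => c * M l l') = |c| * hs M := by
  rw [hs, hs, ← Real.sqrt_sq_eq_abs, ← Real.sqrt_mul (sq_nonneg c)]
  congr 1
  simp only [hs2, mul_pow, ← Finset.mul_sum, mul_div_assoc]

theorem hs_I_le {μ : Ms α} (hμ : μ.NN) (M : α → L → L → ℝ) :
    hs (fun l l' => I μ fun a => M a l l') ≤ I μ fun a => hs (M a) := by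
  set N : L → L → ℝ := fun l l' => I μ fun a => M a l l' with hN
  have h0 : 0 ≤ I μ fun a => hs (M a) := I_nonneg hμ fun a _ => hs_nonneg _
  have h : hs N ^ 2 ≤ (I μ fun a => hs (M a)) * hs N := by
    rw [sq_hs, hs2_eq_ip, ← I_mul_const]
    conv_lhs => rw [hN]
    rw [ip_I_left]
    exact I_mono hμ fun a _ => ip_le _ _
  rcases (hs_nonneg N).eq_or_lt with h1 | h1
  · rw [← h1]; exact h0
  · rw [sq] at h; exact le_of_mul_le_mul_right h h1

theorem hs_le_const {M : L → L → ℝ} {c : ℝ} (hc : 0 ≤ c) (h : ∀ l l', |M l l'| ≤ c) :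
    hs M ≤ c := by
  refine hs_le_of_sq hc ?_
  rcases Nat.eq_zero_or_pos (Fintype.card L) with h0 | h0
  · simp [hs2, h0, sq_nonneg]
  · rw [hs2, div_le_iff₀ (by positivity)]
    calc ∑ l, ∑ l', M l l' ^ 2 ≤ ∑ _l : L, ∑ _l' : L, c ^ 2 :=
          Finset.sum_le_sum fun l _ => Finset.sum_le_sum fun l' _ =>
            sq_le_sq.2 ((h l l').trans (le_abs_self c))
      _ = c ^ 2 * (Fintype.card L : ℝ) ^ 2 := by simp; ring

theorem hs_le_add_const {M N : L → L → ℝ} {c : ℝ} (hc : 0 ≤ c)
    (h : ∀ l l', |M l l' - N l l'| ≤ c) : hs M ≤ hs N + c := by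
  calc hs M = hs (fun l l' => N l l' + (M l l' - N l l')) := hs_congr fun _ _ => by ring
    _ ≤ hs N + hs (fun l l' => M l l' - N l l') := hs_add_le _ _
    _ ≤ hs N + c := by linarith [hs_le_const hc h]

theorem hs_list_sum_le (ts : List σ) (N : σ → L → L → ℝ) :
    hs (fun l l' => (ts.map fun s => N s l l').sum) ≤ (ts.map fun s => hs (N s)).sum := by
  induction ts with
  | nil => simpa using hs_le_const le_rfl (by simp)
  | cons t ts ih =>
    simp only [List.map_cons, List.sum_cons]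
    exact (hs_add_le _ _).trans (by linarith)

theorem hs_finset_sum_le {ι : Type*} (s : Finset ι) (N : ι → L → L → ℝ) :
    hs (fun l l' => ∑ i ∈ s, N i l l') ≤ ∑ i ∈ s, hs (N i) := by
  classical
  induction s using Finset.induction_on with
  | empty => simpa using hs_le_const le_rfl (by simp)
  | insert i s hi ih =>
    simp only [Finset.sum_insert hi]
    exact (hs_add_le _ _).trans (by linarith)

theorem avgL_nonneg {f : L → ℝ} (h : ∀ l, 0 ≤ f l) : 0 ≤ avgL f :=
  div_nonneg (Finset.sum_nonneg fun l _ => h l) (by positivity)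

theorem avgL_mono {f g : L → ℝ} (h : ∀ l, f l ≤ g l) : avgL f ≤ avgL g :=
  div_le_div_of_nonneg_right (Finset.sum_le_sum fun l _ => h l) (by positivity)

theorem avgL_le_one {f : L → ℝ} (h : ∀ l, f l ≤ 1) : avgL f ≤ 1 := by
  refine div_le_one_of_le₀ ?_ (by positivity)
  calc ∑ l, f l ≤ ∑ _l : L, (1 : ℝ) := Finset.sum_le_sum fun l _ => h l
    _ = _ := by simp

theorem avgL_I (μ : Ms α) (f : α → L → ℝ) :
    avgL (fun l => I μ fun a => f a l) = I μ fun a => avgL (f a) := by
  simp only [avgL, I_div_const, I_sum_fun]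

theorem avgL_add (f g : L → ℝ) : avgL (fun l => f l + g l) = avgL f + avgL g := by
  simp [avgL, Finset.sum_add_distrib, add_div]

theorem avgL_sub (f g : L → ℝ) : avgL (fun l => f l - g l) = avgL f - avgL g := by
  simp [avgL, Finset.sum_sub_distrib, sub_div]

theorem avgL_const_mul (c : ℝ) (f : L → ℝ) : avgL (fun l => c * f l) = c * avgL f := by
  simp [avgL, ← Finset.mul_sum, mul_div_assoc]

theorem avgL_list_sum (ts : List σ) (f : σ → L → ℝ) :
    avgL (fun l => (ts.map fun s => f s l).sum) = (ts.map fun s => avgL (f s)).sum := by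
  induction ts with
  | nil => simp [avgL]
  | cons t ts ih => simp only [List.map_cons, List.sum_cons, avgL_add, ih]

theorem hs_le_avgL {M : L → L → ℝ} {v : L → ℝ} (hv : ∀ l, 0 ≤ v l)
    (h : ∀ l l', M l l' ^ 2 ≤ v l * v l') : hs M ≤ avgL v := by
  refine hs_le_of_sq (avgL_nonneg hv) ?_
  rw [hs2, avgL, div_pow]
  refine div_le_div_of_nonneg_right ?_ (by positivity)
  rw [sq, Finset.sum_mul_sum]
  exact Finset.sum_le_sum fun l _ => Finset.sum_le_sum fun l' _ => h l l'

/-- Positive semidefinite kernels. -/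
def PSD (M : L → L → ℝ) : Prop := ∀ x : L → ℝ, 0 ≤ ∑ l, ∑ l', x l * x l' * M l l'

theorem PSD.I {μ : Ms α} (hμ : μ.NN) {M : α → L → L → ℝ} (h : ∀ a, μ.coeff a ≠ 0 → PSD (M a)) :
    PSD fun l l' => I μ fun a => M a l l' := fun x => by
  simp only [← I_const_mul, ← I_sum_fun]
  exact I_nonneg hμ fun a ha => h a ha x

theorem PSD.const_mul {M : L → L → ℝ} (h : PSD M) {c : ℝ} (hc : 0 ≤ c) :
    PSD fun l l' => c * M l l' := fun x => by
  have := mul_nonneg hc (h x)
  simp only [Finset.mul_sum] at this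
  refine this.trans (le_of_eq ?_)
  exact Finset.sum_congr rfl fun l _ => Finset.sum_congr rfl fun l' _ => by ring

end hs

/-- Covariance. -/
noncomputable def cov (μ : Ms α) (f g : α → ℝ) : ℝ := I μ (fun a => f a * g a) - I μ f * I μ g

theorem cov_eq {μ : Ms α} (hμ : μ.Prob) (f g : α → ℝ) :
    cov μ f g = I μ fun a => (f a - I μ f) * (g a - I μ g) := by
  have : (fun a => (f a - I μ f) * (g a - I μ g)) =
      fun a => f a * g a - I μ g * f a - I μ f * g a + I μ f * I μ g := by
    funext a; ring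
  rw [this, I_add_fun, I_sub_fun, I_sub_fun, I_const_mul, I_const_mul, hμ.I_const, cov]
  ring

theorem cov_congr {μ : Ms α} {f f' g g' : α → ℝ} (hf : ∀ a, μ.coeff a ≠ 0 → f a = f' a)
    (hg : ∀ a, μ.coeff a ≠ 0 → g a = g' a) : cov μ f g = cov μ f' g' := by
  rw [cov, cov, I_congr hf, I_congr hg, I_congr fun a ha => by rw [hf a ha, hg a ha]]

theorem cov_self_nonneg {μ : Ms α} (hμ : μ.Prob) (f : α → ℝ) : 0 ≤ cov μ f f := by
  rw [cov_eq hμ]; exact I_nonneg hμ.1 fun a _ => mul_self_nonneg _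

theorem sq_cov_le {μ : Ms α} (hμ : μ.Prob) (f g : α → ℝ) :
    cov μ f g ^ 2 ≤ cov μ f f * cov μ g g := by
  rw [cov_eq hμ, cov_eq hμ, cov_eq hμ]
  simpa only [sq] using sq_I_mul_le hμ.1 (fun a => f a - I μ f) (fun a => g a - I μ g)

theorem cov_self_le {μ : Ms α} (hμ : μ.Prob) (f : α → ℝ) (c : ℝ) :
    cov μ f f ≤ I μ fun a => (f a - c) ^ 2 := by
  have : (fun a => (f a - c) ^ 2) = fun a => f a * f a - 2 * c * f a + c ^ 2 := by
    funext a; ring
  rw [this, I_add_fun, I_sub_fun, I_const_mul, hμ.I_const, cov]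
  nlinarith [sq_nonneg (I μ f - c)]

theorem abs_I_le_const {μ : Ms α} (hμ : μ.Prob) {f : α → ℝ} {c : ℝ}
    (h : ∀ a, μ.coeff a ≠ 0 → |f a| ≤ c) : |I μ f| ≤ c :=
  (abs_I_le hμ.1 f).trans (hμ.le_of_le h)

theorem abs_cov_le {μ : Ms α} (hμ : μ.Prob) {f g : α → ℝ} {c d : ℝ} (hc : 0 ≤ c) (_hd : 0 ≤ d)
    (hf : ∀ a, μ.coeff a ≠ 0 → |f a| ≤ c) (hg : ∀ a, μ.coeff a ≠ 0 → |g a| ≤ d) :
    |cov μ f g| ≤ 2 * (c * d) := by
  have h1 : |I μ fun a => f a * g a| ≤ c * d := abs_I_le_const hμ fun a ha => by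
    rw [abs_mul]; exact mul_le_mul (hf a ha) (hg a ha) (abs_nonneg _) hc
  have h2 : |I μ f * I μ g| ≤ c * d := by
    rw [abs_mul]; exact mul_le_mul (abs_I_le_const hμ hf) (abs_I_le_const hμ hg) (abs_nonneg _) hc
  exact (abs_sub _ _).trans (by linarith)

theorem cov_add_left (μ : Ms α) (f f' g : α → ℝ) :
    cov μ (fun a => f a + f' a) g = cov μ f g + cov μ f' g := by
  simp only [cov, add_mul, I_add_fun]; ring

theorem cov_comm (μ : Ms α) (f g : α → ℝ) : cov μ f g = cov μ g f := by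
  simp only [cov, mul_comm]

theorem cov_add_right (μ : Ms α) (f g g' : α → ℝ) :
    cov μ f (fun a => g a + g' a) = cov μ f g + cov μ f g' := by
  rw [cov_comm, cov_add_left, cov_comm, cov_comm μ g']

theorem cov_affine {μ : Ms α} (hμ : μ.Prob) (f g : α → ℝ) (c d : ℝ) :
    cov μ (fun a => 1 - c * f a) (fun a => 1 - d * g a) = c * d * cov μ f g := by
  rw [cov_eq hμ, cov_eq hμ]
  simp only [I_sub_fun, I_const_mul, hμ.I_const]
  rw [← I_const_mul μ (c * d)]
  congr 1; funext a; ring

/-- Perturbation of a covariance. -/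
theorem abs_cov_sub_le {μ : Ms α} (hμ : μ.Prob) {f f' g g' : α → ℝ} {η c : ℝ} (hη : 0 ≤ η)
    (hc : 0 ≤ c) (hf : ∀ a, μ.coeff a ≠ 0 → |f a - f' a| ≤ η)
    (hg : ∀ a, μ.coeff a ≠ 0 → |g a - g' a| ≤ η)
    (h1 : ∀ a, μ.coeff a ≠ 0 → |g a - 1| ≤ c) (h2 : ∀ a, μ.coeff a ≠ 0 → |f' a - 1| ≤ c) :
    |cov μ f g - cov μ f' g'| ≤ 4 * (η * c) := by
  have e : cov μ f g - cov μ f' g' = cov μ (fun a => f a - f' a) (fun a => g a - 1) +
      cov μ (fun a => f' a - 1) (fun a => g a - g' a) := by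
    simp only [cov, sub_mul, mul_sub, I_sub_fun, mul_one, one_mul, hμ.I_const]
    ring
  rw [e]
  have := abs_cov_le hμ hη hc hf h1
  have := abs_cov_le hμ hc hη h2 hg
  exact (abs_add_le _ _).trans (by linarith)

/-- Law of total covariance. -/
theorem cov_bind (μ : Ms α) (κ : α → Ms γ) (f g : γ → ℝ) :
    cov (Ms.bind μ κ) f g = cov μ (fun a => I (κ a) f) (fun a => I (κ a) g) +
      I μ fun a => cov (κ a) f g := by
  simp only [cov, I_bind, I_sub_fun]; ring

section covM
variable [Fintype L]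

theorem psd_cov {μ : Ms α} (hμ : μ.Prob) (g : α → L → ℝ) :
    PSD fun l l' => cov μ (fun a => g a l) (fun a => g a l') := fun x => by
  simp only [cov_eq hμ, ← I_const_mul, ← I_sum_fun]
  refine I_nonneg hμ.1 fun a _ => ?_
  have : ∑ l, ∑ l', x l * x l' * ((g a l - I μ fun a => g a l) * (g a l' - I μ fun a => g a l')) =
      (∑ l, x l * (g a l - I μ fun a => g a l)) ^ 2 := by
    rw [sq, Finset.sum_mul_sum]
    exact Finset.sum_congr rfl fun l _ => Finset.sum_congr rfl fun l' _ => by ring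
  rw [this]; exact sq_nonneg _

theorem hs_cov_le_add {μ : Ms α} (hμ : μ.Prob) (g : α → L → ℝ) {B : L → L → ℝ} (hB : PSD B) :
    hs (fun l l' => cov μ (fun a => g a l) (fun a => g a l')) ≤
      hs fun l l' => cov μ (fun a => g a l) (fun a => g a l') + B l l' := by
  set A : L → L → ℝ := fun l l' => cov μ (fun a => g a l) (fun a => g a l') with hA
  have h : 0 ≤ ip A B := by
    have : A = fun l l' => I μ fun a =>
        (g a l - I μ fun a => g a l) * (g a l' - I μ fun a => g a l') := by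
      funext l l'; exact cov_eq hμ _ _
    rw [this, ip_I_left]
    exact I_nonneg hμ.1 fun a _ => div_nonneg (hB _) (by positivity)
  refine Real.sqrt_le_sqrt ?_
  rw [hs2_eq_ip, hs2_eq_ip (fun l l' => A l l' + B l l'), ip_add_left, ip_comm A (fun _ _ => _ + _),
    ip_comm B, ip_add_left, ip_add_left, ip_comm B A, ← hs2_eq_ip B]
  linarith [hs2_nonneg B]

theorem hs_cov_le_avgL {μ : Ms α} (hμ : μ.Prob) (g : α → L → ℝ) :
    hs (fun l l' => cov μ (fun a => g a l) (fun a => g a l')) ≤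
      avgL fun l => cov μ (fun a => g a l) (fun a => g a l) :=
  hs_le_avgL (fun _ => cov_self_nonneg hμ _) fun _ _ => sq_cov_le hμ _ _

/-- Covariance of a linear combination. -/
theorem hs_cov_comb {μ : Ms α} (hμ : μ.Prob) {ι : Type} (s : Finset ι) (w : ι → ℝ)
    (g : ι → α → L → ℝ) :
    hs (fun l l' => cov μ (fun a => ∑ i ∈ s, w i * g i a l) (fun a => ∑ i ∈ s, w i * g i a l')) ≤
      (∑ i ∈ s, |w i|) * ∑ i ∈ s, |w i| *
        hs fun l l' => cov μ (fun a => g i a l) (fun a => g i a l') := by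
  set N := ∑ i ∈ s, |w i| with hN
  have hN0 : 0 ≤ N := Finset.sum_nonneg fun i _ => abs_nonneg _
  set C : ι → L → L → ℝ := fun i l l' => cov μ (fun a => g i a l) (fun a => g i a l') with hC
  set h : α → L → ℝ := fun a l => ∑ i ∈ s, w i * g i a l with hh
  have hB : PSD fun l l' => N * (∑ i ∈ s, |w i| * C i l l') -
      cov μ (fun a => h a l) (fun a => h a l') := by
    intro x
    set y : ι → α → ℝ := fun i a => ∑ l, x l * (g i a l - I μ fun a => g i a l) with hy
    have e1 : ∀ i, ∑ l, ∑ l', x l * x l' * C i l l' = I μ fun a => y i a ^ 2 := by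
      intro i
      simp only [hC, cov_eq hμ, ← I_const_mul, ← I_sum_fun]
      congr 1; funext a
      rw [sq, hy, Finset.sum_mul_sum]
      exact Finset.sum_congr rfl fun l _ => Finset.sum_congr rfl fun l' _ => by ring
    have e2 : ∑ l, ∑ l', x l * x l' * cov μ (fun a => h a l) (fun a => h a l') =
        I μ fun a => (∑ i ∈ s, w i * y i a) ^ 2 := by
      simp only [cov_eq hμ, ← I_const_mul, ← I_sum_fun]
      congr 1; funext a
      have : ∑ i ∈ s, w i * y i a = ∑ l, x l * (h a l - I μ fun a => h a l) := by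
        simp only [hy, hh, I_sum_fun, I_const_mul, Finset.mul_sum, ← Finset.sum_sub_distrib]
        rw [Finset.sum_comm]
        exact Finset.sum_congr rfl fun l _ => Finset.sum_congr rfl fun i _ => by ring
      rw [this, sq, Finset.sum_mul_sum]
      exact Finset.sum_congr rfl fun l _ => Finset.sum_congr rfl fun l' _ => by ring
    have e3 : ∑ l, ∑ l', x l * x l' * (N * (∑ i ∈ s, |w i| * C i l l') -
        cov μ (fun a => h a l) (fun a => h a l')) =
        N * ∑ i ∈ s, |w i| * (∑ l, ∑ l', x l * x l' * C i l l') -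
          ∑ l, ∑ l', x l * x l' * cov μ (fun a => h a l) (fun a => h a l') := by
      simp only [mul_sub, Finset.sum_sub_distrib, Finset.mul_sum]
      congr 1
      rw [Finset.sum_comm (s := s)]
      refine Finset.sum_congr rfl fun l _ => ?_
      rw [Finset.sum_comm (s := s)]
      exact Finset.sum_congr rfl fun l' _ => Finset.sum_congr rfl fun i _ => by ring
    rw [e3, e2]
    simp only [e1, ← I_const_mul, ← I_sum_fun, ← I_sub_fun]
    refine I_nonneg hμ.1 fun a _ => ?_
    have := Finset.sum_mul_sq_le_sq_mul_sq s (fun i => Real.sqrt |w i|)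
      (fun i => Real.sqrt |w i| * |y i a|)
    have e4 : ∀ i, Real.sqrt |w i| * (Real.sqrt |w i| * |y i a|) = |w i * y i a| := fun i => by
      rw [← mul_assoc, Real.mul_self_sqrt (abs_nonneg _), abs_mul]
    simp only [e4, mul_pow, Real.sq_sqrt (abs_nonneg _), sq_abs] at this
    have h5 : (∑ i ∈ s, w i * y i a) ^ 2 ≤ (∑ i ∈ s, |w i * y i a|) ^ 2 :=
      sq_le_sq.2 ((Finset.abs_sum_le_sum_abs _ _).trans (le_abs_self _))
    linarith
  refine (hs_cov_le_add hμ h hB).trans ?_
  simp only [add_sub_cancel]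
  rw [hs_const_mul, abs_of_nonneg hN0]
  refine mul_le_mul_of_nonneg_left ((hs_finset_sum_le _ _).trans (le_of_eq ?_)) hN0
  exact Finset.sum_congr rfl fun i _ => by rw [hs_const_mul, abs_abs]

end covM

theorem abs_list_prod_sub_le (ts : List σ) (f g : σ → ℝ) (hf : ∀ t ∈ ts, 0 ≤ f t ∧ f t ≤ 1)
    (hg : ∀ t ∈ ts, 0 ≤ g t ∧ g t ≤ 1) :
    |(ts.map f).prod - (ts.map g).prod| ≤ (ts.map fun t => |f t - g t|).sum := by
  induction ts with
  | nil => simp
  | cons t ts ih =>
    simp only [List.map_cons, List.prod_cons, List.sum_cons]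
    have h1 := ih (fun u hu => hf u (by simp [hu])) fun u hu => hg u (by simp [hu])
    have h2 := list_prod_mem ts g fun u hu => hg u (by simp [hu])
    have h3 := hf t (by simp)
    have e : f t * (ts.map f).prod - g t * (ts.map g).prod =
        (f t - g t) * (ts.map g).prod + f t * ((ts.map f).prod - (ts.map g).prod) := by ring
    rw [e]
    refine (abs_add_le _ _).trans (add_le_add ?_ ?_)
    · rw [abs_mul, abs_of_nonneg h2.1]; exact mul_le_of_le_one_right (abs_nonneg _) h2.2
    · rw [abs_mul, abs_of_nonneg h3.1]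
      exact (mul_le_of_le_one_left (abs_nonneg _) h3.2).trans h1

theorem sq_list_sum_le (ts : List σ) (f : σ → ℝ) :
    (ts.map f).sum ^ 2 ≤ ts.length * (ts.map fun t => f t ^ 2).sum := by
  induction ts with
  | nil => simp
  | cons t ts ih =>
    simp only [List.map_cons, List.sum_cons, List.length_cons, Nat.cast_add, Nat.cast_one]
    rcases Nat.eq_zero_or_pos ts.length with h0 | h0
    · rw [List.length_eq_zero_iff] at h0; subst h0; simp
    · have hn : (0 : ℝ) < ts.length := by exact_mod_cast h0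
      set n : ℝ := (ts.length : ℝ)
      set a := (ts.map f).sum
      set b := (ts.map fun t => f t ^ 2).sum
      have h1 : 2 * f t * a * n ≤ (n * f t ^ 2 + b) * n := by nlinarith [sq_nonneg (n * f t - a)]
      have h2 : 2 * f t * a ≤ n * f t ^ 2 + b := le_of_mul_le_mul_right h1 hn
      nlinarith

theorem I_list_sum (μ : Ms α) (ts : List σ) (f : σ → α → ℝ) :
    I μ (fun a => (ts.map fun s => f s a).sum) = (ts.map fun s => I μ (f s)).sum := by
  induction ts with
  | nil => simp
  | cons t ts ih => simp only [List.map_cons, List.sum_cons, I_add_fun, ih]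

theorem cov_list_prod_le {μ : Ms α} (hμ : μ.Prob) (ts : List σ) (f : σ → α → ℝ)
    (hf : ∀ s ∈ ts, ∀ a, μ.coeff a ≠ 0 → 0 ≤ f s a ∧ f s a ≤ 1) :
    cov μ (fun a => (ts.map fun s => f s a).prod) (fun a => (ts.map fun s => f s a).prod) ≤
      ts.length * (ts.map fun s => cov μ (f s) (f s)).sum := by
  refine (cov_self_le hμ _ (ts.map fun s => I μ (f s)).prod).trans ?_
  have e : (ts.map fun s => cov μ (f s) (f s)).sum =
      I μ fun a => (ts.map fun s => |f s a - I μ (f s)| ^ 2).sum := by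
    rw [I_list_sum]
    congr 1
    refine List.map_congr_left fun s _ => ?_
    simp only [cov_eq hμ, sq_abs]
    simp only [sq]
  rw [e, ← I_const_mul]
  refine I_mono hμ.1 fun a ha => ?_
  refine le_trans ?_ (sq_list_sum_le ts fun s => |f s a - I μ (f s)|)
  refine sq_le_sq.2 (le_trans ?_ (le_abs_self _))
  exact abs_list_prod_sub_le ts _ _ (fun s hs => hf s hs a ha) fun s hs =>
    ⟨hμ.ge_of_ge fun b hb => (hf s hs b hb).1, hμ.le_of_le fun b hb => (hf s hs b hb).2⟩

/-- Weighted sums over independent samples. -/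
theorem I_listPow_prod_sum (X : Ms σ) (w h : σ → ℝ) : ∀ q : ℕ,
    I (listPow X q) (fun ts => (ts.map w).prod * (ts.map h).sum) =
      q * (I X w) ^ (q - 1) * I X fun s => w s * h s
  | 0 => by simp
  | q + 1 => by
    have e : ∀ (t : σ) (ts : List σ), ((t :: ts).map w).prod * ((t :: ts).map h).sum =
        w t * h t * (ts.map w).prod + w t * ((ts.map w).prod * (ts.map h).sum) := by
      intro t ts; simp only [List.map_cons, List.prod_cons, List.sum_cons]; ring
    simp only [I_listPow_succ, e, I_add_fun, I_const_mul, I_mul_const, I_listPow_prod,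
      I_listPow_prod_sum X w h q]
    cases q with
    | zero => simp
    | succ q => simp only [Nat.add_sub_cancel, pow_succ]; push_cast; ring

end Crest.Agent.R153
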