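import Crest.Agent.R153.Objs

/-!
Row 153: Sibuya coefficients and the truncated tree law (interface; part of task R153-Rep).

`Σ_{q ≤ n} sib θ q = 1 - Π_{i=1}^n (1 - θ/i)`; `1 - (1-x)^θ = Σ_q sib θ q x^q` on `[0,1]`
(binomial series of Mathlib for `|x| < 1`, or an ODE/Taylor argument; at `x = 1` the product tends
to `0` because the harmonic series diverges).
-/

set_option autoImplicit false

namespace Crest.Agent.R153

open Ms Nest Filter

variable {θ : ℝ}

/-- the tail `Π_{i=1}^n (1 - θ/i)` -/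
noncomputable def sibT (θ : ℝ) (n : ℕ) : ℝ := ∏ i ∈ Finset.range n, (1 - θ / ((i : ℝ) + 1))

theorem sibT_succ (θ : ℝ) (n : ℕ) : sibT θ (n + 1) = sibT θ n * (1 - θ / ((n : ℝ) + 1)) :=
  Finset.prod_range_succ _ _

@[simp] theorem sibT_zero (θ : ℝ) : sibT θ 0 = 1 := rfl

theorem sib_succ (θ : ℝ) : ∀ n : ℕ, sib θ (n + 1) = sibT θ n * (θ / ((n : ℝ) + 1))
  | 0 => by simp [sib]
  | n + 1 => by
    rw [sib, sib_succ θ n, sibT_succ]
    push_cast
    field_simp
    ring

theorem sum_sib_eq (θ : ℝ) : ∀ n : ℕ, ∑ q ∈ Finset.range (n + 1), sib θ q = 1 - sibT θ n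
  | 0 => by simp [sib]
  | n + 1 => by
    rw [Finset.sum_range_succ, sum_sib_eq θ n, sib_succ, sibT_succ]; ring

theorem sibT_factor_nonneg (h1 : θ ≤ 1) (i : ℕ) : 0 ≤ 1 - θ / ((i : ℝ) + 1) := by
  have : θ / ((i : ℝ) + 1) ≤ 1 := by
    rw [div_le_one (by positivity)]
    have : (0 : ℝ) ≤ i := Nat.cast_nonneg i
    linarith
  linarith

theorem sibT_nonneg (h1 : θ ≤ 1) (n : ℕ) : 0 ≤ sibT θ n :=
  Finset.prod_nonneg fun i _ => sibT_factor_nonneg h1 i

theorem sibT_pos (h1 : θ < 1) (n : ℕ) : 0 < sibT θ n :=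
  Finset.prod_pos fun i _ => by
    have : θ / ((i : ℝ) + 1) < 1 := by
      rw [div_lt_one (by positivity)]
      have : (0 : ℝ) ≤ i := Nat.cast_nonneg i
      linarith
    linarith

theorem tendsto_sibT (h0 : 0 < θ) (h1 : θ ≤ 1) : Tendsto (sibT θ) atTop (nhds 0) := by
  have hle : ∀ n, sibT θ n ≤
      Real.exp (-(θ * ∑ i ∈ Finset.range n, 1 / ((i : ℝ) + 1))) := by
    intro n
    rw [Finset.mul_sum, ← Finset.sum_neg_distrib, Real.exp_sum]
    refine Finset.prod_le_prod (fun i _ => sibT_factor_nonneg h1 i) fun i _ => ?_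
    have := Real.add_one_le_exp (-(θ * (1 / ((i : ℝ) + 1))))
    rw [mul_one_div] at this ⊢
    linarith
  refine squeeze_zero (sibT_nonneg h1) hle ?_
  refine Real.tendsto_exp_atBot.comp (tendsto_neg_atTop_atBot.comp ?_)
  exact Tendsto.const_mul_atTop h0 Real.tendsto_sum_range_one_div_nat_succ_atTop

theorem sib_nonneg (h0 : 0 ≤ θ) (h1 : θ ≤ 1) (q : ℕ) : 0 ≤ sib θ q := by
  cases q with
  | zero => simp [sib]
  | succ n => rw [sib_succ]; exact mul_nonneg (sibT_nonneg h1 n) (by positivity)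

theorem sib_pos (h0 : 0 < θ) (h1 : θ < 1) {q : ℕ} (hq : 1 ≤ q) : 0 < sib θ q := by
  cases q with
  | zero => omega
  | succ n => rw [sib_succ]; exact mul_pos (sibT_pos h1 n) (by positivity)

theorem sum_sib_le_one (_h0 : 0 ≤ θ) (h1 : θ ≤ 1) (n : ℕ) :
    ∑ q ∈ Finset.range n, sib θ q ≤ 1 := by
  cases n with
  | zero => simp
  | succ n => rw [sum_sib_eq]; linarith [sibT_nonneg h1 n]

theorem tendsto_sum_sib (h0 : 0 < θ) (h1 : θ ≤ 1) :
    Tendsto (fun n => ∑ q ∈ Finset.range n, sib θ q) atTop (nhds 1) := by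
  rw [← tendsto_add_atTop_iff_nat 1]
  simp only [sum_sib_eq]
  simpa using (tendsto_sibT h0 h1).const_sub 1

theorem ode_nonneg {h h' : ℝ → ℝ} (hd : ∀ x, x < 1 → HasDerivAt h (h' x) x) (hz : h 0 = 0)
    (hp : ∀ x, 0 ≤ x → x < 1 → 0 ≤ (1 - x) * h' x + θ * h x) {x : ℝ} (hx0 : 0 ≤ x) (hx1 : x < 1) :
    0 ≤ h x := by
  have hk : ∀ y, y < 1 → HasDerivAt (fun y => h y * (1 - y) ^ (-θ))
      ((1 - y) ^ (-θ - 1) * ((1 - y) * h' y + θ * h y)) y := by
    intro y hy
    have h1 : HasDerivAt (fun y : ℝ => (1 - y) ^ (-θ)) ((-1) * (-θ) * (1 - y) ^ (-θ - 1)) y := by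
      have := ((hasDerivAt_id y).const_sub 1).rpow_const (p := -θ) (Or.inl (by simp; linarith))
      simpa using this
    refine ((hd y hy).mul h1).congr_deriv ?_
    have : (1 - y) ^ (-θ) = (1 - y) ^ (-θ - 1) * (1 - y) := by
      rw [← Real.rpow_add_one (by linarith)]; congr 1; ring
    rw [this]; ring
  have hm : MonotoneOn (fun y => h y * (1 - y) ^ (-θ)) (Set.Icc 0 x) := by
    refine monotoneOn_of_deriv_nonneg (convex_Icc 0 x) ?_ ?_ ?_
    · exact fun y hy => (hk y (lt_of_le_of_lt hy.2 hx1)).continuousAt.continuousWithinAt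
    · exact fun y hy => (hk y (lt_of_le_of_lt (interior_subset hy).2 hx1)).differentiableAt.differentiableWithinAt
    · intro y hy
      have hy' := interior_subset hy
      have hy1 : y < 1 := lt_of_le_of_lt hy'.2 hx1
      rw [(hk y hy1).deriv]
      exact mul_nonneg (Real.rpow_nonneg (by linarith) _) (hp y hy'.1 hy1)
  have h2 := hm ⟨le_rfl, hx0⟩ ⟨hx0, le_rfl⟩ hx0
  simp only [hz, zero_mul] at h2
  exact nonneg_of_mul_nonneg_left h2 (Real.rpow_pos_of_pos (by linarith) _)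

theorem sib_ode (θ x : ℝ) : ∀ n : ℕ,
    (1 - x) * (∑ q ∈ Finset.range (n + 1), sib θ q * ((q : ℝ) * x ^ (q - 1))) +
      θ * ∑ q ∈ Finset.range (n + 1), sib θ q * x ^ q = θ - θ * sibT θ n * x ^ n
  | 0 => by simp [sib]
  | n + 1 => by
    have ih := sib_ode θ x n
    rw [Finset.sum_range_succ _ (n + 1), Finset.sum_range_succ _ (n + 1), sib_succ, sibT_succ]
    have h1 : ((n : ℝ) + 1) ≠ 0 := by positivity
    have h2 : θ / ((n : ℝ) + 1) * ((n : ℝ) + 1) = θ := by field_simp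
    simp only [Nat.add_sub_cancel]
    push_cast
    linear_combination ih + (1 - x) * sibT θ n * x ^ n * h2

theorem sib_remainder (h0 : 0 < θ) (h1 : θ ≤ 1) {x : ℝ} (hx0 : 0 ≤ x) (hx1 : x ≤ 1) (n : ℕ) :
    0 ≤ 1 - (1 - x) ^ θ - ∑ q ∈ Finset.range (n + 1), sib θ q * x ^ q ∧
    1 - (1 - x) ^ θ - ∑ q ∈ Finset.range (n + 1), sib θ q * x ^ q
      ≤ (1 - ∑ q ∈ Finset.range (n + 1), sib θ q) * x ^ (n + 1) := by
  have hT := sibT_nonneg h1 n
  rw [sum_sib_eq, sub_sub_cancel]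
  rcases hx1.eq_or_lt with rfl | hx1
  · simp only [sub_self, Real.zero_rpow h0.ne', one_pow, mul_one, sum_sib_eq]
    constructor <;> linarith
  have hd : ∀ y : ℝ, y < 1 → HasDerivAt
      (fun y : ℝ => 1 - (1 - y) ^ θ - ∑ q ∈ Finset.range (n + 1), sib θ q * y ^ q)
      (θ * (1 - y) ^ (θ - 1) -
        ∑ q ∈ Finset.range (n + 1), sib θ q * ((q : ℝ) * y ^ (q - 1))) y := by
    intro y hy
    have h2 : HasDerivAt (fun y : ℝ => (1 - y) ^ θ) ((-1) * θ * (1 - y) ^ (θ - 1)) y := by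
      have := ((hasDerivAt_id y).const_sub 1).rpow_const (p := θ) (Or.inl (by simp; linarith))
      simpa using this
    have h3 : HasDerivAt (fun y : ℝ => ∑ q ∈ Finset.range (n + 1), sib θ q * y ^ q)
        (∑ q ∈ Finset.range (n + 1), sib θ q * ((q : ℝ) * y ^ (q - 1))) y :=
      HasDerivAt.fun_sum fun q _ => (hasDerivAt_pow q y).const_mul _
    refine ((h2.const_sub 1).sub h3).congr_deriv ?_
    ring
  have hz : (fun y : ℝ => 1 - (1 - y) ^ θ - ∑ q ∈ Finset.range (n + 1), sib θ q * y ^ q) 0 = 0 := by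
    simp [Finset.sum_range_succ', sib]
  have hid : ∀ y : ℝ, y < 1 → (1 - y) * (θ * (1 - y) ^ (θ - 1) -
        ∑ q ∈ Finset.range (n + 1), sib θ q * ((q : ℝ) * y ^ (q - 1))) +
      θ * (1 - (1 - y) ^ θ - ∑ q ∈ Finset.range (n + 1), sib θ q * y ^ q) =
      θ * sibT θ n * y ^ n := by
    intro y hy
    have h4 : (1 - y) ^ θ = (1 - y) ^ (θ - 1) * (1 - y) := by
      rw [← Real.rpow_add_one (by linarith)]; congr 1; ring
    have h5 := sib_ode θ y n
    linear_combination (-θ) * h4 - h5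
  constructor
  · refine ode_nonneg (θ := θ) hd hz (fun y hy0 hy1 => ?_) hx0 hx1
    rw [hid y hy1]; positivity
  · have hd2 : ∀ y : ℝ, y < 1 → HasDerivAt
        (fun y : ℝ => sibT θ n * y ^ (n + 1) -
          (1 - (1 - y) ^ θ - ∑ q ∈ Finset.range (n + 1), sib θ q * y ^ q))
        (sibT θ n * (((n + 1 : ℕ) : ℝ) * y ^ n) - (θ * (1 - y) ^ (θ - 1) -
          ∑ q ∈ Finset.range (n + 1), sib θ q * ((q : ℝ) * y ^ (q - 1)))) y :=
      fun y hy => ((hasDerivAt_pow (n + 1) y).const_mul _).sub (hd y hy)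
    have := ode_nonneg (θ := θ) hd2 (by simp only [hz]; simp) (fun y hy0 hy1 => ?_) hx0 hx1
    · linarith
    · have h6 := hid y hy1
      have h7 : 0 ≤ sibT θ n * y ^ n * (1 - y) * ((n : ℝ) + 1 - θ) := by
        have : (0 : ℝ) ≤ n := Nat.cast_nonneg n
        have : 0 ≤ (n : ℝ) + 1 - θ := by linarith
        have : 0 ≤ 1 - y := by linarith
        positivity
      push_cast
      refine le_of_le_of_eq h7 ?_
      linear_combination h6

theorem NN_treeP (h0 : 0 ≤ θ) (h1 : θ ≤ 1) (Q' j : ℕ) : (treeP θ Q' j).NN := by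
  induction j with
  | zero => exact NN_avg fun b => NN_dirac _
  | succ j ih => exact NN_sum fun q _ => ((ih.listPow q).map _).smul (sib_nonneg h0 h1 q)

theorem mass_treeP_le_one (h0 : 0 ≤ θ) (h1 : θ ≤ 1) (Q' j : ℕ) : (treeP θ Q' j).mass ≤ 1 := by
  induction j with
  | zero => simp [mass, I_treeP_zero]
  | succ j ih =>
    rw [mass, I_treeP_succ]
    refine le_trans (Finset.sum_le_sum fun q _ => ?_) (sum_sib_le_one h0 h1 (Q' + 1))
    refine mul_le_of_le_one_right (sib_nonneg h0 h1 q) ?_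
    have := mass_listPow (treeP θ Q' j) q
    rw [mass] at this
    rw [this]
    exact pow_le_one₀ (NN_treeP h0 h1 Q' j).mass_nonneg ih

theorem supp_treeP_size (θ : ℝ) (Q' j : ℕ) : (treeP θ Q' j).Supp fun t => 1 ≤ t.size := by
  induction j with
  | zero => exact supp_avg fun b => supp_dirac le_rfl
  | succ j ih =>
    refine supp_sum fun q _ => ?_
    cases q with
    | zero => simp only [sib, zero_smul]; exact supp_zero _
    | succ q =>
      refine ((ih.listPow (q + 1)).map fun ts hts => ?_).smul _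
      cases ts with
      | nil => simp at hts
      | cons t ts =>
        have := hts.2 t (by simp)
        simp only [Tr.size_node, List.map_cons, List.sum_cons]
        omega

end Crest.Agent.R153
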