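import Crest.Agent.R153.D_Two
import Crest.Agent.R153.Sib
import Crest.Agent.R153.D2b

/-!
Row 153: the level structure of a pinned nest (intermediate objects, tower property) and the
recursion for the multi-overlap covariances.
-/

set_option autoImplicit false

namespace Crest.Agent.R153

open Ms Nest

variable {S L : Type} [Fintype S] [Fintype L]

section defs
variable (θ : ℝ) (β : L → S → ℝ) (Pm : ∀ i, Ms (Nest (Option Bool) i)) (R : ℕ)

noncomputable def ZZ (j : ℕ) (p : Nest (S → ℝ) j × ℕ) : Ms (Nest (S → ℝ) j) :=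
  midZ (pinP β (Pm j)) (pins β Pm R j) R p.1 p.2

noncomputable def base0 (j : ℕ) (a : Ms (Nest (S → ℝ) j)) : Ms (Nest (S → ℝ) j × ℕ) :=
  (R : ℝ)⁻¹ • ∑ n ∈ Finset.range R, Ms.map (fun b => (b, n)) (a * pinP β (Pm j) ^ n)

noncomputable def Mid (j : ℕ) (a : Ms (Nest (S → ℝ) j)) : Ms (Nest (S → ℝ) j × ℕ) :=
  tilt (base0 β Pm R j a) fun p => pS θ (ZZ β Pm R j p)

noncomputable def FinK (j : ℕ) (p : Nest (S → ℝ) j × ℕ) : Ms (Nest (S → ℝ) j) :=
  tilt (dirac p.1 * pinP β (Pm j) ^ (R - p.2)) fun a => vS θ (a * pins β Pm R j)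

/-- Weighted size of the covariance matrices. -/
noncomputable def aa (Q' j : ℕ) (Y : Ms (Nest (S → ℝ) j)) : ℝ :=
  I (treeP θ Q' j) fun t => (1 / 2) ^ t.size * hs (CP θ t Y β)

/-- Weighted energy. -/
noncomputable def En (Q' j : ℕ) (Y : Ms (Nest (S → ℝ) j)) : ℝ :=
  I (treeP θ Q' j) fun t => (1 / 2) ^ t.size * avgL fun l => mmP θ t Y (β l) ^ 2

end defs

variable {θ : ℝ} {β : L → S → ℝ} {Pm : ∀ i, Ms (Nest (Option Bool) i)} {R j : ℕ}

omit [Fintype S] in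
theorem I_base0 (a : Ms (Nest (S → ℝ) j)) (f : Nest (S → ℝ) j × ℕ → ℝ) :
    I (base0 β Pm R j a) f =
      (R : ℝ)⁻¹ * ∑ n ∈ Finset.range R, I (a * pinP β (Pm j) ^ n) fun b => f (b, n) := by
  simp [base0, I_sum]

omit [Fintype S] in
theorem I_base0_ZZ (hR : 1 ≤ R) (a : Ms (Nest (S → ℝ) j)) (f : Nest (S → ℝ) j → ℝ) :
    I (base0 β Pm R j a) (fun p => I (ZZ β Pm R j p) f) = I (a * pinsM β Pm R j) f := by
  rw [I_base0]
  have : ∀ n ∈ Finset.range R, (I (a * pinP β (Pm j) ^ n) fun b => I (ZZ β Pm R j (b, n)) f) =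
      I (a * pinsM β Pm R j) f := by
    intro n hn
    have hn' : n ≤ R := (Finset.mem_range.1 hn).le
    have e : a * pinsM β Pm R j =
        (a * pinP β (Pm j) ^ n) * (dirac (pins β Pm R j) * pinP β (Pm j) ^ (R - n)) := by
      rw [pinsM]
      conv_lhs => rw [← Nat.add_sub_cancel' hn', pow_add]
      rw [Nat.add_sub_cancel' hn']
      ring
    rw [e, I_mul (a * pinP β (Pm j) ^ n)]
    congr 1; funext b
    simp only [ZZ, midZ, dirac_mul, mul_assoc, I_dirac_mul]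
  rw [Finset.sum_congr rfl this]
  have hR' : (R : ℝ) ≠ 0 := by positivity
  simp [hR']

section good
variable [Nonempty L] {P : (S → ℝ) → Prop} (h1 : P 1) (hmul : ∀ x y, P x → P y → P (x * y))
  (hP : ∀ l o, P fun σ => 1 - tv o (β l σ)) (hPm : ∀ i, GoodM Any (Pm i))
include h1 hmul hP hPm

omit [Fintype S] in
theorem supp_base0' {a : Ms (Nest (S → ℝ) j)} (ha : GoodM P a) :
    (base0 β Pm R j a).Supp fun p => Good P p.1 :=
  (supp_sum fun n _ => (GoodM.mul hmul ha (GoodM.pow h1 hmul (goodM_pinP' hP (hPm j)) n)).2.map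
    (g := fun b => (b, n)) (Q := fun p => Good P p.1) fun _ hb => hb).smul _

omit [Fintype S] in
theorem goodM_ZZ' {p : Nest (S → ℝ) j × ℕ} (hp : Good P p.1) : GoodM P (ZZ β Pm R j p) :=
  GoodM.mul hmul (goodM_dirac (Good.mul hmul hp (good_pins' h1 hmul hP hPm R j)))
    (GoodM.pow h1 hmul (goodM_pinP' hP (hPm j)) _)

end good

variable [Nonempty L] (hβ : ∀ l, U01 (β l)) (hPm : ∀ i, GoodM Any (Pm i))
include hβ hPm

omit [Fintype S] in
theorem supp_base0 {a : Ms (Nest (S → ℝ) j)} (ha : GoodM U01 a) :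
    (base0 β Pm R j a).Supp fun p => Good U01 p.1 :=
  supp_base0' U01_one U01_mul (U01_testleaf hβ) hPm ha

omit [Fintype S] in
theorem goodM_ZZ {p : Nest (S → ℝ) j × ℕ} (hp : Good U01 p.1) : GoodM U01 (ZZ β Pm R j p) :=
  goodM_ZZ' U01_one U01_mul (U01_testleaf hβ) hPm hp

omit [Fintype S] in
theorem prob_base0 (hR : 1 ≤ R) {a : Ms (Nest (S → ℝ) j)} (ha : GoodM U01 a) :
    (base0 β Pm R j a).Prob := by
  have hg : ∀ n, GoodM U01 (a * pinP β (Pm j) ^ n) := fun n =>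
    ha.mulU ((goodM_pinP hβ (hPm j)).powU n)
  refine ⟨(NN_sum fun n _ => (hg n).1.1.map _).smul (by positivity), ?_⟩
  have hR' : (R : ℝ) ≠ 0 := by positivity
  rw [mass, I_base0]
  simp [(hg _).1.I_const, hR']

theorem NN_Mid (hR : 1 ≤ R) {a : Ms (Nest (S → ℝ) j)} (ha : GoodM U01 a) :
    (Mid θ β Pm R j a).NN :=
  (prob_base0 hβ hPm hR ha).1.tilt fun p hp =>
    pS_nonneg (goodM_ZZ hβ hPm (supp_base0 hβ hPm ha p hp))

omit hβ hPm [Nonempty L] in
theorem I_Mid (hR : 1 ≤ R) (a : Ms (Nest (S → ℝ) j)) (f : Nest (S → ℝ) j × ℕ → ℝ) :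
    I (Mid θ β Pm R j a) f =
      (I (base0 β Pm R j a) fun p => pS θ (ZZ β Pm R j p) * f p) / pS θ (a * pinsM β Pm R j) := by
  rw [Mid, I_tilt]
  congr 1
  exact I_base0_ZZ hR a _

theorem prob_Mid (hR : 1 ≤ R) {a : Ms (Nest (S → ℝ) j)} (ha : GoodM U01 a)
    (hpos : 0 < pS θ (a * pinsM β Pm R j)) : (Mid θ β Pm R j a).Prob := by
  refine prob_tilt (prob_base0 hβ hPm hR ha).1 (fun p hp =>
    pS_nonneg (goodM_ZZ hβ hPm (supp_base0 hβ hPm ha p hp))) ?_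
  have := I_base0_ZZ (β := β) (Pm := Pm) hR a (vS θ)
  simp only [← pS_eq] at this
  rw [this]; exact hpos.ne'

theorem supp_Mid {a : Ms (Nest (S → ℝ) j)} (ha : GoodM U01 a) :
    (Mid θ β Pm R j a).Supp fun p => Good U01 p.1 ∧ 0 < pS θ (ZZ β Pm R j p) :=
  ((supp_base0 hβ hPm ha).tilt _).mono fun _ hp =>
    ⟨hp.1, lt_of_le_of_ne (pS_nonneg (goodM_ZZ hβ hPm hp.1)) (Ne.symm hp.2)⟩

omit hβ hPm [Fintype L] [Nonempty L] in
theorem pS_mul_I_tilt {X : Ms (Nest (S → ℝ) j)} (hX : GoodM U01 X) (f : Nest (S → ℝ) j → ℝ) :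
    pS θ X * I (tilt X (vS θ)) f = I X fun c => vS θ c * f c := by
  rw [I_tilt, ← pS_eq]
  by_cases h0 : pS θ X = 0
  · rw [h0, zero_mul, ← I_zero_fun X]
    refine I_congr fun c hc => ?_
    rw [eq_zero_of_I_eq_zero hX.1.1 (fun c hc => vS_nonneg (hX.2 c hc)) h0 c hc, zero_mul]
  · field_simp

/-- Tower property. -/
theorem I_tilt_pinsM (hR : 1 ≤ R) {a : Ms (Nest (S → ℝ) j)} (ha : GoodM U01 a)
    (f : Nest (S → ℝ) j → ℝ) :
    I (tilt (a * pinsM β Pm R j) (vS θ)) f =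
      I (Mid θ β Pm R j a) fun p => I (tilt (ZZ β Pm R j p) (vS θ)) f := by
  rw [I_Mid hR, I_tilt, ← pS_eq, ← I_base0_ZZ hR]
  congr 1
  exact (supp_base0 hβ hPm ha).I_congr fun p hp => (pS_mul_I_tilt (goodM_ZZ hβ hPm hp) f).symm

omit hβ hPm [Nonempty L] [Fintype S] in
theorem I_ZZ (p : Nest (S → ℝ) j × ℕ) (f : Nest (S → ℝ) j → ℝ) :
    I (ZZ β Pm R j p) f =
      I (dirac p.1 * pinP β (Pm j) ^ (R - p.2)) fun a => f (a * pins β Pm R j) := by
  rw [← I_mul_dirac, ZZ, midZ, dirac_mul, mul_right_comm]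

omit hβ hPm [Nonempty L] in
theorem I_tilt_ZZ (p : Nest (S → ℝ) j × ℕ) (f : Nest (S → ℝ) j → ℝ) :
    I (tilt (ZZ β Pm R j p) (vS θ)) f =
      I (FinK θ β Pm R j p) fun a => f (a * pins β Pm R j) := by
  rw [FinK, I_tilt, I_tilt, I_ZZ, I_ZZ]

theorem prob_FinK {p : Nest (S → ℝ) j × ℕ} (hp : Good U01 p.1)
    (hpos : 0 < pS θ (ZZ β Pm R j p)) : (FinK θ β Pm R j p).Prob := by
  have hg : GoodM U01 (dirac p.1 * pinP β (Pm j) ^ (R - p.2)) :=
    (goodM_dirac hp).mulU ((goodM_pinP hβ (hPm j)).powU _)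
  refine prob_tilt hg.1.1 (fun a ha => vS_nonneg ((hg.2 a ha).mulU (good_pins hβ hPm R j))) ?_
  rw [← I_ZZ]; exact hpos.ne'

theorem supp_FinK {p : Nest (S → ℝ) j × ℕ} (hp : Good U01 p.1) :
    (FinK θ β Pm R j p).Supp fun a => Good U01 a ∧ 0 < vS θ (a * pins β Pm R j) := by
  have hg : GoodM U01 (dirac p.1 * pinP β (Pm j) ^ (R - p.2)) :=
    (goodM_dirac hp).mulU ((goodM_pinP hβ (hPm j)).powU _)
  exact (hg.2.tilt _).mono fun a ha =>
    ⟨ha.1, lt_of_le_of_ne (vS_nonneg (ha.1.mulU (good_pins hβ hPm R j))) (Ne.symm ha.2)⟩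

/-- The kernel to the next lower intermediate objects is a probability kernel. -/
theorem prob_Mid_dn (h0 : 0 < θ) (hR : 1 ≤ R) {p : Nest (S → ℝ) (j + 1) × ℕ} (hp : Good U01 p.1)
    {a : Nest (S → ℝ) (j + 1)} (ha : (FinK θ β Pm R (j + 1) p).coeff a ≠ 0) :
    (Mid θ β Pm R j (dn a)).Prob ∧ (Mid θ β Pm R j (dn a)).Supp
      fun p => Good U01 p.1 ∧ 0 < pS θ (ZZ β Pm R j p) := by
  have h := supp_FinK hβ hPm hp a ha
  exact ⟨prob_Mid hβ hPm hR h.1
    (pS_pos_of_vS_pos h0 (h.1.mulU (good_pins hβ hPm R (j + 1))) h.2), supp_Mid hβ hPm h.1⟩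

/-- Averaged purity of the intermediate objects. -/
theorem Mid_purity (h0 : 0 ≤ θ) (h1 : θ ≤ 1) (hR : 1 ≤ R) {κ : ℝ} (hκ : 0 < κ)
    {V : Nest (Option Bool) j} (hV : κ ≤ (Pm j).coeff V) (hnone : κ ≤ (Pm j).coeff (det none j))
    {a : Ms (Nest (S → ℝ) j)} (ha : GoodM U01 a) :
    (I (Mid θ β Pm R j a) fun p =>
      hs fun l l' => Rr θ (ZZ β Pm R j p) (test (β l) V) (test (β l') V)) ≤
      Real.sqrt (12 / (κ * R)) := by
  refine (I_sqrt_le (NN_Mid hβ hPm hR ha) (mass_tilt_le_one _ _)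
    fun p _ => hs2_nonneg _).trans (Real.sqrt_le_sqrt ?_)
  have h := purity h0 h1 hβ (hPm j) hκ hV hnone (good_pins hβ hPm R j) ha R
  have hR' : (0 : ℝ) < R := by exact_mod_cast hR
  rw [I_Mid hR, I_base0]
  refine div_le_of_le_mul₀ (pS_nonneg (ha.mulU (goodM_pinsM hβ hPm R j))) (by positivity) ?_
  calc _ ≤ (R : ℝ)⁻¹ * (12 / κ * pS θ (a * pinsM β Pm R j)) :=
        mul_le_mul_of_nonneg_left h (by positivity)
    _ = _ := by field_simp

theorem mmP_node (hR : 1 ≤ R) {p : Nest (S → ℝ) (j + 1) × ℕ} (hp : Good U01 p.1)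
    (ts : List (Tr j)) (x : S → ℝ) :
    mmP θ (Tr.node ts) (ZZ β Pm R (j + 1) p) x = I (FinK θ β Pm R (j + 1) p) fun a =>
      (ts.map fun s => I (Mid θ β Pm R j (dn a)) fun p' => mmP θ s (ZZ β Pm R j p') x).prod := by
  rw [mmP, I_tilt_ZZ]
  refine (supp_FinK hβ hPm hp).I_congr fun a ha => ?_
  rw [mm_succ, Tr.kids_node]
  congr 1
  refine List.map_congr_left fun s _ => ?_
  exact I_tilt_pinsM hβ hPm hR ha.1 _

omit hβ hPm [Fintype S] [Fintype L] [Nonempty L] in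
theorem half_pow_size_node (ts : List (Tr j)) :
    (1 / 2 : ℝ) ^ (Tr.node ts).size = (ts.map fun s => (1 / 2 : ℝ) ^ s.size).prod := by
  rw [Tr.size_node]
  induction ts with
  | nil => simp
  | cons t ts ih => simp only [List.map_cons, List.sum_cons, List.prod_cons, pow_add, ih]

omit hβ hPm [Fintype S] [Fintype L] [Nonempty L] in
theorem I_treeP_half_le (h0 : 0 ≤ θ) (h1 : θ ≤ 1) (Q' j : ℕ) :
    (I (treeP θ Q' j) fun t => (1 / 2 : ℝ) ^ t.size) ≤ 1 / 2 :=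
  I_le_of_le (NN_treeP h0 h1 Q' j) (mass_treeP_le_one h0 h1 Q' j) (by norm_num) fun t ht => by
    have := pow_le_pow_of_le_one (a := (1 / 2 : ℝ)) (by norm_num) (by norm_num)
      (supp_treeP_size θ Q' j t ht)
    simpa using this

/-- One step of the recursion. -/
theorem level_step (hθ : 1 / 2 ≤ θ) (h1 : θ ≤ 1) (hR : 1 ≤ R) {Q' : ℕ} (hQ : 1 ≤ Q')
    {p : Nest (S → ℝ) (j + 1) × ℕ} (hp : Good U01 p.1) (hpos : 0 < pS θ (ZZ β Pm R (j + 1) p)) :
    aa θ β Q' (j + 1) (ZZ β Pm R (j + 1) p) + 6 * (1 - θ) * En θ β Q' (j + 1) (ZZ β Pm R (j + 1) p)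
      ≤ (I (treeP θ Q' j) fun s => (1 / 2) ^ s.size * tPur (FinK θ β Pm R (j + 1) p)
            (fun a => Mid θ β Pm R j (dn a)) (fun s p' l => mmP θ s (ZZ β Pm R j p') (β l)) s)
        + 6 * (1 - θ) * (1 - θ) + (1 + 3 * (1 - θ)) * I (FinK θ β Pm R (j + 1) p) fun a =>
          I (Mid θ β Pm R j (dn a)) fun p' =>
            aa θ β Q' j (ZZ β Pm R j p') + 6 * (1 - θ) * En θ β Q' j (ZZ β Pm R j p') := by
  have h0 : 0 < θ := by linarith
  have key := two_level_step (F := FinK θ β Pm R (j + 1) p) (K := fun a => Mid θ β Pm R j (dn a))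
    (m := fun s p' l => mmP θ s (ZZ β Pm R j p') (β l))
    (m2 := fun s p' l l' => mmP θ s (ZZ β Pm R j p') (β l * β l'))
    (G := fun p => Good U01 p.1 ∧ 0 < pS θ (ZZ β Pm R j p)) (θ := θ)
    (prob_FinK hβ hPm hp hpos) (fun a ha => prob_Mid_dn hβ hPm h0 hR hp ha)
    (fun s p' l hp' => mmP_mem (hβ l) s (goodM_ZZ hβ hPm hp'.1))
    (fun s p' l l' hp' => mmP_mem ((hβ l).mul (hβ l')) s (goodM_ZZ hβ hPm hp'.1))
    (NN_treeP h0.le h1 Q' j) (w := fun s => (1 / 2) ^ s.size) (fun s => by positivity)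
    (I_treeP_half_le h0.le h1 Q' j) hQ (sib_nonneg h0.le h1) rfl rfl
    (sum_sib_le_one h0.le h1 _) hθ h1
  refine le_of_eq_of_le ?_ (key.trans (le_of_eq ?_))
  · congr 1
    · rw [aa, I_treeP_succ]
      refine Finset.sum_congr rfl fun q _ => ?_
      congr 2; funext ts
      rw [half_pow_size_node]
      congr 1
      refine hs_congr fun l l' => ?_
      simp only [CP, tCC, tM1, tM2, mmP_node hβ hPm hR hp]
    · congr 1
      rw [En, I_treeP_succ]
      refine Finset.sum_congr rfl fun q _ => ?_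
      congr 2; funext ts
      rw [half_pow_size_node]
      simp only [tM1, mmP_node hβ hPm hR hp]
  · congr 2
    simp only [I_add_fun, I_const_mul, aa, En, tA, tE]
    congr 1
    · simp only [← I_const_mul]
      rw [I_comm (treeP θ Q' j)]
      congr 1; funext a
      rw [I_comm (treeP θ Q' j)]
      rfl
    · congr 1
      simp only [← I_const_mul]
      rw [I_comm (treeP θ Q' j)]
      congr 1; funext a
      rw [I_comm (treeP θ Q' j)]

end Crest.Agent.R153
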