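import Crest.Agent.R153.D_Cov

/-!
Row 153: the abstract two-level step of the covariance recursion.
-/

set_option autoImplicit false

namespace Crest.Agent.R153

open Ms

variable {L α γ σ : Type} [Fintype L]

theorem sum_split {c x : ℕ → ℝ} {θ X₁ X : ℝ} {Q' : ℕ} (hQ : 1 ≤ Q') (hc : ∀ q, 0 ≤ c q)
    (h0 : c 0 = 0) (h1 : c 1 = θ) (hs : ∑ q ∈ Finset.range (Q' + 1), c q ≤ 1) (hX : 0 ≤ X)
    (hx1 : x 1 ≤ X₁) (hx : ∀ q, 2 ≤ q → x q ≤ X) :
    ∑ q ∈ Finset.range (Q' + 1), c q * x q ≤ θ * X₁ + (1 - θ) * X := by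
  obtain ⟨n, rfl⟩ : ∃ n, Q' = n + 1 := ⟨Q' - 1, by omega⟩
  rw [Finset.sum_range_succ', Finset.sum_range_succ'] at hs ⊢
  simp only [h0, h1, zero_add, zero_mul, add_zero] at hs ⊢
  have h2 : ∑ k ∈ Finset.range n, c (k + 1 + 1) * x (k + 1 + 1) ≤
      (∑ k ∈ Finset.range n, c (k + 1 + 1)) * X := by
    rw [Finset.sum_mul]
    exact Finset.sum_le_sum fun k _ => mul_le_mul_of_nonneg_left (hx _ (by omega)) (hc _)
  have h3 : θ * x 1 ≤ θ * X₁ := mul_le_mul_of_nonneg_left hx1 (h1 ▸ hc 1)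
  have h4 : (∑ k ∈ Finset.range n, c (k + 1 + 1)) * X ≤ (1 - θ) * X :=
    mul_le_mul_of_nonneg_right (by linarith) hX
  linarith

theorem sq_mul_half_pow_le (q : ℕ) : (q : ℝ) * q * (1 / 2) ^ (q - 1) ≤ 3 := by
  have h : ∀ n : ℕ, ((n + 1 : ℕ) : ℝ) * (n + 1 : ℕ) ≤ 3 * 2 ^ n := by
    intro n
    induction n with
    | zero => norm_num
    | succ n ih =>
      rcases Nat.lt_or_ge n 2 with h | h
      · interval_cases n <;> norm_num
      · have : (2 : ℝ) ≤ n := by exact_mod_cast h
        push_cast at ih ⊢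
        rw [pow_succ]
        nlinarith
  cases q with
  | zero => simp
  | succ n =>
    rw [Nat.add_sub_cancel, one_div, inv_pow, ← div_eq_mul_inv, div_le_iff₀ (by positivity)]
    exact h n

section two
variable (F : Ms α) (K : α → Ms γ) (m : σ → γ → L → ℝ) (m2 : σ → γ → L → L → ℝ)

/-- First and second moments one level up. -/
noncomputable def tM1 (s : σ) (a : α) (l : L) : ℝ := I (K a) fun p => m s p l
noncomputable def tM2 (s : σ) (a : α) (l l' : L) : ℝ := I (K a) fun p => m2 s p l l'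
noncomputable def tCC (ts : List σ) (l l' : L) : ℝ :=
  I F (fun a => (ts.map fun s => tM2 K m2 s a l l').prod) -
    I F (fun a => (ts.map fun s => tM1 K m s a l).prod) *
      I F (fun a => (ts.map fun s => tM1 K m s a l').prod)
noncomputable def tCs (s : σ) (p : γ) (l l' : L) : ℝ := m2 s p l l' - m s p l * m s p l'
noncomputable def tV1 (s : σ) : ℝ :=
  avgL fun l => cov F (fun a => tM1 K m s a l) (fun a => tM1 K m s a l)
noncomputable def tV2 (s : σ) : ℝ :=
  I F fun a => avgL fun l => cov (K a) (fun p => m s p l) (fun p => m s p l)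
noncomputable def tA (s : σ) : ℝ := I F fun a => I (K a) fun p => hs (tCs m m2 s p)
noncomputable def tE (s : σ) : ℝ := I F fun a => I (K a) fun p => avgL fun l => m s p l ^ 2
noncomputable def tPur (s : σ) : ℝ :=
  hs fun l l' => cov (Ms.bind F K) (fun p => m s p l) (fun p => m s p l')

variable {F K m m2}

omit [Fintype L] in
theorem tM2_sub (s : σ) (a : α) (l l' : L) :
    tM2 K m2 s a l l' - tM1 K m s a l * tM1 K m s a l' =
      cov (K a) (fun p => m s p l) (fun p => m s p l') + I (K a) fun p => tCs m m2 s p l l' := by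
  simp only [tM1, tM2, tCs, cov, I_sub_fun]; ring

theorem hs_tCC_single (hF : F.Prob) (hK : ∀ a, F.coeff a ≠ 0 → (K a).Prob) (s : σ) :
    hs (tCC F K m m2 [s]) ≤ tPur F K m s + tA F K m m2 s := by
  have e : ∀ l l', tCC F K m m2 [s] l l' =
      cov (Ms.bind F K) (fun p => m s p l) (fun p => m s p l') +
        I F fun a => I (K a) fun p => tCs m m2 s p l l' := by
    intro l l'
    simp only [tCC, List.map_cons, List.map_nil, List.prod_cons, List.prod_nil, mul_one, cov,
      I_bind, tCs, I_sub_fun, tM1, tM2]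
    ring
  rw [hs_congr e]
  refine (hs_add_le _ _).trans (add_le_add le_rfl ?_)
  refine (hs_I_le hF.1 _).trans (I_mono hF.1 fun a ha => hs_I_le (hK a ha).1 _)

theorem tE_sub (s : σ) :
    avgL (fun l => (I F fun a => tM1 K m s a l) ^ 2) = tE F K m s - tV1 F K m s - tV2 F K m s := by
  simp only [tE, tV1, tV2, ← avgL_I, ← avgL_sub]
  congr 1; funext l
  simp only [cov, I_sub_fun, tM1, sq]
  ring

variable {G : γ → Prop}

omit [Fintype L] in
theorem tM1_mem (hK : ∀ a, F.coeff a ≠ 0 → (K a).Prob ∧ (K a).Supp G)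
    (hm : ∀ s p l, G p → 0 ≤ m s p l ∧ m s p l ≤ 1) (s : σ) {a : α} (ha : F.coeff a ≠ 0) (l : L) :
    0 ≤ tM1 K m s a l ∧ tM1 K m s a l ≤ 1 :=
  ⟨(hK a ha).1.ge_of_ge fun p hp => (hm s p l ((hK a ha).2 p hp)).1,
    (hK a ha).1.le_of_le fun p hp => (hm s p l ((hK a ha).2 p hp)).2⟩

omit [Fintype L] in
theorem tM2_mem (hK : ∀ a, F.coeff a ≠ 0 → (K a).Prob ∧ (K a).Supp G)
    (hm2 : ∀ s p l l', G p → 0 ≤ m2 s p l l' ∧ m2 s p l l' ≤ 1) (s : σ) {a : α}
    (ha : F.coeff a ≠ 0) (l l' : L) : 0 ≤ tM2 K m2 s a l l' ∧ tM2 K m2 s a l l' ≤ 1 :=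
  ⟨(hK a ha).1.ge_of_ge fun p hp => (hm2 s p l l' ((hK a ha).2 p hp)).1,
    (hK a ha).1.le_of_le fun p hp => (hm2 s p l l' ((hK a ha).2 p hp)).2⟩

theorem list_prod_map_mul' (ts : List σ) (f g : σ → ℝ) :
    (ts.map f).prod * (ts.map g).prod = (ts.map fun s => f s * g s).prod := by
  induction ts with
  | nil => simp
  | cons t ts ih => simp only [List.map_cons, List.prod_cons, ← ih]; ring

theorem list_sum_map_add' (ts : List σ) (f g : σ → ℝ) :
    (ts.map f).sum + (ts.map g).sum = (ts.map fun s => f s + g s).sum := by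
  induction ts with
  | nil => simp
  | cons t ts ih => simp only [List.map_cons, List.sum_cons, ← ih]; ring

theorem list_sum_map_mono (ts : List σ) {f g : σ → ℝ} (h : ∀ s ∈ ts, f s ≤ g s) :
    (ts.map f).sum ≤ (ts.map g).sum := by
  induction ts with
  | nil => simp
  | cons t ts ih =>
    simp only [List.map_cons, List.sum_cons]
    exact add_le_add (h t (by simp)) (ih fun s hs => h s (by simp [hs]))

theorem hs_tCC_le (hF : F.Prob) (hK : ∀ a, F.coeff a ≠ 0 → (K a).Prob ∧ (K a).Supp G)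
    (hm : ∀ s p l, G p → 0 ≤ m s p l ∧ m s p l ≤ 1)
    (hm2 : ∀ s p l l', G p → 0 ≤ m2 s p l l' ∧ m2 s p l l' ≤ 1) (ts : List σ) :
    hs (tCC F K m m2 ts) ≤ ts.length * (ts.map (tV1 F K m)).sum +
      (ts.map fun s => tV2 F K m s + tA F K m m2 s).sum := by
  have e : ∀ l l', tCC F K m m2 ts l l' =
      cov F (fun a => (ts.map fun s => tM1 K m s a l).prod)
        (fun a => (ts.map fun s => tM1 K m s a l').prod) +
      I F fun a => (ts.map fun s => tM2 K m2 s a l l').prod -
        (ts.map fun s => tM1 K m s a l * tM1 K m s a l').prod := by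
    intro l l'
    simp only [tCC, cov, I_sub_fun, list_prod_map_mul']
    ring
  rw [hs_congr e]
  refine (hs_add_le _ _).trans (add_le_add ?_ ?_)
  · refine (hs_cov_le_avgL hF fun a l => (ts.map fun s => tM1 K m s a l).prod).trans ?_
    refine (avgL_mono fun l => cov_list_prod_le hF ts (fun s a => tM1 K m s a l)
      fun s _ a ha => tM1_mem hK hm s ha l).trans (le_of_eq ?_)
    rw [avgL_const_mul, avgL_list_sum]
    rfl
  · refine (hs_I_le hF.1 _).trans ?_
    have e2 : (ts.map fun s => tV2 F K m s + tA F K m m2 s).sum = I F fun a => (ts.map fun s =>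
        (avgL fun l => cov (K a) (fun p => m s p l) (fun p => m s p l)) +
          I (K a) fun p => hs (tCs m m2 s p)).sum := by
      rw [I_list_sum]
      simp only [I_add_fun, tV2, tA]
    rw [e2]
    refine I_mono hF.1 fun a ha => ?_
    refine le_trans (hs_mono (N := fun l l' => (ts.map fun s =>
      |tM2 K m2 s a l l' - tM1 K m s a l * tM1 K m s a l'|).sum) fun l l' => ?_) ?_
    · refine le_trans ?_ (le_abs_self _)
      refine abs_list_prod_sub_le ts _ _ (fun s _ => tM2_mem hK hm2 s ha l l') fun s _ => ?_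
      have h1 := tM1_mem hK hm s ha l
      have h2 := tM1_mem hK hm s ha l'
      exact ⟨mul_nonneg h1.1 h2.1, mul_le_one₀ h1.2 h2.1 h2.2⟩
    · refine (hs_list_sum_le ts _).trans (list_sum_map_mono ts fun s _ => ?_)
      rw [hs_abs, hs_congr fun l l' => tM2_sub s a l l']
      exact (hs_add_le _ _).trans (add_le_add (hs_cov_le_avgL (hK a ha).1 fun p l => m s p l)
        (hs_I_le (hK a ha).1.1 _))

theorem two_level_step (hF : F.Prob) (hK : ∀ a, F.coeff a ≠ 0 → (K a).Prob ∧ (K a).Supp G)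
    (hm : ∀ s p l, G p → 0 ≤ m s p l ∧ m s p l ≤ 1)
    (hm2 : ∀ s p l l', G p → 0 ≤ m2 s p l l' ∧ m2 s p l l' ≤ 1)
    {P : Ms σ} (hP : P.NN) {w : σ → ℝ} (hw : ∀ s, 0 ≤ w s) (hPw : I P w ≤ 1 / 2)
    {c : ℕ → ℝ} {θ : ℝ} {Q' : ℕ} (hQ : 1 ≤ Q') (hc : ∀ q, 0 ≤ c q) (h0 : c 0 = 0) (h1 : c 1 = θ)
    (hsum : ∑ q ∈ Finset.range (Q' + 1), c q ≤ 1) (hθ : 1 / 2 ≤ θ) (hθ1 : θ ≤ 1) :
    (∑ q ∈ Finset.range (Q' + 1), c q *
        I (listPow P q) fun ts => (ts.map w).prod * hs (tCC F K m m2 ts)) +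
      6 * (1 - θ) * (∑ q ∈ Finset.range (Q' + 1), c q * I (listPow P q) fun ts =>
        (ts.map w).prod * avgL fun l => (I F fun a => (ts.map fun s => tM1 K m s a l).prod) ^ 2)
    ≤ (I P fun s => w s * tPur F K m s) + 6 * (1 - θ) * (1 - θ) +
      (1 + 3 * (1 - θ)) * ((I P fun s => w s * tA F K m m2 s) +
        6 * (1 - θ) * I P fun s => w s * tE F K m s) := by
  have hV1 : ∀ s, 0 ≤ tV1 F K m s := fun s => avgL_nonneg fun l => cov_self_nonneg hF _
  have hV2 : ∀ s, 0 ≤ tV2 F K m s := fun s =>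
    I_nonneg hF.1 fun a ha => avgL_nonneg fun l => cov_self_nonneg (hK a ha).1 _
  have hA : ∀ s, 0 ≤ tA F K m m2 s := fun s =>
    I_nonneg hF.1 fun a ha => I_nonneg (hK a ha).1.1 fun p _ => hs_nonneg _
  have hE : ∀ s, 0 ≤ tE F K m s := fun s =>
    I_nonneg hF.1 fun a ha => I_nonneg (hK a ha).1.1 fun p _ => avgL_nonneg fun l => sq_nonneg _
  set a1 := I P fun s => w s * tPur F K m s with ha1
  set aA := I P fun s => w s * tA F K m m2 s with haA
  set aE := I P fun s => w s * tE F K m s with haE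
  set aV := I P fun s => w s * (tV1 F K m s + tV2 F K m s) with haV
  have ha1' : 0 ≤ a1 := I_nonneg hP fun s _ => mul_nonneg (hw s) (hs_nonneg _)
  have haA' : 0 ≤ aA := I_nonneg hP fun s _ => mul_nonneg (hw s) (hA s)
  have haE' : 0 ≤ aE := I_nonneg hP fun s _ => mul_nonneg (hw s) (hE s)
  have haV' : 0 ≤ aV := I_nonneg hP fun s _ => mul_nonneg (hw s) (add_nonneg (hV1 s) (hV2 s))
  have hIw : 0 ≤ I P w := I_nonneg hP fun s _ => hw s
  have hprod : ∀ ts : List σ, 0 ≤ (ts.map w).prod := fun ts =>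
    List.prod_nonneg fun x hx => by
      obtain ⟨s, _, rfl⟩ := List.mem_map.1 hx; exact hw s
  have key1 := sum_split (x := fun q => I (listPow P q) fun ts =>
      (ts.map w).prod * hs (tCC F K m m2 ts)) (X₁ := a1 + aA) (X := 3 * (aV + aA))
      hQ hc h0 h1 hsum (by positivity) ?_ ?_
  have key2 := sum_split (x := fun q => I (listPow P q) fun ts =>
      (ts.map w).prod * avgL fun l => (I F fun a => (ts.map fun s => tM1 K m s a l).prod) ^ 2)
      (X₁ := aE - aV) (X := 1) hQ hc h0 h1 hsum zero_le_one ?_ ?_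
  · have h2 : 0 ≤ 1 - θ := by linarith
    have h3 := mul_le_mul_of_nonneg_left key2 (by positivity : 0 ≤ 6 * (1 - θ))
    have h4 : 0 ≤ (1 - θ) * ((2 * θ - 1) * aV) := mul_nonneg h2 (mul_nonneg (by linarith) haV')
    have h5 : 0 ≤ (1 - θ) * a1 := mul_nonneg h2 ha1'
    have h6 : 0 ≤ (1 - θ) * aA := mul_nonneg h2 haA'
    have h7 : 0 ≤ (1 - θ) * ((1 - θ) * aE) := mul_nonneg h2 (mul_nonneg h2 haE')
    nlinarith
  · simp only [I_listPow_succ, I_listPow_zero, List.map_cons, List.map_nil, List.prod_cons,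
      List.prod_nil, mul_one, tE_sub, haE, haV, ← I_sub_fun]
    refine le_of_eq ?_
    congr 1; funext s; ring
  · intro q _
    calc _ ≤ I (listPow P q) fun ts => (ts.map w).prod :=
          I_mono (hP.listPow q) fun ts _ => mul_le_of_le_one_right (hprod ts)
            (avgL_le_one fun l => by
              have h1 : 0 ≤ I F fun a => (ts.map fun s => tM1 K m s a l).prod :=
                hF.ge_of_ge fun a ha => (list_prod_mem ts _ fun s _ => tM1_mem hK hm s ha l).1
              have h2 : (I F fun a => (ts.map fun s => tM1 K m s a l).prod) ≤ 1 :=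
                hF.le_of_le fun a ha => (list_prod_mem ts _ fun s _ => tM1_mem hK hm s ha l).2
              exact pow_le_one₀ h1 h2)
      _ = (I P w) ^ q := I_listPow_prod P w q
      _ ≤ 1 := pow_le_one₀ hIw (by linarith)
  · simp only [I_listPow_succ, I_listPow_zero, List.map_cons, List.map_nil, List.prod_cons,
      List.prod_nil, mul_one, ha1, haA, ← I_add_fun]
    refine I_mono hP fun s _ => ?_
    rw [← mul_add]
    exact mul_le_mul_of_nonneg_left (hs_tCC_single hF (fun a ha => (hK a ha).1) s) (hw s)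
  · intro q hq
    have hq1 : (1 : ℝ) ≤ q := by exact_mod_cast (by omega : 1 ≤ q)
    calc _ ≤ I (listPow P q) fun ts => (ts.map w).prod *
            (ts.map fun s => q * (tV1 F K m s + tV2 F K m s + tA F K m m2 s)).sum := by
          refine ((supp_true P).listPow q).I_mono (hP.listPow q) fun ts hts => ?_
          refine mul_le_mul_of_nonneg_left ((hs_tCC_le hF hK hm hm2 ts).trans ?_) (hprod ts)
          rw [hts.1, ← List.sum_map_mul_left, list_sum_map_add']
          refine list_sum_map_mono ts fun s _ => ?_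
          nlinarith [hV2 s, hA s]
      _ = q * (I P w) ^ (q - 1) * (q * (aV + aA)) := by
          rw [I_listPow_prod_sum, haV, haA, ← I_add_fun, ← I_const_mul P (q : ℝ)]
          congr 2; funext s; ring
      _ ≤ q * (1 / 2) ^ (q - 1) * (q * (aV + aA)) := by gcongr
      _ = q * q * (1 / 2) ^ (q - 1) * (aV + aA) := by ring
      _ ≤ 3 * (aV + aA) := mul_le_mul_of_nonneg_right (sq_mul_half_pow_le q) (by positivity)

end two

end Crest.Agent.R153
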