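import Crest.Agent.R153.E_Prim

/-!
Row 153, part E: soundness and completeness of the certificate check.
-/

set_option autoImplicit false

namespace Crest.Agent.R153.PartE

open Ms Nest Finset Filter

/-! ### Rounding -/

noncomputable def loR (θ : ℝ) (N : ℕ) (x : ℝ) : ℝ := (⌊(N : ℝ) * (max x 0) ^ θ⌋₊ : ℝ) / N

noncomputable def hiR (θ : ℝ) (N : ℕ) (x : ℝ) : ℝ := ((⌊(N : ℝ) * (max x 0) ^ θ⌋₊ : ℝ) + 1) / N

theorem fl_eq {Q N : ℕ} (hQ : 2 ≤ Q) (hN : 0 < N) (y : ℚ) :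
    fl Q N y = ⌊(N : ℝ) * (max (y : ℝ) 0) ^ th Q⌋₊ := by
  have hth := th_mem hQ
  set x : ℝ := max (y : ℝ) 0 with hx
  have hx0 : 0 ≤ x := le_max_right _ _
  have hN' : (0 : ℝ) < N := by exact_mod_cast hN
  have hxθ : 0 ≤ x ^ th Q := Real.rpow_nonneg hx0 _
  have hpow : (x ^ th Q) ^ Q = x ^ (Q - 1) := by
    rw [← Real.rpow_natCast, ← Real.rpow_mul hx0, ← Real.rpow_natCast]
    congr 1
    have : (Q : ℝ) ≠ 0 := by positivity
    rw [Nat.cast_sub (by omega), th]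
    field_simp
    simp
  have key : ∀ z : ℕ, (((z : ℚ) / N) ^ Q ≤ (max y 0) ^ (Q - 1)) ↔ z ≤ ⌊(N : ℝ) * x ^ th Q⌋₊ := by
    intro z
    rw [Nat.le_floor_iff (by positivity), ← Rat.cast_le (K := ℝ)]
    push_cast
    rw [← hx, ← hpow, pow_le_pow_iff_left₀ (by positivity) hxθ (by omega), div_le_iff₀ hN',
      mul_comm]
  have hb : ⌊(N : ℝ) * x ^ th Q⌋₊ ≤ N * (y.num.natAbs + 1) := by
    apply Nat.floor_le_of_le
    push_cast
    refine mul_le_mul_of_nonneg_left ?_ hN'.le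
    have h1 : x ≤ |(y.num : ℝ)| := by
      refine max_le ?_ (abs_nonneg _)
      have h2 : (y : ℝ) = y.num / y.den := by exact_mod_cast (Rat.num_div_den y).symm
      have h3 : (1 : ℝ) ≤ y.den := by exact_mod_cast y.den_pos
      rw [h2]
      calc (y.num : ℝ) / y.den ≤ |(y.num : ℝ)| / y.den := by gcongr; exact le_abs_self _
        _ ≤ |(y.num : ℝ)| := div_le_self (abs_nonneg _) h3
    have h2 : x ^ th Q ≤ x + 1 := by
      rcases le_total x 1 with h | h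
      · linarith [Real.rpow_le_one hx0 h (by linarith [hth.1] : 0 ≤ th Q)]
      · have := Real.rpow_le_rpow_of_exponent_le h hth.2.le
        rw [Real.rpow_one] at this
        linarith
    rw [Nat.cast_natAbs]
    push_cast
    linarith
  refine le_antisymm ?_ (Nat.le_findGreatest hb ((key _).2 le_rfl))
  exact (key _).1 (Nat.findGreatest_spec
    (P := fun z : ℕ => ((z : ℚ) / N) ^ Q ≤ (max y 0) ^ (Q - 1)) (Nat.zero_le _)
    ((key 0).2 (Nat.zero_le _)))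

theorem loQ_cast {Q N : ℕ} (hQ : 2 ≤ Q) (hN : 0 < N) (y : ℚ) :
    (loQ Q N y : ℝ) = loR (th Q) N y := by
  rw [loQ, loR, fl_eq hQ hN]; push_cast; rfl

theorem hiQ_cast {Q N : ℕ} (hQ : 2 ≤ Q) (hN : 0 < N) (y : ℚ) :
    (hiQ Q N y : ℝ) = hiR (th Q) N y := by
  rw [hiQ, hiR, fl_eq hQ hN]; push_cast; rfl

theorem loR_le (θ : ℝ) {N : ℕ} (hN : 0 < N) (x : ℝ) : loR θ N x ≤ (max x 0) ^ θ := by
  have hN' : (0 : ℝ) < N := by exact_mod_cast hN
  rw [loR, div_le_iff₀ hN', mul_comm _ (N : ℝ)]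
  exact Nat.floor_le (mul_nonneg hN'.le (Real.rpow_nonneg (le_max_right _ _) _))

theorem le_hiR (θ : ℝ) {N : ℕ} (hN : 0 < N) (x : ℝ) : (max x 0) ^ θ ≤ hiR θ N x := by
  have hN' : (0 : ℝ) < N := by exact_mod_cast hN
  rw [hiR, le_div_iff₀ hN', mul_comm]
  exact (Nat.lt_floor_add_one _).le

theorem hiR_eq (θ : ℝ) (N : ℕ) (x : ℝ) : hiR θ N x = loR θ N x + 1 / N := by
  rw [hiR, loR, add_div]

theorem tendsto_inv_succ : Tendsto (fun n : ℕ => 1 / ((n + 1 : ℕ) : ℝ)) atTop (nhds 0) := by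
  simpa using tendsto_one_div_add_atTop_nhds_zero_nat (𝕜 := ℝ)

theorem rpow_max_tendsto {θ : ℝ} (hθ : 0 ≤ θ) {x : ℕ → ℝ} {y : ℝ} (h : Tendsto x atTop (nhds y)) :
    Tendsto (fun n => (max (x n) 0) ^ θ) atTop (nhds ((max y 0) ^ θ)) :=
  ((Real.continuous_rpow_const hθ).tendsto _).comp (h.max tendsto_const_nhds)

theorem loR_tendsto {θ : ℝ} (hθ : 0 ≤ θ) (x : ℕ → ℝ) (y : ℝ) (h : Tendsto x atTop (nhds y)) :
    Tendsto (fun n => loR θ (n + 1) (x n)) atTop (nhds ((max y 0) ^ θ)) := by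
  have h1 := rpow_max_tendsto hθ h
  have h2 := h1.sub tendsto_inv_succ
  rw [sub_zero] at h2
  refine tendsto_of_tendsto_of_tendsto_of_le_of_le h2 h1 (fun n => ?_)
    (fun n => loR_le θ n.succ_pos _)
  have := le_hiR θ n.succ_pos (x n)
  rw [hiR_eq] at this
  dsimp only
  linarith

theorem hiR_tendsto {θ : ℝ} (hθ : 0 ≤ θ) (x : ℕ → ℝ) (y : ℝ) (h : Tendsto x atTop (nhds y)) :
    Tendsto (fun n => hiR θ (n + 1) (x n)) atTop (nhds ((max y 0) ^ θ)) := by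
  have := (loR_tendsto hθ x y h).add tendsto_inv_succ
  rw [add_zero] at this
  simpa only [hiR_eq] using this

/-! ### Casts -/

section cast
variable {ρ : ℚ → ℚ} {ρ' : ℝ → ℝ}

theorem ev_cast (h : ∀ y : ℚ, (ρ y : ℝ) = ρ' y) (c : ℕ) :
    ∀ (j : ℕ) (W : List ℕ → ℕ → ℚ) (g : List ℕ → ℚ),
      ((ev ρ c j W g : ℚ) : ℝ) = ev ρ' c j (fun q d => (W q d : ℝ)) (fun p => (g p : ℝ))
  | 0, _, _ => rfl
  | j + 1, W, g => by
    rw [ev, ev, h]
    push_cast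
    simp only [ev_cast h c j]

theorem evp_cast (h : ∀ y : ℚ, (ρ y : ℝ) = ρ' y) (c j : ℕ) (W : List ℕ → ℕ → ℚ)
    (g : List ℕ → ℚ) :
    ((evp ρ c j W g : ℚ) : ℝ) = evp ρ' c j (fun q d => (W q d : ℝ)) (fun p => (g p : ℝ)) := by
  rw [evp, evp]
  push_cast
  simp only [ev_cast h c j]

theorem clF_cast (b : ℕ) (r : List ℕ → ℚ) (σ : Bool) (p : List ℕ) :
    ((clF b r σ p : ℚ) : ℝ) = clF b (fun p => (r p : ℝ)) σ p := by
  unfold clF powF
  split_ifs <;> simp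

theorem siteV_cast (h : ∀ y : ℚ, (ρ y : ℝ) = ρ' y) (b j J : ℕ) (W : List ℕ → ℕ → ℚ)
    (r : List ℕ → ℚ) :
    ((siteV ρ b j J W r : ℚ) : ℝ) =
      siteV ρ' b j J (fun q d => (W q d : ℝ)) (fun p => (r p : ℝ)) := by
  rw [siteV, siteV, evp_cast h]
  congr 1
  · funext q d
    simp [powW, clW]
  · funext p
    simp [siteG, powF, clF_cast]

theorem clauseV_cast (h : ∀ y : ℚ, (ρ y : ℝ) = ρ' y) (b j : ℕ) (W : List ℕ → ℕ → ℚ)
    (r : List ℕ → ℚ) :
    ((clauseV ρ b j W r : ℚ) : ℝ) =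
      clauseV ρ' b j (fun q d => (W q d : ℝ)) (fun p => (r p : ℝ)) := by
  rw [clauseV, clauseV, evp_cast h]
  congr 1
  · funext q d
    simp [powW]
  · funext p
    simp [powF]

theorem Lq_cast (n : ℕ) (y : ℚ) : ((Lq n y : ℚ) : ℝ) = Lq n (y : ℝ) := by
  simp [Lq]

end cast

theorem chk_iff (a : ℚ) (Q b j J₀ n : ℕ) (tW tR : List ℕ) :
    chk a Q b j J₀ n tW tR ↔ 2 ≤ Q ∧ 1 ≤ b ∧
      lhsV (hiR (th Q) (n + 1)) (a : ℝ) b j J₀ n (tabW ℝ tW b) (tabR ℝ tR (n + 1)) <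
        rhsV (loR (th Q) (n + 1)) (a : ℝ) b j n (tabW ℝ tW b) (tabR ℝ tR (n + 1)) := by
  refine and_congr_right fun hQ => and_congr_right fun _ => ?_
  have e1 : (fun q d => ((tabW ℚ tW b q d : ℚ) : ℝ)) = tabW ℝ tW b := by
    funext q d; simp [tabW]
  have e2 : (fun p => ((tabR ℚ tR (n + 1) p : ℚ) : ℝ)) = tabR ℝ tR (n + 1) := by
    funext p; simp [tabR]
  rw [← Rat.cast_lt (K := ℝ), lhsV, rhsV, lhsV, rhsV, Lq_cast]
  push_cast
  simp only [Lq_cast, siteV_cast (hiQ_cast hQ n.succ_pos), clauseV_cast (loQ_cast hQ n.succ_pos),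
    e1, e2]
  push_cast
  rfl

/-! ### The exponential -/

theorem Lq_nonneg (n : ℕ) (y : ℝ) : 0 ≤ Lq n y := pow_nonneg (le_max_right _ _) _

theorem Lq_le {n : ℕ} {y z : ℝ} (h : y ≤ z) (hn : 0 < n) : Lq n y ≤ Real.exp z := by
  have hn' : (0 : ℝ) < n := by exact_mod_cast hn
  have h1 : max (1 + y / n) 0 ≤ Real.exp (z / n) := by
    refine max_le ?_ (Real.exp_pos _).le
    have := Real.add_one_le_exp (z / n)
    have h2 : y / n ≤ z / n := by gcongr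
    linarith
  refine (pow_le_pow_left₀ (le_max_right _ _) h1 n).trans (le_of_eq ?_)
  rw [← Real.exp_nat_mul]
  congr 1
  field_simp

theorem Lq_tendsto {y : ℕ → ℝ} {z : ℝ} (h : Tendsto y atTop (nhds z)) :
    Tendsto (fun n => Lq n (y n)) atTop (nhds (Real.exp z)) := by
  have h1 : Tendsto (fun n : ℕ => (1 + y n / n) ^ n) atTop (nhds (Real.exp z)) := by
    refine Real.tendsto_one_add_pow_exp_of_tendsto (h.congr' ?_)
    filter_upwards [eventually_gt_atTop 0] with n hn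
    have : (n : ℝ) ≠ 0 := by positivity
    field_simp
  have h2 : Tendsto (fun n : ℕ => 1 + y n / n) atTop (nhds (1 + 0)) :=
    (h.div_atTop tendsto_natCast_atTop_atTop).const_add 1
  refine h1.congr' ?_
  filter_upwards [h2.eventually (lt_mem_nhds (show (0 : ℝ) < 1 + 0 by norm_num))] with n hn
  rw [Lq, max_eq_left hn.le]

theorem hasSum_poi' (x : ℝ) : HasSum (poi x) 1 := by
  have h := (NormedSpace.expSeries_div_hasSum_exp x).mul_left (Real.exp (-x))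
  rw [← Real.exp_eq_exp_ℝ, ← Real.exp_add, neg_add_cancel, Real.exp_zero] at h
  have e1 : poi x = fun i : ℕ => Real.exp (-x) * (x ^ i / (i.factorial : ℝ)) := by
    funext j
    unfold poi
    ring
  rw [e1]
  exact h

theorem poi_nonneg' {x : ℝ} (hx : 0 ≤ x) (J : ℕ) : 0 ≤ poi x J := by
  unfold poi; positivity

theorem hasSum_gap {x : ℝ} (hx : 0 ≤ x) {s : ℕ → ℝ} (hs : ∀ J, 0 ≤ s J ∧ s J ≤ 2) :
    HasSum (fun J => poi x J * (2 - s J)) (2 - ∑' J, poi x J * s J) := by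
  have h1 : Summable fun J => poi x J * s J :=
    Summable.of_nonneg_of_le (fun J => mul_nonneg (poi_nonneg' hx J) (hs J).1)
      (fun J => mul_le_mul_of_nonneg_left (hs J).2 (poi_nonneg' hx J))
      ((hasSum_poi' x).summable.mul_right 2)
  have h2 := ((hasSum_poi' x).mul_right 2).sub h1.hasSum
  rw [one_mul] at h2
  simpa only [mul_sub] using h2

theorem PiF_lt_iff (θ a : ℝ) {j : ℕ} (ξ : Ms (Nest ℝ j)) :
    PiF θ 3 a ξ < 1 ↔
      ∑' J, poi (3 * a) J * siteW θ 3 ξ J < Real.exp (2 * a * (clauseW θ 3 ξ - 1)) := by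
  rw [PiF, ← lt_div_iff₀ (Real.exp_pos _), one_div, ← Real.exp_neg]
  have e : -((((3 : ℕ) : ℝ) - 1) * a * (1 - clauseW θ 3 ξ)) = 2 * a * (clauseW θ 3 ξ - 1) := by
    push_cast; ring
  rw [e]
  rfl

theorem tabW_nonneg (tab : List ℕ) (b : ℕ) (q : List ℕ) (d : ℕ) : 0 ≤ tabW ℝ tab b q d :=
  div_nonneg (by positivity) (Finset.sum_nonneg fun _ _ => by positivity)

theorem tabW_sum (tab : List ℕ) {b : ℕ} (hb : 1 ≤ b) (q : List ℕ) :
    ∑ d ∈ range b, tabW ℝ tab b q d = 1 := by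
  simp only [tabW]
  rw [← Finset.sum_div, div_self]
  exact (Finset.sum_pos (fun _ _ => by positivity) ⟨0, Finset.mem_range.2 hb⟩).ne'

theorem tabR_mem (tab : List ℕ) (N : ℕ) (p : List ℕ) : R01 (tabR ℝ tab N p) :=
  ⟨by unfold tabR; positivity, div_le_one_of_le₀ (by exact_mod_cast min_le_right _ _)
    (by positivity)⟩

theorem sound (a : ℚ) (ha : 0 ≤ a) (Q b j J₀ n : ℕ) (tW tR : List ℕ)
    (h : chk a Q b j J₀ (n + 1) tW tR) :
    ∃ ξ : Ms (Nest ℝ j), GoodM R01 ξ ∧ PiF (th Q) 3 a ξ < 1 := by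
  obtain ⟨hQ, hb, h⟩ := (chk_iff _ _ _ _ _ _ _ _).1 h
  have hth := th_mem hQ
  have hθ : 0 ≤ th Q := by linarith [hth.1]
  have ha' : (0 : ℝ) ≤ a := by exact_mod_cast ha
  set W := tabW ℝ tW b
  set r := tabR ℝ tR (n + 1 + 1)
  have hW : ∀ q d, 0 ≤ W q d := tabW_nonneg _ _
  have hr : ∀ p, R01 (r p) := tabR_mem _ _
  have hg : GoodM R01 (dn (wtree b (j + 1) W r)) :=
    good_wtree b (j + 1) W r hW (tabW_sum _ hb) hr
  refine ⟨_, hg, (PiF_lt_iff _ _ _).2 ?_⟩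
  have hs := siteW_mem hθ hth.2.le hg
  have h1 := hasSum_gap (x := 3 * a) (by positivity) hs
  have h2 := sum_le_hasSum (range J₀)
    (fun J _ => mul_nonneg (poi_nonneg' (by positivity) J) (sub_nonneg.2 (hs J).2)) h1
  have h3 : ∑ J ∈ range J₀, Lq (n + 1) (-(3 * (a : ℝ))) * (3 * (a : ℝ)) ^ J / (J.factorial : ℝ) *
      (2 - siteV (hiR (th Q) (n + 1 + 1)) b j J W r) ≤
      ∑ J ∈ range J₀, poi (3 * a) J * (2 - siteW (th Q) 3 (dn (wtree b (j + 1) W r)) J) := by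
    refine Finset.sum_le_sum fun J _ => ?_
    have h4 : siteW (th Q) 3 (dn (wtree b (j + 1) W r)) J ≤
        siteV (hiR (th Q) (n + 1 + 1)) b j J W r := by
      rw [siteW_eq]
      refine siteV_mono (fun x y hx hxy => ⟨Real.rpow_nonneg hx _, ?_⟩) hW hr b j J
      exact (Real.rpow_le_rpow hx (hxy.trans (le_max_left _ _)) hθ).trans
        (le_hiR _ (Nat.succ_pos _) y)
    have h5 : Lq (n + 1) (-(3 * (a : ℝ))) * (3 * (a : ℝ)) ^ J / (J.factorial : ℝ) ≤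
        poi (3 * a) J := by
      unfold poi
      gcongr
      exact Lq_le le_rfl n.succ_pos
    have h6 : 0 ≤ Lq (n + 1) (-(3 * (a : ℝ))) * (3 * (a : ℝ)) ^ J / (J.factorial : ℝ) := by
      have := Lq_nonneg (n + 1) (-(3 * (a : ℝ)))
      positivity
    exact (mul_le_mul_of_nonneg_left (by linarith) h6).trans
      (mul_le_mul_of_nonneg_right h5 (sub_nonneg.2 (hs J).2))
  have h4 : clauseV (loR (th Q) (n + 1 + 1)) b j W r ≤
      clauseW (th Q) 3 (dn (wtree b (j + 1) W r)) := by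
    rw [clauseW_eq]
    refine clauseV_mono (fun x y hx hxy => ⟨by unfold loR; positivity, ?_⟩) hW hr b j
    refine (loR_le _ (Nat.succ_pos _) x).trans ?_
    rw [max_eq_left hx]
    exact Real.rpow_le_rpow hx hxy hθ
  have h5 : rhsV (loR (th Q) (n + 1 + 1)) (a : ℝ) b j (n + 1) W r ≤
      Real.exp (2 * a * (clauseW (th Q) 3 (dn (wtree b (j + 1) W r)) - 1)) :=
    Lq_le (by nlinarith) n.succ_pos
  rw [lhsV] at h
  linarith

theorem exists_tab (F : ℕ → List ℕ → ℕ) :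
    ∃ tab : ℕ → List ℕ, ∀ p, ∀ᶠ n in atTop, (tab n).getD (enc p) 0 = F n p := by
  refine ⟨fun n => (List.range n).map fun k =>
    F n ((@Encodable.decode (List ℕ) Primcodable.toEncodable k).getD []), fun p => ?_⟩
  filter_upwards [eventually_gt_atTop (enc p)] with n hn
  rw [List.getD_eq_getElem _ _ (by simpa using hn)]
  simp [enc]

theorem floor_div_tendsto {x : ℝ} (hx : 0 ≤ x) :
    Tendsto (fun n : ℕ => (⌊((n + 1 : ℕ) : ℝ) * x⌋₊ : ℝ) / ((n + 1 : ℕ) : ℝ)) atTop (nhds x) := by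
  have := loR_tendsto zero_le_one (fun _ => x) x tendsto_const_nhds
  simpa only [loR, Real.rpow_one, max_eq_left hx] using this

theorem complete (a : ℚ) (ha : 0 ≤ a) (Q j : ℕ) (hQ : 2 ≤ Q) (ξ : Ms (Nest ℝ j))
    (hg : GoodM R01 ξ) (h : PiF (th Q) 3 a ξ < 1) :
    ∃ (b J₀ n : ℕ) (tW tR : List ℕ), chk a Q b j J₀ (n + 1) tW tR := by
  have hth := th_mem hQ
  have hθ : 0 ≤ th Q := by linarith [hth.1]
  have ha' : (0 : ℝ) ≤ a := by exact_mod_cast ha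
  obtain ⟨b₀, hb₀⟩ := exists_wtree (j + 1) (up ξ) hg
  obtain ⟨W, r, hW, hW1, hr, hξ⟩ := hb₀ (b₀ + 1) (by omega)
  set b := b₀ + 1
  have hξ' : ξ = dn (wtree b (j + 1) W r) := by rw [← hξ, dn_up]
  rw [PiF_lt_iff] at h
  have hs := siteW_mem hθ hth.2.le hg
  have h1 := (hasSum_gap (x := 3 * a) (by positivity) hs).tendsto_sum_nat.const_sub 2
  rw [sub_sub_cancel] at h1
  obtain ⟨J₀, hJ₀⟩ := (h1.eventually (gt_mem_nhds h)).exists
  obtain ⟨tW, htW⟩ := exists_tab fun n p => ⌊((n + 1 : ℕ) : ℝ) * W p.tail p.headI⌋₊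
  obtain ⟨tR, htR⟩ := exists_tab fun n p => ⌊((n + 1 : ℕ) : ℝ) * r p⌋₊
  have hWn : ∀ q d, Tendsto (fun n => tabW ℝ (tW n) b q d) atTop (nhds (W q d)) := by
    have h2 : ∀ q d, Tendsto (fun n : ℕ => ((((tW n).getD (enc (d :: q)) 0 : ℕ) : ℝ) + 1) /
        ((n + 1 : ℕ) : ℝ)) atTop (nhds (W q d)) := by
      intro q d
      have h3 := (floor_div_tendsto (hW q d)).add tendsto_inv_succ
      rw [add_zero] at h3
      refine h3.congr' ?_
      filter_upwards [htW (d :: q)] with n hn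
      rw [hn, add_div]
      rfl
    intro q d
    have h3 := (h2 q d).div (tendsto_finsetSum (range b) fun d' _ => h2 q d')
      (by rw [hW1]; norm_num)
    rw [hW1, div_one] at h3
    refine h3.congr fun n => ?_
    have : (((n + 1 : ℕ) : ℝ)) ≠ 0 := by positivity
    simp only [Pi.div_apply, tabW]
    rw [← Finset.sum_div, div_div_div_cancel_right₀ this]
  have hrn : ∀ p, Tendsto (fun n => tabR ℝ (tR n) (n + 1) p) atTop (nhds (r p)) := by
    intro p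
    refine (floor_div_tendsto (hr p).1).congr' ?_
    filter_upwards [htR p] with n hn
    rw [tabR, hn, min_eq_left]
    apply Nat.floor_le_of_le
    exact mul_le_of_le_one_right (by positivity) (hr p).2
  have hmax1 : ∀ x y : ℝ, 0 ≤ x → x ≤ y → 0 ≤ (max x 0) ^ th Q ∧ (max x 0) ^ th Q ≤ y ^ th Q := by
    intro x y hx hxy
    rw [max_eq_left hx]
    exact ⟨Real.rpow_nonneg hx _, Real.rpow_le_rpow hx hxy hθ⟩
  have hmax2 : ∀ x y : ℝ, 0 ≤ x → x ≤ y → 0 ≤ x ^ th Q ∧ x ^ th Q ≤ (max y 0) ^ th Q := by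
    intro x y hx hxy
    rw [max_eq_left (hx.trans hxy)]
    exact ⟨Real.rpow_nonneg hx _, Real.rpow_le_rpow hx hxy hθ⟩
  have es : ∀ J, siteV (fun x => (max x 0) ^ th Q) b j J W r = siteW (th Q) 3 ξ J := by
    intro J
    rw [hξ', siteW_eq]
    exact le_antisymm (siteV_mono hmax1 hW hr b j J) (siteV_mono hmax2 hW hr b j J)
  have ec : clauseV (fun x => (max x 0) ^ th Q) b j W r = clauseW (th Q) 3 ξ := by
    rw [hξ', clauseW_eq]
    exact le_antisymm (clauseV_mono hmax1 hW hr b j) (clauseV_mono hmax2 hW hr b j)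
  have hl : Tendsto (fun n => lhsV (hiR (th Q) (n + 1)) (a : ℝ) b j J₀ n (tabW ℝ (tW n) b)
      (tabR ℝ (tR n) (n + 1))) atTop
      (nhds (2 - ∑ J ∈ range J₀, poi (3 * a) J * (2 - siteW (th Q) 3 ξ J))) := by
    refine (tendsto_finsetSum _ fun J _ => ?_).const_sub 2
    refine Tendsto.mul (((Lq_tendsto tendsto_const_nhds).mul_const _).div_const _) ?_
    rw [← es]
    exact (siteV_tendsto (ρ := fun n => hiR (th Q) (n + 1)) (hiR_tendsto hθ) hWn hrn b j J).const_sub 2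
  have hrr : Tendsto (fun n => rhsV (loR (th Q) (n + 1)) (a : ℝ) b j n (tabW ℝ (tW n) b)
      (tabR ℝ (tR n) (n + 1))) atTop (nhds (Real.exp (2 * a * (clauseW (th Q) 3 ξ - 1)))) := by
    refine Lq_tendsto ?_
    rw [← ec]
    exact ((clauseV_tendsto (ρ := fun n => loR (th Q) (n + 1)) (loR_tendsto hθ) hWn hrn b
      j).sub_const 1).const_mul _
  obtain ⟨n, hn, hn1⟩ := ((hl.eventually_lt hrr hJ₀).and (eventually_ge_atTop 1)).exists
  obtain ⟨n, rfl⟩ := Nat.exists_eq_add_of_le' hn1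
  exact ⟨b, J₀, n, tW (n + 1), tR (n + 1), (chk_iff _ _ _ _ _ _ _ _).2 ⟨hQ, by omega, hn⟩⟩

theorem upper_cert' : ∃ P : ℕ × ℕ × ℕ → Prop, ComputablePred P ∧ ∀ u v : ℕ,
    ((∃ w, P (u, v, w)) ↔ ∃ (Q j : ℕ) (ξ : Ms (Nest ℝ j)), 2 ≤ Q ∧ GoodM R01 ξ ∧
      PiF (th Q) 3 ((u : ℝ) / (v + 1)) ξ < 1) := by
  obtain ⟨P, hP, h⟩ := exists_cert (T := Cert) (fun x => chk ((x.1.1 : ℚ) / (x.1.2 + 1))
      x.2.1 x.2.2.1 x.2.2.2.1 x.2.2.2.2.1 (x.2.2.2.2.2.1 + 1) x.2.2.2.2.2.2.1 x.2.2.2.2.2.2.2)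
    (by
      open Primrec Crest.Agent.Lib.PrimrecRat in
      exact prim_chk (rat_div.comp (rat_natCast.comp (fst.comp fst))
          (rat_add.comp (rat_natCast.comp (snd.comp fst)) (const 1)))
        (fst.comp snd) (fst.comp (snd.comp snd)) (fst.comp (snd.comp (snd.comp snd)))
        (fst.comp (snd.comp (snd.comp (snd.comp snd))))
        (nat_add.comp (fst.comp (snd.comp (snd.comp (snd.comp (snd.comp snd))))) (const 1))
        (fst.comp (snd.comp (snd.comp (snd.comp (snd.comp (snd.comp snd))))))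
        (snd.comp (snd.comp (snd.comp (snd.comp (snd.comp (snd.comp snd)))))))
  refine ⟨P, hP, fun u v => (h u v).trans ?_⟩
  have hc : (((u : ℚ) / (v + 1) : ℚ) : ℝ) = (u : ℝ) / (v + 1) := by push_cast; rfl
  have ha : (0 : ℚ) ≤ (u : ℚ) / (v + 1) := by positivity
  constructor
  · rintro ⟨⟨Q, b, j, J₀, n, tW, tR⟩, ht⟩
    obtain ⟨ξ, h1, h2⟩ := sound _ ha Q b j J₀ n tW tR ht
    exact ⟨Q, j, ξ, ht.1, h1, hc ▸ h2⟩
  · rintro ⟨Q, j, ξ, hQ, h1, h2⟩
    obtain ⟨b, J₀, n, tW, tR, ht⟩ := complete _ ha Q j hQ ξ h1 (hc ▸ h2)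
    exact ⟨⟨Q, b, j, J₀, n, tW, tR⟩, ht⟩

end Crest.Agent.R153.PartE
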