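import Crest.Agent.R153.Poi
import Crest.Agent.R153.E_Main

/-!
Row 153, task R153-E: the condition `∃ Q j ξ, PiF (th Q) 3 a ξ < 1` is semidecidable for rational `a`.
Owner: put work in `R153/E_*.lean`, keep the statement below.

PLAN (any variant is fine).  Parametrise good scalar nests of depth `K = j+1` by trees of constant
branching `b`: weights `W : List (Fin b) → ℝ` (or on lists of naturals; unnormalised, the weight of child
`d` of node `p` is `W (d :: p) / Σ_d' W (d' :: p)`) and leaves `r : List (Fin b) → ℝ`; every good nest is of
this form (pad with weight `0`).  `siteW`, `clauseW` are explicit recursions over tuples of paths, hence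
continuous in finitely many parameters near a point where the sums of weights are positive
(`x ↦ x^θ` is continuous on `[0,∞)`; or use `val_holder` / `abs_rpow_sub_rpow_le`); `0 ≤ siteW ≤ 2`, so the
Poisson series is controlled by finitely many terms `J ≤ J₀` (`hasSum_poi`).  So if `PiF < 1` for some good
`ξ` then also for a tree with natural-number weights and rational leaves, with room to spare.
A certificate consists of `Q, j, b, J₀`, the weights, the leaves and tables of rational (common
denominator) UPPER bounds `u` for the values of the nests `neg (slotB lit1 * E^2)^J`, `J ≤ J₀`, at every node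
(sign pattern, level, tuple of `2J` paths) and LOWER bounds for the values of `ξ^3` under `r ↦ 1 - r`; the
checks are local (`x^(Q-1) ≤ u^Q` where `x` is the weighted average of the children's bounds), followed by
one rational inequality using `e^{-3a} ≤ 1/Σ_{i≤n}(3a)^i/i!`, `1 - Σ_{J ≤ J₀} poi ≤ ...`,
`exp x ≤ (1 - x/n)^{-n}` or `exp x = 1/exp(-x)`-type bounds.  Alternatively compute the rounded-up values by
a primitive recursive function level by level (lists of naturals) instead of guessing tables.
Soundness: monotonicity; completeness: continuity/rounding errors tend to `0`.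
`Crest.Agent.Lib.PrimrecRat` (helper1) has primitive recursive rational arithmetic.
-/

set_option autoImplicit false

namespace Crest.Agent.R153

open Ms Nest

theorem upper_cert : ∃ P : ℕ × ℕ × ℕ → Prop, ComputablePred P ∧ ∀ u v : ℕ,
    ((∃ w, P (u, v, w)) ↔ ∃ (Q j : ℕ) (ξ : Ms (Nest ℝ j)), 2 ≤ Q ∧ GoodM R01 ξ ∧
      PiF (th Q) 3 ((u : ℝ) / (v + 1)) ξ < 1) :=
  PartE.upper_cert'

end Crest.Agent.R153
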