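import Crest.Agent.R153.E_Tree
import Crest.Agent.Lib.PrimrecRat

/-!
Row 153, part E: the rational certificate check and its primitive recursiveness.
-/

set_option autoImplicit false

namespace Crest.Agent.R153.PartE

open Finset Primrec Crest.Agent.Lib.PrimrecRat

/-- code of a path -/
def enc (p : List ℕ) : ℕ := @Encodable.encode (List ℕ) Primcodable.toEncodable p

/-- integer part of `N * (max y 0) ^ (1 - 1/Q)` -/
def fl (Q N : ℕ) (y : ℚ) : ℕ :=
  Nat.findGreatest (fun z : ℕ => ((z : ℚ) / N) ^ Q ≤ (max y 0) ^ (Q - 1)) (N * (y.num.natAbs + 1))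

def loQ (Q N : ℕ) (y : ℚ) : ℚ := (fl Q N y : ℚ) / N

def hiQ (Q N : ℕ) (y : ℚ) : ℚ := ((fl Q N y : ℚ) + 1) / N

section generic

variable {K : Type} [Field K]

/-- weights read off a table -/
def tabW (K : Type) [Field K] (tab : List ℕ) (b : ℕ) (q : List ℕ) (d : ℕ) : K :=
  ((tab.getD (enc (d :: q)) 0 : ℕ) + 1 : K) /
    ∑ d' ∈ range b, ((tab.getD (enc (d' :: q)) 0 : ℕ) + 1 : K)

/-- leaves read off a table -/
def tabR (K : Type) [Field K] (tab : List ℕ) (N : ℕ) (p : List ℕ) : K :=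
  ((min (tab.getD (enc p) 0) N : ℕ) : K) / N

/-- lower approximation of the exponential -/
def Lq [LinearOrder K] (n : ℕ) (y : K) : K := (max (1 + y / n) 0) ^ n

def lhsV [LinearOrder K] (hi : K → K) (a : K) (b j J₀ n : ℕ) (W : List ℕ → ℕ → K)
    (r : List ℕ → K) : K :=
  2 - ∑ J ∈ range J₀, Lq n (-(3 * a)) * (3 * a) ^ J / (J.factorial : K) * (2 - siteV hi b j J W r)

def rhsV [LinearOrder K] (lo : K → K) (a : K) (b j n : ℕ) (W : List ℕ → ℕ → K)
    (r : List ℕ → K) : K :=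
  Lq n (2 * a * (clauseV lo b j W r - 1))

end generic

/-- certificates `(Q, b, j, J₀, n, tW, tR)` -/
abbrev Cert : Type := ℕ × ℕ × ℕ × ℕ × ℕ × List ℕ × List ℕ

/-- the check -/
def chk (a : ℚ) (Q b j J₀ n : ℕ) (tW tR : List ℕ) : Prop :=
  2 ≤ Q ∧ 1 ≤ b ∧
    lhsV (hiQ Q (n + 1)) a b j J₀ n (tabW ℚ tW b) (tabR ℚ tR (n + 1)) <
      rhsV (loQ Q (n + 1)) a b j n (tabW ℚ tW b) (tabR ℚ tR (n + 1))

/-! ### Primitive recursiveness -/

variable {α : Type} [Primcodable α]

theorem prim_sum {f : α → ℕ → ℚ} (hf : Primrec₂ f) {m : α → ℕ} (hm : Primrec m) :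
    Primrec fun a => ∑ i ∈ range (m a), f a i :=
  (rat_list_sum.comp (list_map (list_range.comp hm) hf)).of_eq fun _ => rfl

theorem prim_prod {f : α → ℕ → ℚ} (hf : Primrec₂ f) {m : α → ℕ} (hm : Primrec m) :
    Primrec fun a => ∏ i ∈ range (m a), f a i :=
  (rat_list_prod.comp (list_map (list_range.comp hm) hf)).of_eq fun _ => rfl

theorem prim_dig {c i : α → ℕ} {p : α → List ℕ} (hc : Primrec c) (hi : Primrec i)
    (hp : Primrec p) : Primrec fun a => dig (c a) (i a) (p a) :=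
  list_map hp (nat_mod.comp (nat_div.comp snd (nat_pow.comp (hc.comp fst) (hi.comp fst)))
    (hc.comp fst)).to₂

/-- primitive recursive weight families -/
def PW (W : α → List ℕ → ℕ → ℚ) : Prop := Primrec fun x : α × List ℕ × ℕ => W x.1 x.2.1 x.2.2

theorem PW.comp {β : Type} [Primcodable β] {W : α → List ℕ → ℕ → ℚ} (hW : PW W) {f : β → α}
    {q : β → List ℕ} {d : β → ℕ} (hf : Primrec f) (hq : Primrec q) (hd : Primrec d) :
    Primrec fun x => W (f x) (q x) (d x) :=
  Primrec.comp (g := fun x => (f x, q x, d x)) hW (hf.pair (hq.pair hd))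

theorem prim_powW {c m : α → ℕ} {W : α → List ℕ → ℕ → ℚ} (hc : Primrec c) (hm : Primrec m)
    (hW : PW W) : PW fun a => powW (c a) (m a) (W a) := by
  have hc' : Primrec fun y : (α × List ℕ × ℕ) × ℕ => c y.1.1 := hc.comp (fst.comp fst)
  exact prim_prod (f := fun (x : α × List ℕ × ℕ) i =>
      W x.1 (dig (c x.1) i x.2.1) (x.2.2 / c x.1 ^ i % c x.1))
    (hW.comp (fst.comp fst) (prim_dig hc' snd (fst.comp (snd.comp fst)))
      (nat_mod.comp (nat_div.comp (snd.comp (snd.comp fst)) (nat_pow.comp hc' snd)) hc')).to₂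
    (hm.comp fst)

theorem prim_powF {c m : α → ℕ} {r : α → List ℕ → ℚ} (hc : Primrec c) (hm : Primrec m)
    (hr : Primrec₂ r) : Primrec₂ fun a => powF (c a) (m a) (r a) :=
  prim_prod (f := fun (x : α × List ℕ) i => r x.1 (dig (c x.1) i x.2))
    (hr.comp (fst.comp fst) (prim_dig (hc.comp (fst.comp fst)) snd (snd.comp fst))).to₂
    (hm.comp fst)

theorem prim_clW {b : α → ℕ} {W : α → List ℕ → ℕ → ℚ} (hb : Primrec b) (hW : PW W) :
    PW fun a => clW (b a) (W a) := by
  have hb2 : Primrec fun a => b a ^ 2 := nat_pow.comp hb (const 2)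
  exact rat_mul.comp (const (1 / 2)) ((prim_powW hb (const 2) hW).comp fst
    (list_map (fst.comp snd) (nat_mod.comp snd (hb2.comp (fst.comp fst))).to₂)
    (nat_mod.comp (snd.comp snd) (hb2.comp fst)))

theorem prim_clF {b : α → ℕ} {r : α → List ℕ → ℚ} (hb : Primrec b) (hr : Primrec₂ r) (σ : Bool) :
    Primrec₂ fun a => clF (b a) (r a) σ := by
  have hb2 : Primrec fun a => b a ^ 2 := nat_pow.comp hb (const 2)
  have hs : Primrec fun x : α × List ℕ => sgn (b x.1) x.2 :=
    Primrec.beq.comp (list_headI.comp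
      (list_map snd (nat_div.comp snd (hb2.comp (fst.comp fst))).to₂)) (const 1)
  exact rat_sub.comp (const 1) (rat_mul.comp
    (Primrec.ite (Primrec.eq.comp (const σ) hs) (const 0) (const 1))
    ((prim_powF hb (const 2) hr).comp fst
      (list_map snd (nat_mod.comp snd (hb2.comp (fst.comp fst))).to₂)))

theorem prim_siteG {b J : α → ℕ} {r : α → List ℕ → ℚ} (hb : Primrec b) (hJ : Primrec J)
    (hr : Primrec₂ r) : Primrec₂ fun a => siteG (b a) (J a) (r a) := by
  have hB : Primrec fun a => 2 * b a ^ 2 := nat_mul.comp (const 2) (nat_pow.comp hb (const 2))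
  exact rat_add.comp (prim_powF hB hJ (prim_clF hb hr true)) (prim_powF hB hJ (prim_clF hb hr false))

theorem prim_ev_aux {ρ : α → ℚ → ℚ} {c : α → ℕ} {W : α → List ℕ → ℕ → ℚ} {g : α → List ℕ → ℚ}
    (hρ : Primrec₂ ρ) (hc : Primrec c) (hW : PW W) (hg : Primrec₂ g) :
    Primrec fun x : α × ℕ × List ℕ => ev (ρ x.1) (c x.1) x.2.1 (fun q => W x.1 (x.2.2 ++ q))
      (fun p => g x.1 (x.2.2 ++ p)) := by
  refine nat_omega_rec' _ (m := fun x => x.2.1)
    (l := fun x => if x.2.1 = 0 then [] else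
      (List.range (c x.1)).map fun d => (x.1, x.2.1 - 1, x.2.2 ++ [d]))
    (g := fun x L => some (if x.2.1 = 0 then g x.1 x.2.2 else
      ρ x.1 (∑ d ∈ range (c x.1), W x.1 x.2.2 d * L.getD d 0)))
    (fst.comp snd) ?_ ?_ ?_ ?_
  · exact Primrec.ite (Primrec.eq.comp (fst.comp snd) (const 0)) (const [])
      (list_map (list_range.comp (hc.comp fst)) ((fst.comp fst).pair
        ((nat_sub.comp (fst.comp (snd.comp fst)) (const 1)).pair
          (list_concat.comp (snd.comp (snd.comp fst)) snd))).to₂)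
  · refine option_some.comp (Primrec.ite (Primrec.eq.comp (fst.comp (snd.comp fst)) (const 0))
      (hg.comp (fst.comp fst) (snd.comp (snd.comp fst))) (hρ.comp (fst.comp fst) ?_))
    exact prim_sum (f := fun (y : (α × ℕ × List ℕ) × List ℚ) d =>
        W y.1.1 y.1.2.2 d * y.2.getD d 0)
      (rat_mul.comp (hW.comp (fst.comp (fst.comp fst)) (snd.comp (snd.comp (fst.comp fst))) snd)
        ((list_getD 0).comp (snd.comp fst) snd)).to₂ (hc.comp (fst.comp fst))
  · rintro ⟨a, i, q⟩ b' hb'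
    dsimp only at hb' ⊢
    split_ifs at hb' with h
    · simp at hb'
    · obtain ⟨d, -, rfl⟩ := List.mem_map.1 hb'
      dsimp only
      omega
  · rintro ⟨a, _ | i, q⟩
    · simp [ev]
    · simp only [Nat.add_one_ne_zero, if_false, ev, List.append_nil, Nat.add_sub_cancel,
        List.map_map, Option.some.injEq]
      congr 1
      refine Finset.sum_congr rfl fun d hd => ?_
      congr 1
      rw [List.getD_eq_getElem _ _ (by simpa using hd)]
      simp

theorem prim_evp {ρ : α → ℚ → ℚ} {c j : α → ℕ} {W : α → List ℕ → ℕ → ℚ} {g : α → List ℕ → ℚ}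
    (hρ : Primrec₂ ρ) (hc : Primrec c) (hj : Primrec j) (hW : PW W) (hg : Primrec₂ g) :
    Primrec fun a => evp (ρ a) (c a) (j a) (W a) (g a) := by
  have h1 := (prim_ev_aux hρ hc hW hg).comp (g := fun x : α × ℕ => (x.1, j x.1, [x.2]))
    (fst.pair ((hj.comp fst).pair (list_cons.comp snd (const []))))
  exact prim_sum (f := fun a d => W a [] d *
      ev (ρ a) (c a) (j a) (fun q => W a (d :: q)) (fun p => g a (d :: p)))
    (rat_mul.comp (hW.comp fst (const []) snd) h1).to₂ hc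

theorem prim_siteV {ρ : α → ℚ → ℚ} {b j J : α → ℕ} {W : α → List ℕ → ℕ → ℚ}
    {r : α → List ℕ → ℚ} (hρ : Primrec₂ ρ) (hb : Primrec b) (hj : Primrec j) (hJ : Primrec J)
    (hW : PW W) (hr : Primrec₂ r) :
    Primrec fun a => siteV (ρ a) (b a) (j a) (J a) (W a) (r a) := by
  have hB : Primrec fun a => 2 * b a ^ 2 := nat_mul.comp (const 2) (nat_pow.comp hb (const 2))
  exact prim_evp hρ (nat_pow.comp hB hJ) hj (prim_powW hB hJ (prim_clW hb hW)) (prim_siteG hb hJ hr)

theorem prim_clauseV {ρ : α → ℚ → ℚ} {b j : α → ℕ} {W : α → List ℕ → ℕ → ℚ}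
    {r : α → List ℕ → ℚ} (hρ : Primrec₂ ρ) (hb : Primrec b) (hj : Primrec j)
    (hW : PW W) (hr : Primrec₂ r) :
    Primrec fun a => clauseV (ρ a) (b a) (j a) (W a) (r a) :=
  prim_evp hρ (nat_pow.comp hb (const 3)) hj (prim_powW hb (const 3) hW)
    (rat_sub.comp (const 1) (prim_powF hb (const 3) hr))

theorem prim_fl {Q N : α → ℕ} (hQ : Primrec Q) (hN : Primrec N) :
    Primrec₂ fun a => fl (Q a) (N a) := by
  have h : PrimrecRel fun (x : α × ℚ) (z : ℕ) =>
      ((z : ℚ) / (N x.1 : ℚ)) ^ Q x.1 ≤ (max x.2 0) ^ (Q x.1 - 1) :=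
    rat_le.comp (rat_pow.comp (rat_div.comp (rat_natCast.comp snd)
      (rat_natCast.comp (hN.comp (fst.comp fst)))) (hQ.comp (fst.comp fst)))
      (rat_pow.comp (rat_max.comp (snd.comp fst) (const 0))
        (nat_sub.comp (hQ.comp (fst.comp fst)) (const 1)))
  exact nat_findGreatest (nat_mul.comp (hN.comp fst)
    (nat_add.comp (int_natAbs.comp (rat_num.comp snd)) (const 1))) h

theorem prim_loQ {Q N : α → ℕ} (hQ : Primrec Q) (hN : Primrec N) :
    Primrec₂ fun a => loQ (Q a) (N a) :=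
  rat_div.comp (rat_natCast.comp (prim_fl hQ hN)) (rat_natCast.comp (hN.comp fst))

theorem prim_hiQ {Q N : α → ℕ} (hQ : Primrec Q) (hN : Primrec N) :
    Primrec₂ fun a => hiQ (Q a) (N a) :=
  rat_div.comp (rat_add.comp (rat_natCast.comp (prim_fl hQ hN)) (const 1))
    (rat_natCast.comp (hN.comp fst))

theorem prim_enc : Primrec enc := Primrec.encode

theorem prim_tabW {t : α → List ℕ} {b : α → ℕ} (ht : Primrec t) (hb : Primrec b) :
    PW fun a => tabW ℚ (t a) (b a) := by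
  have h : Primrec fun x : α × List ℕ × ℕ =>
      (((t x.1).getD (enc (x.2.2 :: x.2.1)) 0 : ℕ) + 1 : ℚ) :=
    rat_add.comp (rat_natCast.comp ((list_getD 0).comp (ht.comp fst)
      (prim_enc.comp (list_cons.comp (snd.comp snd) (fst.comp snd))))) (const 1)
  exact rat_div.comp h (prim_sum (f := fun (x : α × List ℕ × ℕ) d' =>
      (((t x.1).getD (enc (d' :: x.2.1)) 0 : ℕ) + 1 : ℚ))
    (h.comp (g := fun y : (α × List ℕ × ℕ) × ℕ => (y.1.1, y.1.2.1, y.2))
      ((fst.comp fst).pair ((fst.comp (snd.comp fst)).pair snd))).to₂ (hb.comp fst))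

theorem prim_tabR {t : α → List ℕ} {N : α → ℕ} (ht : Primrec t) (hN : Primrec N) :
    Primrec₂ fun a => tabR ℚ (t a) (N a) :=
  rat_div.comp (rat_natCast.comp (nat_min.comp ((list_getD 0).comp (ht.comp fst)
    (prim_enc.comp snd)) (hN.comp fst))) (rat_natCast.comp (hN.comp fst))

theorem prim_Lq {n : α → ℕ} {y : α → ℚ} (hn : Primrec n) (hy : Primrec y) :
    Primrec fun a => Lq (n a) (y a) :=
  rat_pow.comp (rat_max.comp (rat_add.comp (const 1) (rat_div.comp hy (rat_natCast.comp hn)))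
    (const 0)) hn

theorem prim_chk {a : α → ℚ} {Q b j J₀ n : α → ℕ} {tW tR : α → List ℕ} (ha : Primrec a)
    (hQ : Primrec Q) (hb : Primrec b) (hj : Primrec j) (hJ : Primrec J₀) (hn : Primrec n)
    (hW : Primrec tW) (hR : Primrec tR) :
    PrimrecPred fun x => chk (a x) (Q x) (b x) (j x) (J₀ x) (n x) (tW x) (tR x) := by
  have hN : Primrec fun x => n x + 1 := nat_add.comp hn (const 1)
  have h3 : Primrec fun x => 3 * a x := rat_mul.comp (const 3) ha
  have hs : Primrec₂ fun x J => siteV (hiQ (Q x) (n x + 1)) (b x) (j x) J (tabW ℚ (tW x) (b x))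
      (tabR ℚ (tR x) (n x + 1)) :=
    prim_siteV (α := α × ℕ) (prim_hiQ (hQ.comp fst) (hN.comp fst)) (hb.comp fst) (hj.comp fst) snd
      (prim_tabW (hW.comp fst) (hb.comp fst)) (prim_tabR (hR.comp fst) (hN.comp fst))
  have hl : Primrec fun x => lhsV (hiQ (Q x) (n x + 1)) (a x) (b x) (j x) (J₀ x) (n x)
      (tabW ℚ (tW x) (b x)) (tabR ℚ (tR x) (n x + 1)) :=
    rat_sub.comp (const 2) (prim_sum (f := fun x J =>
        Lq (n x) (-(3 * a x)) * (3 * a x) ^ J / (J.factorial : ℚ) *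
          (2 - siteV (hiQ (Q x) (n x + 1)) (b x) (j x) J (tabW ℚ (tW x) (b x))
            (tabR ℚ (tR x) (n x + 1))))
      (rat_mul.comp (rat_div.comp (rat_mul.comp ((prim_Lq hn (rat_neg.comp h3)).comp fst)
        (rat_pow.comp (h3.comp fst) snd)) (rat_natCast.comp (nat_factorial.comp snd)))
        (rat_sub.comp (const 2) hs)).to₂ hJ)
  have hr : Primrec fun x => rhsV (loQ (Q x) (n x + 1)) (a x) (b x) (j x) (n x)
      (tabW ℚ (tW x) (b x)) (tabR ℚ (tR x) (n x + 1)) :=
    prim_Lq hn (rat_mul.comp (rat_mul.comp (const 2) ha) (rat_sub.comp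
      (prim_clauseV (prim_loQ hQ hN) hb hj (prim_tabW hW hb) (prim_tabR hR hN)) (const 1)))
  exact (nat_le.comp (const 2) hQ).and ((nat_le.comp (const 1) hb).and (rat_lt.comp hl hr))

theorem exists_cert {T : Type} [Primcodable T] [Inhabited T] (R : (ℕ × ℕ) × T → Prop)
    (hR : PrimrecPred R) : ∃ P : ℕ × ℕ × ℕ → Prop, ComputablePred P ∧
      ∀ u v : ℕ, (∃ w, P (u, v, w)) ↔ ∃ t, R ((u, v), t) := by
  refine ⟨fun x => R ((x.1, x.2.1), (Encodable.decode (α := T) x.2.2).getD default), ?_, ?_⟩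
  · exact (hR.comp ((fst.pair (fst.comp snd)).pair
      (option_getD.comp (Primrec.decode.comp (snd.comp snd)) (const default)))).computablePred
  · intro u v
    exact ⟨fun ⟨w, hw⟩ => ⟨_, hw⟩, fun ⟨t, ht⟩ => ⟨Encodable.encode t, by simpa using ht⟩⟩

end Crest.Agent.R153.PartE
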