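import Crest.Agent.R153.Objs

/-!
Row 153, part E: weighted trees of constant branching, their algebra, and the evaluator.
-/

set_option autoImplicit false

namespace Crest.Agent.R153.PartE

open Ms Nest Finset Filter

/-! ### Generic (field-valued) combinatorial functions -/

/-- digit `i` in base `c` of all entries of a path -/
def dig (c i : ℕ) (p : List ℕ) : List ℕ := p.map fun d => d / c ^ i % c

section generic

variable {K : Type} [Field K]

/-- weights of a power -/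
def powW (c m : ℕ) (W : List ℕ → ℕ → K) (q : List ℕ) (e : ℕ) : K :=
  ∏ i ∈ range m, W (dig c i q) (e / c ^ i % c)

/-- leaves of a power -/
def powF {A : Type} [CommMonoid A] (c m : ℕ) (f : List ℕ → A) (p : List ℕ) : A :=
  ∏ i ∈ range m, f (dig c i p)

/-- weights of the clause tree -/
def clW (b : ℕ) (W : List ℕ → ℕ → K) (q : List ℕ) (e : ℕ) : K :=
  1 / 2 * powW b 2 W (q.map fun d => d % b ^ 2) (e % b ^ 2)

/-- the sign read off the root digit -/
def sgn (b : ℕ) (p : List ℕ) : Bool := (p.map fun d => d / b ^ 2).headI == 1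

/-- leaves of the clause tree -/
def clF (b : ℕ) (r : List ℕ → K) (σ : Bool) (p : List ℕ) : K :=
  1 - (if σ = sgn b p then 0 else 1) * powF b 2 r (p.map fun d => d % b ^ 2)

/-- leaf values of the site tree -/
def siteG (b J : ℕ) (r : List ℕ → K) (p : List ℕ) : K :=
  powF (2 * b ^ 2) J (clF b r true) p + powF (2 * b ^ 2) J (clF b r false) p

/-- the evaluator with nonlinearity `ρ` -/
def ev (ρ : K → K) (c : ℕ) : ℕ → (List ℕ → ℕ → K) → (List ℕ → K) → K
  | 0, _, g => g []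
  | j + 1, W, g => ρ (∑ d ∈ range c, W [] d * ev ρ c j (fun q => W (d :: q)) (fun p => g (d :: p)))

/-- root version -/
def evp (ρ : K → K) (c j : ℕ) (W : List ℕ → ℕ → K) (g : List ℕ → K) : K :=
  ∑ d ∈ range c, W [] d * ev ρ c j (fun q => W (d :: q)) (fun p => g (d :: p))

/-- site value -/
def siteV (ρ : K → K) (b j J : ℕ) (W : List ℕ → ℕ → K) (r : List ℕ → K) : K :=
  evp ρ ((2 * b ^ 2) ^ J) j (powW (2 * b ^ 2) J (clW b W)) (siteG b J r)

/-- clause value -/
def clauseV (ρ : K → K) (b j : ℕ) (W : List ℕ → ℕ → K) (r : List ℕ → K) : K :=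
  evp ρ (b ^ 3) j (powW b 3 W) (fun p => 1 - powF b 3 r p)

end generic

/-! ### Weighted trees -/

variable {A B C : Type}

/-- the weighted tree with branching `c` -/
noncomputable def wtree (c : ℕ) : (j : ℕ) → (List ℕ → ℕ → ℝ) → (List ℕ → A) → Nest A j
  | 0, _, f => leaf (f [])
  | j + 1, W, f => up (∑ d ∈ range c,
      W [] d • dirac (wtree c j (fun q => W (d :: q)) (fun p => f (d :: p))))

theorem I_wtree (c j : ℕ) (W : List ℕ → ℕ → ℝ) (f : List ℕ → A) (h : Nest A j → ℝ) :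
    I (dn (wtree c (j + 1) W f)) h =
      ∑ d ∈ range c, W [] d * h (wtree c j (fun q => W (d :: q)) (fun p => f (d :: p))) := by
  simp [wtree, I_sum]

theorem map_wtree (g : A → B) (c : ℕ) : ∀ (j : ℕ) (W : List ℕ → ℕ → ℝ) (f : List ℕ → A),
    Nest.map g (wtree c j W f) = wtree c j W (fun p => g (f p))
  | 0, _, _ => rfl
  | j + 1, W, f => extS (ext_I fun h => by
      rw [dn_map, I_mapM, I_wtree, I_wtree]
      simp only [map_wtree g c j])

theorem sum_range_mul (b c : ℕ) (F : ℕ → ℕ → ℝ) :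
    ∑ e ∈ range (b * c), F (e / c) (e % c) = ∑ d ∈ range b, ∑ d' ∈ range c, F d d' := by
  induction b with
  | zero => simp
  | succ b ih =>
    rw [Nat.succ_mul, Finset.sum_range_add, ih, Finset.sum_range_succ]
    congr 1
    refine Finset.sum_congr rfl fun d hd => ?_
    have hd' := Finset.mem_range.1 hd
    have hc : 0 < c := by omega
    have e1 : (b * c + d) / c = b := by
      rw [mul_comm, Nat.mul_add_div hc, Nat.div_eq_of_lt hd', add_zero]
    have e2 : (b * c + d) % c = d := by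
      rw [mul_comm, Nat.mul_add_mod, Nat.mod_eq_of_lt hd']
    rw [e1, e2]

theorem map2_wtree (F : A → B → C) (b c : ℕ) : ∀ (j : ℕ) (W V : List ℕ → ℕ → ℝ)
    (f : List ℕ → A) (g : List ℕ → B),
    Nest.map2 F (wtree b j W f) (wtree c j V g) =
      wtree (b * c) j
        (fun q e => W (q.map fun d => d / c) (e / c) * V (q.map fun d => d % c) (e % c))
        (fun p => F (f (p.map fun d => d / c)) (g (p.map fun d => d % c)))
  | 0, _, _, _, _ => rfl
  | j + 1, W, V, f, g => extS (ext_I fun h => by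
      rw [dn_map2, I_map2M, I_wtree, I_wtree]
      simp only [I_wtree, map2_wtree F b c j, List.map_nil, List.map_cons, Finset.mul_sum]
      rw [sum_range_mul b c (fun d d' => W [] d * V [] d' * h (wtree (b * c) j
        (fun q e => W (d :: q.map fun d => d / c) (e / c) * V (d' :: q.map fun d => d % c) (e % c))
        (fun p => F (f (d :: p.map fun d => d / c)) (g (d' :: p.map fun d => d % c)))))]
      simp only [mul_assoc])

theorem wtree_const (c : ℕ) (a : A) : ∀ (j : ℕ) (W : List ℕ → ℕ → ℝ),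
    (∀ q, ∑ d ∈ range c, W q d = 1) → wtree c j W (fun _ => a) = det a j
  | 0, _, _ => rfl
  | j + 1, W, hW => extS (ext_I fun h => by
      rw [I_wtree, dn_det, I_dirac]
      simp only [wtree_const c a j _ (fun q => hW _)]
      rw [← Finset.sum_mul, hW, one_mul])

theorem dig_zero (c : ℕ) (p : List ℕ) : dig c 0 p = p.map fun d => d % c := by
  simp [dig]

theorem dig_succ (c i : ℕ) (p : List ℕ) : dig c (i + 1) p = dig c i (p.map fun d => d / c) := by
  simp only [dig, List.map_map]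
  refine List.map_congr_left fun d _ => ?_
  simp only [Function.comp, pow_succ', Nat.div_div_eq_div_mul]

theorem pow_wtree [CommMonoid A] (c j : ℕ) (W : List ℕ → ℕ → ℝ) (f : List ℕ → A) (m : ℕ) :
    wtree c j W f ^ m = wtree (c ^ m) j (powW c m W) (powF c m f) := by
  induction m with
  | zero =>
    rw [pow_zero, pow_zero, ← det_one]
    exact (wtree_const 1 (1 : A) j _ (fun q => by simp [powW])).symm
  | succ m ih =>
    rw [pow_succ, ih, Nest.mul_eq_map2, map2_wtree, pow_succ]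
    congr 1
    · funext q e
      simp only [powW, Finset.prod_range_succ', dig_succ, dig_zero, pow_succ',
        Nat.div_div_eq_div_mul, pow_zero, Nat.div_one]
    · funext p
      simp only [powF, Finset.prod_range_succ', dig_succ, dig_zero]

theorem val_wtree (θ : ℝ) (v : A → ℝ) (c : ℕ) : ∀ (j : ℕ) (W : List ℕ → ℕ → ℝ) (f : List ℕ → A),
    val θ v (wtree c j W f) = ev (fun x => x ^ θ) c j W (fun p => v (f p))
  | 0, _, _ => rfl
  | j + 1, W, f => by
    rw [val_succ, pre, I_wtree, ev]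
    simp only [val_wtree θ v c j]

theorem pre_wtree (θ : ℝ) (v : A → ℝ) (c j : ℕ) (W : List ℕ → ℕ → ℝ) (f : List ℕ → A) :
    pre θ v (dn (wtree c (j + 1) W f)) = evp (fun x => x ^ θ) c j W (fun p => v (f p)) := by
  rw [pre, I_wtree, evp]
  simp only [val_wtree]

theorem good_wtree {P : A → Prop} (c : ℕ) : ∀ (j : ℕ) (W : List ℕ → ℕ → ℝ) (f : List ℕ → A),
    (∀ q d, 0 ≤ W q d) → (∀ q, ∑ d ∈ range c, W q d = 1) → (∀ p, P (f p)) →
      Good P (wtree c j W f)
  | 0, _, _, _, _, hf => hf []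
  | j + 1, W, f, h0, h1, hf => by
    have e : dn (wtree c (j + 1) W f) = ∑ d ∈ range c,
      W [] d • dirac (wtree c j (fun q => W (d :: q)) (fun p => f (d :: p))) := rfl
    refine ⟨⟨?_, ?_⟩, ?_⟩
    · rw [e]; exact NN_sum fun d _ => (NN_dirac _).smul (h0 _ _)
    · rw [mass, I_wtree]
      simpa using h1 []
    · rw [e]
      exact supp_sum fun d _ =>
        (supp_dirac (good_wtree c j (fun q => W (d :: q)) (fun p => f (d :: p))
          (fun _ _ => h0 _ _) (fun _ => h1 _) fun _ => hf _)).smul _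

theorem slotB_eq (j : ℕ) : slotB lit1 j =
    dn (wtree 2 (j + 1) (fun _ _ => 1 / 2) (fun p => lit1 (p.headI == 1))) := by
  refine ext_I fun h => ?_
  rw [I_wtree, slotB, I_avg]
  simp only [List.headI_cons]
  rw [Finset.sum_range_succ, Finset.sum_range_succ,
    wtree_const 2 _ j _ (fun _ => by norm_num), wtree_const 2 _ j _ (fun _ => by norm_num)]
  simp
  ring

theorem siteW_eq (θ : ℝ) (b j J : ℕ) (W : List ℕ → ℕ → ℝ) (r : List ℕ → ℝ) :
    siteW θ 3 (dn (wtree b (j + 1) W r)) J = siteV (fun x => x ^ θ) b j J W r := by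
  have h1 : slotE Bool (dn (wtree b (j + 1) W r)) =
      dn (wtree b (j + 1) W (fun p (_ : Bool) => r p)) := by
    rw [slotE, ← dn_map, map_wtree]
  have h2 : neg (slotB lit1 j * slotE Bool (dn (wtree b (j + 1) W r)) ^ (3 - 1)) =
      dn (wtree (2 * b ^ 2) (j + 1) (clW b W) (fun p σ => clF b r σ p)) := by
    rw [h1, slotB_eq, ← dn_pow, ← dn_mul, neg, ← dn_map, pow_wtree, Nest.mul_eq_map2, map2_wtree,
      map_wtree]
    rfl
  rw [siteW, h2, ← dn_pow, pow_wtree, pS, pre_wtree, siteV]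
  congr 1
  funext p
  simp [sumv, siteG, powF, Finset.prod_apply]

theorem clauseW_eq (θ : ℝ) (b j : ℕ) (W : List ℕ → ℕ → ℝ) (r : List ℕ → ℝ) :
    clauseW θ 3 (dn (wtree b (j + 1) W r)) = clauseV (fun x => x ^ θ) b j W r := by
  rw [clauseW, ← dn_pow, pow_wtree, pre_wtree, clauseV]

theorem sum_map_getD (a : A) (f : A → ℝ) : ∀ l : List A,
    (l.map f).sum = ∑ d ∈ range l.length, f (l.getD d a)
  | [] => by simp
  | x :: l => by
    rw [List.map_cons, List.sum_cons, List.length_cons, Finset.sum_range_succ', sum_map_getD a f l,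
      add_comm]
    rfl

/-- every good nest is a weighted tree -/
theorem exists_wtree : ∀ (j : ℕ) (X : Nest ℝ j), Good R01 X → ∃ b₀ : ℕ, ∀ b, b₀ ≤ b →
    ∃ (W : List ℕ → ℕ → ℝ) (r : List ℕ → ℝ), (∀ q d, 0 ≤ W q d) ∧
      (∀ q, ∑ d ∈ range b, W q d = 1) ∧ (∀ p, R01 (r p)) ∧ X = wtree b j W r
  | 0, X, hX => ⟨1, fun b hb => ⟨fun _ d => if d = 0 then 1 else 0, fun _ => unleaf X,
      fun _ d => by dsimp only; split_ifs <;> norm_num,
      fun _ => by simp only [Finset.sum_ite_eq', Finset.mem_range]; rw [if_pos (by omega)],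
      fun _ => hX, rfl⟩⟩
  | j + 1, X, hX => by
    classical
    set l := (dn X).coeff.support.toList with hl
    set ch : ℕ → Nest ℝ j := fun d => l.getD d (det 0 j) with hch
    have hgood : ∀ d, Good R01 (ch d) := by
      intro d
      by_cases hd : d < l.length
      · refine hX.2 _ (Finsupp.mem_support_iff.1 (Finset.mem_toList.1 ?_))
        simp only [hch]
        rw [List.getD_eq_getElem _ _ hd]
        exact List.getElem_mem hd
      · simp only [hch]
        rw [List.getD_eq_default _ _ (not_lt.1 hd)]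
        exact good_det ⟨le_rfl, zero_le_one⟩ j
    have hI : ∀ h : Nest ℝ j → ℝ,
        I (dn X) h = ∑ d ∈ range l.length, (dn X).coeff (ch d) * h (ch d) := by
      intro h
      rw [I_eq_sum, ← Finset.sum_map_toList, ← hl, sum_map_getD (det 0 j)]
    choose B hB using fun d => exists_wtree j (ch d) (hgood d)
    choose B0 hB0 using exists_wtree j (det 0 j) (good_det ⟨le_rfl, zero_le_one⟩ j)
    refine ⟨l.length + B0 + ∑ d ∈ range l.length, B d, fun b hb => ?_⟩
    have hex : ∀ d, ∃ (W : List ℕ → ℕ → ℝ) (r : List ℕ → ℝ), (∀ q d, 0 ≤ W q d) ∧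
        (∀ q, ∑ d ∈ range b, W q d = 1) ∧ (∀ p, R01 (r p)) ∧ ch d = wtree b j W r := by
      intro d
      by_cases hd : d < l.length
      · refine hB d b ?_
        have := Finset.single_le_sum (f := B) (fun _ _ => Nat.zero_le _) (Finset.mem_range.2 hd)
        omega
      · have : ch d = det 0 j := by
          simp only [hch]
          rw [List.getD_eq_default _ _ (not_lt.1 hd)]
        rw [this]
        exact hB0 b (by omega)
    choose Wd rd h0 h1 h2 h3 using hex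
    have hsum : ∀ h : Nest ℝ j → ℝ, I (dn X) h =
        ∑ d ∈ range b, (if d < l.length then (dn X).coeff (ch d) else 0) * h (ch d) := by
      intro h
      rw [hI]
      refine (Finset.sum_subset_zero_on_sdiff (Finset.range_subset_range.2 (by omega)) ?_ ?_)
      · intro d hd
        rw [Finset.mem_sdiff, Finset.mem_range, Finset.mem_range] at hd
        rw [if_neg hd.2, zero_mul]
      · intro d hd
        rw [if_pos (Finset.mem_range.1 hd)]
    refine ⟨fun q => match q with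
        | [] => fun d => if d < l.length then (dn X).coeff (ch d) else 0
        | d :: q => Wd d q,
      fun p => match p with
        | [] => 0
        | d :: p => rd d p, ?_, ?_, ?_, ?_⟩
    · rintro (_ | ⟨d, q⟩) e
      · dsimp only
        split_ifs
        · exact hX.1.1 _
        · exact le_rfl
      · exact h0 _ _ _
    · rintro (_ | ⟨d, q⟩)
      · have := hsum fun _ => 1
        simp only [mul_one] at this
        exact this.symm.trans hX.1.2
      · exact h1 _ _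
    · rintro (_ | ⟨d, p⟩)
      · exact ⟨le_rfl, zero_le_one⟩
      · exact h2 _ _
    · refine extS (ext_I fun h => ?_)
      rw [hsum, I_wtree]
      refine Finset.sum_congr rfl fun d _ => ?_
      exact congrArg (fun z => (if d < l.length then (dn X).coeff (ch d) else 0) * h z) (h3 d)

/-! ### Monotonicity and continuity of the evaluator -/

theorem ev_mono {ρ₁ ρ₂ : ℝ → ℝ} (hρ : ∀ x y, 0 ≤ x → x ≤ y → 0 ≤ ρ₁ x ∧ ρ₁ x ≤ ρ₂ y) (c : ℕ) :
    ∀ (j : ℕ) (W : List ℕ → ℕ → ℝ) (g : List ℕ → ℝ), (∀ q d, 0 ≤ W q d) → (∀ p, 0 ≤ g p) →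
      0 ≤ ev ρ₁ c j W g ∧ ev ρ₁ c j W g ≤ ev ρ₂ c j W g
  | 0, _, _, _, hg => ⟨hg _, le_rfl⟩
  | j + 1, W, g, hW, hg => by
    have ih := fun d => ev_mono hρ c j (fun q => W (d :: q)) (fun p => g (d :: p))
      (fun _ _ => hW _ _) (fun _ => hg _)
    exact hρ _ _ (Finset.sum_nonneg fun d _ => mul_nonneg (hW _ _) (ih d).1)
      (Finset.sum_le_sum fun d _ => mul_le_mul_of_nonneg_left (ih d).2 (hW _ _))

theorem evp_mono {ρ₁ ρ₂ : ℝ → ℝ} (hρ : ∀ x y, 0 ≤ x → x ≤ y → 0 ≤ ρ₁ x ∧ ρ₁ x ≤ ρ₂ y) (c j : ℕ)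
    (W : List ℕ → ℕ → ℝ) (g : List ℕ → ℝ) (hW : ∀ q d, 0 ≤ W q d) (hg : ∀ p, 0 ≤ g p) :
    evp ρ₁ c j W g ≤ evp ρ₂ c j W g :=
  Finset.sum_le_sum fun _ _ => mul_le_mul_of_nonneg_left
    (ev_mono hρ c j _ _ (fun _ _ => hW _ _) (fun _ => hg _)).2 (hW _ _)

theorem ev_tendsto {ρ : ℕ → ℝ → ℝ} {ρ' : ℝ → ℝ}
    (hρ : ∀ (x : ℕ → ℝ) (y : ℝ), Tendsto x atTop (nhds y) →
      Tendsto (fun n => ρ n (x n)) atTop (nhds (ρ' y))) (c : ℕ) :
    ∀ (j : ℕ) (W : ℕ → List ℕ → ℕ → ℝ) (g : ℕ → List ℕ → ℝ) (W' : List ℕ → ℕ → ℝ)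
      (g' : List ℕ → ℝ), (∀ q d, Tendsto (fun n => W n q d) atTop (nhds (W' q d))) →
      (∀ p, Tendsto (fun n => g n p) atTop (nhds (g' p))) →
      Tendsto (fun n => ev (ρ n) c j (W n) (g n)) atTop (nhds (ev ρ' c j W' g'))
  | 0, _, _, _, _, _, hg => hg _
  | j + 1, W, g, _, _, hW, hg =>
    hρ _ _ (tendsto_finsetSum _ fun d _ => (hW _ _).mul
      (ev_tendsto hρ c j (fun n q => W n (d :: q)) (fun n p => g n (d :: p)) _ _
        (fun _ _ => hW _ _) (fun _ => hg _)))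

theorem evp_tendsto {ρ : ℕ → ℝ → ℝ} {ρ' : ℝ → ℝ}
    (hρ : ∀ (x : ℕ → ℝ) (y : ℝ), Tendsto x atTop (nhds y) →
      Tendsto (fun n => ρ n (x n)) atTop (nhds (ρ' y))) (c j : ℕ)
    {W : ℕ → List ℕ → ℕ → ℝ} {g : ℕ → List ℕ → ℝ} {W' : List ℕ → ℕ → ℝ}
    {g' : List ℕ → ℝ} (hW : ∀ q d, Tendsto (fun n => W n q d) atTop (nhds (W' q d)))
    (hg : ∀ p, Tendsto (fun n => g n p) atTop (nhds (g' p))) :
    Tendsto (fun n => evp (ρ n) c j (W n) (g n)) atTop (nhds (evp ρ' c j W' g')) :=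
  tendsto_finsetSum _ fun d _ => (hW _ _).mul
    (ev_tendsto hρ c j (fun n q => W n (d :: q)) (fun n p => g n (d :: p)) _ _
      (fun _ _ => hW _ _) (fun _ => hg _))

section tendsto
variable {W : ℕ → List ℕ → ℕ → ℝ} {W' : List ℕ → ℕ → ℝ} {r : ℕ → List ℕ → ℝ} {r' : List ℕ → ℝ}

theorem powW_tendsto (hW : ∀ q d, Tendsto (fun n => W n q d) atTop (nhds (W' q d))) (c m : ℕ)
    (q : List ℕ) (d : ℕ) : Tendsto (fun n => powW c m (W n) q d) atTop (nhds (powW c m W' q d)) :=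
  tendsto_finsetProd _ fun _ _ => hW _ _

theorem powF_tendsto (hr : ∀ p, Tendsto (fun n => r n p) atTop (nhds (r' p))) (c m : ℕ)
    (p : List ℕ) : Tendsto (fun n => powF c m (r n) p) atTop (nhds (powF c m r' p)) :=
  tendsto_finsetProd _ fun _ _ => hr _

theorem siteV_tendsto {ρ : ℕ → ℝ → ℝ} {ρ' : ℝ → ℝ}
    (hρ : ∀ (x : ℕ → ℝ) (y : ℝ), Tendsto x atTop (nhds y) →
      Tendsto (fun n => ρ n (x n)) atTop (nhds (ρ' y)))
    (hW : ∀ q d, Tendsto (fun n => W n q d) atTop (nhds (W' q d)))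
    (hr : ∀ p, Tendsto (fun n => r n p) atTop (nhds (r' p))) (b j J : ℕ) :
    Tendsto (fun n => siteV (ρ n) b j J (W n) (r n)) atTop (nhds (siteV ρ' b j J W' r')) := by
  have hc : ∀ σ p, Tendsto (fun n => clF b (r n) σ p) atTop (nhds (clF b r' σ p)) :=
    fun σ p => ((powF_tendsto hr _ _ _).const_mul _).const_sub _
  exact evp_tendsto hρ _ _
    (powW_tendsto (fun _ _ => (powW_tendsto hW _ _ _ _).const_mul _) _ _)
    (fun p => (powF_tendsto (hc true) _ _ _).add (powF_tendsto (hc false) _ _ _))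

theorem clauseV_tendsto {ρ : ℕ → ℝ → ℝ} {ρ' : ℝ → ℝ}
    (hρ : ∀ (x : ℕ → ℝ) (y : ℝ), Tendsto x atTop (nhds y) →
      Tendsto (fun n => ρ n (x n)) atTop (nhds (ρ' y)))
    (hW : ∀ q d, Tendsto (fun n => W n q d) atTop (nhds (W' q d)))
    (hr : ∀ p, Tendsto (fun n => r n p) atTop (nhds (r' p))) (b j : ℕ) :
    Tendsto (fun n => clauseV (ρ n) b j (W n) (r n)) atTop (nhds (clauseV ρ' b j W' r')) :=
  evp_tendsto hρ _ _ (powW_tendsto hW _ _) (fun _ => (powF_tendsto hr _ _ _).const_sub _)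

end tendsto

section nonneg
variable {W : List ℕ → ℕ → ℝ} {r : List ℕ → ℝ}

theorem powW_nonneg (hW : ∀ q d, 0 ≤ W q d) (c m : ℕ) (q : List ℕ) (d : ℕ) :
    0 ≤ powW c m W q d := Finset.prod_nonneg fun _ _ => hW _ _

theorem powF_mem (hr : ∀ p, R01 (r p)) (c m : ℕ) (p : List ℕ) : R01 (powF c m r p) :=
  ⟨Finset.prod_nonneg fun _ _ => (hr _).1, Finset.prod_le_one (fun _ _ => (hr _).1)
    fun _ _ => (hr _).2⟩

theorem clF_mem (hr : ∀ p, R01 (r p)) (b : ℕ) (σ : Bool) (p : List ℕ) : R01 (clF b r σ p) := by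
  have h := powF_mem hr b 2 (p.map fun d => d % b ^ 2)
  unfold clF R01
  split_ifs
  · simp
  · constructor <;> linarith [h.1, h.2]

theorem siteV_mono {ρ₁ ρ₂ : ℝ → ℝ} (hρ : ∀ x y, 0 ≤ x → x ≤ y → 0 ≤ ρ₁ x ∧ ρ₁ x ≤ ρ₂ y)
    (hW : ∀ q d, 0 ≤ W q d) (hr : ∀ p, R01 (r p)) (b j J : ℕ) :
    siteV ρ₁ b j J W r ≤ siteV ρ₂ b j J W r :=
  evp_mono hρ _ _ _ _
    (powW_nonneg (fun _ _ => mul_nonneg (by norm_num) (powW_nonneg hW _ _ _ _)) _ _)
    fun _ => add_nonneg (powF_mem (clF_mem hr b true) _ _ _).1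
      (powF_mem (clF_mem hr b false) _ _ _).1

theorem clauseV_mono {ρ₁ ρ₂ : ℝ → ℝ} (hρ : ∀ x y, 0 ≤ x → x ≤ y → 0 ≤ ρ₁ x ∧ ρ₁ x ≤ ρ₂ y)
    (hW : ∀ q d, 0 ≤ W q d) (hr : ∀ p, R01 (r p)) (b j : ℕ) :
    clauseV ρ₁ b j W r ≤ clauseV ρ₂ b j W r :=
  evp_mono hρ _ _ _ _ (powW_nonneg hW _ _) fun _ => sub_nonneg.2 (powF_mem hr _ _ _).2

end nonneg

theorem siteW_mem {θ : ℝ} (h0 : 0 ≤ θ) (h1 : θ ≤ 1) {j : ℕ} {ξ : Ms (Nest ℝ j)}
    (hξ : GoodM R01 ξ) (J : ℕ) : 0 ≤ siteW θ 3 ξ J ∧ siteW θ 3 ξ J ≤ 2 := by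
  have hg : GoodM U01 (neg (slotB lit1 j * slotE Bool ξ ^ (3 - 1)) ^ J) :=
    ((GoodM.mulU (goodM_slotB U01_lit1 j) ((GoodM.slotE hξ).powU _)).neg).powU J
  refine ⟨pS_nonneg hg, ?_⟩
  have h2 := pre_mono h0 (u := sumv) (v := fun _ => (2 : ℝ)) sumv_nonneg (fun x hx => by
    simp only [sumv, Fintype.sum_bool]
    linarith [(hx true).2, (hx false).2]) hg
  rw [pre_const (by norm_num) hg] at h2
  refine h2.trans ?_
  calc (2 : ℝ) ^ θ ^ j ≤ 2 ^ (1 : ℝ) :=
        Real.rpow_le_rpow_of_exponent_le (by norm_num) (pow_le_one₀ h0 h1)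
    _ = 2 := Real.rpow_one 2

end Crest.Agent.R153.PartE
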