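import Crest.Agent.R153.B
import Crest.Agent.R153.C
import Crest.Agent.R153.ASS
import Crest.Agent.R153.E

/-! Row 153: assembly of the computability of the 3-SAT threshold. -/

set_option autoImplicit false

namespace Crest.Agent.R153

open Crest.ProbabilityR.RandomSAT Filter

theorem poiProb_nonneg (k : ℕ) {a : ℝ} (ha : 0 ≤ a) (n : ℕ) : 0 ≤ poiProb k a n :=
  tsum_nonneg fun j => mul_nonneg (poi_nonneg (by positivity) j)
    (by unfold replProb Crest.FinProb.uniformProb; positivity)

theorem threshold_computable (α : ℝ) (hα : IsSharpThreshold (satProb 3) α) :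
    ∃ f : ℕ → ℕ, Computable f ∧ ∀ r : ℕ, |(f r : ℝ) / 2 ^ r - α| ≤ 1 / 2 ^ r := by
  obtain ⟨P, hP, hP1, hP2⟩ := lower_semidecision α hα
  obtain ⟨Q, hQ, hQ'⟩ := upper_cert
  refine computable_of_semidecisions α (threshold_nonneg 3 α hα) P Q hP hQ hP1 hP2 ?_ ?_
  · intro u v w hw
    obtain ⟨q, j, ξ, hq, hξ, hlt⟩ := (hQ' u v).1 ⟨w, hw⟩
    have ha : (0 : ℝ) ≤ (u : ℝ) / (v + 1) := by positivity
    have hth := th_mem hq
    have hg := fun n hn => guerra (θ := th q) (by linarith [hth.1]) hth.2.le (k := 3)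
      (by norm_num) ha hξ n hn
    have hnn : 0 ≤ PiF (th q) 3 ((u : ℝ) / (v + 1)) ξ := by
      have := (poiProb_nonneg 3 ha 1).trans (hg 1 le_rfl)
      simpa using this
    refine le_of_poi α hα _ ha ?_
    refine squeeze_zero' (Eventually.of_forall fun n => poiProb_nonneg 3 ha n)
      (eventually_atTop.2 ⟨1, hg⟩) (tendsto_pow_atTop_nhds_zero_of_lt_one hnn hlt)
  · intro u v huv
    exact (hQ' u v).2 (ass (k := 3) (by norm_num) (by positivity) (poi_decay α hα _ huv))

end Crest.Agent.R153
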