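import Mathlib

/-!
Row 153: finitely supported signed measures `Ms M = MonoidAlgebra ℝ M` with integration `I`,
`bind`, push-forward `map`, reweighting `wt`, normalised tilting `tilt`, uniform averages `avg`.
When `M` is a monoid the product is convolution (independent product), see `I_mul`.
-/

set_option autoImplicit false

namespace Crest.Agent.R153

/-- Finitely supported signed measures on `M`. -/
abbrev Ms (M : Type) : Type := MonoidAlgebra ℝ M

namespace Ms

variable {M N O : Type}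

/-- The Dirac mass. -/
noncomputable def dirac (c : M) : Ms M := MonoidAlgebra.single c 1

/-- Integral of `f` against `X`. -/
noncomputable def I (X : Ms M) (f : M → ℝ) : ℝ := X.coeff.sum fun c w => w * f c

theorem I_eq_sum (X : Ms M) (f : M → ℝ) :
    X.I f = ∑ c ∈ X.coeff.support, X.coeff c * f c := rfl

@[simp] theorem I_single (c : M) (w : ℝ) (f : M → ℝ) :
    I (MonoidAlgebra.single c w) f = w * f c := by
  simp [I, Finsupp.sum_single_index]

@[simp] theorem I_dirac (c : M) (f : M → ℝ) : I (dirac c) f = f c := by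
  simp [dirac]

@[simp] theorem I_zero (f : M → ℝ) : I (0 : Ms M) f = 0 := by simp [I]

@[simp] theorem I_add (X Y : Ms M) (f : M → ℝ) : I (X + Y) f = I X f + I Y f := by
  simp only [I, MonoidAlgebra.coeff_add]
  rw [Finsupp.sum_add_index'] <;> simp [add_mul]

@[simp] theorem I_smul (a : ℝ) (X : Ms M) (f : M → ℝ) : I (a • X) f = a * I X f := by
  induction X using MonoidAlgebra.induction_linear with
  | zero => simp
  | add X Y hX hY => simp [smul_add, hX, hY, mul_add]
  | single c w => simp [mul_assoc]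

@[simp] theorem I_neg (X : Ms M) (f : M → ℝ) : I (-X) f = -I X f := by
  have := I_smul (-1) X f
  simpa using this

@[simp] theorem I_sub (X Y : Ms M) (f : M → ℝ) : I (X - Y) f = I X f - I Y f := by
  rw [sub_eq_add_neg, I_add, I_neg, sub_eq_add_neg]

theorem I_sum {ι : Type*} (s : Finset ι) (X : ι → Ms M) (f : M → ℝ) :
    I (∑ i ∈ s, X i) f = ∑ i ∈ s, I (X i) f := by
  classical
  induction s using Finset.induction_on with
  | empty => simp
  | insert i s hi ih => simp [Finset.sum_insert hi, ih]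

theorem I_add_fun (X : Ms M) (f g : M → ℝ) :
    I X (fun c => f c + g c) = I X f + I X g := by
  simp [I_eq_sum, mul_add, Finset.sum_add_distrib]

theorem I_sub_fun (X : Ms M) (f g : M → ℝ) :
    I X (fun c => f c - g c) = I X f - I X g := by
  simp [I_eq_sum, mul_sub, Finset.sum_sub_distrib]

theorem I_neg_fun (X : Ms M) (f : M → ℝ) : I X (fun c => -f c) = -I X f := by
  simp [I_eq_sum]

theorem I_const_mul (X : Ms M) (a : ℝ) (f : M → ℝ) :
    I X (fun c => a * f c) = a * I X f := by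
  simp [I_eq_sum, Finset.mul_sum, mul_left_comm]

theorem I_mul_const (X : Ms M) (a : ℝ) (f : M → ℝ) :
    I X (fun c => f c * a) = I X f * a := by
  simp [I_eq_sum, Finset.sum_mul, mul_assoc]

theorem I_div_const (X : Ms M) (a : ℝ) (f : M → ℝ) :
    I X (fun c => f c / a) = I X f / a := by
  simp only [div_eq_mul_inv, I_mul_const]

@[simp] theorem I_zero_fun (X : Ms M) : I X (fun _ => 0) = 0 := by simp [I_eq_sum]

theorem I_sum_fun {ι : Type*} (X : Ms M) (s : Finset ι) (f : ι → M → ℝ) :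
    I X (fun c => ∑ i ∈ s, f i c) = ∑ i ∈ s, I X (f i) := by
  simp only [I_eq_sum, Finset.mul_sum]
  rw [Finset.sum_comm]

/-- Total mass. -/
noncomputable def mass (X : Ms M) : ℝ := I X fun _ => 1

theorem I_const (X : Ms M) (a : ℝ) : I X (fun _ => a) = X.mass * a := by
  rw [mass, ← I_mul_const]; simp

theorem I_comm (X : Ms M) (Y : Ms N) (f : M → N → ℝ) :
    I X (fun c => I Y (fun d => f c d)) = I Y (fun d => I X (fun c => f c d)) := by
  simp only [I_eq_sum, Finset.mul_sum]
  rw [Finset.sum_comm]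
  simp only [mul_left_comm]

theorem coeff_eq_I [DecidableEq M] (X : Ms M) (c : M) :
    X.coeff c = I X (fun d => if d = c then 1 else 0) := by
  simp only [I_eq_sum, mul_ite, mul_one, mul_zero, Finset.sum_ite_eq']
  split_ifs with h
  · rfl
  · simpa using h

theorem ext_I {X Y : Ms M} (h : ∀ f, I X f = I Y f) : X = Y := by
  classical
  apply MonoidAlgebra.coeff_injective
  ext c
  rw [coeff_eq_I, coeff_eq_I, h]

theorem I_congr {X : Ms M} {f g : M → ℝ} (h : ∀ c, X.coeff c ≠ 0 → f c = g c) :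
    I X f = I X g := by
  simp only [I_eq_sum]
  exact Finset.sum_congr rfl fun c hc => by rw [h c (Finsupp.mem_support_iff.1 hc)]

@[simp] theorem I_one [One M] (f : M → ℝ) : I (1 : Ms M) f = f 1 := by
  simp [MonoidAlgebra.one_def]

theorem dirac_one [One M] : dirac (1 : M) = 1 := rfl

theorem dirac_mul [Mul M] (c d : M) : dirac (c * d) = dirac c * dirac d := by
  simp [dirac, MonoidAlgebra.single_mul_single]

theorem dirac_pow [Monoid M] (c : M) (n : ℕ) : dirac (c ^ n) = dirac c ^ n := by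
  simp [dirac, MonoidAlgebra.single_pow]

theorem I_mul [Mul M] (X Y : Ms M) (f : M → ℝ) :
    I (X * Y) f = I X fun c => I Y fun d => f (c * d) := by
  induction X using MonoidAlgebra.induction_linear with
  | zero => simp
  | add X X' h h' => simp [add_mul, h, h']
  | single c w =>
    induction Y using MonoidAlgebra.induction_linear with
    | zero => simp
    | add Y Y' h h' => simp only [mul_add, I_add, h, h', I_single]
    | single d w' => simp [MonoidAlgebra.single_mul_single, mul_assoc]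

theorem I_mul_dirac [Mul M] (X : Ms M) (d : M) (f : M → ℝ) :
    I (X * dirac d) f = I X fun c => f (c * d) := by simp [I_mul]

theorem I_dirac_mul [Mul M] (X : Ms M) (d : M) (f : M → ℝ) :
    I (dirac d * X) f = I X fun c => f (d * c) := by simp [I_mul]

/-- A multiplicative function integrates multiplicatively. -/
theorem I_mul_hom [Mul M] (X Y : Ms M) (f : M → ℝ) (hf : ∀ c d, f (c * d) = f c * f d) :
    I (X * Y) f = I X f * I Y f := by
  simp only [I_mul, hf, I_const_mul, I_mul_const]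

/-- Mixture of the measures `κ c` with weights `X`. -/
noncomputable def bind (X : Ms M) (κ : M → Ms N) : Ms N := X.coeff.sum fun c w => w • κ c

@[simp] theorem I_bind (X : Ms M) (κ : M → Ms N) (f : N → ℝ) :
    I (bind X κ) f = I X fun c => I (κ c) f := by
  simp only [bind, Finsupp.sum, I_sum, I_smul]
  rfl

/-- Push-forward. -/
noncomputable def map (g : M → N) (X : Ms M) : Ms N := bind X fun c => dirac (g c)

@[simp] theorem I_map (g : M → N) (X : Ms M) (f : N → ℝ) :
    I (map g X) f = I X fun c => f (g c) := by simp [map]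

/-- Push-forward of the independent product. -/
noncomputable def map2 (g : M → N → O) (X : Ms M) (Y : Ms N) : Ms O :=
  bind X fun c => map (g c) Y

@[simp] theorem I_map2 (g : M → N → O) (X : Ms M) (Y : Ms N) (f : O → ℝ) :
    I (map2 g X Y) f = I X fun c => I Y fun d => f (g c d) := by simp [map2]

/-- Reweighting by a density. -/
noncomputable def wt (X : Ms M) (h : M → ℝ) : Ms M := bind X fun c => h c • dirac c

@[simp] theorem I_wt (X : Ms M) (h f : M → ℝ) : I (wt X h) f = I X fun c => h c * f c := by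
  simp [wt]

/-- Normalised reweighting (zero if the normalising constant vanishes). -/
noncomputable def tilt (X : Ms M) (h : M → ℝ) : Ms M := (I X h)⁻¹ • wt X h

theorem I_tilt (X : Ms M) (h f : M → ℝ) :
    I (tilt X h) f = (I X fun c => h c * f c) / I X h := by
  simp [tilt, div_eq_inv_mul]

/-- Uniform average of finitely many measures. -/
noncomputable def avg {ι : Type} [Fintype ι] (X : ι → Ms M) : Ms M :=
  ((Fintype.card ι : ℝ))⁻¹ • ∑ i, X i

theorem I_avg {ι : Type} [Fintype ι] (X : ι → Ms M) (f : M → ℝ) :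
    I (avg X) f = (∑ i, I (X i) f) / Fintype.card ι := by
  simp [avg, I_sum, div_eq_inv_mul]

theorem map_add (g : M → N) (X Y : Ms M) : map g (X + Y) = map g X + map g Y :=
  ext_I fun f => by simp

theorem map_smul (g : M → N) (a : ℝ) (X : Ms M) : map g (a • X) = a • map g X :=
  ext_I fun f => by simp

@[simp] theorem map_zero (g : M → N) : map g (0 : Ms M) = 0 := ext_I fun f => by simp

theorem map_sum {ι : Type*} (g : M → N) (s : Finset ι) (X : ι → Ms M) :
    map g (∑ i ∈ s, X i) = ∑ i ∈ s, map g (X i) :=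
  ext_I fun f => by simp [I_sum]

theorem map_avg {ι : Type} [Fintype ι] (g : M → N) (X : ι → Ms M) :
    map g (avg X) = avg fun i => map g (X i) :=
  ext_I fun f => by simp [I_avg]

@[simp] theorem map_dirac (g : M → N) (c : M) : map g (dirac c) = dirac (g c) :=
  ext_I fun f => by simp

theorem map_map (g : M → N) (h : N → O) (X : Ms M) :
    map h (map g X) = map (fun c => h (g c)) X := ext_I fun f => by simp

@[simp] theorem map_id (X : Ms M) : map (fun c => c) X = X := ext_I fun f => by simp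

theorem map_mul [Mul M] [Mul N] (g : M → N) (hg : ∀ c d, g (c * d) = g c * g d) (X Y : Ms M) :
    map g (X * Y) = map g X * map g Y := ext_I fun f => by simp [I_mul, hg]

theorem mul_eq_map2 [Mul M] (X Y : Ms M) : X * Y = map2 (fun c d => c * d) X Y :=
  ext_I fun f => by simp [I_mul]

theorem mul_avg {ι : Type} [Fintype ι] [Monoid M] (Y : Ms M) (X : ι → Ms M) :
    Y * avg X = avg fun i => Y * X i := by
  simp [avg, Finset.mul_sum]

theorem avg_mul {ι : Type} [Fintype ι] [Monoid M] (Y : Ms M) (X : ι → Ms M) :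
    avg X * Y = avg fun i => X i * Y := by
  simp [avg, Finset.sum_mul]

/-! ### Positivity, supports, probability measures -/

/-- Nonnegative weights. -/
def NN (X : Ms M) : Prop := ∀ c, 0 ≤ X.coeff c

/-- Every point of the support satisfies `P`. -/
def Supp (X : Ms M) (P : M → Prop) : Prop := ∀ c, X.coeff c ≠ 0 → P c

/-- Probability measure. -/
def Prob (X : Ms M) : Prop := X.NN ∧ X.mass = 1

theorem I_nonneg {X : Ms M} (hX : X.NN) {f : M → ℝ} (hf : ∀ c, X.coeff c ≠ 0 → 0 ≤ f c) :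
    0 ≤ I X f :=
  Finset.sum_nonneg fun c hc => mul_nonneg (hX c) (hf c (Finsupp.mem_support_iff.1 hc))

theorem I_mono {X : Ms M} (hX : X.NN) {f g : M → ℝ} (h : ∀ c, X.coeff c ≠ 0 → f c ≤ g c) :
    I X f ≤ I X g :=
  Finset.sum_le_sum fun c hc =>
    mul_le_mul_of_nonneg_left (h c (Finsupp.mem_support_iff.1 hc)) (hX c)

theorem abs_I_le {X : Ms M} (hX : X.NN) (f : M → ℝ) : |I X f| ≤ I X fun c => |f c| := by
  rw [abs_le]
  constructor
  · rw [← I_neg_fun]; exact I_mono hX fun c _ => neg_abs_le _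
  · exact I_mono hX fun c _ => le_abs_self _

theorem coeff_mul_le_I {X : Ms M} (hX : X.NN) {f : M → ℝ} (hf : ∀ c, X.coeff c ≠ 0 → 0 ≤ f c)
    (c : M) : X.coeff c * f c ≤ I X f := by
  by_cases hc : X.coeff c = 0
  · rw [hc, zero_mul]; exact I_nonneg hX hf
  · exact Finset.single_le_sum (f := fun c => X.coeff c * f c)
      (fun d hd => mul_nonneg (hX d) (hf d (Finsupp.mem_support_iff.1 hd)))
      (Finsupp.mem_support_iff.2 hc)

theorem eq_zero_of_I_eq_zero {X : Ms M} (hX : X.NN) {f : M → ℝ}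
    (hf : ∀ c, X.coeff c ≠ 0 → 0 ≤ f c) (h : I X f = 0) (c : M) (hc : X.coeff c ≠ 0) :
    f c = 0 := by
  have h1 := coeff_mul_le_I hX hf c
  have h2 : 0 < X.coeff c := lt_of_le_of_ne (hX c) (Ne.symm hc)
  have h3 := hf c hc
  nlinarith

theorem NN_iff {X : Ms M} : X.NN ↔ ∀ f : M → ℝ, (∀ c, 0 ≤ f c) → 0 ≤ I X f := by
  classical
  refine ⟨fun h f hf => I_nonneg h fun c _ => hf c, fun h c => ?_⟩
  rw [coeff_eq_I]
  exact h _ fun d => by split_ifs <;> norm_num

theorem supp_iff {X : Ms M} {P : M → Prop} :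
    X.Supp P ↔ ∀ f : M → ℝ, (∀ c, P c → f c = 0) → I X f = 0 := by
  classical
  refine ⟨fun h f hf => ?_, fun h c hc => ?_⟩
  · rw [← I_zero_fun X]; exact I_congr fun c hc => hf c (h c hc)
  · by_contra hP
    apply hc
    rw [coeff_eq_I]
    exact h _ fun d hd => by
      split_ifs with h'
      · exact absurd (h' ▸ hd) hP
      · rfl

theorem Supp.mono {X : Ms M} {P Q : M → Prop} (h : X.Supp P) (hPQ : ∀ c, P c → Q c) :
    X.Supp Q := fun c hc => hPQ c (h c hc)

theorem Supp.and {X : Ms M} {P Q : M → Prop} (h : X.Supp P) (h' : X.Supp Q) :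
    X.Supp fun c => P c ∧ Q c := fun c hc => ⟨h c hc, h' c hc⟩

theorem supp_self (X : Ms M) : X.Supp fun c => X.coeff c ≠ 0 := fun _ h => h

theorem supp_true (X : Ms M) : X.Supp fun _ => True := fun _ _ => trivial

theorem Supp.I_congr {X : Ms M} {P : M → Prop} (h : X.Supp P) {f g : M → ℝ}
    (hfg : ∀ c, P c → f c = g c) : I X f = I X g := Ms.I_congr fun c hc => hfg c (h c hc)

theorem Supp.I_mono {X : Ms M} {P : M → Prop} (h : X.Supp P) (hX : X.NN) {f g : M → ℝ}
    (hfg : ∀ c, P c → f c ≤ g c) : I X f ≤ I X g := Ms.I_mono hX fun c hc => hfg c (h c hc)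

theorem Supp.I_nonneg {X : Ms M} {P : M → Prop} (h : X.Supp P) (hX : X.NN) {f : M → ℝ}
    (hf : ∀ c, P c → 0 ≤ f c) : 0 ≤ I X f := Ms.I_nonneg hX fun c hc => hf c (h c hc)

theorem NN_dirac (c : M) : (dirac c).NN := NN_iff.2 fun f hf => by simpa using hf c

theorem NN_zero : (0 : Ms M).NN := fun _ => by simp

theorem NN.add {X Y : Ms M} (hX : X.NN) (hY : Y.NN) : (X + Y).NN := fun c => by
  simpa using add_nonneg (hX c) (hY c)

theorem NN.smul {X : Ms M} (hX : X.NN) {a : ℝ} (ha : 0 ≤ a) : (a • X).NN := fun c => by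
  simpa using mul_nonneg ha (hX c)

theorem NN_sum {ι : Type*} {s : Finset ι} {X : ι → Ms M} (h : ∀ i ∈ s, (X i).NN) :
    (∑ i ∈ s, X i).NN := NN_iff.2 fun f hf => by
  rw [I_sum]; exact Finset.sum_nonneg fun i hi => NN_iff.1 (h i hi) f hf

theorem NN_avg {ι : Type} [Fintype ι] {X : ι → Ms M} (h : ∀ i, (X i).NN) : (avg X).NN :=
  (NN_sum fun i _ => h i).smul (by positivity)

theorem NN.bind {X : Ms M} (hX : X.NN) {κ : M → Ms N} (hκ : ∀ c, X.coeff c ≠ 0 → (κ c).NN) :
    (bind X κ).NN := NN_iff.2 fun f hf => by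
  rw [I_bind]; exact I_nonneg hX fun c hc => NN_iff.1 (hκ c hc) f hf

theorem NN.map {X : Ms M} (hX : X.NN) (g : M → N) : (map g X).NN :=
  hX.bind fun _ _ => NN_dirac _

theorem NN.map2 {X : Ms M} {Y : Ms N} (hX : X.NN) (hY : Y.NN) (g : M → N → O) :
    (map2 g X Y).NN := hX.bind fun _ _ => hY.map _

theorem NN.mul [Mul M] {X Y : Ms M} (hX : X.NN) (hY : Y.NN) : (X * Y).NN := by
  rw [mul_eq_map2]; exact hX.map2 hY _

theorem NN_one [One M] : (1 : Ms M).NN := NN_dirac 1

theorem NN.pow [Monoid M] {X : Ms M} (hX : X.NN) (n : ℕ) : (X ^ n).NN := by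
  induction n with
  | zero => rw [pow_zero]; exact NN_one
  | succ n ih => rw [pow_succ]; exact ih.mul hX

theorem NN.wt {X : Ms M} (hX : X.NN) {h : M → ℝ} (hh : ∀ c, X.coeff c ≠ 0 → 0 ≤ h c) :
    (wt X h).NN := hX.bind fun c hc => (NN_dirac c).smul (hh c hc)

theorem NN.tilt {X : Ms M} (hX : X.NN) {h : M → ℝ} (hh : ∀ c, X.coeff c ≠ 0 → 0 ≤ h c) :
    (tilt X h).NN := (hX.wt hh).smul (inv_nonneg.2 (I_nonneg hX hh))

theorem supp_dirac {P : M → Prop} {c : M} (h : P c) : (dirac c).Supp P :=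
  supp_iff.2 fun f hf => by simpa using hf c h

theorem supp_zero (P : M → Prop) : (0 : Ms M).Supp P := fun c hc => by simp at hc

theorem Supp.add {X Y : Ms M} {P : M → Prop} (hX : X.Supp P) (hY : Y.Supp P) :
    (X + Y).Supp P := supp_iff.2 fun f hf => by
  rw [I_add, supp_iff.1 hX f hf, supp_iff.1 hY f hf, add_zero]

theorem Supp.smul {X : Ms M} {P : M → Prop} (hX : X.Supp P) (a : ℝ) : (a • X).Supp P :=
  supp_iff.2 fun f hf => by rw [I_smul, supp_iff.1 hX f hf, mul_zero]

theorem Supp.sub {X Y : Ms M} {P : M → Prop} (hX : X.Supp P) (hY : Y.Supp P) :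
    (X - Y).Supp P := supp_iff.2 fun f hf => by
  rw [I_sub, supp_iff.1 hX f hf, supp_iff.1 hY f hf, sub_zero]

theorem supp_sum {ι : Type*} {s : Finset ι} {X : ι → Ms M} {P : M → Prop}
    (h : ∀ i ∈ s, (X i).Supp P) : (∑ i ∈ s, X i).Supp P := supp_iff.2 fun f hf => by
  rw [I_sum]; exact Finset.sum_eq_zero fun i hi => supp_iff.1 (h i hi) f hf

theorem supp_avg {ι : Type} [Fintype ι] {X : ι → Ms M} {P : M → Prop}
    (h : ∀ i, (X i).Supp P) : (avg X).Supp P := (supp_sum fun i _ => h i).smul _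

theorem Supp.bind {X : Ms M} {P : M → Prop} (hX : X.Supp P) {κ : M → Ms N} {Q : N → Prop}
    (hκ : ∀ c, P c → (κ c).Supp Q) : (bind X κ).Supp Q := supp_iff.2 fun f hf => by
  rw [I_bind]; exact supp_iff.1 hX _ fun c hc => supp_iff.1 (hκ c hc) f hf

theorem Supp.map {X : Ms M} {P : M → Prop} (hX : X.Supp P) {g : M → N} {Q : N → Prop}
    (hg : ∀ c, P c → Q (g c)) : (map g X).Supp Q :=
  hX.bind fun c hc => supp_dirac (hg c hc)

theorem Supp.map2 {X : Ms M} {Y : Ms N} {P : M → Prop} {Q : N → Prop} (hX : X.Supp P)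
    (hY : Y.Supp Q) {g : M → N → O} {R : O → Prop} (hg : ∀ c d, P c → Q d → R (g c d)) :
    (map2 g X Y).Supp R := hX.bind fun c hc => hY.map fun d hd => hg c d hc hd

theorem Supp.mul [Mul M] {X Y : Ms M} {P Q R : M → Prop} (hX : X.Supp P) (hY : Y.Supp Q)
    (h : ∀ c d, P c → Q d → R (c * d)) : (X * Y).Supp R := by
  rw [mul_eq_map2]; exact hX.map2 hY h

theorem supp_one [One M] {P : M → Prop} (h : P 1) : (1 : Ms M).Supp P := supp_dirac h

theorem Supp.pow [Monoid M] {X : Ms M} {P : M → Prop} (hX : X.Supp P) (h1 : P 1)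
    (h : ∀ c d, P c → P d → P (c * d)) (n : ℕ) : (X ^ n).Supp P := by
  induction n with
  | zero => rw [pow_zero]; exact supp_one h1
  | succ n ih => rw [pow_succ]; exact ih.mul hX h

theorem Supp.wt {X : Ms M} {P : M → Prop} (hX : X.Supp P) (h : M → ℝ) :
    (wt X h).Supp fun c => P c ∧ h c ≠ 0 := supp_iff.2 fun f hf => by
  rw [I_wt]
  refine supp_iff.1 hX _ fun c hc => ?_
  by_cases h0 : h c = 0
  · simp [h0]
  · simp [hf c ⟨hc, h0⟩]

theorem Supp.tilt {X : Ms M} {P : M → Prop} (hX : X.Supp P) (h : M → ℝ) :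
    (tilt X h).Supp fun c => P c ∧ h c ≠ 0 := (hX.wt h).smul _

@[simp] theorem mass_dirac (c : M) : (dirac c).mass = 1 := by simp [mass]

@[simp] theorem mass_add (X Y : Ms M) : (X + Y).mass = X.mass + Y.mass := by simp [mass]

@[simp] theorem mass_smul (a : ℝ) (X : Ms M) : (a • X).mass = a * X.mass := by simp [mass]

@[simp] theorem mass_map (g : M → N) (X : Ms M) : (map g X).mass = X.mass := by simp [mass]

theorem mass_map2 (g : M → N → O) (X : Ms M) (Y : Ms N) :
    (map2 g X Y).mass = X.mass * Y.mass := by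
  simp only [mass, I_map2]
  exact I_const X _

theorem mass_mul [Mul M] (X Y : Ms M) : (X * Y).mass = X.mass * Y.mass := by
  rw [mul_eq_map2, mass_map2]

@[simp] theorem mass_one [One M] : (1 : Ms M).mass = 1 := mass_dirac 1

theorem mass_pow [Monoid M] (X : Ms M) (n : ℕ) : (X ^ n).mass = X.mass ^ n := by
  induction n with
  | zero => simp
  | succ n ih => rw [pow_succ, mass_mul, ih, pow_succ]

theorem NN.mass_nonneg {X : Ms M} (hX : X.NN) : 0 ≤ X.mass := I_nonneg hX fun _ _ => zero_le_one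

theorem Prob.I_const {X : Ms M} (hX : X.Prob) (a : ℝ) : I X (fun _ => a) = a := by
  rw [Ms.I_const, hX.2, one_mul]

theorem prob_dirac (c : M) : (dirac c).Prob := ⟨NN_dirac c, mass_dirac c⟩

theorem prob_one [One M] : (1 : Ms M).Prob := prob_dirac 1

theorem Prob.mul [Mul M] {X Y : Ms M} (hX : X.Prob) (hY : Y.Prob) : (X * Y).Prob :=
  ⟨hX.1.mul hY.1, by rw [mass_mul, hX.2, hY.2, one_mul]⟩

theorem Prob.pow [Monoid M] {X : Ms M} (hX : X.Prob) (n : ℕ) : (X ^ n).Prob :=
  ⟨hX.1.pow n, by rw [mass_pow, hX.2, one_pow]⟩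

theorem Prob.map {X : Ms M} (hX : X.Prob) (g : M → N) : (map g X).Prob :=
  ⟨hX.1.map g, by rw [mass_map, hX.2]⟩

theorem Prob.map2 {X : Ms M} {Y : Ms N} (hX : X.Prob) (hY : Y.Prob) (g : M → N → O) :
    (map2 g X Y).Prob := ⟨hX.1.map2 hY.1 g, by rw [mass_map2, hX.2, hY.2, one_mul]⟩

theorem Prob.bind {X : Ms M} (hX : X.Prob) {κ : M → Ms N}
    (hκ : ∀ c, X.coeff c ≠ 0 → (κ c).Prob) : (bind X κ).Prob := by
  refine ⟨hX.1.bind fun c hc => (hκ c hc).1, ?_⟩
  rw [mass, I_bind]
  exact (I_congr fun c hc => (hκ c hc).2).trans hX.2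

theorem prob_avg {ι : Type} [Fintype ι] [Nonempty ι] {X : ι → Ms M} (h : ∀ i, (X i).Prob) :
    (avg X).Prob := by
  refine ⟨NN_avg fun i => (h i).1, ?_⟩
  have : ∀ i, I (X i) (fun _ => 1) = 1 := fun i => (h i).2
  have hc : (Fintype.card ι : ℝ) ≠ 0 := by positivity
  simp [mass, I_avg, this]

theorem prob_mix {X Y : Ms M} (hX : X.Prob) (hY : Y.Prob) {a : ℝ} (h0 : 0 ≤ a) (h1 : a ≤ 1) :
    ((1 - a) • X + a • Y).Prob :=
  ⟨(hX.1.smul (by linarith)).add (hY.1.smul h0), by simp [hX.2, hY.2]⟩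

theorem prob_tilt {X : Ms M} (hX : X.NN) {h : M → ℝ} (hh : ∀ c, X.coeff c ≠ 0 → 0 ≤ h c)
    (hpos : I X h ≠ 0) : (tilt X h).Prob :=
  ⟨hX.tilt hh, by simp [mass, I_tilt, hpos]⟩

theorem mass_tilt_le_one (X : Ms M) (h : M → ℝ) : (tilt X h).mass ≤ 1 := by
  simp only [mass, I_tilt, mul_one]
  exact div_self_le_one _

theorem Prob.le_of_le {X : Ms M} (hX : X.Prob) {f : M → ℝ} {a : ℝ}
    (h : ∀ c, X.coeff c ≠ 0 → f c ≤ a) : I X f ≤ a := by
  rw [← hX.I_const a]; exact I_mono hX.1 h

theorem Prob.ge_of_ge {X : Ms M} (hX : X.Prob) {f : M → ℝ} {a : ℝ}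
    (h : ∀ c, X.coeff c ≠ 0 → a ≤ f c) : a ≤ I X f := by
  rw [← hX.I_const a]; exact I_mono hX.1 h

/-- For a sub-probability measure. -/
theorem I_le_of_le {X : Ms M} (hX : X.NN) (hm : X.mass ≤ 1) {f : M → ℝ} {a : ℝ} (ha : 0 ≤ a)
    (h : ∀ c, X.coeff c ≠ 0 → f c ≤ a) : I X f ≤ a := by
  calc I X f ≤ I X fun _ => a := I_mono hX h
    _ = X.mass * a := I_const X a
    _ ≤ 1 * a := mul_le_mul_of_nonneg_right hm ha
    _ = a := one_mul a

/-- Cauchy-Schwarz. -/
theorem sq_I_mul_le {X : Ms M} (hX : X.NN) (f g : M → ℝ) :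
    (I X fun c => f c * g c) ^ 2 ≤ (I X fun c => f c ^ 2) * I X fun c => g c ^ 2 := by
  have h := Finset.sum_mul_sq_le_sq_mul_sq X.coeff.support
    (fun c => Real.sqrt (X.coeff c) * f c) (fun c => Real.sqrt (X.coeff c) * g c)
  have hs : ∀ c, Real.sqrt (X.coeff c) * Real.sqrt (X.coeff c) = X.coeff c :=
    fun c => Real.mul_self_sqrt (hX c)
  have e1 : ∀ c, √(X.coeff c) * f c * (√(X.coeff c) * g c) = X.coeff c * (f c * g c) :=
    fun c => by
      calc _ = (√(X.coeff c) * √(X.coeff c)) * (f c * g c) := by ring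
        _ = _ := by rw [hs]
  have e2 : ∀ (u : M → ℝ) c, (√(X.coeff c) * u c) ^ 2 = X.coeff c * u c ^ 2 :=
    fun u c => by
      calc _ = (√(X.coeff c) * √(X.coeff c)) * u c ^ 2 := by ring
        _ = _ := by rw [hs]
  simp only [e1, e2] at h
  simpa only [I_eq_sum] using h

/-- Jensen for the square (sub-probability measures). -/
theorem sq_I_le {X : Ms M} (hX : X.NN) (hm : X.mass ≤ 1) (f : M → ℝ) :
    (I X f) ^ 2 ≤ I X fun c => f c ^ 2 := by
  have h := sq_I_mul_le hX f (fun _ => 1)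
  simp only [mul_one, one_pow] at h
  have h0 : 0 ≤ I X fun c => f c ^ 2 := I_nonneg hX fun c _ => sq_nonneg _
  calc (I X f) ^ 2 ≤ (I X fun c => f c ^ 2) * X.mass := h
    _ ≤ (I X fun c => f c ^ 2) * 1 := mul_le_mul_of_nonneg_left hm h0
    _ = _ := mul_one _

/-- Jensen for the square root (sub-probability measures). -/
theorem I_sqrt_le {X : Ms M} (hX : X.NN) (hm : X.mass ≤ 1) {f : M → ℝ}
    (hf : ∀ c, X.coeff c ≠ 0 → 0 ≤ f c) : (I X fun c => Real.sqrt (f c)) ≤ Real.sqrt (I X f) := by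
  apply Real.le_sqrt_of_sq_le
  refine (sq_I_le hX hm _).trans (le_of_eq (I_congr fun c hc => Real.sq_sqrt (hf c hc)))

/-- `q` independent samples, as a list. -/
noncomputable def listPow (X : Ms M) : ℕ → Ms (List M)
  | 0 => dirac []
  | q + 1 => map2 (fun t ts => t :: ts) X (listPow X q)

@[simp] theorem I_listPow_zero (X : Ms M) (f : List M → ℝ) : I (listPow X 0) f = f [] := by
  simp [listPow]

@[simp] theorem I_listPow_succ (X : Ms M) (q : ℕ) (f : List M → ℝ) :
    I (listPow X (q + 1)) f = I X fun t => I (listPow X q) fun ts => f (t :: ts) := by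
  simp [listPow]

theorem NN.listPow {X : Ms M} (hX : X.NN) : ∀ q, (listPow X q).NN
  | 0 => NN_dirac _
  | q + 1 => hX.map2 (NN.listPow hX q) _

theorem Supp.listPow {X : Ms M} {P : M → Prop} (hX : X.Supp P) :
    ∀ q, (listPow X q).Supp fun ts => ts.length = q ∧ ∀ t ∈ ts, P t
  | 0 => supp_dirac (by simp)
  | q + 1 => hX.map2 (Supp.listPow hX q) fun t ts ht hts => by
      refine ⟨by simp [hts.1], fun s hs => ?_⟩
      rcases List.mem_cons.1 hs with rfl | hs
      · exact ht
      · exact hts.2 s hs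

theorem I_listPow_prod (X : Ms M) (f : M → ℝ) :
    ∀ q, I (listPow X q) (fun ts => (ts.map f).prod) = (I X f) ^ q
  | 0 => by simp
  | q + 1 => by
    simp only [I_listPow_succ, List.map_cons, List.prod_cons, I_const_mul, I_listPow_prod X f q,
      I_mul_const, pow_succ']

theorem mass_listPow (X : Ms M) (q : ℕ) : (listPow X q).mass = X.mass ^ q := by
  have := I_listPow_prod X (fun _ => 1) q
  simpa [mass] using this

end Ms

end Crest.Agent.R153
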