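import Crest.Agent.R153.Meas

/-!
Row 153: nests (finite hierarchical measures).  `Nest A 0 = A`, `Nest A (j+1) = Ms (Nest A j)`.
If `A` is a commutative monoid so is `Nest A j` (independent product at every level).
`val θ v` is the recursive functional `val_0 = v`, `val_{j+1} X = (∫ val_j dX)^θ`;
`pre θ v X = ∫ val_j dX` is the root (linear) version for `X : Ms (Nest A j)`.
-/

set_option autoImplicit false

namespace Crest.Agent.R153

open Ms

/-- Hierarchical measures of depth `j` with leaves in `A`. -/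
def Nest (A : Type) : ℕ → Type
  | 0 => A
  | j + 1 => Ms (Nest A j)

namespace Nest

variable {A B C D E : Type} {j : ℕ}

def leaf (a : A) : Nest A 0 := a
def unleaf (x : Nest A 0) : A := x
def up (X : Ms (Nest A j)) : Nest A (j + 1) := X
def dn (X : Nest A (j + 1)) : Ms (Nest A j) := X

@[simp] theorem unleaf_leaf (a : A) : unleaf (leaf a) = a := rfl
@[simp] theorem leaf_unleaf (x : Nest A 0) : leaf (unleaf x) = x := rfl
@[simp] theorem dn_up (X : Ms (Nest A j)) : dn (up X) = X := rfl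
@[simp] theorem up_dn (X : Nest A (j + 1)) : up (dn X) = X := rfl

theorem ext0 {x y : Nest A 0} (h : unleaf x = unleaf y) : x = y := h
theorem extS {X Y : Nest A (j + 1)} (h : dn X = dn Y) : X = Y := h

noncomputable instance instCommMonoid [CommMonoid A] : (j : ℕ) → CommMonoid (Nest A j)
  | 0 => inferInstanceAs (CommMonoid A)
  | j + 1 =>
    letI := instCommMonoid j
    inferInstanceAs (CommMonoid (Ms (Nest A j)))

section monoid
variable [CommMonoid A]
@[simp] theorem unleaf_mul (x y : Nest A 0) : unleaf (x * y) = unleaf x * unleaf y := rfl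
@[simp] theorem unleaf_one : unleaf (1 : Nest A 0) = 1 := rfl
@[simp] theorem unleaf_pow (x : Nest A 0) (n : ℕ) : unleaf (x ^ n) = unleaf x ^ n := rfl
@[simp] theorem dn_mul (X Y : Nest A (j + 1)) : dn (X * Y) = dn X * dn Y := rfl
@[simp] theorem dn_one : dn (1 : Nest A (j + 1)) = 1 := rfl
@[simp] theorem dn_pow (X : Nest A (j + 1)) (n : ℕ) : dn (X ^ n) = dn X ^ n := rfl
theorem up_mul (X Y : Ms (Nest A j)) : up (X * Y) = up X * up Y := rfl
theorem up_one : up (1 : Ms (Nest A j)) = 1 := rfl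
theorem up_pow (X : Ms (Nest A j)) (n : ℕ) : up (X ^ n) = up X ^ n := rfl
theorem leaf_mul (a b : A) : leaf (a * b) = leaf a * leaf b := rfl
theorem leaf_one : leaf (1 : A) = 1 := rfl
end monoid

/-- Apply `f` to all leaves. -/
noncomputable def map (f : A → B) : {j : ℕ} → Nest A j → Nest B j
  | 0, x => leaf (f (unleaf x))
  | _ + 1, X => up (Ms.map (map f) (dn X))

/-- Independent product at every level, leaves combined by `F`. -/
noncomputable def map2 (F : A → B → C) : {j : ℕ} → Nest A j → Nest B j → Nest C j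
  | 0, x, y => leaf (F (unleaf x) (unleaf y))
  | _ + 1, X, Y => up (Ms.map2 (map2 F) (dn X) (dn Y))

/-- The deterministic nest. -/
noncomputable def det (a : A) : (j : ℕ) → Nest A j
  | 0 => leaf a
  | j + 1 => up (dirac (det a j))

/-- Root versions. -/
noncomputable def mapM (f : A → B) (X : Ms (Nest A j)) : Ms (Nest B j) := Ms.map (map f) X

noncomputable def map2M (F : A → B → C) (X : Ms (Nest A j)) (Y : Ms (Nest B j)) :
    Ms (Nest C j) := Ms.map2 (map2 F) X Y

/-- All weights are probability weights and all leaves satisfy `P`. -/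
def Good (P : A → Prop) : {j : ℕ} → Nest A j → Prop
  | 0, x => P (unleaf x)
  | _ + 1, X => (dn X).Prob ∧ (dn X).Supp (Good P)

def GoodM (P : A → Prop) (X : Ms (Nest A j)) : Prop := X.Prob ∧ X.Supp (Good P)

/-- The recursive value. -/
noncomputable def val (θ : ℝ) (v : A → ℝ) : {j : ℕ} → Nest A j → ℝ
  | 0, x => v (unleaf x)
  | _ + 1, X => (I (dn X) (val θ v)) ^ θ

/-- The root value. -/
noncomputable def pre (θ : ℝ) (v : A → ℝ) (X : Ms (Nest A j)) : ℝ := I X (val θ v)

@[simp] theorem unleaf_map (f : A → B) (x : Nest A 0) : unleaf (map f x) = f (unleaf x) := rfl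
@[simp] theorem dn_map (f : A → B) (X : Nest A (j + 1)) : dn (map f X) = mapM f (dn X) := rfl
@[simp] theorem unleaf_map2 (F : A → B → C) (x : Nest A 0) (y : Nest B 0) :
    unleaf (map2 F x y) = F (unleaf x) (unleaf y) := rfl
@[simp] theorem dn_map2 (F : A → B → C) (X : Nest A (j + 1)) (Y : Nest B (j + 1)) :
    dn (map2 F X Y) = map2M F (dn X) (dn Y) := rfl
@[simp] theorem unleaf_det (a : A) : unleaf (det a 0) = a := rfl
@[simp] theorem dn_det (a : A) (j : ℕ) : dn (det a (j + 1)) = dirac (det a j) := rfl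
theorem map_up (f : A → B) (X : Ms (Nest A j)) : map f (up X) = up (mapM f X) := rfl
theorem map2_up (F : A → B → C) (X : Ms (Nest A j)) (Y : Ms (Nest B j)) :
    map2 F (up X) (up Y) = up (map2M F X Y) := rfl
@[simp] theorem I_mapM (f : A → B) (X : Ms (Nest A j)) (g : Nest B j → ℝ) :
    I (mapM f X) g = I X fun c => g (map f c) := I_map _ _ _
@[simp] theorem I_map2M (F : A → B → C) (X : Ms (Nest A j)) (Y : Ms (Nest B j))
    (g : Nest C j → ℝ) : I (map2M F X Y) g = I X fun c => I Y fun d => g (map2 F c d) :=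
  I_map2 _ _ _ _
@[simp] theorem good_zero {P : A → Prop} {x : Nest A 0} : Good P x ↔ P (unleaf x) := Iff.rfl
theorem good_succ {P : A → Prop} {X : Nest A (j + 1)} : Good P X ↔ GoodM P (dn X) := Iff.rfl
@[simp] theorem good_up {P : A → Prop} {X : Ms (Nest A j)} : Good P (up X) ↔ GoodM P X := Iff.rfl
@[simp] theorem val_zero (θ : ℝ) (v : A → ℝ) (x : Nest A 0) : val θ v x = v (unleaf x) := rfl
theorem val_succ (θ : ℝ) (v : A → ℝ) (X : Nest A (j + 1)) :
    val θ v X = pre θ v (dn X) ^ θ := rfl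
@[simp] theorem val_up (θ : ℝ) (v : A → ℝ) (X : Ms (Nest A j)) :
    val θ v (up X) = pre θ v X ^ θ := rfl

/-! ### Algebra of `map`, `map2`, `det` -/

theorem map_map (f : A → B) (g : B → C) : ∀ {j : ℕ} (X : Nest A j),
    map g (map f X) = map (fun a => g (f a)) X
  | 0, _ => rfl
  | j + 1, X => extS (ext_I fun h => by simp [map_map f g (j := j)])

@[simp] theorem map_id : ∀ {j : ℕ} (X : Nest A j), map (fun a => a) X = X
  | 0, _ => rfl
  | j + 1, X => extS (ext_I fun h => by simp [map_id (j := j)])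

theorem map_map2 (F : A → B → C) (g : C → D) : ∀ {j : ℕ} (X : Nest A j) (Y : Nest B j),
    map g (map2 F X Y) = map2 (fun a b => g (F a b)) X Y
  | 0, _, _ => rfl
  | j + 1, X, Y => extS (ext_I fun h => by simp [map_map2 F g (j := j)])

theorem map2_map_left (F : B → C → D) (f : A → B) : ∀ {j : ℕ} (X : Nest A j) (Y : Nest C j),
    map2 F (map f X) Y = map2 (fun a c => F (f a) c) X Y
  | 0, _, _ => rfl
  | j + 1, X, Y => extS (ext_I fun h => by simp [map2_map_left F f (j := j)])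

theorem map2_map_right (F : A → C → D) (f : B → C) : ∀ {j : ℕ} (X : Nest A j) (Y : Nest B j),
    map2 F X (map f Y) = map2 (fun a b => F a (f b)) X Y
  | 0, _, _ => rfl
  | j + 1, X, Y => extS (ext_I fun h => by simp [map2_map_right F f (j := j)])

theorem map2_comm (F : A → B → C) : ∀ {j : ℕ} (X : Nest A j) (Y : Nest B j),
    map2 F X Y = map2 (fun b a => F a b) Y X
  | 0, _, _ => rfl
  | j + 1, X, Y => extS (ext_I fun h => by
      simp only [dn_map2, I_map2M]
      rw [I_comm]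
      simp only [map2_comm F (j := j)])

theorem map2_assoc {A' : Type} (F : D → C → E) (G : A → B → D) (F' : A → A' → E)
    (G' : B → C → A') (h : ∀ a b c, F (G a b) c = F' a (G' b c)) :
    ∀ {j : ℕ} (X : Nest A j) (Y : Nest B j) (Z : Nest C j),
      map2 F (map2 G X Y) Z = map2 F' X (map2 G' Y Z)
  | 0, _, _, _ => ext0 (h _ _ _)
  | j + 1, X, Y, Z => extS (ext_I fun g => by simp [map2_assoc F G F' G' h (j := j)])

theorem mul_eq_map2 [CommMonoid A] : ∀ {j : ℕ} (X Y : Nest A j),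
    X * Y = map2 (fun a b => a * b) X Y
  | 0, _, _ => rfl
  | j + 1, X, Y => extS (ext_I fun g => by simp [I_mul, mul_eq_map2 (j := j)])

@[simp] theorem map_det (f : A → B) (a : A) : ∀ j : ℕ, map f (det a j) = det (f a) j
  | 0 => rfl
  | j + 1 => extS (ext_I fun g => by simp [map_det f a j])

theorem map2_det_right (F : A → B → C) (b : B) : ∀ {j : ℕ} (X : Nest A j),
    map2 F X (det b j) = map (fun a => F a b) X
  | 0, _ => rfl
  | j + 1, X => extS (ext_I fun g => by simp [map2_det_right F b (j := j)])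

theorem map2_det_left (F : A → B → C) (a : A) {j : ℕ} (Y : Nest B j) :
    map2 F (det a j) Y = map (fun b => F a b) Y := by
  rw [map2_comm, map2_det_right]

theorem det_one [CommMonoid A] : ∀ j : ℕ, det (1 : A) j = 1
  | 0 => rfl
  | j + 1 => extS (by rw [dn_det, det_one j, dn_one, dirac_one])

theorem det_mul [CommMonoid A] (a b : A) (j : ℕ) : det (a * b) j = det a j * det b j := by
  rw [mul_eq_map2, map2_det_right, map_det]

/-- `det` as a monoid homomorphism. -/
noncomputable def detHom [CommMonoid A] (j : ℕ) : A →* Nest A j where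
  toFun a := det a j
  map_one' := det_one j
  map_mul' a b := det_mul a b j

theorem mul_det [CommMonoid A] (X : Nest A j) (b : A) :
    X * det b j = map (fun a => a * b) X := by rw [mul_eq_map2, map2_det_right]

theorem map_mul [CommMonoid A] [CommMonoid B] (f : A → B) (hf : ∀ a b, f (a * b) = f a * f b)
    (X Y : Nest A j) : map f (X * Y) = map f X * map f Y := by
  rw [mul_eq_map2, mul_eq_map2, map_map2, map2_map_left, map2_map_right]
  simp only [hf]

theorem map_one [CommMonoid A] [CommMonoid B] (f : A → B) (hf : f 1 = 1) :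
    map f (1 : Nest A j) = 1 := by rw [← det_one, map_det, hf, det_one]

/-- `map` of a monoid homomorphism as a monoid homomorphism. -/
noncomputable def mapHom [CommMonoid A] [CommMonoid B] (f : A →* B) (j : ℕ) :
    Nest A j →* Nest B j where
  toFun := map f
  map_one' := map_one f f.map_one
  map_mul' := map_mul f f.map_mul

theorem map_congr {P : A → Prop} {f g : A → B} (h : ∀ a, P a → f a = g a) :
    ∀ {j : ℕ} {X : Nest A j}, Good P X → map f X = map g X
  | 0, _, hX => ext0 (h _ hX)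
  | _ + 1, X, hX => extS (ext_I fun u => by
      simp only [dn_map, I_mapM]
      exact hX.2.I_congr fun c hc => by rw [map_congr h hc])

theorem map2_congr {P : A → Prop} {Q : B → Prop} {F G : A → B → C}
    (h : ∀ a b, P a → Q b → F a b = G a b) :
    ∀ {j : ℕ} {X : Nest A j} {Y : Nest B j}, Good P X → Good Q Y → map2 F X Y = map2 G X Y
  | 0, _, _, hX, hY => ext0 (h _ _ hX hY)
  | _ + 1, X, Y, hX, hY => extS (ext_I fun u => by
      simp only [dn_map2, I_map2M]
      exact hX.2.I_congr fun c hc => hY.2.I_congr fun d hd => by rw [map2_congr h hc hd])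

theorem map2_fst {Q : B → Prop} (f : A → C) :
    ∀ {j : ℕ} (X : Nest A j) {Y : Nest B j}, Good Q Y → map2 (fun a _ => f a) X Y = map f X
  | 0, _, _, _ => rfl
  | _ + 1, X, Y, hY => extS (ext_I fun u => by
      simp only [dn_map2, I_map2M, dn_map, I_mapM]
      refine I_congr fun c _ => ?_
      rw [hY.2.I_congr (g := fun _ => u (map f c)) fun d hd => by rw [map2_fst f c hd]]
      exact hY.1.I_const _)

theorem map_const {P : A → Prop} (b : B) :
    ∀ {j : ℕ} {X : Nest A j}, Good P X → map (fun _ => b) X = det b j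
  | 0, _, _ => rfl
  | j + 1, X, hX => extS (ext_I fun u => by
      simp only [dn_map, I_mapM, dn_det, I_dirac]
      rw [hX.2.I_congr (g := fun _ => u (det b j)) fun d hd => by rw [map_const b hd]]
      exact hX.1.I_const _)

/-! Root versions -/

theorem mapM_mapM (f : A → B) (g : B → C) (X : Ms (Nest A j)) :
    mapM g (mapM f X) = mapM (fun a => g (f a)) X := map_map f g (up X)

@[simp] theorem mapM_id (X : Ms (Nest A j)) : mapM (fun a => a) X = X := map_id (up X)

theorem mapM_map2M (F : A → B → C) (g : C → D) (X : Ms (Nest A j)) (Y : Ms (Nest B j)) :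
    mapM g (map2M F X Y) = map2M (fun a b => g (F a b)) X Y := map_map2 F g (up X) (up Y)

theorem map2M_mapM_left (F : B → C → D) (f : A → B) (X : Ms (Nest A j)) (Y : Ms (Nest C j)) :
    map2M F (mapM f X) Y = map2M (fun a c => F (f a) c) X Y := map2_map_left F f (up X) (up Y)

theorem map2M_mapM_right (F : A → C → D) (f : B → C) (X : Ms (Nest A j)) (Y : Ms (Nest B j)) :
    map2M F X (mapM f Y) = map2M (fun a b => F a (f b)) X Y := map2_map_right F f (up X) (up Y)

theorem map2M_comm (F : A → B → C) (X : Ms (Nest A j)) (Y : Ms (Nest B j)) :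
    map2M F X Y = map2M (fun b a => F a b) Y X := map2_comm F (up X) (up Y)

theorem map2M_assoc {A' : Type} (F : D → C → E) (G : A → B → D) (F' : A → A' → E)
    (G' : B → C → A') (h : ∀ a b c, F (G a b) c = F' a (G' b c))
    (X : Ms (Nest A j)) (Y : Ms (Nest B j)) (Z : Ms (Nest C j)) :
    map2M F (map2M G X Y) Z = map2M F' X (map2M G' Y Z) :=
  map2_assoc F G F' G' h (up X) (up Y) (up Z)

theorem mul_eq_map2M [CommMonoid A] (X Y : Ms (Nest A j)) :
    X * Y = map2M (fun a b => a * b) X Y := mul_eq_map2 (up X) (up Y)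

theorem mapM_dirac (f : A → B) (c : Nest A j) : mapM f (dirac c) = dirac (map f c) :=
  map_dirac _ _

theorem mapM_add (f : A → B) (X Y : Ms (Nest A j)) : mapM f (X + Y) = mapM f X + mapM f Y :=
  Ms.map_add _ _ _

theorem mapM_smul (f : A → B) (a : ℝ) (X : Ms (Nest A j)) : mapM f (a • X) = a • mapM f X :=
  Ms.map_smul _ _ _

theorem mapM_sum {ι : Type*} (f : A → B) (s : Finset ι) (X : ι → Ms (Nest A j)) :
    mapM f (∑ i ∈ s, X i) = ∑ i ∈ s, mapM f (X i) := Ms.map_sum _ _ _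

theorem mapM_avg {ι : Type} [Fintype ι] (f : A → B) (X : ι → Ms (Nest A j)) :
    mapM f (avg X) = avg fun i => mapM f (X i) := Ms.map_avg _ _

theorem mapM_mul [CommMonoid A] [CommMonoid B] (f : A → B) (hf : ∀ a b, f (a * b) = f a * f b)
    (X Y : Ms (Nest A j)) : mapM f (X * Y) = mapM f X * mapM f Y := map_mul f hf (up X) (up Y)

theorem mapM_one [CommMonoid A] [CommMonoid B] (f : A → B) (hf : f 1 = 1) :
    mapM f (1 : Ms (Nest A j)) = 1 := map_one (j := j + 1) f hf

theorem mapM_pow [CommMonoid A] [CommMonoid B] (f : A → B) (h1 : f 1 = 1)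
    (hf : ∀ a b, f (a * b) = f a * f b) (X : Ms (Nest A j)) (n : ℕ) :
    mapM f (X ^ n) = mapM f X ^ n := by
  induction n with
  | zero => simpa using mapM_one f h1
  | succ n ih => rw [pow_succ, pow_succ, mapM_mul f hf, ih]

theorem mapM_congr {P : A → Prop} {f g : A → B} (h : ∀ a, P a → f a = g a)
    {X : Ms (Nest A j)} (hX : GoodM P X) : mapM f X = mapM g X :=
  map_congr h (X := up X) hX

theorem map2M_congr {P : A → Prop} {Q : B → Prop} {F G : A → B → C}
    (h : ∀ a b, P a → Q b → F a b = G a b) {X : Ms (Nest A j)} {Y : Ms (Nest B j)}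
    (hX : GoodM P X) (hY : GoodM Q Y) : map2M F X Y = map2M G X Y :=
  map2_congr h (X := up X) (Y := up Y) hX hY

theorem map2M_fst {Q : B → Prop} (f : A → C) (X : Ms (Nest A j)) {Y : Ms (Nest B j)}
    (hY : GoodM Q Y) : map2M (fun a _ => f a) X Y = mapM f X := map2_fst f (up X) (Y := up Y) hY

theorem map2M_det_right (F : A → B → C) (b : B) (X : Ms (Nest A j)) :
    map2M F X (dirac (det b j)) = mapM (fun a => F a b) X := map2_det_right F b (up X)

theorem mul_dirac_det [CommMonoid A] (X : Ms (Nest A j)) (b : A) :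
    X * dirac (det b j) = mapM (fun a => a * b) X := mul_det (up X) b

theorem mapM_const {P : A → Prop} (b : B) {X : Ms (Nest A j)} (hX : GoodM P X) :
    mapM (fun _ => b) X = dirac (det b j) := map_const b (X := up X) hX

/-! ### Goodness -/

theorem Good.mono {P Q : A → Prop} (h : ∀ a, P a → Q a) :
    ∀ {j : ℕ} {X : Nest A j}, Good P X → Good Q X
  | 0, _, hX => h _ hX
  | _ + 1, _, hX => ⟨hX.1, hX.2.mono fun _ hc => Good.mono h hc⟩

theorem Good.and {P Q : A → Prop} :
    ∀ {j : ℕ} {X : Nest A j}, Good P X → Good Q X → Good (fun a => P a ∧ Q a) X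
  | 0, _, hX, hX' => ⟨hX, hX'⟩
  | _ + 1, _, hX, hX' => ⟨hX.1, (hX.2.and hX'.2).mono fun _ hc => Good.and hc.1 hc.2⟩

theorem Good.map {P : A → Prop} {Q : B → Prop} {f : A → B} (h : ∀ a, P a → Q (f a)) :
    ∀ {j : ℕ} {X : Nest A j}, Good P X → Good Q (map f X)
  | 0, _, hX => h _ hX
  | _ + 1, _, hX => ⟨hX.1.map _, hX.2.map fun _ hc => Good.map h hc⟩

theorem Good.map2 {P : A → Prop} {Q : B → Prop} {R : C → Prop} {F : A → B → C}
    (h : ∀ a b, P a → Q b → R (F a b)) :
    ∀ {j : ℕ} {X : Nest A j} {Y : Nest B j}, Good P X → Good Q Y → Good R (map2 F X Y)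
  | 0, _, _, hX, hY => h _ _ hX hY
  | _ + 1, _, _, hX, hY =>
    ⟨hX.1.map2 hY.1 _, hX.2.map2 hY.2 fun _ _ hc hd => Good.map2 h hc hd⟩

theorem good_det {P : A → Prop} {a : A} (h : P a) : ∀ j : ℕ, Good P (det a j)
  | 0 => h
  | j + 1 => ⟨prob_dirac _, supp_dirac (good_det h j)⟩

theorem Good.mul [CommMonoid A] {P Q R : A → Prop} (h : ∀ a b, P a → Q b → R (a * b))
    {X Y : Nest A j} (hX : Good P X) (hY : Good Q Y) : Good R (X * Y) := by
  rw [mul_eq_map2]; exact Good.map2 h hX hY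

theorem good_one [CommMonoid A] {P : A → Prop} (h : P 1) : Good P (1 : Nest A j) := by
  rw [← det_one]; exact good_det h j

theorem Good.pow [CommMonoid A] {P : A → Prop} (h1 : P 1) (h : ∀ a b, P a → P b → P (a * b))
    {X : Nest A j} (hX : Good P X) (n : ℕ) : Good P (X ^ n) := by
  induction n with
  | zero => rw [pow_zero]; exact good_one h1
  | succ n ih => rw [pow_succ]; exact Good.mul h ih hX

theorem GoodM.mono {P Q : A → Prop} (h : ∀ a, P a → Q a) {X : Ms (Nest A j)} (hX : GoodM P X) :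
    GoodM Q X := Good.mono h (X := up X) hX

theorem GoodM.and {P Q : A → Prop} {X : Ms (Nest A j)} (hX : GoodM P X) (hX' : GoodM Q X) :
    GoodM (fun a => P a ∧ Q a) X := Good.and (X := up X) hX hX'

theorem GoodM.mapM {P : A → Prop} {Q : B → Prop} {f : A → B} (h : ∀ a, P a → Q (f a))
    {X : Ms (Nest A j)} (hX : GoodM P X) : GoodM Q (mapM f X) := Good.map h (X := up X) hX

theorem GoodM.map2M {P : A → Prop} {Q : B → Prop} {R : C → Prop} {F : A → B → C}
    (h : ∀ a b, P a → Q b → R (F a b)) {X : Ms (Nest A j)} {Y : Ms (Nest B j)}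
    (hX : GoodM P X) (hY : GoodM Q Y) : GoodM R (map2M F X Y) :=
  Good.map2 h (X := up X) (Y := up Y) hX hY

theorem goodM_dirac {P : A → Prop} {c : Nest A j} (h : Good P c) : GoodM P (dirac c) :=
  ⟨prob_dirac _, supp_dirac h⟩

theorem GoodM.mul [CommMonoid A] {P Q R : A → Prop} (h : ∀ a b, P a → Q b → R (a * b))
    {X Y : Ms (Nest A j)} (hX : GoodM P X) (hY : GoodM Q Y) : GoodM R (X * Y) :=
  Good.mul h (X := up X) (Y := up Y) hX hY

theorem goodM_one [CommMonoid A] {P : A → Prop} (h : P 1) : GoodM P (1 : Ms (Nest A j)) :=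
  good_one (j := j + 1) h

theorem GoodM.pow [CommMonoid A] {P : A → Prop} (h1 : P 1) (h : ∀ a b, P a → P b → P (a * b))
    {X : Ms (Nest A j)} (hX : GoodM P X) (n : ℕ) : GoodM P (X ^ n) :=
  Good.pow h1 h (X := up X) hX n

theorem goodM_avg {ι : Type} [Fintype ι] [Nonempty ι] {P : A → Prop} {X : ι → Ms (Nest A j)}
    (h : ∀ i, GoodM P (X i)) : GoodM P (avg X) :=
  ⟨prob_avg fun i => (h i).1, supp_avg fun i => (h i).2⟩

theorem goodM_mix {P : A → Prop} {X Y : Ms (Nest A j)} (hX : GoodM P X) (hY : GoodM P Y)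
    {a : ℝ} (h0 : 0 ≤ a) (h1 : a ≤ 1) : GoodM P ((1 - a) • X + a • Y) :=
  ⟨prob_mix hX.1 hY.1 h0 h1, (hX.2.smul _).add (hY.2.smul _)⟩

theorem goodM_bind {M : Type} {P : A → Prop} {ν : Ms M} (hν : ν.Prob) {κ : M → Ms (Nest A j)}
    (hκ : ∀ c, ν.coeff c ≠ 0 → GoodM P (κ c)) : GoodM P (bind ν κ) :=
  ⟨hν.bind fun c hc => (hκ c hc).1, (supp_self ν).bind fun c hc => (hκ c hc).2⟩

/-! ### Values -/

variable {θ : ℝ}

theorem val_map (v : B → ℝ) (f : A → B) : ∀ {j : ℕ} (X : Nest A j),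
    val θ v (map f X) = val θ (fun a => v (f a)) X
  | 0, _ => rfl
  | j + 1, X => by simp [val_succ, pre, val_map v f (j := j)]

theorem pre_mapM (v : B → ℝ) (f : A → B) (X : Ms (Nest A j)) :
    pre θ v (mapM f X) = pre θ (fun a => v (f a)) X := by simp [pre, val_map]

theorem val_congr {P : A → Prop} {u v : A → ℝ} (h : ∀ a, P a → u a = v a) :
    ∀ {j : ℕ} {X : Nest A j}, Good P X → val θ u X = val θ v X
  | 0, _, hX => h _ hX
  | _ + 1, X, hX => by
    rw [val_succ, val_succ, pre, pre, hX.2.I_congr fun c hc => val_congr h hc]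

theorem pre_congr {P : A → Prop} {u v : A → ℝ} (h : ∀ a, P a → u a = v a)
    {X : Ms (Nest A j)} (hX : GoodM P X) : pre θ u X = pre θ v X :=
  hX.2.I_congr fun _ hc => val_congr h hc

theorem val_nonneg {P : A → Prop} {v : A → ℝ} (h : ∀ a, P a → 0 ≤ v a) :
    ∀ {j : ℕ} {X : Nest A j}, Good P X → 0 ≤ val θ v X
  | 0, _, hX => h _ hX
  | _ + 1, _, hX =>
    Real.rpow_nonneg (hX.2.I_nonneg hX.1.1 fun _ hc => val_nonneg h hc) _

theorem pre_nonneg {P : A → Prop} {v : A → ℝ} (h : ∀ a, P a → 0 ≤ v a)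
    {X : Ms (Nest A j)} (hX : GoodM P X) : 0 ≤ pre θ v X :=
  hX.2.I_nonneg hX.1.1 fun _ hc => val_nonneg h hc

theorem val_pos {P : A → Prop} {v : A → ℝ} (h : ∀ a, P a → 0 < v a) :
    ∀ {j : ℕ} {X : Nest A j}, Good P X → 0 < val θ v X
  | 0, _, hX => h _ hX
  | _ + 1, X, hX => by
    refine Real.rpow_pos_of_pos ?_ _
    have h0 : ∀ c, (dn X).coeff c ≠ 0 → 0 ≤ val θ v c := fun c hc => (val_pos h (hX.2 c hc)).le
    refine lt_of_le_of_ne (I_nonneg hX.1.1 h0) fun he => ?_
    have h1 : (dn X).mass = I (dn X) fun _ => 0 := I_congr fun c hc =>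
      absurd (eq_zero_of_I_eq_zero hX.1.1 h0 he.symm c hc) (val_pos h (hX.2 c hc)).ne'
    rw [hX.1.2, I_zero_fun] at h1
    exact one_ne_zero h1

theorem pre_pos {P : A → Prop} {v : A → ℝ} (h : ∀ a, P a → 0 < v a)
    {X : Ms (Nest A j)} (hX : GoodM P X) : 0 < pre θ v X := by
  have h0 : ∀ c, X.coeff c ≠ 0 → 0 ≤ val θ v c := fun c hc => (val_pos h (hX.2 c hc)).le
  refine lt_of_le_of_ne (I_nonneg hX.1.1 h0) fun he => ?_
  have h1 : X.mass = I X fun _ => 0 := I_congr fun c hc =>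
    absurd (eq_zero_of_I_eq_zero hX.1.1 h0 he.symm c hc) (val_pos h (hX.2 c hc)).ne'
  rw [hX.1.2, I_zero_fun] at h1
  exact one_ne_zero h1

theorem val_mono (hθ : 0 ≤ θ) {P : A → Prop} {u v : A → ℝ} (hu : ∀ a, P a → 0 ≤ u a)
    (h : ∀ a, P a → u a ≤ v a) :
    ∀ {j : ℕ} {X : Nest A j}, Good P X → val θ u X ≤ val θ v X
  | 0, _, hX => h _ hX
  | _ + 1, _, hX =>
    Real.rpow_le_rpow (pre_nonneg hu hX) (hX.2.I_mono hX.1.1 fun _ hc => val_mono hθ hu h hc) hθ

theorem pre_mono (hθ : 0 ≤ θ) {P : A → Prop} {u v : A → ℝ} (hu : ∀ a, P a → 0 ≤ u a)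
    (h : ∀ a, P a → u a ≤ v a) {X : Ms (Nest A j)} (hX : GoodM P X) :
    pre θ u X ≤ pre θ v X := hX.2.I_mono hX.1.1 fun _ hc => val_mono hθ hu h hc

theorem val_const_mul {P : A → Prop} {v : A → ℝ} (hv : ∀ a, P a → 0 ≤ v a) {c : ℝ} (hc : 0 ≤ c) :
    ∀ {j : ℕ} {X : Nest A j}, Good P X →
      val θ (fun a => c * v a) X = c ^ (θ ^ j) * val θ v X
  | 0, _, _ => by simp
  | j + 1, X, hX => by
    rw [val_succ, val_succ, pre, hX.2.I_congr fun d hd => val_const_mul hv hc hd, I_const_mul,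
      ← pre, Real.mul_rpow (Real.rpow_nonneg hc _) (pre_nonneg hv hX), ← Real.rpow_mul hc,
      pow_succ]

theorem pre_const_mul {P : A → Prop} {v : A → ℝ} (hv : ∀ a, P a → 0 ≤ v a) {c : ℝ} (hc : 0 ≤ c)
    {X : Ms (Nest A j)} (hX : GoodM P X) :
    pre θ (fun a => c * v a) X = c ^ (θ ^ j) * pre θ v X := by
  rw [pre, hX.2.I_congr fun d hd => val_const_mul hv hc hd, I_const_mul]; rfl

theorem val_const {P : A → Prop} {c : ℝ} (hc : 0 ≤ c) :
    ∀ {j : ℕ} {X : Nest A j}, Good P X → val θ (fun _ => c) X = c ^ (θ ^ j)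
  | 0, _, _ => by simp
  | j + 1, X, hX => by
    rw [val_succ, pre, hX.2.I_congr fun d hd => val_const hc hd, hX.1.I_const,
      ← Real.rpow_mul hc, pow_succ]

theorem pre_const {P : A → Prop} {c : ℝ} (hc : 0 ≤ c) {X : Ms (Nest A j)} (hX : GoodM P X) :
    pre θ (fun _ => c) X = c ^ (θ ^ j) := by
  rw [pre, hX.2.I_congr fun d hd => val_const hc hd, hX.1.I_const]

theorem val_det (v : A → ℝ) {a : A} (ha : 0 ≤ v a) (j : ℕ) :
    val θ v (det a j) = v a ^ (θ ^ j) := by
  rw [val_congr (P := fun b => b = a) (v := fun _ => v a) (fun b hb => by rw [hb])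
    (good_det (P := fun b => b = a) rfl j), val_const ha (good_det (P := fun b => b = a) rfl j)]

theorem abs_rpow_sub_rpow_le {a b : ℝ} (ha : 0 ≤ a) (hb : 0 ≤ b) (h0 : 0 ≤ θ) (h1 : θ ≤ 1) :
    |a ^ θ - b ^ θ| ≤ |a - b| ^ θ := by
  wlog hab : b ≤ a generalizing a b
  · rw [abs_sub_comm, abs_sub_comm a]; exact this hb ha (le_of_not_ge hab)
  have h2 : b ^ θ ≤ a ^ θ := Real.rpow_le_rpow hb hab h0
  rw [abs_of_nonneg (by linarith), abs_of_nonneg (by linarith)]
  have := Real.rpow_add_le_add_rpow (a := a - b) (b := b) (by linarith) hb h0 h1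
  rw [sub_add_cancel] at this
  linarith

/-- Hölder continuity of `val` in the leaf function, relative to a reference function `w`. -/
theorem val_holder (h0 : 0 ≤ θ) (h1 : θ ≤ 1) {P : A → Prop} {u v w : A → ℝ} {η : ℝ}
    (hη : 0 ≤ η) (hu : ∀ a, P a → 0 ≤ u a) (hv : ∀ a, P a → 0 ≤ v a) (hw : ∀ a, P a → 0 ≤ w a)
    (h : ∀ a, P a → |u a - v a| ≤ η * w a) :
    ∀ {j : ℕ} {X : Nest A j}, Good P X →
      |val θ u X - val θ v X| ≤ η ^ (θ ^ j) * val θ w X
  | 0, _, hX => by simpa using h _ hX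
  | j + 1, X, hX => by
    have key : |pre θ u (dn X) - pre θ v (dn X)| ≤ η ^ (θ ^ j) * pre θ w (dn X) := by
      rw [pre, pre, pre, ← I_sub_fun, ← I_const_mul]
      exact (abs_I_le hX.1.1 _).trans
        (hX.2.I_mono hX.1.1 fun c hc => val_holder h0 h1 hη hu hv hw h hc)
    rw [val_succ, val_succ, val_succ]
    refine (abs_rpow_sub_rpow_le (pre_nonneg hu hX) (pre_nonneg hv hX) h0 h1).trans ?_
    refine (Real.rpow_le_rpow (abs_nonneg _) key h0).trans (le_of_eq ?_)
    rw [Real.mul_rpow (Real.rpow_nonneg hη _) (pre_nonneg hw hX), ← Real.rpow_mul hη, pow_succ]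

theorem pre_holder (h0 : 0 ≤ θ) (h1 : θ ≤ 1) {P : A → Prop} {u v w : A → ℝ} {η : ℝ}
    (hη : 0 ≤ η) (hu : ∀ a, P a → 0 ≤ u a) (hv : ∀ a, P a → 0 ≤ v a) (hw : ∀ a, P a → 0 ≤ w a)
    (h : ∀ a, P a → |u a - v a| ≤ η * w a) {X : Ms (Nest A j)} (hX : GoodM P X) :
    |pre θ u X - pre θ v X| ≤ η ^ (θ ^ j) * pre θ w X := by
  rw [pre, pre, pre, ← I_sub_fun, ← I_const_mul]
  exact (abs_I_le hX.1.1 _).trans
    (hX.2.I_mono hX.1.1 fun c hc => val_holder h0 h1 hη hu hv hw h hc)

/-- Independent nests acting on different coordinates: values multiply. -/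
theorem val_tensor {P : A → Prop} {Q : B → Prop} {F : A → B → C} {u : C → ℝ} {u₁ : A → ℝ}
    {u₂ : B → ℝ} (h₁ : ∀ a, P a → 0 ≤ u₁ a) (h₂ : ∀ b, Q b → 0 ≤ u₂ b)
    (h : ∀ a b, P a → Q b → u (F a b) = u₁ a * u₂ b) :
    ∀ {j : ℕ} {X : Nest A j} {Y : Nest B j}, Good P X → Good Q Y →
      val θ u (map2 F X Y) = val θ u₁ X * val θ u₂ Y
  | 0, _, _, hX, hY => h _ _ hX hY
  | _ + 1, X, Y, hX, hY => by
    rw [val_succ, val_succ, val_succ, ← Real.mul_rpow (pre_nonneg h₁ hX) (pre_nonneg h₂ hY)]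
    congr 1
    rw [pre, dn_map2, I_map2M, pre, pre, ← I_mul_const]
    refine hX.2.I_congr fun c hc => ?_
    rw [← I_const_mul]
    exact hY.2.I_congr fun d hd => val_tensor h₁ h₂ h hc hd

theorem pre_tensor {P : A → Prop} {Q : B → Prop} {F : A → B → C} {u : C → ℝ} {u₁ : A → ℝ}
    {u₂ : B → ℝ} (h₁ : ∀ a, P a → 0 ≤ u₁ a) (h₂ : ∀ b, Q b → 0 ≤ u₂ b)
    (h : ∀ a b, P a → Q b → u (F a b) = u₁ a * u₂ b)
    {X : Ms (Nest A j)} {Y : Ms (Nest B j)} (hX : GoodM P X) (hY : GoodM Q Y) :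
    pre θ u (map2M F X Y) = pre θ u₁ X * pre θ u₂ Y := by
  rw [pre, I_map2M, pre, pre, ← I_mul_const]
  refine hX.2.I_congr fun c hc => ?_
  rw [← I_const_mul]
  exact hY.2.I_congr fun d hd => val_tensor h₁ h₂ h hc hd

/-- `val` of a binary combination as `val` on the pair nest. -/
theorem val_map2_eq (u : C → ℝ) (F : A → B → C) (X : Nest A j) (Y : Nest B j) :
    val θ u (map2 F X Y) = val θ (fun p : A × B => u (F p.1 p.2)) (map2 Prod.mk X Y) := by
  rw [← val_map u (fun p : A × B => F p.1 p.2), map_map2]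

theorem pre_map2M_eq (u : C → ℝ) (F : A → B → C) (X : Ms (Nest A j)) (Y : Ms (Nest B j)) :
    pre θ u (map2M F X Y) = pre θ (fun p : A × B => u (F p.1 p.2)) (map2M Prod.mk X Y) := by
  rw [← pre_mapM u (fun p : A × B => F p.1 p.2), mapM_map2M]

theorem Good.pair {P : A → Prop} {Q : B → Prop} {X : Nest A j} {Y : Nest B j} (hX : Good P X)
    (hY : Good Q Y) : Good (fun p : A × B => P p.1 ∧ Q p.2) (Nest.map2 Prod.mk X Y) :=
  Good.map2 (fun _ _ ha hb => ⟨ha, hb⟩) hX hY

theorem GoodM.pair {P : A → Prop} {Q : B → Prop} {X : Ms (Nest A j)} {Y : Ms (Nest B j)}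
    (hX : GoodM P X) (hY : GoodM Q Y) :
    GoodM (fun p : A × B => P p.1 ∧ Q p.2) (Nest.map2M Prod.mk X Y) :=
  GoodM.map2M (fun _ _ ha hb => ⟨ha, hb⟩) hX hY

theorem val_map2_mono (hθ : 0 ≤ θ) {P : A → Prop} {Q : B → Prop} {F : A → B → C}
    {G : A → B → D} {u : C → ℝ} {v : D → ℝ} (hu : ∀ a b, P a → Q b → 0 ≤ u (F a b))
    (h : ∀ a b, P a → Q b → u (F a b) ≤ v (G a b)) {X : Nest A j} {Y : Nest B j}
    (hX : Good P X) (hY : Good Q Y) : val θ u (map2 F X Y) ≤ val θ v (map2 G X Y) := by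
  rw [val_map2_eq, val_map2_eq v]
  exact val_mono hθ (fun p hp => hu _ _ hp.1 hp.2) (fun p hp => h _ _ hp.1 hp.2) (hX.pair hY)

theorem pre_map2M_mono (hθ : 0 ≤ θ) {P : A → Prop} {Q : B → Prop} {F : A → B → C}
    {G : A → B → D} {u : C → ℝ} {v : D → ℝ} (hu : ∀ a b, P a → Q b → 0 ≤ u (F a b))
    (h : ∀ a b, P a → Q b → u (F a b) ≤ v (G a b)) {X : Ms (Nest A j)} {Y : Ms (Nest B j)}
    (hX : GoodM P X) (hY : GoodM Q Y) : pre θ u (map2M F X Y) ≤ pre θ v (map2M G X Y) := by
  rw [pre_map2M_eq, pre_map2M_eq v]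
  exact pre_mono hθ (fun p hp => hu _ _ hp.1 hp.2) (fun p hp => h _ _ hp.1 hp.2) (hX.pair hY)

/-! `pre` is linear -/

@[simp] theorem pre_dirac (v : A → ℝ) (c : Nest A j) : pre θ v (dirac c) = val θ v c := I_dirac _ _

theorem pre_add (v : A → ℝ) (X Y : Ms (Nest A j)) : pre θ v (X + Y) = pre θ v X + pre θ v Y :=
  I_add _ _ _

theorem pre_smul (v : A → ℝ) (a : ℝ) (X : Ms (Nest A j)) : pre θ v (a • X) = a * pre θ v X :=
  I_smul _ _ _

theorem pre_sum {ι : Type*} (v : A → ℝ) (s : Finset ι) (X : ι → Ms (Nest A j)) :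
    pre θ v (∑ i ∈ s, X i) = ∑ i ∈ s, pre θ v (X i) := I_sum _ _ _

theorem pre_avg {ι : Type} [Fintype ι] (v : A → ℝ) (X : ι → Ms (Nest A j)) :
    pre θ v (avg X) = (∑ i, pre θ v (X i)) / Fintype.card ι := I_avg _ _

theorem pre_bind {M : Type} (v : A → ℝ) (ν : Ms M) (κ : M → Ms (Nest A j)) :
    pre θ v (bind ν κ) = I ν fun c => pre θ v (κ c) := I_bind _ _ _

theorem pre_mul [CommMonoid A] (v : A → ℝ) (X Y : Ms (Nest A j)) :
    pre θ v (X * Y) = I X fun c => I Y fun d => val θ v (c * d) := I_mul _ _ _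

theorem pre_mul_left [CommMonoid A] (v : A → ℝ) (X Y : Ms (Nest A j)) :
    pre θ v (X * Y) = I X fun c => pre θ v (dirac c * Y) := by
  simp [pre_mul]

theorem pre_mul_right [CommMonoid A] (v : A → ℝ) (X Y : Ms (Nest A j)) :
    pre θ v (X * Y) = I Y fun d => pre θ v (X * dirac d) := by
  rw [mul_comm, pre_mul_left]; simp only [mul_comm]

end Nest

end Crest.Agent.R153
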