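import Crest.Agent.R153.Nest
import Crest.Agent.R153.Defs

/-!
Row 153: the concrete objects (clauses with slots, the functional `PiF`, tests and pins, labelled
trees, multi-overlap moments) and their elementary properties.
-/

set_option autoImplicit false

namespace Crest.Agent.R153

open Ms Nest

variable {S L : Type} {j : ℕ} {θ : ℝ}

/-- Leaf value: sum over configurations. -/
def sumv [Fintype S] (x : S → ℝ) : ℝ := ∑ σ, x σ

/-- Functions with values in `[0,1]`. -/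
def U01 (x : S → ℝ) : Prop := ∀ σ, 0 ≤ x σ ∧ x σ ≤ 1

/-- Numbers in `[0,1]`. -/
def R01 (r : ℝ) : Prop := 0 ≤ r ∧ r ≤ 1

/-- No condition. -/
def Any {A : Type} (_ : A) : Prop := True

/-- `val` and `pre` for nests of functions on configurations. -/
noncomputable def vS [Fintype S] (θ : ℝ) (X : Nest (S → ℝ) j) : ℝ := val θ sumv X
noncomputable def pS [Fintype S] (θ : ℝ) (X : Ms (Nest (S → ℝ) j)) : ℝ := pre θ sumv X

/-- The exponent `1 - 1/Q`. -/
noncomputable def th (Q : ℕ) : ℝ := 1 - 1 / (Q : ℝ)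

/-- Replace every leaf `x` by `1 - x`. -/
noncomputable def neg (X : Ms (Nest (S → ℝ) j)) : Ms (Nest (S → ℝ) j) :=
  mapM (fun x σ => 1 - x σ) X

/-- A slot filled by a uniformly random literal `β l` (`β l σ = 1` iff the literal is false). -/
noncomputable def slotB [Fintype L] (β : L → S → ℝ) (j : ℕ) : Ms (Nest (S → ℝ) j) :=
  avg fun l => dirac (det (β l) j)

/-- A slot filled by the scalar nest `ξ`. -/
noncomputable def slotE (S : Type) (ξ : Ms (Nest ℝ j)) : Ms (Nest (S → ℝ) j) :=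
  mapM (fun r _ => r) ξ

/-- Falsity indicators of the literals on `n` variables. -/
def lit (n : ℕ) (l : Fin n × Bool) (σ : Fin n → Bool) : ℝ := if σ l.1 = l.2 then 0 else 1

/-- Falsity indicators of the two literals on one variable. -/
def lit1 (s : Bool) (σ : Bool) : ℝ := if σ = s then 0 else 1

/-- One variable in `J` clauses whose other `k-1` slots are filled by `ξ`. -/
noncomputable def siteW (θ : ℝ) (k : ℕ) (ξ : Ms (Nest ℝ j)) (J : ℕ) : ℝ :=
  pS θ (neg (slotB lit1 j * slotE Bool ξ ^ (k - 1)) ^ J)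

/-- One clause all of whose slots are filled by `ξ`. -/
noncomputable def clauseW (θ : ℝ) (k : ℕ) (ξ : Ms (Nest ℝ j)) : ℝ :=
  pre θ (fun r => 1 - r) (ξ ^ k)

/-- The (exponentiated, annealed) Mezard-Parisi functional. -/
noncomputable def PiF (θ : ℝ) (k : ℕ) (a : ℝ) (ξ : Ms (Nest ℝ j)) : ℝ :=
  (∑' J : ℕ, poi (k * a) J * siteW θ k ξ J) *
    Real.exp (((k : ℝ) - 1) * a * (1 - clauseW θ k ξ))

/-- Leaf values of tests: `0`, `1/2`, `x/2`. -/
noncomputable def tv : Option Bool → ℝ → ℝ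
  | none, _ => 0
  | some false, _ => 1 / 2
  | some true, x => x / 2

/-- The test (a multiplicative factor) built from the function `s` and the pattern `V`. -/
noncomputable def test (s : S → ℝ) (V : Nest (Option Bool) j) : Nest (S → ℝ) j :=
  map (fun o σ => 1 - tv o (s σ)) V

noncomputable def testM (s : S → ℝ) (V : Ms (Nest (Option Bool) j)) : Ms (Nest (S → ℝ) j) :=
  mapM (fun o σ => 1 - tv o (s σ)) V

/-- One random pin: uniform literal, pattern drawn from the menu `Π`. -/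
noncomputable def pinP [Fintype L] (β : L → S → ℝ) (Pm : Ms (Nest (Option Bool) j)) :
    Ms (Nest (S → ℝ) j) := avg fun l => testM (β l) Pm

/-- `R` pins at every level. -/
noncomputable def pins [Fintype L] (β : L → S → ℝ) (Pm : ∀ i, Ms (Nest (Option Bool) i))
    (R : ℕ) : (j : ℕ) → Nest (S → ℝ) j
  | 0 => 1
  | j + 1 => up (pinP β (Pm j) ^ R * dirac (pins β Pm R j))

noncomputable def pinsM [Fintype L] (β : L → S → ℝ) (Pm : ∀ i, Ms (Nest (Option Bool) i))
    (R : ℕ) (j : ℕ) : Ms (Nest (S → ℝ) j) := pinP β (Pm j) ^ R * dirac (pins β Pm R j)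

/-- Intermediate objects: `n` of the `R` pins of the top level have been revealed. -/
noncomputable def midZ (P : Ms (Nest (S → ℝ) j)) (T : Nest (S → ℝ) j) (R : ℕ)
    (b : Nest (S → ℝ) j) (n : ℕ) : Ms (Nest (S → ℝ) j) := dirac (b * T) * P ^ (R - n)

/-- Labelled trees of depth `j`. -/
def Tr : ℕ → Type
  | 0 => Bool
  | j + 1 => List (Tr j)

namespace Tr
def tip (b : Bool) : Tr 0 := b
def lbl (t : Tr 0) : Bool := t
def node (ts : List (Tr j)) : Tr (j + 1) := ts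
def kids (t : Tr (j + 1)) : List (Tr j) := t
@[simp] theorem lbl_tip (b : Bool) : lbl (tip b) = b := rfl
@[simp] theorem tip_lbl (t : Tr 0) : tip (lbl t) = t := rfl
@[simp] theorem kids_node (ts : List (Tr j)) : kids (node ts) = ts := rfl
@[simp] theorem node_kids (t : Tr (j + 1)) : node (kids t) = t := rfl
/-- Number of leaves. -/
def size : {j : ℕ} → Tr j → ℕ
  | 0, _ => 1
  | _ + 1, t => ((kids t).map size).sum
@[simp] theorem size_zero (t : Tr 0) : size t = 1 := rfl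
theorem size_succ (t : Tr (j + 1)) : size t = ((kids t).map size).sum := rfl
@[simp] theorem size_node (ts : List (Tr j)) : size (node ts) = (ts.map size).sum := rfl
end Tr

/-- Sibuya coefficients: `1 - (1-x)^θ = Σ_q sib θ q x^q`. -/
noncomputable def sib (θ : ℝ) : ℕ → ℝ
  | 0 => 0
  | 1 => θ
  | q + 2 => sib θ (q + 1) * (((q : ℝ) + 1 - θ) / ((q : ℝ) + 2))

/-- Truncated law of the labelled Sibuya tree (a sub-probability measure). -/
noncomputable def treeP (θ : ℝ) (Q' : ℕ) : (j : ℕ) → Ms (Tr j)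
  | 0 => avg fun b : Bool => dirac (Tr.tip b)
  | j + 1 => ∑ q ∈ Finset.range (Q' + 1), sib θ q • Ms.map Tr.node (listPow (treeP θ Q' j) q)

/-- Label `true` sees the function `s`, label `false` sees `1`. -/
def lab (b : Bool) (s : S → ℝ) : S → ℝ := fun σ => if b then s σ else 1

/-- Hierarchical moment: replicas are sampled along the tree `t`, and we average the product of
`s` over the replicas labelled `true`. -/
noncomputable def mm [Fintype S] (θ : ℝ) : {j : ℕ} → Tr j → Nest (S → ℝ) j → (S → ℝ) → ℝ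
  | 0, t, x, s => (∑ σ, unleaf x σ * lab t.lbl s σ) / sumv (unleaf x)
  | _ + 1, t, X, s => (t.kids.map fun u => I (tilt (dn X) (vS θ)) fun c => mm θ u c s).prod

noncomputable def mmP [Fintype S] (θ : ℝ) (t : Tr j) (X : Ms (Nest (S → ℝ) j)) (s : S → ℝ) : ℝ :=
  I (tilt X (vS θ)) fun c => mm θ t c s

/-- Relative loss of value caused by the factor `W`. -/
noncomputable def GG [Fintype S] (θ : ℝ) (X W : Nest (S → ℝ) j) : ℝ := 1 - vS θ (X * W) / vS θ X

noncomputable def GP [Fintype S] (θ : ℝ) (X W : Ms (Nest (S → ℝ) j)) : ℝ :=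
  1 - pS θ (X * W) / pS θ X

/-- Covariance matrix of the multi-overlap integrands. -/
noncomputable def CP [Fintype S] (θ : ℝ) (t : Tr j) (Y : Ms (Nest (S → ℝ) j)) (β : L → S → ℝ)
    (l l' : L) : ℝ := mmP θ t Y (β l * β l') - mmP θ t Y (β l) * mmP θ t Y (β l')

/-- The defect of multiplicativity for two tests. -/
noncomputable def Rr [Fintype S] (θ : ℝ) (Z : Ms (Nest (S → ℝ) j)) (d e : Nest (S → ℝ) j) : ℝ :=
  pS θ (Z * dirac d * dirac e) / pS θ Z - pS θ (Z * dirac d) / pS θ Z * (pS θ (Z * dirac e) / pS θ Z)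

/-- Mean square of the entries of a matrix, and its square root. -/
noncomputable def hs2 [Fintype L] (M : L → L → ℝ) : ℝ :=
  (∑ l, ∑ l', M l l' ^ 2) / (Fintype.card L : ℝ) ^ 2

noncomputable def hs [Fintype L] (M : L → L → ℝ) : ℝ := Real.sqrt (hs2 M)

/-- The single-site nest: image of the tilted hierarchy under `x ↦ ⟨s⟩_x`. -/
noncomputable def sNest [Fintype S] (θ : ℝ) (s : S → ℝ) : {j : ℕ} → Nest (S → ℝ) j → Nest ℝ j
  | 0, x => leaf ((∑ σ, unleaf x σ * s σ) / sumv (unleaf x))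
  | _ + 1, X => up (Ms.map (sNest θ s) (tilt (dn X) (vS θ)))

/-- The scalar nest of a uniformly random literal. -/
noncomputable def xiOf [Fintype S] [Fintype L] (θ : ℝ) (β : L → S → ℝ)
    (Y : Ms (Nest (S → ℝ) j)) : Ms (Nest ℝ j) :=
  avg fun l => Ms.map (sNest θ (β l)) (tilt Y (vS θ))

/-! ### Elementary properties -/

theorem U01_one : U01 (1 : S → ℝ) := fun _ => by simp

theorem U01.mul {x y : S → ℝ} (hx : U01 x) (hy : U01 y) : U01 (x * y) := fun σ =>
  ⟨mul_nonneg (hx σ).1 (hy σ).1, mul_le_one₀ (hx σ).2 (hy σ).1 (hy σ).2⟩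

theorem U01_mul (x y : S → ℝ) (hx : U01 x) (hy : U01 y) : U01 (x * y) := hx.mul hy

theorem U01.one_sub {x : S → ℝ} (hx : U01 x) : U01 fun σ => 1 - x σ := fun σ =>
  ⟨by linarith [(hx σ).2], by linarith [(hx σ).1]⟩

theorem R01_one : R01 1 := ⟨zero_le_one, le_rfl⟩

theorem R01_mul (x y : ℝ) (hx : R01 x) (hy : R01 y) : R01 (x * y) :=
  ⟨mul_nonneg hx.1 hy.1, mul_le_one₀ hx.2 hy.1 hy.2⟩

theorem U01.lab {s : S → ℝ} (hs : U01 s) (b : Bool) : U01 (lab b s) := fun σ => by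
  cases b
  · simp [R153.lab]
  · simpa [R153.lab] using hs σ

theorem lab_mul (b : Bool) (s s' : S → ℝ) : lab b (s * s') = lab b s * lab b s' := by
  funext σ; cases b <;> simp [lab]

theorem U01_lit (n : ℕ) (l : Fin n × Bool) : U01 (lit n l) := fun σ => by
  unfold lit; split_ifs <;> simp

theorem U01_lit1 (s : Bool) : U01 (lit1 s) := fun σ => by
  unfold lit1; split_ifs <;> simp

theorem tv_mem {x : ℝ} (hx : R01 x) (o : Option Bool) : 0 ≤ tv o x ∧ tv o x ≤ 1 / 2 := by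
  rcases o with _ | _ | _
  · simp [tv]
  · simp [tv]
  · simp only [tv]; constructor <;> linarith [hx.1, hx.2]

theorem sumv_nonneg [Fintype S] (x : S → ℝ) (hx : U01 x) : 0 ≤ sumv x :=
  Finset.sum_nonneg fun σ _ => (hx σ).1

namespace Nest
theorem Good.mulU {X Y : Nest (S → ℝ) j} (hX : Good U01 X) (hY : Good U01 Y) :
    Good U01 (X * Y) := Good.mul U01_mul hX hY
theorem GoodM.mulU {X Y : Ms (Nest (S → ℝ) j)} (hX : GoodM U01 X) (hY : GoodM U01 Y) :
    GoodM U01 (X * Y) := GoodM.mul U01_mul hX hY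
theorem GoodM.powU {X : Ms (Nest (S → ℝ) j)} (hX : GoodM U01 X) (n : ℕ) :
    GoodM U01 (X ^ n) := GoodM.pow U01_one U01_mul hX n
theorem GoodM.powR {X : Ms (Nest ℝ j)} (hX : GoodM R01 X) (n : ℕ) :
    GoodM R01 (X ^ n) := GoodM.pow R01_one R01_mul hX n
theorem GoodM.neg {X : Ms (Nest (S → ℝ) j)} (hX : GoodM U01 X) : GoodM U01 (neg X) :=
  hX.mapM fun _ h => h.one_sub
theorem GoodM.slotE {ξ : Ms (Nest ℝ j)} (h : GoodM R01 ξ) : GoodM U01 (slotE S ξ) :=
  h.mapM fun _ hr _ => hr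
theorem Good.any {A : Type} {P : A → Prop} {X : Nest A j} (h : Good P X) : Good Any X :=
  h.mono fun _ _ => trivial
theorem GoodM.any {A : Type} {P : A → Prop} {X : Ms (Nest A j)} (h : GoodM P X) : GoodM Any X :=
  h.mono fun _ _ => trivial
end Nest

theorem goodM_slotB' [Fintype L] [Nonempty L] {P : (S → ℝ) → Prop} {β : L → S → ℝ}
    (hβ : ∀ l, P (β l)) (j : ℕ) : GoodM P (slotB β j) :=
  goodM_avg fun l => goodM_dirac (good_det (hβ l) j)

theorem goodM_slotB [Fintype L] [Nonempty L] {β : L → S → ℝ} (hβ : ∀ l, U01 (β l)) (j : ℕ) :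
    GoodM U01 (slotB β j) := goodM_slotB' hβ j

/-- Functions with values in `[1/2, 1]`. -/
def UH (x : S → ℝ) : Prop := ∀ σ, 1 / 2 ≤ x σ ∧ x σ ≤ 1

theorem UH.u01 {x : S → ℝ} (h : UH x) : U01 x := fun σ => ⟨by linarith [(h σ).1], (h σ).2⟩

theorem good_test_UH {s : S → ℝ} (hs : U01 s) {V : Nest (Option Bool) j} (hV : Good Any V) :
    Good UH (test s V) :=
  hV.map fun o _ σ => by
    have := tv_mem (hs σ) o
    constructor <;> linarith [this.1, this.2]

theorem good_test {s : S → ℝ} (hs : U01 s) {V : Nest (Option Bool) j} (hV : Good Any V) :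
    Good U01 (test s V) := (good_test_UH hs hV).mono fun _ h => h.u01

theorem goodM_testM_UH {s : S → ℝ} (hs : U01 s) {V : Ms (Nest (Option Bool) j)}
    (hV : GoodM Any V) : GoodM UH (testM s V) := good_test_UH hs (V := up V) hV

theorem goodM_testM {s : S → ℝ} (hs : U01 s) {V : Ms (Nest (Option Bool) j)}
    (hV : GoodM Any V) : GoodM U01 (testM s V) := good_test hs (V := up V) hV

@[simp] theorem test_det_none (s : S → ℝ) (j : ℕ) : test s (det none j) = 1 := by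
  rw [test, map_det, ← det_one]
  congr 1
  funext σ
  simp [tv]

theorem test_up (s : S → ℝ) (V : Ms (Nest (Option Bool) j)) : test s (up V) = up (testM s V) := rfl

@[simp] theorem dn_test (s : S → ℝ) (V : Nest (Option Bool) (j + 1)) :
    dn (test s V) = testM s (dn V) := rfl

@[simp] theorem I_testM (s : S → ℝ) (V : Ms (Nest (Option Bool) j)) (f : Nest (S → ℝ) j → ℝ) :
    I (testM s V) f = I V fun d => f (test s d) := I_mapM _ _ _

theorem I_pinP [Fintype L] (β : L → S → ℝ) (Pm : Ms (Nest (Option Bool) j))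
    (f : Nest (S → ℝ) j → ℝ) :
    I (pinP β Pm) f = (∑ l, I Pm fun d => f (test (β l) d)) / Fintype.card L := by
  simp [pinP, I_avg]

section pinsGood
variable [Fintype L] [Nonempty L] {β : L → S → ℝ} {P : (S → ℝ) → Prop}

theorem goodM_pinP' (hP : ∀ l o, P fun σ => 1 - tv o (β l σ)) {Pm : Ms (Nest (Option Bool) j)}
    (h : GoodM Any Pm) : GoodM P (pinP β Pm) :=
  goodM_avg fun l => h.mapM fun o _ => hP l o

theorem good_pins' (h1 : P 1) (hmul : ∀ x y, P x → P y → P (x * y))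
    (hP : ∀ l o, P fun σ => 1 - tv o (β l σ)) {Pm : ∀ i, Ms (Nest (Option Bool) i)}
    (h : ∀ i, GoodM Any (Pm i)) (R : ℕ) : ∀ j, Good P (pins β Pm R j)
  | 0 => h1
  | j + 1 => GoodM.mul hmul (GoodM.pow h1 hmul (goodM_pinP' hP (h j)) R)
      (goodM_dirac (good_pins' h1 hmul hP h R j))

theorem goodM_pinsM' (h1 : P 1) (hmul : ∀ x y, P x → P y → P (x * y))
    (hP : ∀ l o, P fun σ => 1 - tv o (β l σ)) {Pm : ∀ i, Ms (Nest (Option Bool) i)}
    (h : ∀ i, GoodM Any (Pm i)) (R j : ℕ) : GoodM P (pinsM β Pm R j) :=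
  good_pins' h1 hmul hP h R (j + 1)

omit [Fintype L] [Nonempty L] in
theorem U01_testleaf (hβ : ∀ l, U01 (β l)) (l : L) (o : Option Bool) :
    U01 fun σ => 1 - tv o (β l σ) := fun σ => by
  have := tv_mem (hβ l σ) o
  constructor <;> linarith [this.1, this.2]

theorem goodM_pinP (hβ : ∀ l, U01 (β l)) {Pm : Ms (Nest (Option Bool) j)} (h : GoodM Any Pm) :
    GoodM U01 (pinP β Pm) := goodM_pinP' (U01_testleaf hβ) h

theorem good_pins (hβ : ∀ l, U01 (β l)) {Pm : ∀ i, Ms (Nest (Option Bool) i)}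
    (h : ∀ i, GoodM Any (Pm i)) (R j : ℕ) : Good U01 (pins β Pm R j) :=
  good_pins' U01_one U01_mul (U01_testleaf hβ) h R j

theorem goodM_pinsM (hβ : ∀ l, U01 (β l)) {Pm : ∀ i, Ms (Nest (Option Bool) i)}
    (h : ∀ i, GoodM Any (Pm i)) (R j : ℕ) : GoodM U01 (pinsM β Pm R j) :=
  good_pins hβ h R (j + 1)

end pinsGood

theorem pins_succ [Fintype L] (β : L → S → ℝ) (Pm : ∀ i, Ms (Nest (Option Bool) i)) (R j : ℕ) :
    pins β Pm R (j + 1) = up (pinsM β Pm R j) := rfl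

section values
variable [Fintype S]

theorem pS_eq (X : Ms (Nest (S → ℝ) j)) : pS θ X = I X (vS θ) := rfl

@[simp] theorem vS_zero (x : Nest (S → ℝ) 0) : vS θ x = sumv (unleaf x) := rfl

theorem vS_succ (X : Nest (S → ℝ) (j + 1)) : vS θ X = pS θ (dn X) ^ θ := rfl

@[simp] theorem vS_up (X : Ms (Nest (S → ℝ) j)) : vS θ (up X) = pS θ X ^ θ := rfl

@[simp] theorem pS_dirac (c : Nest (S → ℝ) j) : pS θ (dirac c) = vS θ c := I_dirac _ _

theorem pS_mul (X Y : Ms (Nest (S → ℝ) j)) :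
    pS θ (X * Y) = I X fun c => I Y fun d => vS θ (c * d) := I_mul _ _ _

theorem pS_mul_left (X Y : Ms (Nest (S → ℝ) j)) :
    pS θ (X * Y) = I X fun c => pS θ (dirac c * Y) := pre_mul_left _ _ _

theorem pS_mul_right (X Y : Ms (Nest (S → ℝ) j)) :
    pS θ (X * Y) = I Y fun d => pS θ (X * dirac d) := pre_mul_right _ _ _

theorem pS_add (X Y : Ms (Nest (S → ℝ) j)) : pS θ (X + Y) = pS θ X + pS θ Y := I_add _ _ _

theorem pS_smul (a : ℝ) (X : Ms (Nest (S → ℝ) j)) : pS θ (a • X) = a * pS θ X := I_smul _ _ _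

theorem vS_nonneg {X : Nest (S → ℝ) j} (hX : Good U01 X) : 0 ≤ vS θ X :=
  val_nonneg sumv_nonneg hX

theorem pS_nonneg {X : Ms (Nest (S → ℝ) j)} (hX : GoodM U01 X) : 0 ≤ pS θ X :=
  pre_nonneg sumv_nonneg hX

theorem vS_mul_le (hθ : 0 ≤ θ) {X W : Nest (S → ℝ) j} (hX : Good U01 X) (hW : Good U01 W) :
    vS θ (X * W) ≤ vS θ X := by
  have h := val_map2_mono hθ (F := fun a b : S → ℝ => a * b) (G := fun a (_ : S → ℝ) => a)
    (u := sumv) (v := sumv) (fun a b ha hb => sumv_nonneg _ (ha.mul hb))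
    (fun a b ha hb => Finset.sum_le_sum fun σ _ => mul_le_of_le_one_right (ha σ).1 (hb σ).2) hX hW
  rwa [← Nest.mul_eq_map2, map2_fst (fun a => a) X hW, Nest.map_id] at h

theorem pS_mul_le (hθ : 0 ≤ θ) {X W : Ms (Nest (S → ℝ) j)} (hX : GoodM U01 X)
    (hW : GoodM U01 W) : pS θ (X * W) ≤ pS θ X := by
  rw [pS_mul, pS_eq]
  exact hX.2.I_mono hX.1.1 fun c hc => hW.1.le_of_le fun d hd => vS_mul_le hθ hc (hW.2 d hd)

/-- A factor whose leaves are at least `c` costs at most a factor `c`. -/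
theorem mul_vS_le (h0 : 0 ≤ θ) (h1 : θ ≤ 1) {c : ℝ} (hc0 : 0 < c) (hc1 : c ≤ 1)
    {X W : Nest (S → ℝ) j} (hX : Good U01 X) (hW : Good (fun x => ∀ σ, c ≤ x σ) W) :
    c * vS θ X ≤ vS θ (X * W) := by
  have h := val_map2_mono h0 (G := fun a b : S → ℝ => a * b) (F := fun a (_ : S → ℝ) => a)
    (u := fun a => c * sumv a) (v := sumv)
    (fun a _ ha _ => mul_nonneg hc0.le (sumv_nonneg _ ha))
    (fun a b ha hb => by
      simp only [sumv, Finset.mul_sum]
      exact Finset.sum_le_sum fun σ _ => by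
        rw [mul_comm]; exact mul_le_mul_of_nonneg_left (hb σ) (ha σ).1) hX hW
  rw [← Nest.mul_eq_map2, map2_fst (fun a => a) X hW, Nest.map_id,
    val_const_mul sumv_nonneg hc0.le hX] at h
  refine le_trans (mul_le_mul_of_nonneg_right ?_ (vS_nonneg hX)) h
  calc c = c ^ (1 : ℝ) := (Real.rpow_one c).symm
    _ ≤ c ^ (θ ^ j) := Real.rpow_le_rpow_of_exponent_ge hc0 hc1 (pow_le_one₀ h0 h1)

theorem half_vS_le (h0 : 0 ≤ θ) (h1 : θ ≤ 1) {X W : Nest (S → ℝ) j} (hX : Good U01 X)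
    (hW : Good UH W) : 1 / 2 * vS θ X ≤ vS θ (X * W) :=
  mul_vS_le h0 h1 (by norm_num) (by norm_num) hX (hW.mono fun _ h σ => (h σ).1)

theorem half_pS_le (h0 : 0 ≤ θ) (h1 : θ ≤ 1) {X W : Ms (Nest (S → ℝ) j)} (hX : GoodM U01 X)
    (hW : GoodM UH W) : 1 / 2 * pS θ X ≤ pS θ (X * W) := by
  rw [pS_mul, pS_eq, ← I_const_mul]
  exact hX.2.I_mono hX.1.1 fun c hc => hW.1.ge_of_ge fun d hd => half_vS_le h0 h1 hc (hW.2 d hd)

theorem pS_pos_of_vS_pos (hθ : 0 < θ) {X : Nest (S → ℝ) (j + 1)} (hX : Good U01 X)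
    (h : 0 < vS θ X) : 0 < pS θ (dn X) := by
  refine lt_of_le_of_ne (pS_nonneg hX) fun he => ?_
  rw [vS_succ, ← he, Real.zero_rpow hθ.ne'] at h
  exact lt_irrefl _ h

/-- The tilted law of the children. -/
theorem prob_tilt_vS {X : Ms (Nest (S → ℝ) j)} (hX : GoodM U01 X) (h : 0 < pS θ X) :
    (tilt X (vS θ)).Prob :=
  prob_tilt hX.1.1 (fun c hc => vS_nonneg (hX.2 c hc)) h.ne'

theorem NN_tilt_vS {X : Ms (Nest (S → ℝ) j)} (hX : GoodM U01 X) : (tilt X (vS θ)).NN :=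
  hX.1.1.tilt fun c hc => vS_nonneg (hX.2 c hc)

theorem supp_tilt_vS {X : Ms (Nest (S → ℝ) j)} (hX : GoodM U01 X) :
    (tilt X (vS θ)).Supp fun c => Good U01 c ∧ 0 < vS θ c :=
  (hX.2.tilt (vS θ)).mono fun _ hc => ⟨hc.1, lt_of_le_of_ne (vS_nonneg hc.1) (Ne.symm hc.2)⟩

theorem GG_mem (hθ : 0 ≤ θ) {X W : Nest (S → ℝ) j} (hX : Good U01 X) (hW : Good U01 W) :
    0 ≤ GG θ X W ∧ GG θ X W ≤ 1 := by
  have h1 : vS θ (X * W) / vS θ X ≤ 1 := div_le_one_of_le₀ (vS_mul_le hθ hX hW) (vS_nonneg hX)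
  have h2 : 0 ≤ vS θ (X * W) / vS θ X := div_nonneg (vS_nonneg (hX.mulU hW)) (vS_nonneg hX)
  constructor <;> simp only [GG] <;> linarith

theorem GP_mem (hθ : 0 ≤ θ) {X W : Ms (Nest (S → ℝ) j)} (hX : GoodM U01 X) (hW : GoodM U01 W) :
    0 ≤ GP θ X W ∧ GP θ X W ≤ 1 := by
  have h1 : pS θ (X * W) / pS θ X ≤ 1 := div_le_one_of_le₀ (pS_mul_le hθ hX hW) (pS_nonneg hX)
  have h2 : 0 ≤ pS θ (X * W) / pS θ X := div_nonneg (pS_nonneg (hX.mulU hW)) (pS_nonneg hX)
  constructor <;> simp only [GP] <;> linarith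

/-- Recursion for the loss, nonlinear step. -/
theorem GG_succ {X W : Nest (S → ℝ) (j + 1)} (hX : Good U01 X) (hW : Good U01 W) :
    GG θ X W = 1 - (1 - GP θ (dn X) (dn W)) ^ θ := by
  rw [GG, GP, sub_sub_cancel, vS_succ, vS_succ, dn_mul,
    Real.div_rpow (pS_nonneg (GoodM.mulU hX hW)) (pS_nonneg hX)]

/-- Ratio of values as a tilted average. -/
theorem pS_mul_div (hθ : 0 ≤ θ) {X W : Ms (Nest (S → ℝ) j)} (hX : GoodM U01 X)
    (hW : GoodM U01 W) :
    pS θ (X * W) / pS θ X = I (tilt X (vS θ)) fun c => I W fun d => vS θ (c * d) / vS θ c := by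
  rw [I_tilt, pS_mul, ← pS_eq]
  congr 1
  refine hX.2.I_congr fun c hc => ?_
  rw [← I_const_mul]
  refine hW.2.I_congr fun d hd => ?_
  by_cases h0 : vS θ c = 0
  · have h1 := vS_mul_le hθ hc hd
    have h2 : 0 ≤ vS θ (c * d) := vS_nonneg (hc.mulU hd)
    rw [h0] at h1 ⊢
    linarith
  · field_simp

/-- Recursion for the loss, linear step. -/
theorem GP_eq (hθ : 0 ≤ θ) {X W : Ms (Nest (S → ℝ) j)} (hX : GoodM U01 X) (hW : GoodM U01 W)
    (h : 0 < pS θ X) : GP θ X W = I (tilt X (vS θ)) fun c => I W fun d => GG θ c d := by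
  rw [GP, pS_mul_div hθ hX hW]
  simp only [GG, I_sub_fun, hW.1.I_const, (prob_tilt_vS hX h).I_const]

theorem mm_zero (t : Tr 0) (x : Nest (S → ℝ) 0) (s : S → ℝ) :
    mm θ t x s = (∑ σ, unleaf x σ * lab t.lbl s σ) / sumv (unleaf x) := rfl

theorem mm_succ (t : Tr (j + 1)) (X : Nest (S → ℝ) (j + 1)) (s : S → ℝ) :
    mm θ t X s = (t.kids.map fun u => mmP θ u (dn X) s).prod := rfl

theorem list_prod_mem {α : Type} (ts : List α) (f : α → ℝ) (h : ∀ t ∈ ts, 0 ≤ f t ∧ f t ≤ 1) :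
    0 ≤ (ts.map f).prod ∧ (ts.map f).prod ≤ 1 := by
  induction ts with
  | nil => simp
  | cons t ts ih =>
    have h1 := h t (by simp)
    have h2 := ih fun u hu => h u (by simp [hu])
    simp only [List.map_cons, List.prod_cons]
    exact ⟨mul_nonneg h1.1 h2.1, mul_le_one₀ h1.2 h2.1 h2.2⟩

theorem mm_mem {s : S → ℝ} (hs : U01 s) : ∀ {j : ℕ} (t : Tr j) {X : Nest (S → ℝ) j},
    Good U01 X → 0 ≤ mm θ t X s ∧ mm θ t X s ≤ 1
  | 0, t, x, hx => by
    have hl := hs.lab t.lbl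
    refine ⟨div_nonneg (Finset.sum_nonneg fun σ _ => mul_nonneg (hx σ).1 (hl σ).1)
      (sumv_nonneg _ hx), div_le_one_of_le₀ (Finset.sum_le_sum fun σ _ =>
        mul_le_of_le_one_right (hx σ).1 (hl σ).2) (sumv_nonneg _ hx)⟩
  | _ + 1, t, X, hX => by
    refine list_prod_mem _ _ fun u _ => ⟨?_, ?_⟩
    · exact (supp_tilt_vS hX).I_nonneg (NN_tilt_vS hX) fun c hc => (mm_mem hs u hc.1).1
    · exact I_le_of_le (NN_tilt_vS hX) (mass_tilt_le_one _ _) zero_le_one fun c hc =>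
        (mm_mem hs u (supp_tilt_vS hX c hc).1).2

theorem mmP_mem {s : S → ℝ} (hs : U01 s) (t : Tr j) {X : Ms (Nest (S → ℝ) j)}
    (hX : GoodM U01 X) : 0 ≤ mmP θ t X s ∧ mmP θ t X s ≤ 1 :=
  ⟨(supp_tilt_vS hX).I_nonneg (NN_tilt_vS hX) fun _ hc => (mm_mem hs t hc.1).1,
    I_le_of_le (NN_tilt_vS hX) (mass_tilt_le_one _ _) zero_le_one fun c hc =>
      (mm_mem hs t (supp_tilt_vS hX c hc).1).2⟩

end values

theorem I_treeP_zero (Q' : ℕ) (f : Tr 0 → ℝ) :
    I (treeP θ Q' 0) f = (f (Tr.tip true) + f (Tr.tip false)) / 2 := by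
  simp [treeP, I_avg]

theorem I_treeP_succ (Q' : ℕ) (f : Tr (j + 1) → ℝ) :
    I (treeP θ Q' (j + 1)) f = ∑ q ∈ Finset.range (Q' + 1),
      sib θ q * I (listPow (treeP θ Q' j) q) fun ts => f (Tr.node ts) := by
  simp [treeP, I_sum]

theorem th_mem {Q : ℕ} (hQ : 2 ≤ Q) : 1 / 2 ≤ th Q ∧ th Q < 1 := by
  have h : (2 : ℝ) ≤ Q := by exact_mod_cast hQ
  have h1 : 1 / (Q : ℝ) ≤ 1 / 2 := one_div_le_one_div_of_le (by norm_num) h
  have h2 : 0 < 1 / (Q : ℝ) := by positivity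
  constructor <;> simp only [th] <;> linarith

end Crest.Agent.R153
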