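import Crest.Agent.R153.Sib

/-!
Row 153, task R153-Rep: characters, the replica measures `mu`, `muP` and the representation of
the loss.
-/

set_option autoImplicit false

namespace Crest.Agent.R153

open Ms Nest Filter

variable {S L : Type} {j : ℕ} {θ : ℝ}

/-- Characters of labelled nests. -/
abbrev Ch (S : Type) (j : ℕ) : Type := Nest (Bool → S → ℝ) j →* ℝ

/-- Evaluation at a label and a configuration. -/
def evCh (b : Bool) (σ : S) : Ch S 0 where
  toFun w := unleaf w b σ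
  map_one' := rfl
  map_mul' _ _ := rfl

/-- Integration of a character. -/
noncomputable def liftCh (χ : Ch S j) : Ch S (j + 1) where
  toFun V := I (dn V) χ
  map_one' := by simp
  map_mul' V W := by rw [dn_mul]; exact I_mul_hom _ _ _ χ.map_mul

@[simp] theorem evCh_apply (b : Bool) (σ : S) (w : Nest (Bool → S → ℝ) 0) :
    evCh b σ w = unleaf w b σ := rfl

@[simp] theorem liftCh_apply (χ : Ch S j) (V : Nest (Bool → S → ℝ) (j + 1)) :
    liftCh χ V = I (dn V) χ := rfl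

/-- The replica measure on characters. -/
noncomputable def mu [Fintype S] (θ : ℝ) : {j : ℕ} → Tr j → Nest (S → ℝ) j → Ms (Ch S j)
  | 0, t, x => ∑ σ, (unleaf x σ / sumv (unleaf x)) • dirac (evCh t.lbl σ)
  | _ + 1, t, X =>
    (t.kids.map fun u => Ms.map liftCh (Ms.bind (tilt (dn X) (vS θ)) (mu θ u))).prod

noncomputable def muP [Fintype S] (θ : ℝ) (t : Tr j) (X : Ms (Nest (S → ℝ) j)) : Ms (Ch S j) :=
  Ms.bind (tilt X (vS θ)) (mu θ t)

/-- The scalar character of a tree. -/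
noncomputable def hat : {j : ℕ} → Tr j → Nest (Bool → ℝ) j → ℝ
  | 0, t, r => unleaf r t.lbl
  | _ + 1, t, ζ => (t.kids.map fun u => I (dn ζ) (hat u)).prod

def N0 (w : Bool → S → ℝ) : Prop := ∀ b σ, 0 ≤ w b σ
def N01 (w : Bool → S → ℝ) : Prop := ∀ b σ, 0 ≤ w b σ ∧ w b σ ≤ 1

/-- Properties of the characters in the support of `mu θ t X`. -/
structure Adm (t : Tr j) (χ : Ch S j) : Prop where
  nonneg : ∀ c, Good N0 c → 0 ≤ χ c
  le_one : ∀ c, Good N01 c → χ c ≤ 1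
  hat_eq : ∀ ζ : Nest (Bool → ℝ) j, χ (map (fun r b _ => r b) ζ) = hat t ζ

theorem N01.n0 {w : Bool → S → ℝ} (h : N01 w) : N0 w := fun b σ => (h b σ).1

theorem I_list_prod {M : Type} [Monoid M] (f : M → ℝ) (h1 : f 1 = 1)
    (hf : ∀ c d, f (c * d) = f c * f d) {α : Type} (κ : α → Ms M) :
    ∀ l : List α, I (l.map κ).prod f = (l.map fun a => I (κ a) f).prod
  | [] => by simp [h1]
  | a :: l => by
    simp only [List.map_cons, List.prod_cons, I_mul_hom _ _ _ hf, I_list_prod f h1 hf κ l]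

theorem prob_list_prod {M : Type} [Monoid M] {α : Type} (κ : α → Ms M) (h : ∀ a, (κ a).Prob) :
    ∀ l : List α, (l.map κ).prod.Prob
  | [] => prob_one
  | a :: l => by
    simp only [List.map_cons, List.prod_cons]
    exact (h a).mul (prob_list_prod κ h l)

section
variable [Fintype S]

theorem I_mu_zero (t : Tr 0) (x : Nest (S → ℝ) 0) (f : Ch S 0 → ℝ) :
    I (mu θ t x) f = ∑ σ, unleaf x σ / sumv (unleaf x) * f (evCh t.lbl σ) := by
  simp [mu, I_sum]

theorem mu_succ (t : Tr (j + 1)) (X : Nest (S → ℝ) (j + 1)) :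
    mu θ t X = (t.kids.map fun u => Ms.map liftCh (muP θ u (dn X))).prod := rfl

theorem I_muP (t : Tr j) (X : Ms (Nest (S → ℝ) j)) (f : Ch S j → ℝ) :
    I (muP θ t X) f = I (tilt X (vS θ)) fun c => I (mu θ t c) f := I_bind _ _ _

theorem I_mu_succ (t : Tr (j + 1)) (X : Nest (S → ℝ) (j + 1))
    (W : Nest (Bool → S → ℝ) (j + 1)) :
    I (mu θ t X) (fun χ => χ W) =
      (t.kids.map fun u => I (muP θ u (dn X)) fun χ => I (dn W) χ).prod := by
  rw [mu_succ, I_list_prod (fun χ : Ch S (j + 1) => χ W) rfl (fun _ _ => rfl)]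
  simp

theorem prob_mu (h0 : 0 < θ) : ∀ {j : ℕ} (t : Tr j) {X : Nest (S → ℝ) j}, Good U01 X →
    0 < vS θ X → (mu θ t X).Prob
  | 0, t, x, hx, hp => by
    have hp' : 0 < sumv (unleaf x) := hp
    refine ⟨NN_sum fun σ _ => (NN_dirac _).smul (div_nonneg (hx σ).1 hp'.le), ?_⟩
    rw [mass, I_mu_zero]
    simp only [mul_one, ← Finset.sum_div]
    exact div_self hp'.ne'
  | _ + 1, t, X, hX, hp => by
    rw [mu_succ]
    refine prob_list_prod _ (fun u => Prob.map ?_ _) _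
    exact (prob_tilt_vS hX (pS_pos_of_vS_pos h0 hX hp)).bind fun c hc =>
      prob_mu h0 u (supp_tilt_vS hX c hc).1 (supp_tilt_vS hX c hc).2

theorem prob_muP (h0 : 0 < θ) (t : Tr j) {X : Ms (Nest (S → ℝ) j)} (hX : GoodM U01 X)
    (hp : 0 < pS θ X) : (muP θ t X).Prob :=
  (prob_tilt_vS hX hp).bind fun c hc =>
    prob_mu h0 t (supp_tilt_vS hX c hc).1 (supp_tilt_vS hX c hc).2

omit [Fintype S] in
theorem adm_cons {u : Tr j} {ts : List (Tr j)} {χ : Ch S j} {χ' : Ch S (j + 1)} (h : Adm u χ)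
    (h' : Adm (Tr.node ts) χ') : Adm (Tr.node (u :: ts)) (liftCh χ * χ') := by
  have hn : ∀ c, Good N0 c → 0 ≤ liftCh χ c := fun c hc =>
    hc.2.I_nonneg hc.1.1 fun d hd => h.nonneg d hd
  refine ⟨fun c hc => mul_nonneg (hn c hc) (h'.nonneg c hc), fun c hc => ?_, fun ζ => ?_⟩
  · have hc' : Good N0 c := hc.mono fun _ => N01.n0
    exact mul_le_one₀ (hc.1.le_of_le fun d hd => h.le_one d (hc.2 d hd)) (h'.nonneg c hc')
      (h'.le_one c hc)
  · rw [MonoidHom.mul_apply, h'.hat_eq]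
    simp [hat, h.hat_eq]

theorem supp_mu : ∀ {j : ℕ} (t : Tr j) (X : Nest (S → ℝ) j), (mu θ t X).Supp (Adm t)
  | 0, t, x => supp_sum fun σ _ => (supp_dirac
      ⟨fun c hc => hc _ _, fun c hc => (hc _ _).2, fun _ => rfl⟩).smul _
  | j + 1, t, X => by
    rw [mu_succ, ← Tr.node_kids t, Tr.kids_node]
    induction t.kids with
    | nil => exact supp_one ⟨fun _ _ => zero_le_one, fun _ _ => le_rfl, fun _ => rfl⟩
    | cons u ts ih =>
      simp only [List.map_cons, List.prod_cons]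
      have h1 : (Ms.map liftCh (muP θ u (dn X))).Supp fun χ' => ∃ χ, Adm u χ ∧ χ' = liftCh χ :=
        ((supp_true _).bind fun c _ => supp_mu u c).map fun χ hχ => ⟨χ, hχ, rfl⟩
      refine h1.mul ih ?_
      rintro _ χ' ⟨χ, hχ, rfl⟩ h'
      exact adm_cons hχ h'

theorem supp_muP (t : Tr j) (X : Ms (Nest (S → ℝ) j)) : (muP θ t X).Supp (Adm t) :=
  (supp_true _).bind fun c _ => supp_mu t c

/-- Labelled version of a function on configurations. -/
def labf (s : S → ℝ) : Bool → S → ℝ := fun b => lab b s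

theorem I_mu_det (s : S → ℝ) : ∀ {j : ℕ} (t : Tr j) (X : Nest (S → ℝ) j),
    I (mu θ t X) (fun χ => χ (det (labf s) j)) = mm θ t X s
  | 0, t, x => by
    rw [I_mu_zero, mm_zero, Finset.sum_div]
    exact Finset.sum_congr rfl fun σ _ => by simp [labf]; ring
  | _ + 1, t, X => by
    rw [I_mu_succ, mm_succ]
    simp only [dn_det, I_dirac, I_muP, I_mu_det s, mmP]

theorem I_muP_det (s : S → ℝ) (t : Tr j) (X : Ms (Nest (S → ℝ) j)) :
    I (muP θ t X) (fun χ => χ (det (labf s) j)) = mmP θ t X s := by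
  simp only [I_muP, I_mu_det, mmP]

theorem hat_sNest (h0 : 0 < θ) (s : S → ℝ) : ∀ {j : ℕ} (t : Tr j) {X : Nest (S → ℝ) j},
    Good U01 X → 0 < vS θ X →
      hat t (map (fun (r : ℝ) (b : Bool) => if b then r else 1) (sNest θ s X)) = mm θ t X s
  | 0, t, x, _, hp => by
    have hp' : 0 < sumv (unleaf x) := hp
    rw [mm_zero]
    simp only [hat, sNest, unleaf_map, unleaf_leaf, lab]
    cases t.lbl
    · simp only [Bool.false_eq_true, if_false, mul_one]
      exact (div_self hp'.ne').symm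
    · simp
  | _ + 1, t, X, hX, _ => by
    rw [mm_succ]
    simp only [hat, sNest, dn_map, dn_up, I_mapM, I_map, mmP]
    congr 1
    refine List.map_congr_left fun u _ => ?_
    exact (supp_tilt_vS hX).I_congr fun c hc => hat_sNest h0 s u hc.1 hc.2

theorem good_sNest (h0 : 0 < θ) {s : S → ℝ} (hs : U01 s) : ∀ {j : ℕ} {X : Nest (S → ℝ) j},
    Good U01 X → 0 < vS θ X → Good R01 (sNest θ s X)
  | 0, x, hx, _ =>
    ⟨div_nonneg (Finset.sum_nonneg fun σ _ => mul_nonneg (hx σ).1 (hs σ).1) (sumv_nonneg _ hx),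
      div_le_one_of_le₀ (Finset.sum_le_sum fun σ _ => mul_le_of_le_one_right (hx σ).1 (hs σ).2)
        (sumv_nonneg _ hx)⟩
  | _ + 1, _, hX, hp =>
    ⟨(prob_tilt_vS hX (pS_pos_of_vS_pos h0 hX hp)).map _,
      (supp_tilt_vS hX).map fun _ hc => good_sNest h0 hs hc.1 hc.2⟩

end

theorem hat_det (z : ℝ) : ∀ {j : ℕ} (t : Tr j), hat t (det (fun _ => z) j) = z ^ t.size
  | 0, t => by simp [hat]
  | j + 1, t => by
    simp only [hat, dn_det, I_dirac, hat_det z, Tr.size_succ]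
    induction t.kids with
    | nil => simp
    | cons u ts ih => simp only [List.map_cons, List.prod_cons, List.sum_cons, ih, pow_add]

/-- The constant leaf. -/
def scal (z : ℝ) : Bool → S → ℝ := fun _ _ => z

theorem Adm.det_scal {t : Tr j} {χ : Ch S j} (h : Adm t χ) (z : ℝ) :
    χ (det (scal z) j) = z ^ t.size := by
  rw [← hat_det, ← h.hat_eq, map_det]; rfl

/-- Nonnegative leaves whose two components add up to at most `c`. -/
def PW (c : ℝ) (w : Bool → S → ℝ) : Prop := N0 w ∧ ∀ σ, w true σ + w false σ ≤ c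

/-- The multiplicative factor attached to a labelled leaf. -/
noncomputable def cl (w : Bool → S → ℝ) : S → ℝ := fun σ => 1 - (w true σ + w false σ) / 2

theorem PW.u01 {w : Bool → S → ℝ} (h : PW 2 w) : U01 (cl w) := fun σ => by
  have h1 := h.1 true σ
  have h2 := h.1 false σ
  have h3 := h.2 σ
  constructor <;> simp only [cl] <;> linarith

theorem PW.mul01 {c : ℝ} (w l : Bool → S → ℝ) (h : PW c w) (hl : N01 l) : PW c (w * l) := by
  refine ⟨fun b σ => mul_nonneg (h.1 b σ) (hl b σ).1, fun σ => le_trans ?_ (h.2 σ)⟩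
  exact add_le_add (mul_le_of_le_one_right (h.1 _ σ) (hl _ σ).2)
    (mul_le_of_le_one_right (h.1 _ σ) (hl _ σ).2)

/-- The truncation error. -/
noncomputable def errR (θ : ℝ) (Q' : ℕ) : ℕ → ℝ
  | 0 => 0
  | j + 1 => errR θ Q' j ^ θ + sibT θ Q'

theorem errR_nonneg (h1 : θ ≤ 1) (Q' : ℕ) : ∀ j, 0 ≤ errR θ Q' j
  | 0 => le_rfl
  | j + 1 => add_nonneg (Real.rpow_nonneg (errR_nonneg h1 Q' j) _) (sibT_nonneg h1 _)

theorem tendsto_errR (h0 : 0 < θ) (h1 : θ ≤ 1) :
    ∀ j, Tendsto (fun Q' => errR θ Q' j) atTop (nhds 0)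
  | 0 => tendsto_const_nhds
  | j + 1 => by
    have h2 := (tendsto_errR h0 h1 j).rpow_const (p := θ) (Or.inr h0.le)
    rw [Real.zero_rpow h0.ne'] at h2
    simpa [errR] using h2.add (tendsto_sibT h0 h1)

theorem exists_errR_le (h0 : 0 < θ) (h1 : θ ≤ 1) (j : ℕ) {η : ℝ} (hη : 0 < η) :
    ∃ Q', 1 ≤ Q' ∧ errR θ Q' j ≤ η :=
  ((eventually_ge_atTop 1).and ((tendsto_errR h0 h1 j).eventually (ge_mem_nhds hη))).exists

section
variable [Fintype S]

/-- The truncated replica expansion of the loss. -/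
noncomputable def G1 (θ : ℝ) (Q' : ℕ) (X : Nest (S → ℝ) j) (W : Nest (Bool → S → ℝ) j) : ℝ :=
  I (treeP θ Q' j) fun t => I (mu θ t X) fun χ => χ W

noncomputable def G1P (θ : ℝ) (Q' : ℕ) (X : Ms (Nest (S → ℝ) j))
    (W : Ms (Nest (Bool → S → ℝ) j)) : ℝ :=
  I (treeP θ Q' j) fun t => I (muP θ t X) fun χ => I W χ

theorem G1P_eq (Q' : ℕ) (X : Ms (Nest (S → ℝ) j)) (W : Ms (Nest (Bool → S → ℝ) j)) :
    G1P θ Q' X W = I (tilt X (vS θ)) fun c => I W fun d => G1 θ Q' c d := by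
  simp only [G1P, G1, I_muP]
  rw [I_comm]
  congr 1
  funext c
  rw [I_comm W]
  congr 1
  funext t
  exact I_comm _ _ fun (χ : Ch S j) d => χ d

theorem G1_succ (Q' : ℕ) (X : Nest (S → ℝ) (j + 1)) (W : Nest (Bool → S → ℝ) (j + 1)) :
    G1 θ Q' X W = ∑ q ∈ Finset.range (Q' + 1), sib θ q * G1P θ Q' (dn X) (dn W) ^ q := by
  rw [G1, I_treeP_succ]
  refine Finset.sum_congr rfl fun q _ => ?_
  simp only [I_mu_succ, Tr.kids_node]
  rw [I_listPow_prod]
  rfl

theorem repP_of {Q' : ℕ} (h0 : 0 < θ)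
    (ih : ∀ {X : Nest (S → ℝ) j} {W : Nest (Bool → S → ℝ) j}, Good U01 X → 0 < vS θ X →
      Good (PW 2) W → 0 ≤ G1 θ Q' X W ∧ G1 θ Q' X W ≤ GG θ X (map cl W) ∧
        GG θ X (map cl W) ≤ G1 θ Q' X W + errR θ Q' j)
    {X : Ms (Nest (S → ℝ) j)} {W : Ms (Nest (Bool → S → ℝ) j)} (hX : GoodM U01 X)
    (hp : 0 < pS θ X) (hW : GoodM (PW 2) W) :
    0 ≤ G1P θ Q' X W ∧ G1P θ Q' X W ≤ GP θ X (mapM cl W) ∧
      GP θ X (mapM cl W) ≤ G1P θ Q' X W + errR θ Q' j := by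
  have hT := prob_tilt_vS hX hp
  have hS := supp_tilt_vS (θ := θ) hX
  rw [G1P_eq, GP_eq h0.le hX (hW.mapM fun _ => PW.u01) hp]
  simp only [I_mapM]
  refine ⟨hS.I_nonneg hT.1 fun c hc => hW.2.I_nonneg hW.1.1 fun d hd => (ih hc.1 hc.2 hd).1,
    hS.I_mono hT.1 fun c hc => hW.2.I_mono hW.1.1 fun d hd => (ih hc.1 hc.2 hd).2.1, ?_⟩
  rw [← hT.I_const (errR θ Q' j), ← I_add_fun]
  refine hS.I_mono hT.1 fun c hc => ?_
  rw [← hW.1.I_const (errR θ Q' j), ← I_add_fun]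
  exact hW.2.I_mono hW.1.1 fun d hd => (ih hc.1 hc.2 hd).2.2

theorem rep (h0 : 0 < θ) (h1 : θ ≤ 1) (Q' : ℕ) : ∀ {j : ℕ} {X : Nest (S → ℝ) j}
    {W : Nest (Bool → S → ℝ) j}, Good U01 X → 0 < vS θ X → Good (PW 2) W →
      0 ≤ G1 θ Q' X W ∧ G1 θ Q' X W ≤ GG θ X (map cl W) ∧
        GG θ X (map cl W) ≤ G1 θ Q' X W + errR θ Q' j
  | 0, x, w, hx, hp, hw => by
    have hp' : 0 < sumv (unleaf x) := hp
    have he : G1 θ Q' x w = GG θ x (map cl w) := by
      rw [G1, I_treeP_zero, I_mu_zero, I_mu_zero, GG]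
      simp only [vS_zero, unleaf_mul, unleaf_map, evCh_apply, Tr.lbl_tip]
      rw [eq_sub_iff_add_eq, ← div_self hp'.ne']
      conv_rhs => rw [sumv]
      rw [show sumv (unleaf x * cl (unleaf w)) = ∑ σ, unleaf x σ * cl (unleaf w) σ from rfl,
        ← Finset.sum_add_distrib, Finset.sum_div, Finset.sum_div, Finset.sum_div,
        ← Finset.sum_add_distrib]
      refine Finset.sum_congr rfl fun σ _ => ?_
      simp only [cl, sumv]
      ring
    rw [he]
    exact ⟨(GG_mem h0.le hx (hw.map fun _ => PW.u01)).1, le_rfl, by simp [errR]⟩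
  | j + 1, X, W, hX, hp, hW => by
    have hW' : Good U01 (map cl W) := hW.map fun _ => PW.u01
    obtain ⟨ha0, hab, hba⟩ := repP_of h0 (rep h0 h1 Q') hX (pS_pos_of_vS_pos h0 hX hp) hW
    have hb1 := (GP_mem h0.le (X := dn X) hX (W := mapM cl (dn W)) hW').2
    rw [GG_succ hX hW', G1_succ, dn_map]
    set a := G1P θ Q' (dn X) (dn W)
    set b := GP θ (dn X) (mapM cl (dn W))
    obtain ⟨hr0, hr1⟩ := sib_remainder h0 h1 ha0 (hab.trans hb1) Q'
    have h2 : (1 - b) ^ θ ≤ (1 - a) ^ θ := Real.rpow_le_rpow (by linarith) (by linarith) h0.le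
    have h3 := abs_rpow_sub_rpow_le (a := 1 - a) (b := 1 - b) (by linarith) (by linarith) h0.le h1
    have h4 : |1 - a - (1 - b)| ^ θ ≤ errR θ Q' j ^ θ :=
      Real.rpow_le_rpow (abs_nonneg _) (by rw [abs_le]; constructor <;> linarith) h0.le
    rw [sum_sib_eq, sub_sub_cancel] at hr1
    have h5 : sibT θ Q' * a ^ (Q' + 1) ≤ sibT θ Q' :=
      mul_le_of_le_one_right (sibT_nonneg h1 _) (pow_le_one₀ ha0 (hab.trans hb1))
    have h6 := le_abs_self ((1 - a) ^ θ - (1 - b) ^ θ)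
    refine ⟨Finset.sum_nonneg fun q _ => mul_nonneg (sib_nonneg h0.le h1 q) (pow_nonneg ha0 q),
      by linarith, ?_⟩
    simp only [errR]
    linarith

theorem repP (h0 : 0 < θ) (h1 : θ ≤ 1) (Q' : ℕ)
    {X : Ms (Nest (S → ℝ) j)} {W : Ms (Nest (Bool → S → ℝ) j)} (hX : GoodM U01 X)
    (hp : 0 < pS θ X) (hW : GoodM (PW 2) W) :
    0 ≤ G1P θ Q' X W ∧ G1P θ Q' X W ≤ GP θ X (mapM cl W) ∧
      GP θ X (mapM cl W) ≤ G1P θ Q' X W + errR θ Q' j :=
  repP_of h0 (rep h0 h1 Q') hX hp hW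

/-- Hölder continuity of the loss in the leaves of the factor. -/
theorem GP_holder (h0 : 0 ≤ θ) (h1 : θ ≤ 1) {B : Type} {P : B → Prop} {f g : B → S → ℝ} {δ : ℝ}
    (hδ : 0 ≤ δ) (hf : ∀ b, P b → U01 (f b)) (hg : ∀ b, P b → U01 (g b))
    (hfg : ∀ b, P b → ∀ σ, |f b σ - g b σ| ≤ δ) {Y : Ms (Nest (S → ℝ) j)} {U : Ms (Nest B j)}
    (hY : GoodM U01 Y) (hp : 0 < pS θ Y) (hU : GoodM P U) :
    |GP θ Y (mapM f U) - GP θ Y (mapM g U)| ≤ δ ^ (θ ^ j) := by
  have key := pre_holder h0 h1 (u := fun p : (S → ℝ) × B => sumv (p.1 * g p.2))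
    (v := fun p : (S → ℝ) × B => sumv (p.1 * f p.2)) (w := fun p => sumv p.1) hδ
    (fun p hp => sumv_nonneg _ (hp.1.mul (hg _ hp.2)))
    (fun p hp => sumv_nonneg _ (hp.1.mul (hf _ hp.2)))
    (fun p hp => sumv_nonneg _ hp.1)
    (fun p hp => by
      simp only [sumv, ← Finset.sum_sub_distrib, Finset.mul_sum]
      refine (Finset.abs_sum_le_sum_abs _ _).trans (Finset.sum_le_sum fun σ _ => ?_)
      simp only [Pi.mul_apply, ← mul_sub, abs_mul, abs_of_nonneg (hp.1 σ).1]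
      rw [mul_comm δ, abs_sub_comm]
      exact mul_le_mul_of_nonneg_left (hfg _ hp.2 σ) (hp.1 σ).1) (hY.pair hU)
  rw [← pre_map2M_eq sumv (fun y b => y * g b), ← pre_map2M_eq sumv (fun y b => y * f b),
    ← pre_map2M_eq sumv (fun y (_ : B) => y), map2M_fst (fun y => y) Y hU, mapM_id,
    ← map2M_mapM_right (fun a b => a * b) g, ← map2M_mapM_right (fun a b => a * b) f,
    ← mul_eq_map2M, ← mul_eq_map2M] at key
  simp only [GP]
  rw [sub_sub_sub_cancel_left, ← sub_div, abs_div, abs_of_pos hp, div_le_iff₀ hp]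
  exact key

end

end Crest.Agent.R153
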